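import Crest.Agent.R155.Defs

set_option autoImplicit false

namespace Crest.Agent.R155

open Finset in
theorem al (h1 : StAL1) (h2 : StAL2) : StAL := by
  intro Sw B Loc _ _ _ A m s hm hs
  set t : (Sw → Bool) → ℕ := fun ω => (cycs (A.tau ω) m).card with ht
  set J : (Sw → Bool) → ℕ := fun ω => (t ω + 3) / 4 with hJ
  set S : ℕ → (Sw → Bool) → ℝ := fun j ω =>
    ∑ F ∈ (cycs (A.tau ω) m).powersetCard j, (2 : ℝ) ^ (A.clean ω F).card with hS
  have hSsum : ∀ j, ∑ ω : Sw → Bool, S j ω ≤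
      (2 : ℝ) ^ (Fintype.card Sw) * ((Fintype.card B).choose j : ℝ) * (m : ℝ) ^ j := by
    intro j
    have := h1 Sw B Loc A m j
    convert this
  have hSnn : ∀ j ω, 0 ≤ S j ω := fun j ω => sum_nonneg fun F _ => by positivity
  have hmR : (0 : ℝ) < m := by exact_mod_cast (by omega : 0 < m)
  set X : ℝ := (2 : ℝ) ^ (3 * (A.g : ℝ) / 4) / m with hX
  have hXpos : 0 < X := div_pos (Real.rpow_pos_of_pos (by norm_num) _) hmR
  set Y : ℝ := (2 : ℝ) ^ (4 * s) * X⁻¹ with hY
  have hYpos : 0 < Y := mul_pos (Real.rpow_pos_of_pos (by norm_num) _) (inv_pos.mpr hXpos)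
  -- pointwise bound
  have hpt : ∀ ω, (2 : ℝ) ^ (s * (t ω : ℝ)) ≤ Y ^ (J ω) * S (J ω) ω := by
    intro ω
    have hXS : X ^ (J ω) ≤ S (J ω) ω := by
      rcases Nat.eq_zero_or_pos (t ω) with h0 | h0
      · have hJ0 : J ω = 0 := by simp only [hJ, h0]
        rw [hJ0, pow_zero]
        simp only [hS, powersetCard_zero, sum_singleton]
        exact one_le_pow₀ (by norm_num)
      · have hJ1 : 1 ≤ J ω := by simp only [hJ]; omega
        have hJ2 : 4 * (J ω - 1) ≤ t ω - 1 := by simp only [hJ]; omega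
        have hJ3 : J ω ≤ t ω := by simp only [hJ]; omega
        have := h2 Sw B Loc A m (J ω) ω hm hJ1 hJ2 h0
        refine le_trans ?_ this
        have hch : (1 : ℝ) ≤ (((cycs (A.tau ω) m).card.choose (J ω) : ℕ) : ℝ) := by
          exact_mod_cast Nat.choose_pos hJ3
        calc X ^ (J ω) = 1 * X ^ (J ω) := (one_mul _).symm
          _ ≤ _ := mul_le_mul_of_nonneg_right hch (pow_nonneg hXpos.le _)
    have ht4 : t ω ≤ 4 * J ω := by simp only [hJ]; omega
    have h2t : (2 : ℝ) ^ (s * (t ω : ℝ)) ≤ ((2 : ℝ) ^ (4 * s)) ^ (J ω) := by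
      rw [← Real.rpow_natCast, ← Real.rpow_mul (by norm_num)]
      apply Real.rpow_le_rpow_of_exponent_le (by norm_num)
      have : (t ω : ℝ) ≤ 4 * (J ω : ℝ) := by exact_mod_cast ht4
      nlinarith
    have hYJ : Y ^ (J ω) * X ^ (J ω) = ((2 : ℝ) ^ (4 * s)) ^ (J ω) := by
      rw [← mul_pow, hY, mul_assoc, inv_mul_cancel₀ hXpos.ne', mul_one]
    calc (2 : ℝ) ^ (s * (t ω : ℝ)) ≤ ((2 : ℝ) ^ (4 * s)) ^ (J ω) := h2t
      _ = Y ^ (J ω) * X ^ (J ω) := hYJ.symm
      _ ≤ _ := mul_le_mul_of_nonneg_left hXS (pow_nonneg hYpos.le _)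
  -- sum
  set M : ℕ := univ.sup J with hM
  have hJM : ∀ ω, J ω ∈ range (M + 1) := fun ω =>
    mem_range.mpr (Nat.lt_succ_of_le (le_sup (mem_univ ω)))
  have hsum : ∑ ω : Sw → Bool, (2 : ℝ) ^ (s * (t ω : ℝ)) ≤
      (2 : ℝ) ^ (Fintype.card Sw) * Real.exp (Y * m * (Fintype.card B : ℝ)) := by
    calc ∑ ω : Sw → Bool, (2 : ℝ) ^ (s * (t ω : ℝ))
        ≤ ∑ ω : Sw → Bool, ∑ j ∈ range (M + 1), Y ^ j * S j ω := by
          apply sum_le_sum
          intro ω _
          refine (hpt ω).trans ?_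
          exact single_le_sum (f := fun j => Y ^ j * S j ω)
            (fun j _ => mul_nonneg (pow_nonneg hYpos.le _) (hSnn j ω)) (hJM ω)
      _ = ∑ j ∈ range (M + 1), Y ^ j * ∑ ω : Sw → Bool, S j ω := by
          rw [sum_comm]
          apply sum_congr rfl
          intro j _
          rw [mul_sum]
      _ ≤ ∑ j ∈ range (M + 1), Y ^ j *
            ((2 : ℝ) ^ (Fintype.card Sw) * ((Fintype.card B).choose j : ℝ) * (m : ℝ) ^ j) := by
          apply sum_le_sum
          intro j _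
          exact mul_le_mul_of_nonneg_left (hSsum j) (pow_nonneg hYpos.le _)
      _ ≤ ∑ j ∈ range (M + 1), (2 : ℝ) ^ (Fintype.card Sw) *
            ((Y * m * (Fintype.card B : ℝ)) ^ j / (j.factorial : ℝ)) := by
          apply sum_le_sum
          intro j _
          have hc : ((Fintype.card B).choose j : ℝ) ≤ (Fintype.card B : ℝ) ^ j / (j.factorial : ℝ) :=
            Nat.choose_le_pow_div j _
          calc Y ^ j * ((2 : ℝ) ^ (Fintype.card Sw) * ((Fintype.card B).choose j : ℝ) * (m : ℝ) ^ j)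
              = (2 : ℝ) ^ (Fintype.card Sw) * (Y ^ j * (m : ℝ) ^ j) *
                ((Fintype.card B).choose j : ℝ) := by ring
            _ ≤ (2 : ℝ) ^ (Fintype.card Sw) * (Y ^ j * (m : ℝ) ^ j) *
                ((Fintype.card B : ℝ) ^ j / (j.factorial : ℝ)) :=
                mul_le_mul_of_nonneg_left hc (by positivity)
            _ = _ := by rw [mul_pow, mul_pow]; ring
      _ = (2 : ℝ) ^ (Fintype.card Sw) * ∑ j ∈ range (M + 1),
            ((Y * m * (Fintype.card B : ℝ)) ^ j / (j.factorial : ℝ)) := by rw [mul_sum]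
      _ ≤ _ := mul_le_mul_of_nonneg_left (Real.sum_le_exp_of_nonneg (by positivity) _)
            (by positivity)
  have hcard : (Fintype.card (Sw → Bool) : ℝ) = (2 : ℝ) ^ (Fintype.card Sw) := by
    rw [Fintype.card_fun, Fintype.card_bool]; push_cast; rfl
  have hfin : Y * m * (Fintype.card B : ℝ) ≤ (16 / 3) * (Fintype.card B : ℝ) * (m : ℝ) ^ 2
          * (2 : ℝ) ^ (4 * s - 3 * (A.g : ℝ) / 4) := by
    have hYm : Y * m = (m : ℝ) ^ 2 * (2 : ℝ) ^ (4 * s - 3 * (A.g : ℝ) / 4) := by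
      rw [hY, hX, inv_div, Real.rpow_sub (by norm_num)]
      ring
    rw [hYm]
    have hp : 0 ≤ (m : ℝ) ^ 2 * (2 : ℝ) ^ (4 * s - 3 * (A.g : ℝ) / 4) * (Fintype.card B : ℝ) := by
      positivity
    nlinarith [hp]
  unfold av
  rw [hcard, div_le_iff₀ (by positivity)]
  refine hsum.trans ?_
  rw [mul_comm]
  exact mul_le_mul_of_nonneg_right (Real.exp_le_exp.mpr hfin) (by positivity)

end Crest.Agent.R155
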