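import Crest.Agent.R155.Defs

set_option autoImplicit false

namespace Crest.Agent.R155
namespace AL1aux

open Finset

theorem iter_mem {B : Type} {τ : B → Option B} {C : Finset B}
    (hC : ∀ b ∈ C, ∃ b' ∈ C, τ b = some b') {b : B} (hb : b ∈ C) (i : ℕ) :
    ∃ c ∈ C, (fun o : Option B => o.bind τ)^[i] (some b) = some c := by
  induction i with
  | zero => exact ⟨b, hb, rfl⟩
  | succ i ih =>
    obtain ⟨c, hc, h⟩ := ih
    obtain ⟨c', hc', h'⟩ := hC c hc
    refine ⟨c', hc', ?_⟩
    rw [Function.iterate_succ_apply', h]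
    simpa using h'

theorem cyc_disj {B : Type} {τ : B → Option B} {C C' : Finset B} (h : IsCyc τ C)
    (h' : IsCyc τ C') {b : B} (hb : b ∈ C) (hb' : b ∈ C') : C = C' := by
  have key : ∀ {C C' : Finset B}, IsCyc τ C → IsCyc τ C' → b ∈ C → b ∈ C' → C ⊆ C' := by
    intro C C' h h' hb hb' c hc
    obtain ⟨i, hi⟩ := h.2.2 b hb c hc
    obtain ⟨c', hc', h2⟩ := iter_mem h'.2.1 hb' i
    rw [hi] at h2
    exact (Option.some.inj h2) ▸ hc'
  exact Subset.antisymm (key h h' hb hb') (key h' h hb' hb)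

theorem cyc_seq {B : Type} {τ : B → Option B}
    (hinj : ∀ b b' c, τ b = some c → τ b' = some c → b = b') {C : Finset B} (h : IsCyc τ C)
    {p : B} (hp : p ∈ C) : ∃ u : ℕ → B, u 0 = p ∧ (∀ k, u k ∈ C) ∧
      (∀ k, τ (u k) = some (u (k + 1))) ∧
      u C.card = p ∧ (∀ k, 0 < k → k < C.card → u k ≠ p) ∧ (∀ b ∈ C, ∃ k < C.card, u k = b) := by
  classical
  choose g hg1 hg2 using h.2.1
  let f0 : {b // b ∈ C} → {b // b ∈ C} := fun b => ⟨g b.1 b.2, hg1 b.1 b.2⟩
  have f0inj : Function.Injective f0 := by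
    intro a b hab
    have h1 : g a.1 a.2 = g b.1 b.2 := congrArg Subtype.val hab
    apply Subtype.ext
    have h2 := hg2 b.1 b.2
    rw [← h1] at h2
    exact hinj _ _ _ (hg2 a.1 a.2) h2
  let f : Equiv.Perm {b // b ∈ C} := Equiv.ofBijective f0 (Finite.injective_iff_bijective.mp f0inj)
  have hf : ∀ b : {b // b ∈ C}, τ b.1 = some (f b).1 := fun b => hg2 b.1 b.2
  have hiter : ∀ (i : ℕ) (b : {b // b ∈ C}),
      (fun o : Option B => o.bind τ)^[i] (some b.1) = some ((f ^ i) b).1 := by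
    intro i b
    induction i with
    | zero => rfl
    | succ i ih =>
      rw [Function.iterate_succ_apply', ih, pow_succ']
      simpa using hf ((f ^ i) b)
  have hcyc : f.IsCycleOn ((univ : Finset {b // b ∈ C}) : Set {b // b ∈ C}) := by
    refine ⟨by simpa using f.bijective.bijOn_univ, ?_⟩
    intro a _ b _
    obtain ⟨i, hi⟩ := h.2.2 a.1 a.2 b.1 b.2
    rw [hiter] at hi
    exact ⟨(i : ℤ), by
      rw [zpow_natCast]
      exact Subtype.ext (Option.some.inj hi)⟩
  have hcard : (univ : Finset {b // b ∈ C}).card = C.card := by simp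
  refine ⟨fun k => ((f ^ k) ⟨p, hp⟩).1, rfl, fun k => ((f ^ k) ⟨p, hp⟩).2, ?_, ?_, ?_, ?_⟩
  · intro k
    have := hf ((f ^ k) ⟨p, hp⟩)
    rw [this]
    change some (f ((f ^ k) ⟨p, hp⟩)).1 = some ((f ^ (k + 1)) ⟨p, hp⟩).1
    rw [pow_succ']
    rfl
  · have := hcyc.pow_card_apply (mem_univ ⟨p, hp⟩)
    rw [hcard] at this
    exact congrArg Subtype.val this
  · intro k hk0 hk hkp
    have h1 : (f ^ k) ⟨p, hp⟩ = ⟨p, hp⟩ := Subtype.ext hkp
    have h2 := (hcyc.pow_apply_eq (mem_univ _)).mp h1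
    rw [hcard] at h2
    exact absurd (Nat.le_of_dvd hk0 h2) (by omega)
  · intro b hb
    obtain ⟨k, hk, hk2⟩ := hcyc.exists_pow_eq (mem_univ ⟨p, hp⟩) (mem_univ ⟨b, hb⟩)
    rw [hcard] at hk
    exact ⟨k, hk, congrArg Subtype.val hk2⟩

section
variable {Sw B Loc : Type} [Fintype Sw] [Fintype B] (A : ALData Sw B Loc)

theorem tau_inj (ω : Sw → Bool) : ∀ b b' c, A.tau ω b = some c → A.tau ω b' = some c → b = b' := by
  intro b b' c h h'
  exact A.outinj ω b b' (A.inj _ _ c h h')

open Classical in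
theorem cl_spec (ω : Sw → Bool) (C : Finset B) (hC : C.Nonempty) : ∃ p ∈ C, A.cl ω C = some p ∧
    (((A.path p (A.out ω p)).filter fun σ => ∃ b ∈ C, b ≠ p ∧ σ ∈ A.path b (A.out ω b)).card : ℝ)
      ≤ Real.logb 2 C.card := by
  refine ⟨Classical.choose (A.iso ω C hC), (Classical.choose_spec (A.iso ω C hC)).1, ?_,
    (Classical.choose_spec (A.iso ω C hC)).2⟩
  simp [ALData.cl, hC]

theorem cl_mem (ω : Sw → Bool) (C : Finset B) (p : B) (h : A.cl ω C = some p) : p ∈ C := by
  classical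
  by_cases hC : C.Nonempty
  · obtain ⟨p', hp', h', _⟩ := cl_spec A ω C hC
    rw [h'] at h
    exact (Option.some.inj h) ▸ hp'
  · simp [ALData.cl, hC] at h

open Classical in
/-- size of the cycle closed by `b`. -/
noncomputable def ell (ω : Sw → Bool) (F : Finset (Finset B)) (b : B) : ℕ :=
  ∑ C ∈ F.filter (fun C => A.cl ω C = some b), C.card

open Classical in
theorem ell_eq {ω : Sw → Bool} {F : Finset (Finset B)} {m : ℕ}
    (hF : F ⊆ cycs (A.tau ω) m) {C : Finset B} (hC : C ∈ F) {p : B} (hp : A.cl ω C = some p) :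
    ell A ω F p = C.card := by
  have h1 : F.filter (fun C => A.cl ω C = some p) = {C} := by
    ext C'
    simp only [mem_filter, mem_singleton]
    constructor
    · rintro ⟨h1, h2⟩
      have c1 : IsCyc (A.tau ω) C' := (mem_filter.mp (hF h1)).2.1
      have c2 : IsCyc (A.tau ω) C := (mem_filter.mp (hF hC)).2.1
      exact cyc_disj c1 c2 (cl_mem A ω C' p h2) (cl_mem A ω C p hp)
    · rintro rfl
      exact ⟨hC, hp⟩
  rw [ell, h1, sum_singleton]

open Classical in
theorem ell_pos {ω : Sw → Bool} {F : Finset (Finset B)} {m : ℕ}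
    (hF : F ⊆ cycs (A.tau ω) m) {p : B} (hp : ell A ω F p ≠ 0) :
    ∃ C ∈ F, A.cl ω C = some p ∧ C.card = ell A ω F p := by
  by_contra hcon
  push Not at hcon
  apply hp
  unfold ell
  apply sum_eq_zero
  intro C hC
  rw [mem_filter] at hC
  exact absurd (ell_eq A hF hC.1 hC.2).symm (hcon C hC.1 hC.2)

open Classical in
/-- the modified coins. -/
noncomputable def flip (ω : Sw → Bool) (η : Finset Sw) : Sw → Bool :=
  fun σ => xor (ω σ) (decide (σ ∈ η))

open Classical in
theorem flip_out {ω : Sw → Bool} {F : Finset (Finset B)} {m : ℕ}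
    (hF : F ⊆ cycs (A.tau ω) m) {η : Finset Sw} (hη : η ⊆ A.clean ω F) {C : Finset B} (hC : C ∈ F)
    {b : B} (hb : b ∈ C) (hbc : A.cl ω C ≠ some b) : A.out (flip ω η) b = A.out ω b := by
  apply A.n1
  intro σ hσ
  have : σ ∉ η := by
    intro h
    have h2 := hη h
    simp only [ALData.clean, mem_filter, mem_univ, true_and] at h2
    obtain ⟨C', hC', p, hp, hσp, hcl⟩ := h2
    have hbp : b ≠ p := by
      rintro rfl
      have c1 : IsCyc (A.tau ω) C' := (mem_filter.mp (hF hC')).2.1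
      have c2 : IsCyc (A.tau ω) C := (mem_filter.mp (hF hC)).2.1
      have := cyc_disj c1 c2 (cl_mem A ω C' b hp) hb
      rw [← this] at hbc
      exact hbc hp
    exact hcl C hC b hb hbp hσ
  simp [flip, this]

open Classical in
/-- the two cycles closed by `p` coincide, together with the location of `p`. -/
theorem same_cycle {ω₁ ω₂ : Sw → Bool} {F₁ F₂ : Finset (Finset B)} {m : ℕ}
    (hF₁ : F₁ ⊆ cycs (A.tau ω₁) m) (hF₂ : F₂ ⊆ cycs (A.tau ω₂) m) {η₁ η₂ : Finset Sw}
    (hη₁ : η₁ ⊆ A.clean ω₁ F₁) (hη₂ : η₂ ⊆ A.clean ω₂ F₂) (hflip : flip ω₁ η₁ = flip ω₂ η₂)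
    {C₁ C₂ : Finset B} (hC₁ : C₁ ∈ F₁) (hC₂ : C₂ ∈ F₂) {p : B} (hp₁ : A.cl ω₁ C₁ = some p)
    (hp₂ : A.cl ω₂ C₂ = some p) (hcard : C₁.card = C₂.card) :
    C₁ = C₂ ∧ A.out ω₁ p = A.out ω₂ p := by
  have c1 : IsCyc (A.tau ω₁) C₁ := (mem_filter.mp (hF₁ hC₁)).2.1
  have c2 : IsCyc (A.tau ω₂) C₂ := (mem_filter.mp (hF₂ hC₂)).2.1
  obtain ⟨u, hu0, huC, huτ, huL, hune, huex⟩ := cyc_seq (tau_inj A ω₁) c1 (cl_mem A ω₁ C₁ p hp₁)
  obtain ⟨v, hv0, hvC, hvτ, hvL, hvne, hvex⟩ := cyc_seq (tau_inj A ω₂) c2 (cl_mem A ω₂ C₂ p hp₂)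
  set L := C₁.card with hL
  rw [← hcard] at hvL hvne hvex
  have hLpos : 0 < L := card_pos.mpr c1.1
  -- backward induction
  have hback : ∀ i, i < L → u (L - i) = v (L - i) := by
    intro i
    induction i with
    | zero => intro _; simp [huL, hvL]
    | succ i ih =>
      intro hi
      have ih' := ih (by omega)
      set k := L - (i + 1) with hk
      have hk1 : L - i = k + 1 := by omega
      rw [hk1] at ih'
      have hk0 : 0 < k := by omega
      have hkL : k < L := by omega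
      have e1 : A.out (flip ω₁ η₁) (u k) = A.out ω₁ (u k) := by
        apply flip_out A hF₁ hη₁ hC₁ (huC k)
        rw [hp₁]
        intro h
        exact hune k hk0 hkL (Option.some.inj h).symm
      have e2 : A.out (flip ω₂ η₂) (v k) = A.out ω₂ (v k) := by
        apply flip_out A hF₂ hη₂ hC₂ (hvC k)
        rw [hp₂]
        intro h
        exact hvne k hk0 hkL (Option.some.inj h).symm
      have r1 : A.rho (A.out (flip ω₁ η₁) (u k)) = some (u (k + 1)) := by
        rw [e1]; exact huτ k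
      have r2 : A.rho (A.out (flip ω₁ η₁) (v k)) = some (u (k + 1)) := by
        rw [hflip, e2, ih']; exact hvτ k
      exact A.outinj _ _ _ (A.inj _ _ _ r1 r2)
  have hall : ∀ k, 0 < k → k ≤ L → u k = v k := by
    intro k hk0 hk
    have := hback (L - k) (by omega)
    rwa [show L - (L - k) = k by omega] at this
  constructor
  · have huv : ∀ k, k < L → u k = v k := by
      intro k hk
      rcases Nat.eq_zero_or_pos k with h0 | h0
      · rw [h0, hu0, hv0]
      · exact hall k h0 hk.le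
    ext b
    constructor
    · intro hb
      obtain ⟨k, hk, rfl⟩ := huex b hb
      rw [huv k hk]; exact hvC k
    · intro hb
      obtain ⟨k, hk, rfl⟩ := hvex b hb
      rw [← huv k hk]; exact huC k
  · have h1 : A.rho (A.out ω₁ p) = some (u 1) := by
      have := huτ 0
      rwa [hu0] at this
    have h2 : A.rho (A.out ω₂ p) = some (v 1) := by
      have := hvτ 0
      rwa [hv0] at this
    rw [← hall 1 (by omega) (by omega)] at h2
    exact A.inj _ _ _ h1 h2

open Classical in
theorem main_inj {ω₁ ω₂ : Sw → Bool} {F₁ F₂ : Finset (Finset B)} {m : ℕ}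
    (hF₁ : F₁ ⊆ cycs (A.tau ω₁) m) (hF₂ : F₂ ⊆ cycs (A.tau ω₂) m) {η₁ η₂ : Finset Sw}
    (hη₁ : η₁ ⊆ A.clean ω₁ F₁) (hη₂ : η₂ ⊆ A.clean ω₂ F₂) (hflip : flip ω₁ η₁ = flip ω₂ η₂)
    (hell : ell A ω₁ F₁ = ell A ω₂ F₂) : ω₁ = ω₂ ∧ F₁ = F₂ ∧ η₁ = η₂ := by
  -- matching cycles
  have hm12 : ∀ C ∈ F₁, ∀ p, A.cl ω₁ C = some p →
      C ∈ F₂ ∧ A.cl ω₂ C = some p ∧ A.out ω₁ p = A.out ω₂ p := by
    intro C hC p hp
    have c1 : IsCyc (A.tau ω₁) C := (mem_filter.mp (hF₁ hC)).2.1
    have h1 := ell_eq A hF₁ hC hp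
    have h2 : ell A ω₂ F₂ p ≠ 0 := by
      rw [← hell, h1]; exact (card_pos.mpr c1.1).ne'
    obtain ⟨C', hC', hp', hcard'⟩ := ell_pos A hF₂ h2
    obtain ⟨e1, e2⟩ := same_cycle A hF₁ hF₂ hη₁ hη₂ hflip hC hC' hp hp'
      (by rw [hcard', ← hell, h1])
    rw [← e1] at hC' hp'
    exact ⟨hC', hp', e2⟩
  have hm21 : ∀ C ∈ F₂, ∀ p, A.cl ω₂ C = some p →
      C ∈ F₁ ∧ A.cl ω₁ C = some p ∧ A.out ω₁ p = A.out ω₂ p := by
    intro C hC p hp
    have c2 : IsCyc (A.tau ω₂) C := (mem_filter.mp (hF₂ hC)).2.1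
    have h1 := ell_eq A hF₂ hC hp
    have h2 : ell A ω₁ F₁ p ≠ 0 := by
      rw [hell, h1]; exact (card_pos.mpr c2.1).ne'
    obtain ⟨C', hC', hp', hcard'⟩ := ell_pos A hF₁ h2
    obtain ⟨e1, e2⟩ := same_cycle A hF₁ hF₂ hη₁ hη₂ hflip hC' hC hp' hp
      (by rw [hcard', hell, h1])
    rw [e1] at hC' hp'
    exact ⟨hC', hp', e2⟩
  have hω : ω₁ = ω₂ := by
    funext σ
    by_cases h1 : σ ∈ η₁
    · have h2 := hη₁ h1
      simp only [ALData.clean, mem_filter, mem_univ, true_and] at h2
      obtain ⟨C, hC, p, hp, hσ, _⟩ := h2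
      exact A.n2 ω₁ ω₂ p (hm12 C hC p hp).2.2 σ hσ
    · by_cases h2 : σ ∈ η₂
      · have h3 := hη₂ h2
        simp only [ALData.clean, mem_filter, mem_univ, true_and] at h3
        obtain ⟨C, hC, p, hp, hσ, _⟩ := h3
        exact (A.n2 ω₂ ω₁ p (hm21 C hC p hp).2.2.symm σ hσ).symm
      · have := congrFun hflip σ
        simpa [flip, h1, h2] using this
  refine ⟨hω, ?_, ?_⟩
  · ext C
    constructor
    · intro hC
      have c1 : IsCyc (A.tau ω₁) C := (mem_filter.mp (hF₁ hC)).2.1
      obtain ⟨p, _, hp, _⟩ := cl_spec A ω₁ C c1.1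
      exact (hm12 C hC p hp).1
    · intro hC
      have c1 : IsCyc (A.tau ω₂) C := (mem_filter.mp (hF₂ hC)).2.1
      obtain ⟨p, _, hp, _⟩ := cl_spec A ω₂ C c1.1
      exact (hm21 C hC p hp).1
  · ext σ
    have h := congrFun hflip σ
    rw [hω] at h
    simp only [flip] at h
    have h2 := Bool.xor_right_inj.mp h
    simpa using h2

end

end AL1aux

open Finset AL1aux in
theorem al1 : StAL1 := by
  classical
  intro Sw B Loc _ _ A m j
  -- the source
  set S : Finset (Σ _ : (Sw → Bool), Σ _ : Finset (Finset B), Finset Sw) :=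
    (univ : Finset (Sw → Bool)).sigma fun ω =>
      ((cycs (A.tau ω) m).powersetCard j).sigma fun F => (A.clean ω F).powerset with hS
  set T : Finset ((Sw → Bool) × (B → ℕ)) := (univ : Finset (Sw → Bool)) ×ˢ
    ((univ : Finset B).powersetCard j).biUnion fun P =>
      Fintype.piFinset fun b => if b ∈ P then Icc 1 m else {0} with hT
  have hScard : ∑ ω : Sw → Bool, ∑ F ∈ (cycs (A.tau ω) m).powersetCard j,
      (2 : ℝ) ^ (A.clean ω F).card = (S.card : ℝ) := by
    rw [hS, card_sigma]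
    push_cast
    refine sum_congr rfl fun ω _ => ?_
    rw [card_sigma]
    push_cast
    refine sum_congr rfl fun F _ => ?_
    rw [card_powerset]
    push_cast
    rfl
  have hTcard : (T.card : ℝ) ≤
      (2 : ℝ) ^ (Fintype.card Sw) * ((Fintype.card B).choose j : ℝ) * (m : ℝ) ^ j := by
    have h1 : T.card ≤ 2 ^ (Fintype.card Sw) * ((Fintype.card B).choose j * m ^ j) := by
      rw [hT, card_product]
      apply Nat.mul_le_mul
      · simp
      · refine card_biUnion_le.trans ?_
        have : ∀ P ∈ (univ : Finset B).powersetCard j,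
            (Fintype.piFinset fun b => if b ∈ P then Icc 1 m else ({0} : Finset ℕ)).card = m ^ j := by
          intro P hP
          rw [Fintype.card_piFinset]
          have : ∀ b : B, (if b ∈ P then Icc 1 m else ({0} : Finset ℕ)).card
              = if b ∈ P then m else 1 := by
            intro b
            split_ifs <;> simp
          rw [prod_congr rfl fun b _ => this b, prod_ite_mem, univ_inter, prod_const,
            (mem_powersetCard.mp hP).2]
        rw [sum_congr rfl this, sum_const, card_powersetCard, card_univ]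
        simp
    calc (T.card : ℝ) ≤ ((2 ^ (Fintype.card Sw) * ((Fintype.card B).choose j * m ^ j) : ℕ) : ℝ) := by
          exact_mod_cast h1
      _ = _ := by push_cast; ring
  have hle : S.card ≤ T.card := by
    apply card_le_card_of_injOn
      (fun x => (AL1aux.flip x.1 x.2.2, ell A x.1 x.2.1))
    · rintro ⟨ω, F, η⟩ hx
      simp only [hS, mem_coe, mem_sigma, mem_univ, true_and, mem_powersetCard, mem_powerset] at hx
      obtain ⟨⟨hF, hFj⟩, hη⟩ := hx
      simp only [hT, mem_coe, mem_product, mem_univ, true_and, mem_biUnion, mem_powersetCard,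
        subset_univ, Fintype.mem_piFinset]
      -- closing cards
      have hcl : ∀ C ∈ F, ∃ p, A.cl ω C = some p := by
        intro C hC
        have c1 : IsCyc (A.tau ω) C := (mem_filter.mp (hF hC)).2.1
        obtain ⟨p, _, hp, _⟩ := cl_spec A ω C c1.1
        exact ⟨p, hp⟩
      refine ⟨univ.filter (fun b => ell A ω F b ≠ 0), ?_, ?_⟩
      · rw [← hFj]
        symm
        -- bijection between F and closing cards
        apply card_bij (fun C hC => Classical.choose (hcl C hC))
        · intro C hC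
          have hp := Classical.choose_spec (hcl C hC)
          have c1 : IsCyc (A.tau ω) C := (mem_filter.mp (hF hC)).2.1
          rw [mem_filter]
          refine ⟨mem_univ _, ?_⟩
          rw [ell_eq A hF hC hp]
          exact (card_pos.mpr c1.1).ne'
        · intro C hC C' hC' h
          have hp := Classical.choose_spec (hcl C hC)
          have hp' := Classical.choose_spec (hcl C' hC')
          have c1 : IsCyc (A.tau ω) C := (mem_filter.mp (hF hC)).2.1
          have c2 : IsCyc (A.tau ω) C' := (mem_filter.mp (hF hC')).2.1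
          have m1 := cl_mem A ω C _ hp
          have m2 := cl_mem A ω C' _ hp'
          rw [← h] at m2
          exact cyc_disj c1 c2 m1 m2
        · intro b hb
          rw [mem_filter] at hb
          obtain ⟨C, hC, hp, _⟩ := ell_pos A hF hb.2
          refine ⟨C, hC, ?_⟩
          have hp' := Classical.choose_spec (hcl C hC)
          exact Option.some.inj (hp'.symm.trans hp)
      · intro b
        simp only [mem_filter, mem_univ, true_and]
        split_ifs with h
        · obtain ⟨C, hC, hp, hc⟩ := ell_pos A hF h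
          have c1 := (mem_filter.mp (hF hC)).2
          rw [mem_Icc]
          exact ⟨Nat.pos_of_ne_zero h, hc ▸ c1.2⟩
        · rw [mem_singleton]
          push Not at h
          exact h
    · rintro ⟨ω₁, F₁, η₁⟩ hx₁ ⟨ω₂, F₂, η₂⟩ hx₂ heq
      simp only [hS, mem_coe, mem_sigma, mem_univ, true_and, mem_powersetCard, mem_powerset]
        at hx₁ hx₂
      simp only [Prod.mk.injEq] at heq
      obtain ⟨e1, e2, e3⟩ := main_inj A hx₁.1.1 hx₂.1.1 hx₁.2 hx₂.2 heq.1 heq.2
      subst e1 e2 e3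
      rfl
  calc _ = (S.card : ℝ) := hScard
    _ ≤ (T.card : ℝ) := by exact_mod_cast hle
    _ ≤ _ := hTcard

end Crest.Agent.R155
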