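import Crest.Agent.R155.AL1

set_option autoImplicit false

namespace Crest.Agent.R155

open Finset AL1aux in
theorem al2 : StAL2 := by
  classical
  intro Sw B Loc _ _ A m j ω hm hj h4 ht
  set T := cycs (A.tau ω) m with hT
  set t := T.card with htdef
  have hcyc : ∀ C ∈ T, IsCyc (A.tau ω) C ∧ C.card ≤ m := fun C hC => (mem_filter.mp hC).2
  have hcl : ∀ C ∈ T, ∃ p ∈ C, A.cl ω C = some p ∧
      (((A.path p (A.out ω p)).filter fun σ => ∃ b ∈ C, b ≠ p ∧ σ ∈ A.path b (A.out ω b)).card : ℝ)
      ≤ Real.logb 2 C.card := fun C hC => cl_spec A ω C (hcyc C hC).1.1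
  have hTne : T.Nonempty := card_pos.mp (by omega)
  have : Nonempty B := by
    obtain ⟨C0, hC0⟩ := hTne
    exact ⟨(hcl C0 hC0).choose⟩
  choose! p hpC hpcl hown using hcl
  set P : Finset B → Finset Sw := fun C => A.path (p C) (A.out ω (p C)) with hP
  set own : Finset B → Finset Sw := fun C =>
    (P C).filter (fun σ => ∃ b ∈ C, b ≠ p C ∧ σ ∈ A.path b (A.out ω b)) with hownd
  set cr : Finset B → Finset B → Finset Sw := fun C C' =>
    (P C).filter (fun σ => ∃ b ∈ C', σ ∈ A.path b (A.out ω b)) with hcr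
  set Q : Finset (Finset B) → Finset B → Finset Sw := fun F C =>
    (P C).filter (fun σ => ∀ C' ∈ F, ∀ b ∈ C', b ≠ p C → σ ∉ A.path b (A.out ω b)) with hQ
  have hPcard : ∀ C, (P C).card = A.g := fun C => A.hg ω (p C)
  -- (1)
  have h1 : ∀ F ∈ T.powersetCard j, ∑ C ∈ F, (Q F C).card ≤ (A.clean ω F).card := by
    intro F hF
    have hFT := (mem_powersetCard.mp hF).1
    rw [← card_biUnion]
    · apply card_le_card
      intro σ hσ
      rw [mem_biUnion] at hσ
      obtain ⟨C, hC, hσ⟩ := hσ
      rw [hQ, mem_filter] at hσ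
      simp only [ALData.clean, mem_filter, mem_univ, true_and]
      exact ⟨C, hC, p C, hpcl C (hFT hC), hσ.1, hσ.2⟩
    · intro C hC C' hC' hne
      change Disjoint (Q F C) (Q F C')
      rw [disjoint_left]
      intro σ hσ hσ'
      rw [hQ, mem_filter] at hσ hσ'
      have hpne : p C' ≠ p C := by
        intro h
        apply hne
        have m1 := hpC C (hFT hC)
        have m2 := hpC C' (hFT hC')
        rw [h] at m2
        exact cyc_disj (hcyc C (hFT hC)).1 (hcyc C' (hFT hC')).1 m1 m2
      exact hσ.2 C' hC' (p C') (hpC C' (hFT hC')) hpne hσ'.1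
  -- (2)
  have h2 : ∀ F ∈ T.powersetCard j, ∀ C ∈ F,
      A.g ≤ (Q F C).card + (own C).card + ∑ C' ∈ F.erase C, (cr C C').card := by
    intro F hF C hC
    rw [← hPcard C]
    have hsub : P C ⊆ (Q F C ∪ own C) ∪ (F.erase C).biUnion (fun C' => cr C C') := by
      intro σ hσ
      by_cases hq : σ ∈ Q F C
      · simp [hq]
      · rw [hQ, mem_filter] at hq
        push Not at hq
        obtain ⟨C', hC', b, hb, hbne, hσb⟩ := hq hσ
        by_cases hCC : C' = C
        · subst hCC
          apply mem_union_left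
          apply mem_union_right
          rw [hownd, mem_filter]
          exact ⟨hσ, b, hb, hbne, hσb⟩
        · apply mem_union_right
          rw [mem_biUnion]
          exact ⟨C', mem_erase.mpr ⟨hCC, hC'⟩, by rw [hcr, mem_filter]; exact ⟨hσ, b, hb, hσb⟩⟩
    refine (card_le_card hsub).trans ((card_union_le _ _).trans ?_)
    exact Nat.add_le_add (card_union_le _ _) card_biUnion_le
  -- (3)
  have h3 : ∀ C ∈ T, ((own C).card : ℝ) ≤ Real.logb 2 m := by
    intro C hC
    refine (hown C hC).trans ?_
    have hc := hcyc C hC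
    have hcp : 0 < C.card := card_pos.mpr hc.1.1
    exact Real.logb_le_logb_of_le (by norm_num) (by exact_mod_cast hcp) (by exact_mod_cast hc.2)
  -- (4)
  have h4' : ∀ C ∈ T, ∑ C' ∈ T.erase C, (cr C C').card ≤ A.g := by
    intro C hC
    rw [← hPcard C]
    have : ∀ C', (cr C C').card = ∑ σ ∈ P C, if (∃ b ∈ C', σ ∈ A.path b (A.out ω b)) then 1 else 0 := by
      intro C'
      rw [hcr, card_filter]
    simp_rw [this]
    rw [sum_comm]
    rw [card_eq_sum_ones (P C)]
    apply sum_le_sum
    intro σ hσ
    rw [← card_filter]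
    by_contra hcon
    push Not at hcon
    obtain ⟨C₁, hC₁, C₂, hC₂, hne⟩ := one_lt_card.mp hcon
    rw [mem_filter, mem_erase] at hC₁ hC₂
    obtain ⟨⟨hn1, hT1⟩, b₁, hb₁, hσ₁⟩ := hC₁
    obtain ⟨⟨hn2, hT2⟩, b₂, hb₂, hσ₂⟩ := hC₂
    have hdis : ∀ {X Y : Finset B}, X ∈ T → Y ∈ T → ∀ {x y : B}, x ∈ X → y ∈ Y → X ≠ Y → x ≠ y := by
      intro X Y hX hY x y hx hy hXY hxy
      subst hxy
      exact hXY (cyc_disj (hcyc X hX).1 (hcyc Y hY).1 hx hy)
    have hthree : ({p C, b₁, b₂} : Finset B) ⊆ univ.filter fun b => σ ∈ A.path b (A.out ω b) := by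
      intro b hb
      simp only [mem_insert, mem_singleton] at hb
      rw [mem_filter]
      rcases hb with rfl | rfl | rfl
      · exact ⟨mem_univ _, hσ⟩
      · exact ⟨mem_univ _, hσ₁⟩
      · exact ⟨mem_univ _, hσ₂⟩
    have hc3 : ({p C, b₁, b₂} : Finset B).card = 3 := by
      rw [card_eq_three]
      exact ⟨p C, b₁, b₂, hdis hC hT1 (hpC C hC) hb₁ hn1.symm, hdis hC hT2 (hpC C hC) hb₂ hn2.symm,
        hdis hT1 hT2 hb₁ hb₂ hne, rfl⟩
    have := (card_le_card hthree).trans (A.two ω σ)
    omega
  -- (5)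
  set z : ℕ := t.choose j with hz
  set X : ℕ := ∑ F ∈ T.powersetCard j, ∑ C ∈ F, ∑ C' ∈ F.erase C, (cr C C').card with hX
  have h5 : 4 * X ≤ z * j * A.g := by
    rcases Nat.lt_or_ge j 2 with hj2 | hj2
    · have hj1 : j = 1 := by omega
      have : X = 0 := by
        rw [hX]
        apply sum_eq_zero
        intro F hF
        apply sum_eq_zero
        intro C hC
        have hc := (mem_powersetCard.mp hF).2
        rw [hj1, card_eq_one] at hc
        obtain ⟨C₀, rfl⟩ := hc
        rw [mem_singleton] at hC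
        subst hC
        simp
      rw [this]; simp
    · have hX1 : X = ∑ C ∈ T, ∑ C' ∈ T.erase C,
          ((T.powersetCard j).filter (fun F => C ∈ F ∧ C' ∈ F)).card * (cr C C').card := by
        have : ∀ F ∈ T.powersetCard j, ∑ C ∈ F, ∑ C' ∈ F.erase C, (cr C C').card
            = ∑ C ∈ T, ∑ C' ∈ T.erase C, if (C ∈ F ∧ C' ∈ F) then (cr C C').card else 0 := by
          intro F hF
          have hFT := (mem_powersetCard.mp hF).1
          rw [← sum_subset hFT]
          · apply sum_congr rfl
            intro C hC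
            rw [← sum_subset (erase_subset_erase C hFT)]
            · apply sum_congr rfl
              intro C' hC'
              rw [if_pos ⟨hC, (mem_erase.mp hC').2⟩]
            · intro C' hC' hn
              rw [if_neg]
              rintro ⟨_, h⟩
              exact hn (mem_erase.mpr ⟨(mem_erase.mp hC').1, h⟩)
          · intro C _ hn
            apply sum_eq_zero
            intro C' _
            rw [if_neg]
            rintro ⟨h, _⟩
            exact hn h
        rw [hX, sum_congr rfl this, sum_comm]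
        apply sum_congr rfl
        intro C hC
        rw [sum_comm]
        apply sum_congr rfl
        intro C' hC'
        rw [← sum_filter, sum_const, smul_eq_mul]
      have hX2 : X ≤ (t - 2).choose (j - 2) * (t * A.g) := by
        rw [hX1]
        calc ∑ C ∈ T, ∑ C' ∈ T.erase C,
              ((T.powersetCard j).filter (fun F => C ∈ F ∧ C' ∈ F)).card * (cr C C').card
            ≤ ∑ C ∈ T, ∑ C' ∈ T.erase C, (t - 2).choose (j - 2) * (cr C C').card := by
              apply sum_le_sum
              intro C hC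
              apply sum_le_sum
              intro C' hC'
              apply Nat.mul_le_mul_right
              have hC'' := mem_erase.mp hC'
              have hcardT : ((T.erase C).erase C').card = t - 2 := by
                rw [card_erase_of_mem hC', card_erase_of_mem hC]
                omega
              rw [← hcardT, ← card_powersetCard]
              apply card_le_card_of_injOn (fun F => (F.erase C).erase C')
              · intro F hF
                rw [mem_coe, mem_filter, mem_powersetCard] at hF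
                rw [mem_coe, mem_powersetCard]
                refine ⟨erase_subset_erase C' (erase_subset_erase C hF.1.1), ?_⟩
                rw [card_erase_of_mem (mem_erase.mpr ⟨hC''.1, hF.2.2⟩), card_erase_of_mem hF.2.1,
                  hF.1.2]
                omega
              · intro F hF F' hF' heq
                rw [mem_coe, mem_filter, mem_powersetCard] at hF hF'
                have e1 : F = insert C (insert C' ((F.erase C).erase C')) := by
                  rw [insert_erase (mem_erase.mpr ⟨hC''.1, hF.2.2⟩), insert_erase hF.2.1]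
                have e2 : F' = insert C (insert C' ((F'.erase C).erase C')) := by
                  rw [insert_erase (mem_erase.mpr ⟨hC''.1, hF'.2.2⟩), insert_erase hF'.2.1]
                rw [e1, e2]
                simp only at heq
                rw [heq]
          _ = (t - 2).choose (j - 2) * ∑ C ∈ T, ∑ C' ∈ T.erase C, (cr C C').card := by
              rw [mul_sum]
              apply sum_congr rfl
              intro C _
              rw [mul_sum]
          _ ≤ (t - 2).choose (j - 2) * ∑ C ∈ T, A.g := by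
              apply Nat.mul_le_mul_left
              exact sum_le_sum fun C hC => h4' C hC
          _ = _ := by rw [sum_const, smul_eq_mul]
      -- binomials
      obtain ⟨j', rfl⟩ : ∃ j', j = j' + 2 := ⟨j - 2, by omega⟩
      obtain ⟨t', ht'⟩ : ∃ t', t = t' + 2 := ⟨t - 2, by omega⟩
      have e1 := Nat.add_one_mul_choose_eq (t' + 1) (j' + 1)
      have e2 := Nat.add_one_mul_choose_eq t' j'
      have hzz : z = (t' + 1 + 1).choose (j' + 1 + 1) := by rw [hz, ht']
      rw [hzz]
      rw [ht'] at hX2
      have hX3 : X ≤ t'.choose j' * ((t' + 2) * A.g) := by simpa using hX2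
      have h4'' : 4 * (j' + 1) ≤ t' + 1 := by omega
      -- (t'+2) * C(t'+1,j'+1) = z (j'+2);  (t'+1) C(t',j') = C(t'+1,j'+1)(j'+1)
      have key : 4 * (t'.choose j' * (t' + 2)) ≤ (t' + 1 + 1).choose (j' + 1 + 1) * (j' + 2) := by
        have : (t' + 1) * (4 * (t'.choose j' * (t' + 2)))
            ≤ (t' + 1) * ((t' + 1 + 1).choose (j' + 1 + 1) * (j' + 2)) := by
          have : (t' + 1) * (4 * (t'.choose j' * (t' + 2)))
              = (4 * (j' + 1)) * ((t' + 1 + 1).choose (j' + 1 + 1) * (j' + 2)) := by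
            calc (t' + 1) * (4 * (t'.choose j' * (t' + 2)))
                = 4 * ((t' + 1) * t'.choose j') * (t' + 2) := by ring
              _ = 4 * ((t' + 1).choose (j' + 1) * (j' + 1)) * (t' + 2) := by rw [e2]
              _ = (4 * (j' + 1)) * ((t' + 1 + 1) * (t' + 1).choose (j' + 1)) := by ring
              _ = (4 * (j' + 1)) * ((t' + 1 + 1).choose (j' + 1 + 1) * (j' + 1 + 1)) := by rw [e1]
              _ = _ := by ring
          rw [this]
          exact Nat.mul_le_mul_right _ h4''
        exact Nat.le_of_mul_le_mul_left this (by omega)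
      calc 4 * X ≤ 4 * (t'.choose j' * ((t' + 2) * A.g)) := by omega
        _ = 4 * (t'.choose j' * (t' + 2)) * A.g := by ring
        _ ≤ _ := Nat.mul_le_mul_right _ key
  -- (6)
  have h6 : (z : ℝ) * (j : ℝ) * ((3 * (A.g : ℝ)) / 4 - Real.logb 2 m)
      ≤ ∑ F ∈ T.powersetCard j, ((A.clean ω F).card : ℝ) := by
    have hF : ∀ F ∈ T.powersetCard j, (j : ℝ) * ((A.g : ℝ) - Real.logb 2 m)
        - ((∑ C ∈ F, ∑ C' ∈ F.erase C, (cr C C').card : ℕ) : ℝ) ≤ ((A.clean ω F).card : ℝ) := by
      intro F hF
      have hc := mem_powersetCard.mp hF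
      have a1 : ((∑ C ∈ F, (Q F C).card : ℕ) : ℝ) ≤ ((A.clean ω F).card : ℝ) := by
        exact_mod_cast h1 F hF
      refine le_trans ?_ a1
      push_cast
      rw [sub_le_iff_le_add, ← sum_add_distrib, ← hc.2, ← nsmul_eq_mul]
      apply card_nsmul_le_sum
      intro C hC
      have a2 : (A.g : ℝ) ≤ (Q F C).card + (own C).card + ∑ C' ∈ F.erase C, ((cr C C').card : ℝ) := by
        exact_mod_cast h2 F hF C hC
      have a3 := h3 C (hc.1 hC)
      linarith
    have hsum := sum_le_sum hF
    rw [sum_sub_distrib, sum_const, card_powersetCard, nsmul_eq_mul] at hsum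
    have hXX : ∑ F ∈ T.powersetCard j, ((∑ C ∈ F, ∑ C' ∈ F.erase C, (cr C C').card : ℕ) : ℝ)
        = (X : ℝ) := by
      rw [hX]; push_cast; rfl
    rw [hXX] at hsum
    have h5' : 4 * (X : ℝ) ≤ (z : ℝ) * j * A.g := by exact_mod_cast h5
    have hzt : ((T.card.choose j : ℕ) : ℝ) = (z : ℝ) := rfl
    rw [hzt] at hsum
    nlinarith [hsum, h5']
  -- (7)
  set c : ℝ := (j : ℝ) * ((3 * (A.g : ℝ)) / 4 - Real.logb 2 m) with hc
  have hmR : (0 : ℝ) < m := by exact_mod_cast (by omega : 0 < m)
  have h2c : ((2 : ℝ) ^ (3 * (A.g : ℝ) / 4) / m) ^ j = (2 : ℝ) ^ c := by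
    have e1 : (2 : ℝ) ^ (3 * (A.g : ℝ) / 4) / m = (2 : ℝ) ^ ((3 * (A.g : ℝ)) / 4 - Real.logb 2 m) := by
      rw [Real.rpow_sub (by norm_num), Real.rpow_logb (by norm_num) (by norm_num) hmR]
    rw [e1, hc, mul_comm (j : ℝ), Real.rpow_mul (by norm_num), Real.rpow_natCast]
  rw [h2c]
  have hlow : ∀ F ∈ T.powersetCard j, (2 : ℝ) ^ c * (1 + Real.log 2 * (((A.clean ω F).card : ℝ) - c))
      ≤ (2 : ℝ) ^ (A.clean ω F).card := by
    intro F _
    have e2 : (2 : ℝ) ^ (A.clean ω F).card
        = (2 : ℝ) ^ c * Real.exp (Real.log 2 * (((A.clean ω F).card : ℝ) - c)) := by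
      rw [Real.rpow_def_of_pos (by norm_num), ← Real.exp_add, ← Real.rpow_natCast,
        Real.rpow_def_of_pos (by norm_num)]
      congr 1
      ring
    rw [e2]
    apply mul_le_mul_of_nonneg_left _ (Real.rpow_pos_of_pos (by norm_num) _).le
    have := Real.add_one_le_exp (Real.log 2 * (((A.clean ω F).card : ℝ) - c))
    linarith
  refine le_trans ?_ (sum_le_sum hlow)
  rw [← mul_sum]
  have hpos : (0 : ℝ) < (2 : ℝ) ^ c := Real.rpow_pos_of_pos (by norm_num) _
  rw [mul_comm]
  apply mul_le_mul_of_nonneg_left _ hpos.le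
  rw [sum_add_distrib, sum_const, card_powersetCard, ← mul_sum, sum_sub_distrib, sum_const,
    card_powersetCard, nsmul_eq_mul, nsmul_eq_mul]
  have hlog : 0 < Real.log 2 := Real.log_pos (by norm_num)
  have hzt : ((T.card.choose j : ℕ) : ℝ) = (z : ℝ) := rfl
  rw [hzt]
  have h7 : 0 ≤ ∑ F ∈ T.powersetCard j, ((A.clean ω F).card : ℝ) - (z : ℝ) * c := by
    rw [hc]; linarith [h6]
  nlinarith [mul_nonneg hlog.le h7]

end Crest.Agent.R155
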