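import Crest.Agent.R155.Defs

set_option autoImplicit false

namespace Crest.Agent.R155

open scoped BigOperators Matrix
open Finset

namespace AM

/-- sign of a bit -/
def sg (b : Bool) : ℝ := if b then -1 else 1

@[simp] theorem sg_true : sg true = -1 := rfl
@[simp] theorem sg_false : sg false = 1 := rfl

theorem sg_xor (a b : Bool) : sg (xor a b) = sg a * sg b := by
  cases a <;> cases b <;> simp

theorem sg_sq (a : Bool) : sg a * sg a = 1 := by
  cases a <;> simp

section
variable {A : Type} [Fintype A] [DecidableEq A] {m : Type} [Fintype m] [DecidableEq m]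

/-- flip the second bit of the pairs in `s` -/
def flip (s : A → Bool) : Equiv.Perm (A × Bool) where
  toFun p := (p.1, xor p.2 (s p.1))
  invFun p := (p.1, xor p.2 (s p.1))
  left_inv p := by simp
  right_inv p := by simp

theorem flip_apply (s : A → Bool) (x : A) (b : Bool) : flip s (x, b) = (x, xor b (s x)) := rfl

theorem flip_mul (s t : A → Bool) : flip s * flip t = flip (fun a => xor (s a) (t a)) := by
  ext p
  · simp [flip]
  · simp only [flip, Equiv.Perm.coe_mul, Function.comp_apply, Equiv.coe_fn_mk]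
    cases p.2 <;> cases s p.1 <;> cases t p.1 <;> rfl

theorem flip_inv (s : A → Bool) : (flip s)⁻¹ = flip s := rfl

theorem flip_zero : flip (fun _ : A => false) = 1 := by
  ext p <;> simp [flip]

/-- indicator -/
def dl (x : A) : A → Bool := fun a => decide (a = x)

theorem flip_dl (x : A) : flip (dl x) = Equiv.swap (x, false) (x, true) := by
  apply Equiv.ext
  rintro ⟨a, b⟩
  rw [flip_apply]
  by_cases h : a = x
  · subst h
    cases b
    · simp [dl]
    · simp [dl]
  · rw [Equiv.swap_apply_of_ne_of_ne]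
    · simp [dl, h]
    · simp [h]
    · simp [h]

theorem flip_swap (s : A → Bool) (x y : A) (b c : Bool) :
    flip s * Equiv.swap (x, b) (y, c) = Equiv.swap (x, xor b (s x)) (y, xor c (s y)) * flip s := by
  rw [Equiv.mul_swap_eq_swap_mul, flip_apply, flip_apply]

variable (U : Equiv.Perm (A × Bool) →* Matrix m m ℝ)

/-- `2 b_xy` -/
noncomputable def B (x y : A) : Matrix m m ℝ :=
  ∑ b : Bool, ∑ c : Bool, (sg b * sg c) • U (Equiv.swap (x, b) (y, c))

theorem B_eq (x y : A) : B U x y = U (Equiv.swap (x, false) (y, false)) +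
    U (Equiv.swap (x, true) (y, true)) - U (Equiv.swap (x, false) (y, true)) -
    U (Equiv.swap (x, true) (y, false)) := by
  unfold B
  simp only [Fintype.sum_bool, sg_true, sg_false]
  simp only [mul_neg, mul_one, neg_neg, one_smul, neg_smul]
  abel

omit [DecidableEq m] in
/-- reorder the four sums -/
theorem sum4 (f : A × Bool → A × Bool → Matrix m m ℝ) :
    ∑ p : (A × Bool) × (A × Bool), f p.1 p.2 =
      ∑ x, ∑ y, ∑ b : Bool, ∑ c : Bool, f (x, b) (y, c) := by
  rw [Fintype.sum_prod_type]
  simp only [Fintype.sum_prod_type]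
  apply Finset.sum_congr rfl
  intro x _
  rw [Finset.sum_comm]

theorem XU_eq : XU U = (1 / (2 * (Fintype.card A : ℝ))) • ∑ x, ∑ y, ∑ b : Bool, ∑ c : Bool,
    (1 - U (Equiv.swap (x, b) (y, c))) := by
  unfold XU
  rw [sum4 (fun p q => 1 - U (Equiv.swap p q))]
  congr 2
  simp [mul_comm]

theorem W_eq : XU U - SU U = (1 / (2 * (Fintype.card A : ℝ))) • ∑ x, ∑ y, B U x y := by
  have hS : SU U = (1 / (2 * (Fintype.card A : ℝ))) • ∑ x : A, ∑ y : A,
      (2 : ℝ) • ∑ b : Bool, (1 - U (Equiv.swap (x, b) (y, b))) := by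
    unfold SU
    simp only [← Finset.smul_sum]
    rw [smul_smul]
    congr 1
    · rw [one_div, one_div, mul_inv]
      ring
    · simp only [Fintype.sum_bool, Fintype.sum_prod_type]
      simp only [← Finset.sum_add_distrib]
  rw [XU_eq, hS, ← smul_sub, ← Finset.sum_sub_distrib]
  congr 1
  apply Finset.sum_congr rfl
  intro x _
  rw [← Finset.sum_sub_distrib]
  apply Finset.sum_congr rfl
  intro y _
  rw [B_eq]
  simp only [Fintype.sum_bool]
  rw [two_smul]
  abel

theorem flip_B (s : A → Bool) (x y : A) :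
    U (flip s) * B U x y = (sg (s x) * sg (s y)) • (B U x y * U (flip s)) := by
  unfold B
  simp only [Finset.mul_sum, Finset.sum_mul, Matrix.mul_smul, Matrix.smul_mul, Finset.smul_sum,
    ← map_mul, flip_swap, smul_smul]
  have e : ∀ (t : Bool) (f : Bool → Matrix m m ℝ), ∑ b : Bool, f b = ∑ b : Bool, f (xor b t) := by
    intro t f
    cases t
    · simp
    · simp [Fintype.sum_bool, add_comm]
  rw [e (s x) (fun b => ∑ c : Bool, (sg (s x) * sg (s y) * (sg b * sg c)) •
    U (Equiv.swap (x, b) (y, c) * flip s))]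
  apply Finset.sum_congr rfl
  intro b _
  rw [e (s y) (fun c => (sg (s x) * sg (s y) * (sg (xor b (s x)) * sg c)) •
    U (Equiv.swap (x, xor b (s x)) (y, c) * flip s))]
  apply Finset.sum_congr rfl
  intro c _
  congr 1
  rw [sg_xor, sg_xor]
  have h1 := sg_sq (s x)
  have h2 := sg_sq (s y)
  calc sg b * sg c = sg b * sg c * (sg (s x) * sg (s x)) * (sg (s y) * sg (s y)) := by
        rw [h1, h2]; ring
    _ = _ := by ring

theorem B_comm (x y : A) : B U y x = B U x y := by
  rw [B_eq, B_eq, Equiv.swap_comm (y, false) (x, false), Equiv.swap_comm (y, true) (x, true),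
    Equiv.swap_comm (y, false) (x, true), Equiv.swap_comm (y, true) (x, false)]
  abel

variable (hU : ∀ g, (U g)ᵀ = U g⁻¹)
include hU

theorem dotU (g : Equiv.Perm (A × Bool)) (a b : m → ℝ) :
    (U g *ᵥ a) ⬝ᵥ (U g *ᵥ b) = a ⬝ᵥ b := by
  rw [Matrix.dotProduct_mulVec, ← Matrix.mulVec_transpose, hU, Matrix.mulVec_mulVec, ← map_mul,
    inv_mul_cancel, map_one, Matrix.one_mulVec]

theorem dotU' (g : Equiv.Perm (A × Bool)) (a b : m → ℝ) :
    a ⬝ᵥ (U g *ᵥ b) = (U g⁻¹ *ᵥ a) ⬝ᵥ b := by
  rw [Matrix.dotProduct_mulVec, ← Matrix.mulVec_transpose, hU]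

variable (v : m → ℝ) (hv : ∀ x : A, U (Equiv.swap (x, false) (x, true)) *ᵥ v = v)
include hv

omit hU in
theorem fixF (s : A → Bool) : U (flip s) *ᵥ v = v := by
  have key : ∀ S : Finset A, U (flip fun a => decide (a ∈ S)) *ᵥ v = v := by
    intro S
    induction S using Finset.induction_on with
    | empty =>
      have : (fun a : A => decide (a ∈ (∅ : Finset A))) = fun _ => false := by
        funext a; simp
      rw [this, flip_zero, map_one, Matrix.one_mulVec]
    | insert x S hx ih =>
      have : (fun a : A => decide (a ∈ insert x S)) =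
          fun a => xor (dl x a) (decide (a ∈ S)) := by
        funext a
        by_cases h : a = x
        · subst h
          simp [dl, hx]
        · simp [dl, h]
      rw [this, ← flip_mul, map_mul, ← Matrix.mulVec_mulVec, ih, flip_dl, hv]
  have := key (univ.filter fun a => s a = true)
  have h2 : (fun a : A => decide (a ∈ univ.filter fun a => s a = true)) = s := by
    funext a; simp
  rwa [h2] at this

omit hU in
theorem B_self (x : A) : B U x x *ᵥ v = 0 := by
  rw [B_eq]
  simp only [Matrix.sub_mulVec, Matrix.add_mulVec, Equiv.swap_self]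
  rw [Equiv.swap_comm (x, true) (x, false), hv x]
  have : U (Equiv.refl (A × Bool)) = 1 := map_one U
  rw [this]
  simp

theorem orth (x y z w : A) (s : A → Bool) (h : sg (s x) * sg (s y) * (sg (s z) * sg (s w)) = -1) :
    (B U x y *ᵥ v) ⬝ᵥ (B U z w *ᵥ v) = 0 := by
  have h1 : ∀ x y, U (flip s) *ᵥ (B U x y *ᵥ v) = (sg (s x) * sg (s y)) • (B U x y *ᵥ v) := by
    intro x y
    rw [Matrix.mulVec_mulVec, flip_B, Matrix.smul_mulVec, ← Matrix.mulVec_mulVec,
      fixF U v hv s]
  have h2 := dotU U hU (flip s) (B U x y *ᵥ v) (B U z w *ᵥ v)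
  rw [h1, h1, smul_dotProduct, dotProduct_smul, smul_smul, h] at h2
  simp only [smul_eq_mul] at h2
  linarith

/-- `η_xy` -/
theorem eta_eq (x y : A) (b c : Bool) : v ⬝ᵥ (U (Equiv.swap (x, b) (y, c)) *ᵥ v) =
    v ⬝ᵥ (U (Equiv.swap (x, false) (y, false)) *ᵥ v) := by
  by_cases hxy : x = y
  · subst hxy
    have h1 : U (Equiv.swap ((x, false) : A × Bool) (x, false)) *ᵥ v = v := by
      rw [Equiv.swap_self]
      have : U (Equiv.refl (A × Bool)) = 1 := map_one U
      rw [this, Matrix.one_mulVec]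
    rw [h1]
    cases b <;> cases c
    · rw [h1]
    · rw [hv]
    · rw [Equiv.swap_comm, hv]
    · rw [Equiv.swap_self]
      have : U (Equiv.refl (A × Bool)) = 1 := map_one U
      rw [this, Matrix.one_mulVec]
  · let s : A → Bool := fun a => if a = x then b else c
    have h := flip_swap s x y b c
    have hx : xor b (s x) = false := by simp [s]
    have hy : xor c (s y) = false := by simp [s, Ne.symm hxy]
    rw [hx, hy] at h
    have h1 := dotU U hU (flip s) v (U (Equiv.swap (x, b) (y, c)) *ᵥ v)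
    rw [Matrix.mulVec_mulVec, ← map_mul, h, map_mul, ← Matrix.mulVec_mulVec,
      fixF U v hv s] at h1
    exact h1.symm

theorem cross (x y : A) (hxy : x ≠ y) (b c : Bool) :
    (U (Equiv.swap (x, b) (y, c)) *ᵥ v) ⬝ᵥ (U (Equiv.swap (x, b) (y, !c)) *ᵥ v) =
    v ⬝ᵥ (U (Equiv.swap (x, false) (y, false)) *ᵥ v) := by
  have h : Equiv.swap (x, b) (y, c) * Equiv.swap (x, b) (y, !c) =
      Equiv.swap (y, c) (y, !c) * Equiv.swap (x, b) (y, c) := by
    rw [Equiv.mul_swap_eq_swap_mul, Equiv.swap_apply_left,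
      Equiv.swap_apply_of_ne_of_ne (by simp [Ne.symm hxy]) (by simp)]
  have h2 : (U (Equiv.swap (x, b) (y, c)) *ᵥ v) ⬝ᵥ (U (Equiv.swap (x, b) (y, !c)) *ᵥ v) =
      v ⬝ᵥ (U (Equiv.swap (x, b) (y, c) * Equiv.swap (x, b) (y, !c)) *ᵥ v) := by
    rw [map_mul, ← Matrix.mulVec_mulVec, dotU' U hU (Equiv.swap (x, b) (y, c)), Equiv.swap_inv]
  have h3 : U (Equiv.swap (y, c) (y, !c)) *ᵥ v = v := by
    cases c
    · exact hv y
    · rw [Equiv.swap_comm]; exact hv y
  rw [h2, h, map_mul, ← Matrix.mulVec_mulVec, dotU' U hU (Equiv.swap (y, c) (y, !c)),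
    Equiv.swap_inv, h3, eta_eq U hU v hv]

theorem normB (x y : A) (hxy : x ≠ y) : (B U x y *ᵥ v) ⬝ᵥ (B U x y *ᵥ v) ≤
    8 * (v ⬝ᵥ v - v ⬝ᵥ (U (Equiv.swap (x, false) (y, false)) *ᵥ v)) := by
  have hB : B U x y *ᵥ v = U (Equiv.swap (x, false) (y, false)) *ᵥ v +
      U (Equiv.swap (x, true) (y, true)) *ᵥ v - U (Equiv.swap (x, false) (y, true)) *ᵥ v -
      U (Equiv.swap (x, true) (y, false)) *ᵥ v := by
    rw [B_eq, Matrix.sub_mulVec, Matrix.sub_mulVec, Matrix.add_mulVec]
  have c1 := cross U hU v hv x y hxy false false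
  have c2 := cross U hU v hv x y hxy true true
  have c3 := cross U hU v hv y x (Ne.symm hxy) false false
  have c4 := cross U hU v hv y x (Ne.symm hxy) true true
  simp only [Bool.not_false, Bool.not_true] at c1 c2 c3 c4
  rw [Equiv.swap_comm (y, false) (x, false), Equiv.swap_comm (y, false) (x, true)] at c3
  rw [Equiv.swap_comm (y, true) (x, true), Equiv.swap_comm (y, true) (x, false),
    Equiv.swap_comm (y, false) (x, false)] at c4
  have n1 := dotU U hU (Equiv.swap (x, false) (y, false)) v v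
  have n2 := dotU U hU (Equiv.swap (x, true) (y, true)) v v
  have n3 := dotU U hU (Equiv.swap (x, false) (y, true)) v v
  have n4 := dotU U hU (Equiv.swap (x, true) (y, false)) v v
  rw [hB]
  set a := U (Equiv.swap (x, false) (y, false)) *ᵥ v
  set b := U (Equiv.swap (x, true) (y, true)) *ᵥ v
  set c := U (Equiv.swap (x, false) (y, true)) *ᵥ v
  set d := U (Equiv.swap (x, true) (y, false)) *ᵥ v
  have q1 : 0 ≤ (a - b) ⬝ᵥ (a - b) := by
    simp only [dotProduct]
    exact Finset.sum_nonneg fun i _ => mul_self_nonneg _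
  have q2 : 0 ≤ (c - d) ⬝ᵥ (c - d) := by
    simp only [dotProduct]
    exact Finset.sum_nonneg fun i _ => mul_self_nonneg _
  simp only [sub_dotProduct, dotProduct_sub, add_dotProduct, dotProduct_add] at q1 q2 ⊢
  rw [dotProduct_comm b a] at q1 ⊢
  rw [dotProduct_comm d c] at q2 ⊢
  rw [dotProduct_comm c a, dotProduct_comm d a, dotProduct_comm c b, dotProduct_comm d b]
  linarith

end
end AM

theorem alg : StAlg := by
  intro A _ _ _ m _ _ U v hU hv
  have hN : (0 : ℝ) < Fintype.card A := by exact_mod_cast Fintype.card_pos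
  set N : ℝ := (Fintype.card A : ℝ) with hNdef
  set η : A → A → ℝ := fun x y => v ⬝ᵥ (U (Equiv.swap (x, false) (y, false)) *ᵥ v) with hη
  have hX : v ⬝ᵥ (XU U *ᵥ v) = (2 / N) * ∑ x, ∑ y, (v ⬝ᵥ v - η x y) := by
    rw [AM.XU_eq, Matrix.smul_mulVec, dotProduct_smul]
    simp only [Matrix.sum_mulVec, dotProduct_sum, Matrix.sub_mulVec, dotProduct_sub,
      Matrix.one_mulVec, AM.eta_eq U hU v hv]
    simp only [Finset.sum_const, Finset.card_univ, Fintype.card_bool, smul_eq_mul, nsmul_eq_mul,
      Finset.mul_sum]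
    apply Finset.sum_congr rfl
    intro x _
    apply Finset.sum_congr rfl
    intro y _
    simp only [hη]
    field_simp
    norm_num
    ring
  have hW : (XU U - SU U) *ᵥ v = (1 / (2 * N)) • ∑ x, ∑ y, AM.B U x y *ᵥ v := by
    rw [AM.W_eq, Matrix.smul_mulVec]
    simp only [Matrix.sum_mulVec]
    rfl
  constructor
  · rw [hW, hX, smul_dotProduct, dotProduct_smul]
    have hin : ∀ x y, ∑ z, ∑ w, (AM.B U x y *ᵥ v) ⬝ᵥ (AM.B U z w *ᵥ v) ≤
        16 * (v ⬝ᵥ v - η x y) := by
      intro x y
      by_cases hxy : x = y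
      · subst hxy
        rw [AM.B_self U v hv]
        simp only [zero_dotProduct, Finset.sum_const_zero]
        have : η x x = v ⬝ᵥ v := by
          simp only [hη, Equiv.swap_self]
          have : U (Equiv.refl (A × Bool)) = 1 := map_one U
          rw [this, Matrix.one_mulVec]
        rw [this]
        simp
      · have h0 : ∀ z w, ¬ ((z = x ∧ w = y) ∨ (z = y ∧ w = x)) →
            (AM.B U x y *ᵥ v) ⬝ᵥ (AM.B U z w *ᵥ v) = 0 := by
          intro z w h
          by_cases h1 : x = z
          · subst h1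
            have hw : w ≠ y := fun e => h (Or.inl ⟨rfl, e⟩)
            apply AM.orth U hU v hv x y x w (AM.dl y)
            simp [AM.dl, hxy, hw]
          · by_cases h2 : x = w
            · subst h2
              have hz : z ≠ y := fun e => h (Or.inr ⟨e, rfl⟩)
              apply AM.orth U hU v hv x y z x (AM.dl y)
              simp [AM.dl, hxy, hz]
            · apply AM.orth U hU v hv x y z w (AM.dl x)
              simp [AM.dl, Ne.symm hxy, Ne.symm h1, Ne.symm h2]
        have h3 : ∀ z w, (AM.B U x y *ᵥ v) ⬝ᵥ (AM.B U z w *ᵥ v) =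
            (if z = x then (if w = y then (AM.B U x y *ᵥ v) ⬝ᵥ (AM.B U x y *ᵥ v) else 0) else 0) +
            (if z = y then (if w = x then (AM.B U x y *ᵥ v) ⬝ᵥ (AM.B U x y *ᵥ v) else 0)
              else 0) := by
          intro z w
          by_cases h1 : z = x ∧ w = y
          · obtain ⟨rfl, rfl⟩ := h1
            simp [hxy]
          · by_cases h2 : z = y ∧ w = x
            · obtain ⟨rfl, rfl⟩ := h2
              rw [AM.B_comm U w z]
              simp [Ne.symm hxy]
            · rw [h0 z w (by tauto)]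
              by_cases a1 : z = x
              · have a2 : ¬ w = y := fun e => h1 ⟨a1, e⟩
                have a3 : ¬ (z = y) := fun e => hxy (a1.symm.trans e)
                simp [a1, a2, hxy]
              · by_cases a4 : z = y
                · have a5 : ¬ w = x := fun e => h2 ⟨a4, e⟩
                  simp [a4, a5, Ne.symm hxy]
                · simp [a1, a4]
        have h5 : ∀ (p q : A) (C : ℝ), ∑ z, ∑ w, (if z = p then (if w = q then C else 0) else 0)
            = C := by
          intro p q C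
          rw [Finset.sum_eq_single p]
          · simp
          · intro z _ hz
            simp [hz]
          · simp
        rw [Finset.sum_congr rfl (fun z _ => Finset.sum_congr rfl (fun w _ => h3 z w))]
        simp only [Finset.sum_add_distrib]
        rw [h5, h5]
        have := AM.normB U hU v hv x y hxy
        simp only [hη]
        linarith
    have hsum : (∑ x, ∑ y, AM.B U x y *ᵥ v) ⬝ᵥ (∑ x, ∑ y, AM.B U x y *ᵥ v) ≤
        ∑ x, ∑ y, 16 * (v ⬝ᵥ v - η x y) := by
      simp only [sum_dotProduct]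
      apply Finset.sum_le_sum
      intro x _
      apply Finset.sum_le_sum
      intro y _
      simp only [dotProduct_sum]
      exact hin x y
    simp only [smul_eq_mul]
    have h16 : ∑ x, ∑ y, 16 * (v ⬝ᵥ v - η x y) = 16 * ∑ x, ∑ y, (v ⬝ᵥ v - η x y) := by
      simp only [Finset.mul_sum]
    rw [h16] at hsum
    have hc : 0 ≤ 1 / (2 * N) * (1 / (2 * N)) := by positivity
    calc 1 / (2 * N) * (1 / (2 * N) * ((∑ x, ∑ y, AM.B U x y *ᵥ v) ⬝ᵥ
          (∑ x, ∑ y, AM.B U x y *ᵥ v)))
        = 1 / (2 * N) * (1 / (2 * N)) * ((∑ x, ∑ y, AM.B U x y *ᵥ v) ⬝ᵥ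
          (∑ x, ∑ y, AM.B U x y *ᵥ v)) := by ring
      _ ≤ 1 / (2 * N) * (1 / (2 * N)) * (16 * ∑ x, ∑ y, (v ⬝ᵥ v - η x y)) :=
          mul_le_mul_of_nonneg_left hsum hc
      _ = 2 / N * (2 / N * ∑ x, ∑ y, (v ⬝ᵥ v - η x y)) := by
          field_simp
          norm_num
  · rw [hW, dotProduct_smul]
    simp only [dotProduct_sum]
    have : ∀ x y, v ⬝ᵥ (AM.B U x y *ᵥ v) = 0 := by
      intro x y
      rw [AM.B_eq]
      simp only [Matrix.sub_mulVec, Matrix.add_mulVec, dotProduct_sub, dotProduct_add,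
        AM.eta_eq U hU v hv]
      ring
    simp [this]

end Crest.Agent.R155
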