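import Crest.Agent.R155.Defs

set_option autoImplicit false

namespace Crest.Agent.R155

open scoped BigOperators Matrix
open Finset

theorem asm_KM_row (D : ℕ) (h : Equiv.Perm (V D)) : ∑ h', KM D h h' = 1 := by
  unfold KM av
  rw [← Finset.sum_div, Finset.sum_comm]
  have : ∀ c : Coins D, ∑ h' : Equiv.Perm (V D), Lm (pass c) h h' = 1 := by
    intro c
    unfold Lm
    rw [Finset.sum_eq_single ((pass c)⁻¹ * h)]
    · simp
    · intro b _ hb
      rw [if_neg]
      intro h1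
      apply hb
      rw [h1]; simp
    · intro h1; exact absurd (Finset.mem_univ _) h1
  rw [Finset.sum_congr rfl (fun c _ => this c)]
  simp

theorem asm_KM_col (D : ℕ) (h' : Equiv.Perm (V D)) : ∑ h, KM D h h' = 1 := by
  unfold KM av
  rw [← Finset.sum_div, Finset.sum_comm]
  have : ∀ c : Coins D, ∑ h : Equiv.Perm (V D), Lm (pass c) h h' = 1 := by
    intro c
    unfold Lm
    rw [Finset.sum_eq_single (pass c * h')]
    · simp
    · intro b _ hb
      rw [if_neg hb]
    · intro h1; exact absurd (Finset.mem_univ _) h1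
  rw [Finset.sum_congr rfl (fun c _ => this c)]
  simp

theorem asm_pow_row {m : Type} [Fintype m] [DecidableEq m] (A : Matrix m m ℝ)
    (hA : ∀ i, ∑ j, A i j = 1) (t : ℕ) : ∀ i, ∑ j, (A ^ t) i j = 1 := by
  induction t with
  | zero => intro i; simp [Matrix.one_apply]
  | succ t ih =>
    intro i
    rw [pow_succ]
    simp only [Matrix.mul_apply]
    rw [Finset.sum_comm]
    simp only [← Finset.mul_sum, hA, mul_one, ih]

theorem asm_trace_zero (D t : ℕ) (P : Matrix (Equiv.Perm (V D)) (Equiv.Perm (V D)) ℝ)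
    (hP : P = fun _ _ => 1 / ((Fintype.card (V D)).factorial : ℝ)) :
    Matrix.trace (P * (KM D ^ t * (KM D ^ t)ᵀ)) = 1 := by
  have h1 : ∀ i, ∑ j, (KM D ^ t) i j = 1 := asm_pow_row _ (asm_KM_row D) t
  have h2 : ∀ i, ∑ j, ((KM D ^ t)ᵀ) i j = 1 := by
    rw [Matrix.transpose_pow]
    exact asm_pow_row _ (fun i => by simpa [Matrix.transpose_apply] using asm_KM_col D i) t
  have h3 : ∀ i, ∑ j, (KM D ^ t * (KM D ^ t)ᵀ) i j = 1 := by
    intro i
    simp only [Matrix.mul_apply]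
    rw [Finset.sum_comm]
    simp only [← Finset.mul_sum, h2, mul_one, h1]
  obtain ⟨A, hA⟩ : ∃ A, A = KM D ^ t * (KM D ^ t)ᵀ := ⟨_, rfl⟩
  rw [← hA] at h3 ⊢
  have h4 : Matrix.trace (P * A) = ∑ i, ∑ j, P i j * A j i := by
    simp only [Matrix.trace, Matrix.diag_apply, Matrix.mul_apply]
  rw [h4, Finset.sum_comm]
  have h5 : ∀ i j, P i j = 1 / ((Fintype.card (V D)).factorial : ℝ) := by
    intro i j; rw [hP]
  simp only [h5]
  simp only [← Finset.mul_sum, h3, mul_one]
  rw [Finset.sum_const, Finset.card_univ, Fintype.card_perm]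
  rw [nsmul_eq_mul]
  have : ((Fintype.card (V D)).factorial : ℝ) ≠ 0 := by positivity
  field_simp

theorem asm_trace_split (D : ℕ) (L : LevSys (V (D + 1))) :
    Matrix.trace (KM (D + 1) ^ 1600 * (KM (D + 1) ^ 1600)ᵀ) - 1 =
      ∑ k ∈ Finset.Icc 1 (2 ^ (D + 1)),
        Matrix.trace (L.Pi k * (KM (D + 1) ^ 1600 * (KM (D + 1) ^ 1600)ᵀ)) := by
  have hc : Fintype.card (V (D + 1)) = 2 ^ (D + 1) := by simp [V]
  have h := L.sum_one
  rw [hc] at h
  have h2 : Matrix.trace (KM (D + 1) ^ 1600 * (KM (D + 1) ^ 1600)ᵀ) =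
      ∑ k ∈ range (2 ^ (D + 1) + 1),
        Matrix.trace (L.Pi k * (KM (D + 1) ^ 1600 * (KM (D + 1) ^ 1600)ᵀ)) := by
    rw [← Matrix.trace_sum, ← Finset.sum_mul, h, Matrix.one_mul]
  rw [h2, Finset.sum_range_succ', asm_trace_zero (D + 1) 1600 (L.Pi 0) L.zero, add_sub_cancel_right]
  rw [Finset.range_eq_Ico, Finset.sum_Ico_add' (fun k => Matrix.trace (L.Pi k * (KM (D + 1) ^ 1600 * (KM (D + 1) ^ 1600)ᵀ))) 0 (2 ^ (D + 1)) 1]
  rfl

theorem main_of (h1 : StP0) (h2 : StLevSys) (h3 : StFinal) :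
    Filter.Tendsto (fun d : ℕ => Crest.ProbabilityR.Shuffle.tvFromUniform (2 ^ d) (1600 * (d + 1)))
      Filter.atTop (nhds 0) := by
  have L : (D : ℕ) → LevSys (V (D + 1)) := fun D => Classical.choice (h2 (V (D + 1)))
  have h4 := h3 L
  have h5 : Filter.Tendsto (fun D : ℕ => (1 / 2) * Real.sqrt (∑ k ∈ Finset.Icc 1 (2 ^ (D + 1)),
      Matrix.trace ((L D).Pi k * (KM (D + 1) ^ 1600 * (KM (D + 1) ^ 1600)ᵀ))))
      Filter.atTop (nhds 0) := by
    have := (Real.continuous_sqrt.tendsto 0).comp h4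
    have := this.const_mul (1 / 2 : ℝ)
    simpa using this
  refine squeeze_zero (fun d => ?_) (fun d => ?_) h5
  · unfold Crest.ProbabilityR.Shuffle.tvFromUniform
    positivity
  · refine (h1 d 1600).trans (le_of_eq ?_)
    rw [← asm_trace_split d (L d)]

end Crest.Agent.R155
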