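import Crest.Agent.R155.Rel

/-! Row 155, BITS: positions of the shuffle as bit vectors. -/

set_option autoImplicit false

namespace Crest.Agent.R155

open scoped BigOperators
open Finset

namespace BITS

/-! ### encoding -/

def E {n : ℕ} (x : Fin n → Bool) : ℕ := ∑ j : Fin n, if x j then 2 ^ (j : ℕ) else 0

theorem E_snoc {n : ℕ} (x : Fin (n + 1) → Bool) :
    E x = E (fun j : Fin n => x j.castSucc) + if x (Fin.last n) then 2 ^ n else 0 := by
  unfold E
  rw [Fin.sum_univ_castSucc]
  simp

theorem E_cons {n : ℕ} (x : Fin (n + 1) → Bool) :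
    E x = 2 * E (fun j : Fin n => x j.succ) + if x 0 then 1 else 0 := by
  unfold E
  rw [Fin.sum_univ_succ, Finset.mul_sum, add_comm]
  congr 1
  refine Finset.sum_congr rfl fun j _ => ?_
  split_ifs <;> simp [pow_succ, mul_comm]

theorem E_lt {n : ℕ} (x : Fin n → Bool) : E x < 2 ^ n := by
  induction n with
  | zero => simp [E]
  | succ n ih =>
    rw [E_snoc, pow_succ]
    have := ih (fun j : Fin n => x j.castSucc)
    split_ifs <;> omega

theorem E_inj {n : ℕ} {x y : Fin n → Bool} (h : E x = E y) : x = y := by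
  induction n with
  | zero => exact Subsingleton.elim _ _
  | succ n ih =>
    rw [E_snoc x, E_snoc y] at h
    have hx := E_lt (fun j : Fin n => x j.castSucc)
    have hy := E_lt (fun j : Fin n => y j.castSucc)
    have h1 : E (fun j : Fin n => x j.castSucc) = E (fun j : Fin n => y j.castSucc) ∧
        x (Fin.last n) = y (Fin.last n) := by
      cases hx1 : x (Fin.last n) <;> cases hy1 : y (Fin.last n) <;> simp [hx1, hy1] at h ⊢ <;> omega
    have h2 := ih h1.1
    funext j
    refine Fin.lastCases h1.2 (fun j => ?_) j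
    exact congrFun h2 j

noncomputable def encF (n : ℕ) : (Fin n → Bool) ≃ Fin (2 ^ n) :=
  Equiv.ofBijective (fun x => ⟨E x, E_lt x⟩) ((Fintype.bijective_iff_injective_and_card _).2
    ⟨fun x y h => E_inj (by simpa using h), by simp⟩)

theorem encF_val {n : ℕ} (x : Fin n → Bool) : (encF n x : ℕ) = E x := rfl

noncomputable def enc (d : ℕ) : V (d + 1) ≃ Fin (2 * 2 ^ d) :=
  (encF (d + 1)).trans (finCongr (by rw [pow_succ, mul_comm]))

theorem enc_val {d : ℕ} (x : V (d + 1)) : (enc d x : ℕ) = E x := rfl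

theorem step_enc {d : ℕ} (c : Fin (2 ^ d) → Bool) (x : V (d + 1)) :
    Crest.ProbabilityR.Shuffle.stepPos (2 ^ d) c (enc d x) =
      enc d (Fin.cons (xor (x (Fin.last d)) (c (encF d fun j => x j.castSucc)))
        (fun j : Fin d => x j.castSucc)) := by
  apply Fin.ext
  rw [enc_val, E_cons]
  have hlt := E_lt (fun j : Fin d => x j.castSucc)
  have hv : (enc d x : ℕ) = E (fun j : Fin d => x j.castSucc) +
      if x (Fin.last d) then 2 ^ d else 0 := by rw [enc_val, E_snoc]
  have hmod : (enc d x : ℕ) % 2 ^ d = E (fun j : Fin d => x j.castSucc) := by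
    rw [hv]
    split_ifs
    · rw [Nat.add_mod_right, Nat.mod_eq_of_lt hlt]
    · rw [add_zero, Nat.mod_eq_of_lt hlt]
  have hdec : decide (2 ^ d ≤ (enc d x : ℕ)) = x (Fin.last d) := by
    rw [hv]
    cases x (Fin.last d)
    · simp; exact hlt
    · simp
  unfold Crest.ProbabilityR.Shuffle.stepPos
  simp only [Fin.cons_zero, Fin.cons_succ]
  rw [hdec]
  have hc : c ⟨(enc d x : ℕ) % 2 ^ d, Nat.mod_lt _ (by positivity)⟩ =
      c (encF d fun j => x j.castSucc) := by
    congr 1
    apply Fin.ext
    exact hmod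
  rw [hc, hmod]

/-! ### one block -/

/-- rotation of the coordinates -/
def idx (d i : ℕ) (l : Fin (d + 1)) : Fin (d + 1) := ⟨((l : ℕ) + (d + 1) - i) % (d + 1),
  Nat.mod_lt _ (by omega)⟩

def rotn {d : ℕ} (i : ℕ) (s : V (d + 1)) : V (d + 1) := fun l => s (idx d i l)

theorem idx_last {d i : ℕ} (hi : i ≤ d) : idx d i (Fin.last d) = ⟨d - i, by omega⟩ := by
  apply Fin.ext
  unfold idx
  simp only [Fin.val_last]
  have : d + (d + 1) - i = (d - i) + (d + 1) := by omega
  rw [this, Nat.add_mod_right, Nat.mod_eq_of_lt (by omega)]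

theorem idx_zero {d i : ℕ} (hi : i ≤ d) : idx d (i + 1) 0 = ⟨d - i, by omega⟩ := by
  apply Fin.ext
  unfold idx
  simp only [Fin.val_zero]
  have : 0 + (d + 1) - (i + 1) = d - i := by omega
  rw [this, Nat.mod_eq_of_lt (by omega)]

theorem idx_succ {d i : ℕ} (l : Fin d) : idx d (i + 1) l.succ = idx d i l.castSucc := by
  apply Fin.ext
  unfold idx
  simp only [Fin.val_succ, Fin.val_castSucc]
  congr 1
  omega

theorem idx_castSucc_ne {d i : ℕ} (hi : i ≤ d) (l : Fin d) :
    idx d i l.castSucc ≠ ⟨d - i, by omega⟩ := by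
  intro h
  have h1 := congrArg Fin.val h
  unfold idx at h1
  simp only [Fin.val_castSucc] at h1
  have hl := l.isLt
  by_cases h2 : (l : ℕ) + (d + 1) - i < d + 1
  · rw [Nat.mod_eq_of_lt h2] at h1
    omega
  · have h3 : (l : ℕ) + (d + 1) - i = ((l : ℕ) - i) + (d + 1) := by omega
    rw [h3, Nat.add_mod_right, Nat.mod_eq_of_lt (by omega)] at h1
    omega

/-- the coins of a pass from the table of a block -/
noncomputable def coinsOf {d : ℕ} (cs : Fin (d + 1) → Fin (2 ^ d) → Bool) : Coins (d + 1) :=
  fun r k => cs r.rev (encF d fun j => rotn (r.rev : ℕ) k j.castSucc)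

theorem rotn_update {d i : ℕ} (hi : i ≤ d) (s : V (d + 1)) (b : Bool) :
    (fun j : Fin d => rotn i (Function.update s ⟨d - i, by omega⟩ b) j.castSucc) =
      fun j : Fin d => rotn i s j.castSucc := by
  funext j
  unfold rotn
  rw [Function.update_of_ne (idx_castSucc_ne hi j)]

theorem block {d : ℕ} (cs : Fin (d + 1) → Fin (2 ^ d) → Bool) (x : V (d + 1)) :
    ∀ i : ℕ, ∀ hi : i ≤ d + 1,
      Crest.ProbabilityR.Shuffle.iterPos (2 ^ d) i (fun j => cs ⟨j, by omega⟩) (enc d x) =
        enc d (rotn i (tailP (coinsOf cs) (d + 1 - i) x)) := by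
  intro i
  induction i with
  | zero =>
    intro hi
    rw [Crest.ProbabilityR.Shuffle.iterPos]
    congr 1
    rw [tailP_top _ (by omega)]
    funext l
    unfold rotn idx
    have : (⟨((l : ℕ) + (d + 1) - 0) % (d + 1), Nat.mod_lt _ (by omega)⟩ : Fin (d + 1)) = l := by
      apply Fin.ext
      simp only [Nat.sub_zero, Nat.add_mod_right]
      exact Nat.mod_eq_of_lt l.isLt
    rw [this]
    rfl
  | succ i ih =>
    intro hi
    have hi' : i ≤ d := by omega
    rw [Crest.ProbabilityR.Shuffle.iterPos]
    have h1 := ih (by omega)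
    simp only [Fin.val_castSucc, Fin.val_last]
    rw [h1, step_enc]
    congr 1
    obtain ⟨s, hs⟩ : ∃ s, s = tailP (coinsOf cs) (d + 1 - i) x := ⟨_, rfl⟩
    rw [← hs]
    have h2 : tailP (coinsOf cs) (d + 1 - (i + 1)) x =
        stage ⟨d - i, by omega⟩ (coinsOf cs ⟨d - i, by omega⟩) s := by
      have := tailP_succ (coinsOf cs) ⟨d - i, by omega⟩
      simp only at this
      have e1 : d + 1 - (i + 1) = d - i := by omega
      have e2 : d - i + 1 = d + 1 - i := by omega
      rw [e1, this, Equiv.Perm.mul_apply, e2, ← hs]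
    rw [h2]
    funext l
    refine Fin.cases ?_ (fun l => ?_) l
    · rw [Fin.cons_zero]
      unfold rotn
      rw [idx_zero hi', stage_apply_self, idx_last hi']
      congr 1
      unfold coinsOf
      have hrev : (⟨d - i, by omega⟩ : Fin (d + 1)).rev = ⟨i, by omega⟩ := by
        apply Fin.ext
        simp only [Fin.val_rev]
        omega
      rw [hrev]
      simp only
      rw [rotn_update hi']
      rfl
    · rw [Fin.cons_succ]
      unfold rotn
      rw [idx_succ, stage_apply_ne _ _ _ (idx_castSucc_ne hi' l)]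

theorem block_full {d : ℕ} (cs : Fin (d + 1) → Fin (2 ^ d) → Bool) :
    Crest.ProbabilityR.Shuffle.iterPos (2 ^ d) (d + 1) cs =
      ⇑((enc d).permCongr (pass (coinsOf cs))) := by
  funext p
  obtain ⟨x, rfl⟩ := (enc d).surjective p
  have h := block cs x (d + 1) le_rfl
  have e1 : (fun j : Fin (d + 1) => cs ⟨j, by omega⟩) = cs := by funext j; rfl
  rw [e1] at h
  rw [h, Nat.sub_self, tailP_zero]
  rw [Equiv.permCongr_apply, Equiv.symm_apply_apply]
  congr 1
  funext l
  unfold rotn idx
  have : (⟨((l : ℕ) + (d + 1) - (d + 1)) % (d + 1), Nat.mod_lt _ (by omega)⟩ : Fin (d + 1)) = l := by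
    apply Fin.ext
    simp only [Nat.add_sub_cancel]
    exact Nat.mod_eq_of_lt l.isLt
  rw [this]

/-! ### averages -/

theorem av_equiv {Ω Ω' : Type*} [Fintype Ω] [Fintype Ω'] (e : Ω' ≃ Ω) (f : Ω → ℝ) :
    av f = av (fun ω => f (e ω)) := by
  unfold av
  rw [Fintype.card_congr e, Equiv.sum_comp e f]

theorem av_fst {Ω Ω' : Type*} [Fintype Ω] [Fintype Ω'] [Nonempty Ω'] (f : Ω → ℝ) :
    av (fun p : Ω × Ω' => f p.1) = av f := by
  unfold av
  rw [Fintype.sum_prod_type, Fintype.card_prod]
  simp only [Finset.sum_const, Finset.card_univ, nsmul_eq_mul]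
  rw [← Finset.mul_sum]
  have h : (Fintype.card Ω' : ℝ) ≠ 0 := by
    have := Fintype.card_pos (α := Ω')
    positivity
  push_cast
  rw [mul_comm (Fintype.card Ω : ℝ), mul_div_mul_left _ _ h]

theorem av_congr {Ω : Type*} [Fintype Ω] {f g : Ω → ℝ} (h : ∀ ω, f ω = g ω) : av f = av g := by
  have : f = g := funext h
  rw [this]

theorem av_unique {Ω : Type*} [Fintype Ω] [Unique Ω] (f : Ω → ℝ) : av f = f default := by
  unfold av
  rw [Fintype.card_unique, Fintype.sum_unique]
  simp

theorem av_comm {Ω Ω' : Type*} [Fintype Ω] [Fintype Ω'] (f : Ω → Ω' → ℝ) :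
    av (fun p : Ω × Ω' => f p.1 p.2) = av (fun b => av fun a => f a b) := by
  unfold av
  rw [Fintype.sum_prod_type, Fintype.card_prod, Finset.sum_comm]
  push_cast
  rw [← Finset.sum_div, div_div]

/-- inverse rotation -/
def idx' (d i : ℕ) (l : Fin (d + 1)) : Fin (d + 1) := ⟨((l : ℕ) + i) % (d + 1),
  Nat.mod_lt _ (by omega)⟩

theorem idx_idx' {d i : ℕ} (hi : i ≤ d) (l : Fin (d + 1)) : idx d i (idx' d i l) = l := by
  apply Fin.ext
  unfold idx idx'
  simp only
  have hl := l.isLt
  by_cases h : (l : ℕ) + i < d + 1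
  · rw [Nat.mod_eq_of_lt h]
    have : (l : ℕ) + i + (d + 1) - i = l + (d + 1) := by omega
    rw [this, Nat.add_mod_right, Nat.mod_eq_of_lt hl]
  · have h1 : ((l : ℕ) + i) % (d + 1) = l + i - (d + 1) := by
      rw [Nat.mod_eq_sub_mod (by omega), Nat.mod_eq_of_lt (by omega)]
    rw [h1]
    have : (l : ℕ) + i - (d + 1) + (d + 1) - i = l := by omega
    rw [this, Nat.mod_eq_of_lt hl]

theorem idx'_idx {d i : ℕ} (hi : i ≤ d) (l : Fin (d + 1)) : idx' d i (idx d i l) = l := by
  have hinj : Function.Injective (idx d i) := by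
    have hs : Function.Surjective (idx d i) := fun l => ⟨_, idx_idx' hi l⟩
    exact Finite.injective_iff_surjective.2 hs
  exact hinj (idx_idx' hi _)

/-- the splitting of the coins of stage `r` -/
noncomputable def kap (d : ℕ) (r : Fin (d + 1)) : V (d + 1) ≃ Bool × Fin (2 ^ d) where
  toFun k := (k r, encF d fun j => rotn (r.rev : ℕ) k j.castSucc)
  invFun p := fun l => (Fin.snoc (α := fun _ => Bool) ((encF d).symm p.2) p.1 : V (d + 1))
    (idx' d (r.rev : ℕ) l)
  left_inv := by
    intro k
    funext l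
    simp only [Equiv.symm_apply_apply]
    have hr : (r.rev : ℕ) ≤ d := by have := r.rev.isLt; omega
    obtain ⟨l', hl'⟩ : ∃ l', l' = idx' d (r.rev : ℕ) l := ⟨_, rfl⟩
    have hl : l = idx d (r.rev : ℕ) l' := by rw [hl', idx_idx' hr]
    rw [← hl', hl]
    clear hl hl'
    refine Fin.lastCases ?_ (fun j => ?_) l'
    · rw [Fin.snoc_last, idx_last hr]
      congr 1
      apply Fin.ext
      simp only [Fin.val_rev]
      have := r.isLt
      omega
    · rw [Fin.snoc_castSucc]
      rfl
  right_inv := by
    rintro ⟨b, u⟩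
    have hr : (r.rev : ℕ) ≤ d := by have := r.rev.isLt; omega
    simp only [Prod.mk.injEq]
    constructor
    · have h1 : idx' d (r.rev : ℕ) r = Fin.last d := by
        have h2 : r = idx d (r.rev : ℕ) (Fin.last d) := by
          rw [idx_last hr]
          apply Fin.ext
          simp only [Fin.val_rev]
          have := r.isLt
          omega
        calc idx' d (r.rev : ℕ) r = idx' d (r.rev : ℕ) (idx d (r.rev : ℕ) (Fin.last d)) :=
              congrArg _ h2
          _ = Fin.last d := idx'_idx hr _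
      rw [h1, Fin.snoc_last]
    · have h1 : (fun j : Fin d => rotn (r.rev : ℕ) (fun l => (Fin.snoc (α := fun _ => Bool)
          ((encF d).symm u) b : V (d + 1)) (idx' d (r.rev : ℕ) l)) j.castSucc) =
          (encF d).symm u := by
        funext j
        unfold rotn
        simp only
        rw [idx'_idx hr, Fin.snoc_castSucc]
      rw [h1, Equiv.apply_symm_apply]

/-- coins = used coins and dummies -/
noncomputable def split (d : ℕ) :
    ((Fin (d + 1) → Fin (2 ^ d) → Bool) × (Fin (d + 1) → Fin (2 ^ d) → Bool)) ≃ Coins (d + 1) where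
  toFun p := fun r k => if k r then p.2 r.rev (kap d r k).2 else p.1 r.rev (kap d r k).2
  invFun c := (fun i u => c i.rev ((kap d i.rev).symm (false, u)),
    fun i u => c i.rev ((kap d i.rev).symm (true, u)))
  left_inv := by
    rintro ⟨a, b⟩
    have h1 : ∀ (i : Fin (d + 1)) (b : Bool) (u : Fin (2 ^ d)),
        ((kap d i.rev).symm (b, u)) i.rev = b := by
      intro i b u
      have := (kap d i.rev).apply_symm_apply (b, u)
      exact congrArg Prod.fst this
    simp only [Prod.mk.injEq]
    constructor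
    · funext i u
      simp only [h1, Equiv.apply_symm_apply, Fin.rev_rev]
      simp
    · funext i u
      simp only [h1, Equiv.apply_symm_apply, Fin.rev_rev]
      simp
  right_inv := by
    intro c
    funext r k
    simp only [Fin.rev_rev]
    have h1 : kap d r k = (k r, (kap d r k).2) := rfl
    cases hk : k r
    · simp only [Bool.false_eq_true, if_false]
      congr 1
      rw [Equiv.symm_apply_eq, h1, hk]
    · simp only [if_true]
      congr 1
      rw [Equiv.symm_apply_eq, h1, hk]

theorem pass_congr {D : ℕ} {c c' : Coins D} (h : ∀ r k, k r = false → c r k = c' r k) :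
    pass c = pass c' := by
  unfold pass
  congr 2
  funext r
  apply Equiv.ext
  intro x
  rw [stage_apply, stage_apply, h r _ (by simp)]

theorem av_pass {d : ℕ} (G : Equiv.Perm (V (d + 1)) → ℝ) :
    av (fun c : Coins (d + 1) => G (pass c)) =
      av (fun cs : Fin (d + 1) → Fin (2 ^ d) → Bool => G (pass (coinsOf cs))) := by
  rw [av_equiv (split d)]
  rw [← av_fst (Ω' := Fin (d + 1) → Fin (2 ^ d) → Bool)
    (fun cs : Fin (d + 1) → Fin (2 ^ d) → Bool => G (pass (coinsOf cs)))]
  refine av_congr fun p => ?_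
  congr 1
  apply pass_congr
  intro r k hk
  show (if k r then p.2 r.rev (kap d r k).2 else p.1 r.rev (kap d r k).2) = _
  rw [hk]
  rfl

theorem KM_eq' {D : ℕ} (g h : Equiv.Perm (V D)) :
    KM D g h = av fun c : Coins D => if g = pass c * h then (1:ℝ) else 0 := rfl

/-! ### the induction -/

theorem iter_add (m a b : ℕ) (cs : Fin (a + b) → Fin m → Bool) (x : Fin (2 * m)) :
    Crest.ProbabilityR.Shuffle.iterPos m (a + b) cs x =
      Crest.ProbabilityR.Shuffle.iterPos m b (fun i => cs (Fin.natAdd a i))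
        (Crest.ProbabilityR.Shuffle.iterPos m a (fun i => cs (Fin.castAdd b i)) x) := by
  induction b with
  | zero => rfl
  | succ b ih =>
    have h1 := ih (fun i => cs i.castSucc)
    show Crest.ProbabilityR.Shuffle.stepPos m (cs (Fin.last (a + b)))
      (Crest.ProbabilityR.Shuffle.iterPos m (a + b) (fun i => cs i.castSucc) x) = _
    rw [h1]
    rfl

open Classical in
theorem uniformProb_av {Ω : Type*} [Fintype Ω] (S : Set Ω) :
    Crest.FinProb.uniformProb S = av fun ω => if ω ∈ S then (1:ℝ) else 0 := by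
  unfold Crest.FinProb.uniformProb av
  rw [Finset.sum_boole]

open Classical in
theorem main_ind (d : ℕ) : ∀ (t n : ℕ), n = t * (d + 1) → ∀ g : Equiv.Perm (V (d + 1)),
    av (fun cs : Fin n → Fin (2 ^ d) → Bool =>
      if Crest.ProbabilityR.Shuffle.iterPos (2 ^ d) n cs = ⇑((enc d).permCongr g) then (1:ℝ) else 0)
      = (KM (d + 1) ^ t) g 1 := by
  intro t
  induction t with
  | zero =>
    intro n hn g
    rw [zero_mul] at hn
    subst hn
    rw [pow_zero, Matrix.one_apply, av_unique]
    refine if_congr ?_ rfl rfl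
    constructor
    · intro h
      have h1 : (enc d).permCongr g = 1 := by
        apply Equiv.ext
        intro x
        exact (congrFun h x).symm
      have h2 : (enc d).permCongr 1 = (1 : Equiv.Perm (Fin (2 * 2 ^ d))) := by
        apply Equiv.ext; intro x; simp [Equiv.permCongr_apply]
      exact (enc d).permCongr.injective (h1.trans h2.symm)
    · rintro rfl
      funext x
      simp [Equiv.permCongr_apply, Crest.ProbabilityR.Shuffle.iterPos]
  | succ t ih =>
    intro n hn g
    have hn' : n = t * (d + 1) + (d + 1) := by rw [hn, Nat.succ_mul]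
    subst hn'
    rw [pow_succ', Matrix.mul_apply]
    rw [av_equiv (Fin.appendEquiv (t * (d + 1)) (d + 1) (α := Fin (2 ^ d) → Bool))]
    have hiter : ∀ p : (Fin (t * (d + 1)) → Fin (2 ^ d) → Bool) ×
        (Fin (d + 1) → Fin (2 ^ d) → Bool),
        (Crest.ProbabilityR.Shuffle.iterPos (2 ^ d) (t * (d + 1) + (d + 1))
          (Fin.appendEquiv (t * (d + 1)) (d + 1) p) = ⇑((enc d).permCongr g)) ↔
        (Crest.ProbabilityR.Shuffle.iterPos (2 ^ d) (t * (d + 1)) p.1 =
          ⇑((enc d).permCongr ((pass (coinsOf p.2))⁻¹ * g))) := by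
      intro p
      have h1 : ∀ x, Crest.ProbabilityR.Shuffle.iterPos (2 ^ d) (t * (d + 1) + (d + 1))
          (Fin.appendEquiv (t * (d + 1)) (d + 1) p) x = (enc d).permCongr (pass (coinsOf p.2))
          (Crest.ProbabilityR.Shuffle.iterPos (2 ^ d) (t * (d + 1)) p.1 x) := by
        intro x
        rw [iter_add]
        have e1 : (fun i => Fin.appendEquiv (t * (d + 1)) (d + 1) p
            (Fin.natAdd (t * (d + 1)) i)) = p.2 := by
          funext i; simp [Fin.appendEquiv]
        have e2 : (fun i => Fin.appendEquiv (t * (d + 1)) (d + 1) p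
            (Fin.castAdd (d + 1) i)) = p.1 := by
          funext i; simp [Fin.appendEquiv]
        rw [e1, e2, block_full]
      constructor
      · intro h
        funext x
        have h2 := congrFun h x
        rw [h1] at h2
        have h3 : Crest.ProbabilityR.Shuffle.iterPos (2 ^ d) (t * (d + 1)) p.1 x =
            ((enc d).permCongr (pass (coinsOf p.2))).symm ((enc d).permCongr g x) := by
          rw [← h2, Equiv.symm_apply_apply]
        rw [h3, Equiv.symm_apply_eq]
        simp [Equiv.permCongr_apply, Equiv.Perm.mul_apply]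
      · intro h
        funext x
        rw [h1, congrFun h x]
        simp [Equiv.permCongr_apply, Equiv.Perm.mul_apply]
    rw [av_congr (g := fun p : (Fin (t * (d + 1)) → Fin (2 ^ d) → Bool) ×
        (Fin (d + 1) → Fin (2 ^ d) → Bool) =>
        if (Crest.ProbabilityR.Shuffle.iterPos (2 ^ d) (t * (d + 1)) p.1 =
          ⇑((enc d).permCongr ((pass (coinsOf p.2))⁻¹ * g))) then (1:ℝ) else 0)
        (fun p => if_congr (hiter p) rfl rfl)]
    rw [av_comm (fun (a : Fin (t * (d + 1)) → Fin (2 ^ d) → Bool)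
      (b : Fin (d + 1) → Fin (2 ^ d) → Bool) =>
      if (Crest.ProbabilityR.Shuffle.iterPos (2 ^ d) (t * (d + 1)) a =
          ⇑((enc d).permCongr ((pass (coinsOf b))⁻¹ * g))) then (1:ℝ) else 0)]
    rw [av_congr (fun b => ih (t * (d + 1)) rfl ((pass (coinsOf b))⁻¹ * g))]
    rw [← av_pass (fun q => (KM (d + 1) ^ t) (q⁻¹ * g) 1)]
    simp only [KM_eq']
    unfold av
    simp only [div_mul_eq_mul_div]
    rw [← Finset.sum_div]
    congr 1
    simp only [Finset.sum_mul]
    rw [Finset.sum_comm]
    refine Finset.sum_congr rfl fun c _ => ?_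
    have : ∀ h : Equiv.Perm (V (d + 1)), (if g = pass c * h then (1:ℝ) else 0) *
        (KM (d + 1) ^ t) h 1 = if h = (pass c)⁻¹ * g then (KM (d + 1) ^ t) h 1 else 0 := by
      intro h
      have hiff : g = pass c * h ↔ h = (pass c)⁻¹ * g := by
        constructor
        · rintro rfl; rw [inv_mul_cancel_left]
        · rintro rfl; rw [mul_inv_cancel_left]
      by_cases hh : g = pass c * h
      · rw [if_pos hh, if_pos (hiff.1 hh), one_mul]
      · rw [if_neg hh, if_neg (fun h' => hh (hiff.2 h')), zero_mul]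
    simp only [this]
    rw [Finset.sum_ite_eq' Finset.univ]
    simp

end BITS

open BITS in
theorem bits : StBits := by
  intro d
  refine ⟨enc d, fun t g => ?_⟩
  rw [uniformProb_av, ← main_ind d t (t * (d + 1)) rfl g]
  refine av_congr fun cs => ?_
  by_cases h : Crest.ProbabilityR.Shuffle.iterPos (2 ^ d) (t * (d + 1)) cs =
    ⇑((enc d).permCongr g)
  · rw [if_pos h]
    exact if_pos h
  · rw [if_neg h]
    exact if_neg h

end Crest.Agent.R155
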