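import Crest.Agent.R155.Defs

/-!
Row 155, task CHAIN.
-/

set_option autoImplicit false

namespace Crest.Agent.R155

open scoped BigOperators
open Finset

namespace CHAIN

theorem av_mono {Ω : Type*} [Fintype Ω] {f g : Ω → ℝ} (h : ∀ ω, f ω ≤ g ω) : av f ≤ av g := by
  unfold av
  exact div_le_div_of_nonneg_right (Finset.sum_le_sum fun ω _ => h ω) (Nat.cast_nonneg _)

theorem av_mul_const {Ω : Type*} [Fintype Ω] (f : Ω → ℝ) (a : ℝ) :
    av (fun ω => f ω * a) = av f * a := by
  unfold av
  rw [← Finset.sum_mul]
  ring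

theorem av_const_mul {Ω : Type*} [Fintype Ω] (f : Ω → ℝ) (a : ℝ) :
    av (fun ω => a * f ω) = a * av f := by
  unfold av
  rw [← Finset.mul_sum]
  ring

theorem av_nonneg {Ω : Type*} [Fintype Ω] {f : Ω → ℝ} (h : ∀ ω, 0 ≤ f ω) : 0 ≤ av f := by
  unfold av
  exact div_nonneg (Finset.sum_nonneg fun ω _ => h ω) (Nat.cast_nonneg _)

theorem merge_invol {D : ℕ} (m : ℕ) : Function.Involutive
    (fun p : Coins D × Coins D => (merge m p.1 p.2, merge m p.2 p.1)) := by
  rintro ⟨a, b⟩
  simp only [Prod.mk.injEq]
  constructor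
  · funext j
    unfold merge
    by_cases h : (j : ℕ) < m <;> simp [h]
  · funext j
    unfold merge
    by_cases h : (j : ℕ) < m <;> simp [h]

theorem av_merge {D : ℕ} (m : ℕ) (H : Coins D → ℝ) :
    av (fun c0 : Coins D => av fun c' : Coins D => H (merge m c0 c')) = av H := by
  unfold av
  have h1 : ∑ c0 : Coins D, (∑ c' : Coins D, H (merge m c0 c')) / (Fintype.card (Coins D) : ℝ)
      = (∑ p : Coins D × Coins D, H (merge m p.1 p.2)) / (Fintype.card (Coins D) : ℝ) := by
    rw [← Finset.sum_div, Fintype.sum_prod_type]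
  have h2 : ∑ p : Coins D × Coins D, H (merge m p.1 p.2) = ∑ p : Coins D × Coins D, H p.1 :=
    Equiv.sum_comp (merge_invol (D := D) m).toPerm (fun p => H p.1)
  have h3 : ∑ p : Coins D × Coins D, H p.1 = (Fintype.card (Coins D) : ℝ) * ∑ c, H c := by
    rw [Fintype.sum_prod_type]
    simp only [Finset.sum_const, Finset.card_univ, nsmul_eq_mul]
    rw [← Finset.mul_sum]
  rw [h1, h2, h3]
  have hc : (Fintype.card (Coins D) : ℝ) ≠ 0 := by
    exact_mod_cast Fintype.card_ne_zero
  rw [mul_div_cancel_left₀ _ hc]

end CHAIN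

open CHAIN in
theorem chain : StChain := by
  intro D N
  induction N with
  | zero =>
    intro F m C _ _ _ _
    unfold av
    simp
  | succ N ih =>
    intro F m C hF hC hav hdep
    have ih' := ih (fun i => F i.castSucc) (fun i => m i.castSucc) (fun i => C i.castSucc)
      (fun i c => hF _ c) (fun i => hC _) (fun i c0 => hav _ c0)
      (fun i j hij c c' h => hdep _ _ (by simpa using hij) c c' h)
    rw [Fin.prod_univ_castSucc]
    have e1 : (fun c : Coins D => ∏ i, F i c) =
        fun c => (∏ i : Fin N, F i.castSucc c) * F (Fin.last N) c := by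
      funext c
      rw [Fin.prod_univ_castSucc]
    rw [e1, ← av_merge (m (Fin.last N))]
    have e2 : ∀ c0 : Coins D, av (fun c' : Coins D =>
        (∏ i : Fin N, F i.castSucc (merge (m (Fin.last N)) c0 c'))
          * F (Fin.last N) (merge (m (Fin.last N)) c0 c'))
        ≤ (∏ i : Fin N, F i.castSucc c0) * C (Fin.last N) := by
      intro c0
      have : (fun c' : Coins D =>
        (∏ i : Fin N, F i.castSucc (merge (m (Fin.last N)) c0 c'))
          * F (Fin.last N) (merge (m (Fin.last N)) c0 c')) =
          fun c' => (∏ i : Fin N, F i.castSucc c0) * F (Fin.last N) (merge (m (Fin.last N)) c0 c') := by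
        funext c'
        congr 1
        refine Finset.prod_congr rfl fun i _ => ?_
        refine hdep _ (Fin.last N) (Fin.castSucc_lt_last i) _ _ fun k hk => ?_
        unfold merge
        simp [hk]
      rw [this, av_const_mul]
      exact mul_le_mul_of_nonneg_left (hav _ c0) (Finset.prod_nonneg fun i _ => hF _ _)
    refine (av_mono e2).trans ?_
    rw [av_mul_const]
    exact mul_le_mul_of_nonneg_right ih' (hC _)

end Crest.Agent.R155
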