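import Crest.Agent.R155.Defs

set_option autoImplicit false

namespace Crest.Agent.R155

open scoped BigOperators
open Finset

section col

open Classical in
/-- vertices without an `A`-partner -/
noncomputable def colE {ι : Type} [Fintype ι] (A : ι → ι → Prop) : Finset ι :=
  univ.filter fun a => ¬ ∃ b, A a b

theorem mem_Cls {ι : Type} [Fintype ι] (A B : ι → ι → Prop) (Q : Finset ι) :
    Q ∈ Cls A B ↔ Q.Nonempty ∧
    (∀ a ∈ Q, ∀ b, b ∈ Q ↔ Relation.EqvGen (fun a b => A a b ∨ B a b) a b) ∧
    ∀ a ∈ Q, (∃ b, A a b) ∧ (∃ b, B a b) := by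
  classical
  simp only [Cls, mem_filter, mem_univ, true_and]

open Classical in
theorem col_hp {ι : Type} [Fintype ι] [DecidableEq ι] (A : ι → ι → Prop)
    (huniq : ∀ a b b', A a b → A a b' → b = b') :
    ((colE A).card : ℝ) + 2 * hp A = (Fintype.card ι : ℝ) := by
  have h1 : (univ.filter fun p : ι × ι => A p.1 p.2).card
      = (univ.filter fun a : ι => ∃ b, A a b).card := by
    apply Finset.card_bij (fun p _ => p.1)
    · intro p hp
      simp only [mem_filter, mem_univ, true_and] at hp ⊢
      exact ⟨_, hp⟩
    · intro p hp q hq hpq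
      simp only [mem_filter, mem_univ, true_and] at hp hq
      apply Prod.ext hpq
      apply huniq p.1 _ _ hp
      rw [hpq]; exact hq
    · intro a ha
      simp only [mem_filter, mem_univ, true_and] at ha
      obtain ⟨b, hb⟩ := ha
      exact ⟨(a, b), by simpa using hb, rfl⟩
  have h2 : (univ.filter fun a : ι => ∃ b, A a b).card + (colE A).card = Fintype.card ι := by
    unfold colE
    rw [Finset.card_filter_add_card_filter_not]
    rfl
  unfold hp
  rw [h1]
  have h3 : (((univ.filter fun a : ι => ∃ b, A a b).card : ℕ) : ℝ) + ((colE A).card : ℝ)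
      = (Fintype.card ι : ℝ) := by exact_mod_cast h2
  linarith

open Classical in
/-- parity: a finite set closed under `A` minus the vertices without partner has even size -/
theorem col_par {ι : Type} [Fintype ι] [DecidableEq ι] (A : ι → ι → Prop)
    (hirr : ∀ a, ¬ A a a) (hsymm : ∀ a b, A a b → A b a)
    (huniq : ∀ a b b', A a b → A a b' → b = b') (Q : Finset ι)
    (hQ : ∀ a ∈ Q, ∀ b, A a b → b ∈ Q) :
    Even (Q \ colE A).card := by
  have hpart : ∀ a ∈ Q \ colE A, ∃ b, A a b := by
    intro a ha
    rw [mem_sdiff] at ha
    by_contra hne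
    apply ha.2
    simp only [colE, mem_filter, mem_univ, true_and]
    exact hne
  have hsum : ∑ a ∈ Q \ colE A, (1 : ZMod 2) = 0 := by
    have hin : ∀ a (ha : a ∈ Q \ colE A), Classical.choose (hpart a ha) ∈ Q \ colE A := by
      intro a ha
      have h1 := Classical.choose_spec (hpart a ha)
      have ha' := mem_sdiff.1 ha
      rw [mem_sdiff]
      refine ⟨hQ a ha'.1 _ h1, ?_⟩
      simp only [colE, mem_filter, mem_univ, true_and, not_not]
      exact ⟨a, hsymm _ _ h1⟩
    refine Finset.sum_involution (fun a ha => Classical.choose (hpart a ha)) ?_ ?_ hin ?_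
    · intro a ha
      decide
    · intro a ha _ heq
      have := Classical.choose_spec (hpart a ha)
      rw [heq] at this
      exact hirr _ this
    · intro a ha
      have h1 := Classical.choose_spec (hpart a ha)
      have hmem : Classical.choose (hpart a ha) ∈ Q \ colE A := hin a ha
      have h2 := Classical.choose_spec (hpart _ hmem)
      exact huniq _ _ _ h2 (hsymm _ _ h1)
  rw [Finset.sum_const, nsmul_eq_mul, mul_one] at hsum
  exact (ZMod.natCast_eq_zero_iff_even).1 hsum

theorem col : StCol := by
  classical
  intro ι _ _ A B hAi hBi hAs hBs hAu hBu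
  let R : ι → ι → Prop := fun a b => A a b ∨ B a b
  let s : Setoid ι := Relation.EqvGen.setoid R
  have hrel : ∀ a b : ι, (Quotient.mk s a = Quotient.mk s b) ↔ Relation.EqvGen R a b := by
    intro a b
    exact Quotient.eq (r := s)
  let cl : Quotient s → Finset ι := fun c => univ.filter fun a => Quotient.mk s a = c
  have hcl : ∀ c a, a ∈ cl c ↔ Quotient.mk s a = c := by
    intro c a; simp [cl]
  -- step 1: number of colourings
  have hcol : (univ.filter fun q : ι → Bool =>
        (∀ a b, A a b → q a ≠ q b) ∧ (∀ a b, B a b → q a ≠ q b)).card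
      ≤ 2 ^ (Fintype.card (Quotient s)) := by
    have : Fintype.card (Quotient s → Bool) = 2 ^ (Fintype.card (Quotient s)) := by
      simp
    rw [← this, ← Finset.card_univ]
    apply Finset.card_le_card_of_injOn (fun q c => q c.out)
    · intro q _; exact Finset.mem_coe.2 (Finset.mem_univ _)
    · intro q hq q' hq' hqq
      simp only [Finset.coe_filter, mem_univ, true_and, Set.mem_ofPred_eq] at hq hq'
      have key : ∀ a b, Relation.EqvGen R a b → xor (q a) (q' a) = xor (q b) (q' b) := by
        intro a b hab
        induction hab with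
        | rel a b h =>
          have h1 : q a ≠ q b := by
            rcases h with h | h
            · exact hq.1 _ _ h
            · exact hq.2 _ _ h
          have h2 : q' a ≠ q' b := by
            rcases h with h | h
            · exact hq'.1 _ _ h
            · exact hq'.2 _ _ h
          revert h1 h2
          cases q a <;> cases q b <;> cases q' a <;> cases q' b <;> simp
        | refl a => rfl
        | symm a b _ ih => exact ih.symm
        | trans a b c _ _ ih1 ih2 => exact ih1.trans ih2
      funext a
      have h1 : Relation.EqvGen R (Quotient.mk s a).out a := by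
        rw [← hrel]
        exact Quotient.out_eq _
      have h2 := key _ _ h1
      have h3 : q (Quotient.mk s a).out = q' (Quotient.mk s a).out := congrFun hqq (Quotient.mk s a)
      rw [h3] at h2
      have h4 : xor (q a) (q' a) = false := by rw [← h2]; simp
      revert h4
      cases q a <;> cases q' a <;> simp
  -- step 2: number of classes
  let full : Quotient s → Prop := fun c => ∀ a ∈ cl c, (∃ b, A a b) ∧ (∃ b, B a b)
  have hfull : (univ.filter full).card ≤ (Cls A B).card := by
    apply Finset.card_le_card_of_injOn cl
    · intro c hc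
      simp only [Finset.coe_filter, mem_univ, true_and, Set.mem_ofPred_eq] at hc
      rw [Finset.mem_coe, mem_Cls]
      refine ⟨?_, ?_, ?_⟩
      · exact ⟨c.out, (hcl _ _).2 (Quotient.out_eq _)⟩
      · intro a ha b
        rw [hcl] at ha ⊢
        rw [← ha, eq_comm, hrel]
      · exact hc
    · intro c _ c' _ hcc
      have h1 : c.out ∈ cl c := (hcl _ _).2 (Quotient.out_eq _)
      have hcc' : cl c = cl c' := hcc
      rw [hcc', hcl, Quotient.out_eq] at h1
      exact h1
  -- every non-full class has at least two ends
  have hend : ∀ c, ¬ full c → 2 ≤ (cl c ∩ colE A).card + (cl c ∩ colE B).card := by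
    intro c hc
    have hclosedA : ∀ a ∈ cl c, ∀ b, A a b → b ∈ cl c := by
      intro a ha b hab
      rw [hcl] at ha ⊢
      rw [← ha, hrel]
      exact Relation.EqvGen.symm _ _ (Relation.EqvGen.rel _ _ (Or.inl hab))
    have hclosedB : ∀ a ∈ cl c, ∀ b, B a b → b ∈ cl c := by
      intro a ha b hab
      rw [hcl] at ha ⊢
      rw [← ha, hrel]
      exact Relation.EqvGen.symm _ _ (Relation.EqvGen.rel _ _ (Or.inr hab))
    have h1 := col_par A hAi hAs hAu (cl c) hclosedA
    have h2 := col_par B hBi hBs hBu (cl c) hclosedB
    have h3 := Finset.card_sdiff_add_card_inter (cl c) (colE A)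
    have h4 := Finset.card_sdiff_add_card_inter (cl c) (colE B)
    have h5 : 1 ≤ (cl c ∩ colE A).card + (cl c ∩ colE B).card := by
      simp only [full] at hc
      push Not at hc
      obtain ⟨a, ha, hab⟩ := hc
      by_cases hA : ∃ b, A a b
      · have hB : ¬ ∃ b, B a b := by
          rintro ⟨b, hb⟩
          exact hab hA b hb
        have : a ∈ cl c ∩ colE B := by
          rw [mem_inter]
          refine ⟨ha, ?_⟩
          simp only [colE, mem_filter, mem_univ, true_and]
          exact hB
        have : 0 < (cl c ∩ colE B).card := Finset.card_pos.2 ⟨a, this⟩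
        omega
      · have : a ∈ cl c ∩ colE A := by
          rw [mem_inter]
          refine ⟨ha, ?_⟩
          simp only [colE, mem_filter, mem_univ, true_and]
          exact hA
        have : 0 < (cl c ∩ colE A).card := Finset.card_pos.2 ⟨a, this⟩
        omega
    obtain ⟨u, hu⟩ := h1
    obtain ⟨v, hv⟩ := h2
    omega
  have hsumE : ∀ E : Finset ι, ∑ c : Quotient s, (cl c ∩ E).card = E.card := by
    intro E
    rw [Finset.card_eq_sum_card_fiberwise (f := fun a => Quotient.mk s a) (t := univ)
      (by intro a _; exact Finset.mem_coe.2 (mem_univ _))]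
    apply Finset.sum_congr rfl
    intro c _
    congr 1
    ext a
    rw [mem_inter, hcl, mem_filter]
    tauto
  have hnon : 2 * (univ.filter fun c => ¬ full c).card ≤ (colE A).card + (colE B).card := by
    rw [← hsumE (colE A), ← hsumE (colE B), ← Finset.sum_add_distrib]
    calc 2 * (univ.filter fun c => ¬ full c).card
        = ∑ c ∈ univ.filter (fun c => ¬ full c), 2 := by
          rw [Finset.sum_const, smul_eq_mul, mul_comm]
      _ ≤ ∑ c ∈ univ.filter (fun c => ¬ full c), ((cl c ∩ colE A).card + (cl c ∩ colE B).card) := by
          apply Finset.sum_le_sum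
          intro c hc
          rw [mem_filter] at hc
          exact hend c hc.2
      _ ≤ _ := by
          apply Finset.sum_le_sum_of_subset
          exact Finset.filter_subset _ _
  have hclasses : (Fintype.card (Quotient s) : ℝ)
      ≤ (Fintype.card ι : ℝ) - hp A - hp B + ((Cls A B).card : ℝ) := by
    have h1 : (univ.filter full).card + (univ.filter fun c => ¬ full c).card
        = Fintype.card (Quotient s) := by
      rw [Finset.card_filter_add_card_filter_not]
      rfl
    have h1' : ((univ.filter full).card : ℝ) + ((univ.filter fun c => ¬ full c).card : ℝ)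
        = (Fintype.card (Quotient s) : ℝ) := by exact_mod_cast h1
    have h2 : ((univ.filter full).card : ℝ) ≤ ((Cls A B).card : ℝ) := by exact_mod_cast hfull
    have h3 : 2 * ((univ.filter fun c => ¬ full c).card : ℝ)
        ≤ ((colE A).card : ℝ) + ((colE B).card : ℝ) := by exact_mod_cast hnon
    have h4 := col_hp A hAu
    have h5 := col_hp B hBu
    linarith
  calc ((univ.filter fun q : ι → Bool =>
        (∀ a b, A a b → q a ≠ q b) ∧ (∀ a b, B a b → q a ≠ q b)).card : ℝ)
      ≤ (2 : ℝ) ^ (Fintype.card (Quotient s)) := by exact_mod_cast hcol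
    _ = (2 : ℝ) ^ ((Fintype.card (Quotient s) : ℕ) : ℝ) := (Real.rpow_natCast _ _).symm
    _ ≤ _ := Real.rpow_le_rpow_of_exponent_le (by norm_num) hclasses

end col

end Crest.Agent.R155
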