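import Crest.Agent.R155.Defs

/-!
Row 155: linear algebra of symmetric real matrices and their exponentials (helper13, for REC).
-/

set_option autoImplicit false

namespace Crest.Agent.R155.LA

open scoped BigOperators Matrix
open Finset Matrix

variable {m : Type} [Fintype m] [DecidableEq m]

theorem dot_symm (S : Matrix m m ℝ) (hS : Sᵀ = S) (v w : m → ℝ) :
    v ⬝ᵥ (S *ᵥ w) = (S *ᵥ v) ⬝ᵥ w := by
  rw [dotProduct_mulVec, ← mulVec_transpose, hS]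

theorem dot_tr (S : Matrix m m ℝ) (v w : m → ℝ) :
    v ⬝ᵥ (S *ᵥ w) = (Sᵀ *ᵥ v) ⬝ᵥ w := by
  rw [dotProduct_mulVec, ← mulVec_transpose]

theorem dot_self_nonneg (v : m → ℝ) : 0 ≤ v ⬝ᵥ v :=
  Finset.sum_nonneg fun i _ => mul_self_nonneg (v i)

/-- spectral decomposition with exponentials -/
theorem spec (X : Matrix m m ℝ) (hX : Xᵀ = X) :
    ∃ (O : Matrix m m ℝ) (l : m → ℝ), O * Oᵀ = 1 ∧ Oᵀ * O = 1 ∧ X = O * diagonal l * Oᵀ ∧
      ∀ r : ℝ, NormedSpace.exp (r • X) = O * diagonal (fun i => Real.exp (r * l i)) * Oᵀ := by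
  have hH : X.IsHermitian := by
    rw [Matrix.IsHermitian, conjTranspose_eq_transpose_of_trivial, hX]
  set O : Matrix m m ℝ := (hH.eigenvectorUnitary : Matrix m m ℝ) with hO
  have h1 : O * Oᵀ = 1 := by
    have := (Matrix.mem_unitaryGroup_iff.1 hH.eigenvectorUnitary.2)
    rwa [star_eq_conjTranspose, conjTranspose_eq_transpose_of_trivial] at this
  have h2 : Oᵀ * O = 1 := by
    have := (Matrix.mem_unitaryGroup_iff'.1 hH.eigenvectorUnitary.2)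
    rwa [star_eq_conjTranspose, conjTranspose_eq_transpose_of_trivial] at this
  have h3 : X = O * diagonal hH.eigenvalues * Oᵀ := by
    have := hH.spectral_theorem
    rw [Unitary.conjStarAlgAut_apply] at this
    simpa [star_eq_conjTranspose, conjTranspose_eq_transpose_of_trivial, hO] using this
  refine ⟨O, hH.eigenvalues, h1, h2, h3, fun r => ?_⟩
  have hu : IsUnit O := by
    have : Invertible O := ⟨Oᵀ, h2, h1⟩
    exact isUnit_of_invertible O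
  have hinv : O⁻¹ = Oᵀ := inv_eq_right_inv h1
  have h4 : r • X = O * diagonal (fun i => r * hH.eigenvalues i) * O⁻¹ := by
    rw [hinv]
    conv_lhs => rw [h3]
    have : diagonal (fun i => r * hH.eigenvalues i) = r • diagonal hH.eigenvalues := by
      rw [← diagonal_smul]; rfl
    rw [this, Matrix.mul_smul, Matrix.smul_mul]
  rw [h4, Matrix.exp_conj _ _ hu, Matrix.exp_diagonal, hinv]
  congr 2
  congr 1
  funext i
  rw [Pi.exp_def, Real.exp_eq_exp_ℝ]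

/-- exponentials of multiples of one matrix -/
theorem exp_split (X : Matrix m m ℝ) (s t : ℝ) :
    NormedSpace.exp (-((s + t) • X)) = NormedSpace.exp (-(s • X)) * NormedSpace.exp (-(t • X)) := by
  rw [← Matrix.exp_add_of_commute]
  · rw [add_smul, neg_add]
  · exact (((Commute.refl X).smul_left s).smul_right t).neg_left.neg_right

theorem exp_symm (X : Matrix m m ℝ) (hX : Xᵀ = X) (t : ℝ) :
    (NormedSpace.exp (-(t • X)))ᵀ = NormedSpace.exp (-(t • X)) := by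
  rw [← Matrix.exp_transpose, transpose_neg, transpose_smul, hX]

theorem exp_comm {X A : Matrix m m ℝ} (h : Commute X A) (t : ℝ) :
    Commute (NormedSpace.exp (-(t • X))) A := (h.smul_left t).neg_left.exp_left

/-- `⟨v, exp(-tX) v⟩ = ‖exp(-(t/2)X) v‖²` -/
theorem exp_half (X : Matrix m m ℝ) (hX : Xᵀ = X) (t : ℝ) (v : m → ℝ) :
    v ⬝ᵥ (NormedSpace.exp (-(t • X)) *ᵥ v) =
      (NormedSpace.exp (-((t / 2) • X)) *ᵥ v) ⬝ᵥ (NormedSpace.exp (-((t / 2) • X)) *ᵥ v) := by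
  have h : t = t / 2 + t / 2 := by ring
  conv_lhs => rw [h, exp_split, ← mulVec_mulVec, dot_symm _ (exp_symm X hX (t / 2))]

/-- quadratic form of `O diag(d) Oᵀ` -/
theorem quad (O : Matrix m m ℝ) (d : m → ℝ) (v : m → ℝ) :
    v ⬝ᵥ ((O * diagonal d * Oᵀ) *ᵥ v) = ∑ i, d i * ((Oᵀ *ᵥ v) i) ^ 2 := by
  rw [← mulVec_mulVec, ← mulVec_mulVec, dot_tr]
  simp only [dotProduct, mulVec_diagonal]
  refine Finset.sum_congr rfl fun i _ => ?_
  ring

theorem quad_one (O : Matrix m m ℝ) (h : O * Oᵀ = 1) (v : m → ℝ) :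
    v ⬝ᵥ v = ∑ i, ((Oᵀ *ᵥ v) i) ^ 2 := by
  have := quad O (fun _ => 1) v
  rw [diagonal_one, Matrix.mul_one, h, one_mulVec] at this
  simpa using this

/-- eigenvalue bounds from quadratic form bounds -/
theorem eig_ge (X O : Matrix m m ℝ) (l : m → ℝ) (h2 : Oᵀ * O = 1) (h3 : X = O * diagonal l * Oᵀ)
    (hP : ∀ v, 0 ≤ v ⬝ᵥ (X *ᵥ v)) (i : m) : 0 ≤ l i := by
  have := hP (O *ᵥ (Pi.single i 1))
  rw [h3, quad, mulVec_mulVec, h2, one_mulVec] at this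
  rw [Finset.sum_eq_single i] at this
  · simpa using this
  · intro j _ hj
    simp [Pi.single_eq_of_ne hj]
  · intro h
    exact absurd (Finset.mem_univ i) h

theorem exp_le_self (X : Matrix m m ℝ) (hX : Xᵀ = X) (hP : ∀ v, 0 ≤ v ⬝ᵥ (X *ᵥ v)) (r : ℝ)
    (hr : 0 ≤ r) (v : m → ℝ) : v ⬝ᵥ (NormedSpace.exp (-(r • X)) *ᵥ v) ≤ v ⬝ᵥ v := by
  obtain ⟨O, l, h1, h2, h3, h4⟩ := spec X hX
  have hl : ∀ i, 0 ≤ l i := eig_ge X O l h2 h3 hP
  rw [← neg_smul, h4, quad, quad_one O h1]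
  refine Finset.sum_le_sum fun i _ => ?_
  have : Real.exp (-r * l i) ≤ 1 := by
    rw [Real.exp_le_one_iff]
    nlinarith [mul_nonneg hr (hl i)]
  nlinarith [sq_nonneg ((Oᵀ *ᵥ v) i)]

/-- monotonicity in `t` -/
theorem exp_mono (X : Matrix m m ℝ) (hX : Xᵀ = X) (hP : ∀ v, 0 ≤ v ⬝ᵥ (X *ᵥ v)) (s t : ℝ)
    (hst : s ≤ t) (v : m → ℝ) :
    v ⬝ᵥ (NormedSpace.exp (-(t • X)) *ᵥ v) ≤ v ⬝ᵥ (NormedSpace.exp (-(s • X)) *ᵥ v) := by
  obtain ⟨O, l, h1, h2, h3, h4⟩ := spec X hX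
  have hl : ∀ i, 0 ≤ l i := eig_ge X O l h2 h3 hP
  rw [← neg_smul, ← neg_smul, h4, h4, quad, quad]
  refine Finset.sum_le_sum fun i _ => ?_
  have : Real.exp (-t * l i) ≤ Real.exp (-s * l i) := by
    rw [Real.exp_le_exp]
    nlinarith [mul_nonneg (sub_nonneg.2 hst) (hl i)]
  nlinarith [sq_nonneg ((Oᵀ *ᵥ v) i)]

/-- a symmetric idempotent commuting with `X` can be removed -/
theorem exp_proj (X P : Matrix m m ℝ) (hX : Xᵀ = X) (hPs : Pᵀ = P) (hPP : P * P = P)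
    (hc : Commute X P) (t : ℝ) (f : m → ℝ) :
    (P *ᵥ f) ⬝ᵥ (NormedSpace.exp (-(t • X)) *ᵥ (P *ᵥ f)) ≤
      f ⬝ᵥ (NormedSpace.exp (-(t • X)) *ᵥ f) := by
  rw [exp_half X hX, exp_half X hX]
  have h1 : NormedSpace.exp (-((t / 2) • X)) *ᵥ (P *ᵥ f) =
      P *ᵥ (NormedSpace.exp (-((t / 2) • X)) *ᵥ f) := by
    rw [mulVec_mulVec, mulVec_mulVec, (exp_comm hc (t / 2)).eq]
  rw [h1]
  set g := NormedSpace.exp (-((t / 2) • X)) *ᵥ f
  have h2 : (P *ᵥ g) ⬝ᵥ (P *ᵥ g) = g ⬝ᵥ (P *ᵥ g) := by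
    rw [dot_symm P hPs, mulVec_mulVec, hPP, dotProduct_comm]
  have h3 : 0 ≤ (g - P *ᵥ g) ⬝ᵥ (g - P *ᵥ g) := dot_self_nonneg _
  rw [sub_dotProduct, dotProduct_sub, dotProduct_sub, dotProduct_comm (P *ᵥ g) g, h2] at h3
  rw [h2]
  linarith

end Crest.Agent.R155.LA
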