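import Crest.Agent.R155.Defs

/-! closure properties of `RInv`, and `RInv (KM D)`; `Lm` as a homomorphism -/

set_option autoImplicit false

namespace Crest.Agent.R155

open scoped BigOperators Matrix
open Finset

section
variable {W : Type} [Fintype W] [DecidableEq W]

theorem RInv.mul {A B : Matrix (Equiv.Perm W) (Equiv.Perm W) ℝ} (hA : RInv A) (hB : RInv B) :
    RInv (A * B) := by
  intro g h h'
  simp only [Matrix.mul_apply]
  rw [← Equiv.sum_comp (Equiv.mulRight g)]
  apply Finset.sum_congr rfl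
  intro x _
  simp only [Equiv.coe_mulRight]
  rw [hA g h x, hB g x h']

theorem RInv.transpose {A : Matrix (Equiv.Perm W) (Equiv.Perm W) ℝ} (hA : RInv A) : RInv Aᵀ := by
  intro g h h'
  simp only [Matrix.transpose_apply]
  exact hA g h' h

theorem RInv.one : RInv (1 : Matrix (Equiv.Perm W) (Equiv.Perm W) ℝ) := by
  intro g h h'
  simp [Matrix.one_apply]

theorem RInv.zero : RInv (0 : Matrix (Equiv.Perm W) (Equiv.Perm W) ℝ) := by
  intro g h h'
  simp

theorem RInv.add {A B : Matrix (Equiv.Perm W) (Equiv.Perm W) ℝ} (hA : RInv A) (hB : RInv B) :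
    RInv (A + B) := by
  intro g h h'
  simp only [Matrix.add_apply]
  rw [hA g h h', hB g h h']

theorem RInv.sub {A B : Matrix (Equiv.Perm W) (Equiv.Perm W) ℝ} (hA : RInv A) (hB : RInv B) :
    RInv (A - B) := by
  intro g h h'
  simp only [Matrix.sub_apply]
  rw [hA g h h', hB g h h']

theorem RInv.smul {A : Matrix (Equiv.Perm W) (Equiv.Perm W) ℝ} (c : ℝ) (hA : RInv A) :
    RInv (c • A) := by
  intro g h h'
  simp only [Matrix.smul_apply]
  rw [hA g h h']

theorem RInv.sum {κ : Type*} (s : Finset κ) {A : κ → Matrix (Equiv.Perm W) (Equiv.Perm W) ℝ}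
    (hA : ∀ i ∈ s, RInv (A i)) : RInv (∑ i ∈ s, A i) := by
  intro g h h'
  simp only [Matrix.sum_apply]
  exact Finset.sum_congr rfl fun i hi => hA i hi g h h'

theorem RInv.pow {A : Matrix (Equiv.Perm W) (Equiv.Perm W) ℝ} (hA : RInv A) (k : ℕ) :
    RInv (A ^ k) := by
  induction k with
  | zero => rw [pow_zero]; exact RInv.one
  | succ k ih => rw [pow_succ]; exact ih.mul hA

theorem RInv_Lm (g : Equiv.Perm W) : RInv (Lm g) := by
  intro k h h'
  simp only [Lm, ← mul_assoc]
  congr 1
  exact propext ⟨fun h1 => mul_right_cancel h1, fun h1 => by rw [h1]⟩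

theorem Lm_one : Lm (1 : Equiv.Perm W) = 1 := by
  ext h h'
  simp [Lm, Matrix.one_apply]

theorem Lm_mul (g k : Equiv.Perm W) : Lm (g * k) = Lm g * Lm k := by
  ext h h'
  simp only [Lm, Matrix.mul_apply]
  rw [Finset.sum_eq_single (k * h')]
  · simp [mul_assoc]
  · intro b _ hb
    rw [if_neg hb, mul_zero]
  · intro h1; exact absurd (Finset.mem_univ _) h1

theorem Lm_transpose (g : Equiv.Perm W) : (Lm g)ᵀ = Lm g⁻¹ := by
  ext h h'
  simp only [Lm, Matrix.transpose_apply]
  congr 1
  exact propext ⟨fun h1 => by rw [h1]; simp, fun h1 => by rw [h1]; simp⟩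

/-- `Lm` as a monoid homomorphism -/
def LmHom (W : Type) [Fintype W] [DecidableEq W] :
    Equiv.Perm W →* Matrix (Equiv.Perm W) (Equiv.Perm W) ℝ where
  toFun := Lm
  map_one' := Lm_one
  map_mul' := Lm_mul

theorem RInv_Xm : RInv (Xm W) := by
  unfold Xm
  exact RInv.smul _ (RInv.sum _ fun p _ => RInv.one.sub (RInv_Lm _))

end

theorem RInv_KM (D : ℕ) : RInv (KM D) := by
  intro g h h'
  unfold KM av
  congr 1
  exact Finset.sum_congr rfl fun c _ => RInv_Lm (pass c) g h h'

/-- `KM` as a sum of matrices -/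
theorem KM_eq (D : ℕ) : KM D = (1 / (Fintype.card (Coins D) : ℝ)) • ∑ c : Coins D, Lm (pass c) := by
  ext h h'
  simp only [KM, av, Matrix.smul_apply, Matrix.sum_apply, smul_eq_mul]
  ring

end Crest.Agent.R155
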