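import Crest.Agent.R155.Defs
import Crest.Agent.R155.RI
import Crest.Agent.R155.LA

set_option autoImplicit false

namespace Crest.Agent.R155

open scoped BigOperators Matrix
open Finset Matrix

section
variable {m : Type} [Fintype m] [DecidableEq m]

theorem exp_le_of_lb (X P : Matrix m m ℝ) (hX : Xᵀ = X)
    (hc : Commute X P) (x θ : ℝ) (hθ : 0 ≤ θ)
    (hlb : ∀ v : m → ℝ, P *ᵥ v = v → x * (v ⬝ᵥ v) ≤ v ⬝ᵥ (X *ᵥ v)) (v : m → ℝ)
    (hv : P *ᵥ v = v) :
    v ⬝ᵥ (NormedSpace.exp (-(θ • X)) *ᵥ v) ≤ Real.exp (-(θ * x)) * (v ⬝ᵥ v) := by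
  obtain ⟨O, l, h1, h2, h3, h4⟩ := LA.spec X hX
  rw [← neg_smul, h4, LA.quad, LA.quad_one O h1 v, Finset.mul_sum]
  set φ : m → ℝ := fun i => if l i < x then 1 else 0 with hφ
  set Q : Matrix m m ℝ := O * diagonal φ * Oᵀ with hQ
  set M : Matrix m m ℝ := Oᵀ * P * O with hM
  have hPM : P = O * M * Oᵀ := by
    rw [hM]
    calc P = (O * Oᵀ) * P * (O * Oᵀ) := by rw [h1, Matrix.one_mul, Matrix.mul_one]
      _ = _ := by simp only [Matrix.mul_assoc]
  have hXM : diagonal l * M = M * diagonal l := by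
    have e1 : Oᵀ * (X * P) * O = Oᵀ * (P * X) * O := by rw [hc.eq]
    have e2 : Oᵀ * (X * P) * O = diagonal l * M := by
      rw [h3, hM]
      calc Oᵀ * (O * diagonal l * Oᵀ * P) * O = (Oᵀ * O) * diagonal l * (Oᵀ * P * O) := by
            simp only [Matrix.mul_assoc]
        _ = _ := by rw [h2, Matrix.one_mul]
    have e3 : Oᵀ * (P * X) * O = M * diagonal l := by
      rw [h3, hM]
      calc Oᵀ * (P * (O * diagonal l * Oᵀ)) * O = (Oᵀ * P * O) * diagonal l * (Oᵀ * O) := by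
            simp only [Matrix.mul_assoc]
        _ = _ := by rw [h2, Matrix.mul_one]
    rw [← e2, ← e3, e1]
  have hφM : diagonal φ * M = M * diagonal φ := by
    ext i j
    have e := congrFun (congrFun hXM i) j
    rw [Matrix.diagonal_mul, Matrix.mul_diagonal] at e ⊢
    by_cases h0 : M i j = 0
    · rw [h0]; simp
    · have : l i = l j := by
        have e5 : (l i - l j) * M i j = 0 := by linarith
        rcases mul_eq_zero.1 e5 with h | h
        · linarith
        · exact absurd h h0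
      simp only [hφ, this]
      ring
  have hQP : P * Q = Q * P := by
    calc P * Q = O * (M * (Oᵀ * O) * diagonal φ) * Oᵀ := by
          rw [hQ]; conv_lhs => rw [hPM]
          simp only [Matrix.mul_assoc]
      _ = O * (diagonal φ * (Oᵀ * O) * M) * Oᵀ := by rw [h2, Matrix.mul_one, Matrix.mul_one, hφM]
      _ = Q * P := by
          rw [hQ]; conv_rhs => rw [hPM]
          simp only [Matrix.mul_assoc]
  have hh : P *ᵥ (Q *ᵥ v) = Q *ᵥ v := by
    rw [mulVec_mulVec, hQP, ← mulVec_mulVec, hv]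
  have hw : ∀ i, (Oᵀ *ᵥ (Q *ᵥ v)) i = φ i * (Oᵀ *ᵥ v) i := by
    intro i
    rw [mulVec_mulVec, hQ]
    have : Oᵀ * (O * diagonal φ * Oᵀ) = diagonal φ * Oᵀ := by
      rw [← Matrix.mul_assoc, ← Matrix.mul_assoc, h2, Matrix.one_mul]
    rw [this, ← mulVec_mulVec, mulVec_diagonal]
  have key := hlb _ hh
  rw [h3, LA.quad, LA.quad_one O h1 (Q *ᵥ v), Finset.mul_sum] at key
  simp only [hw] at key
  have key2 : ∑ i, (x - l i) * (φ i * (Oᵀ *ᵥ v) i) ^ 2 ≤ 0 := by
    have : ∑ i, (x - l i) * (φ i * (Oᵀ *ᵥ v) i) ^ 2 =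
        ∑ i, x * (φ i * (Oᵀ *ᵥ v) i) ^ 2 - ∑ i, l i * (φ i * (Oᵀ *ᵥ v) i) ^ 2 := by
      rw [← Finset.sum_sub_distrib]
      exact Finset.sum_congr rfl fun i _ => by ring
    rw [this]; linarith
  have hnn : ∀ i ∈ (univ : Finset m), 0 ≤ (x - l i) * (φ i * (Oᵀ *ᵥ v) i) ^ 2 := by
    intro i _
    by_cases hi : l i < x
    · exact mul_nonneg (by linarith) (sq_nonneg _)
    · simp [hφ, hi]
  have hz := (Finset.sum_eq_zero_iff_of_nonneg hnn).1 (le_antisymm key2 (Finset.sum_nonneg hnn))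
  apply Finset.sum_le_sum
  intro i _
  by_cases hi : l i < x
  · have := hz i (Finset.mem_univ i)
    simp only [hφ, hi, if_true, one_mul] at this
    rcases mul_eq_zero.1 this with h | h
    · linarith
    · rw [h]; simp
  · push Not at hi
    apply mul_le_mul_of_nonneg_right _ (sq_nonneg _)
    apply Real.exp_le_exp.mpr
    have := mul_le_mul_of_nonneg_left hi hθ
    linarith

end

theorem Xm_symm (W : Type) [Fintype W] [DecidableEq W] : (Xm W)ᵀ = Xm W := by
  unfold Xm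
  rw [Matrix.transpose_smul, Matrix.transpose_sum]
  congr 1
  apply Finset.sum_congr rfl
  intro p _
  rw [Matrix.transpose_sub, Matrix.transpose_one, Lm_transpose, Equiv.swap_inv]

theorem Xm_nonneg (W : Type) [Fintype W] [DecidableEq W] (f : Equiv.Perm W → ℝ) :
    0 ≤ f ⬝ᵥ (Xm W *ᵥ f) := by
  unfold Xm
  rw [Matrix.smul_mulVec, dotProduct_smul, smul_eq_mul]
  apply mul_nonneg (by positivity)
  rw [Matrix.sum_mulVec, dotProduct_sum]
  apply Finset.sum_nonneg
  intro p _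
  set S : Matrix (Equiv.Perm W) (Equiv.Perm W) ℝ := Lm (Equiv.swap p.1 p.2) with hS
  have hSt : Sᵀ = S := by rw [hS, Lm_transpose, Equiv.swap_inv]
  have hSS : S * S = 1 := by rw [hS, ← Lm_mul, Equiv.swap_mul_self, Lm_one]
  rw [Matrix.sub_mulVec, Matrix.one_mulVec, dotProduct_sub]
  have h1 : (S *ᵥ f) ⬝ᵥ (S *ᵥ f) = f ⬝ᵥ f := by
    rw [← LA.dot_symm S hSt, mulVec_mulVec, hSS, one_mulVec]
  have h2 := LA.dot_self_nonneg (f - S *ᵥ f)
  rw [sub_dotProduct, dotProduct_sub, dotProduct_sub, h1, dotProduct_comm (S *ᵥ f) f] at h2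
  linarith

theorem XU_LmHom (W : Type) [Fintype W] [DecidableEq W] : XU (LmHom W) = Xm W := rfl

theorem KU_LmHom (D : ℕ) : KU (LmHom (V D)) = KM D := rfl

theorem contr (h1 : StRec) : StContr := by
  intro D L k t x f hx
  set P := L.Pi k with hP
  set X := Xm (V (D + 1)) with hX
  set θ : ℝ := 3 / 40 + 1 / (10 * (2 : ℝ) ^ (D + 1)) with hθ
  have hθ0 : 3 / 40 ≤ θ := by
    rw [hθ]
    have : (0 : ℝ) ≤ 1 / (10 * (2 : ℝ) ^ (D + 1)) := by positivity
    linarith
  have hXP : Commute X P := L.comm k X RInv_Xm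
  have hstep : ∀ g : Equiv.Perm (V (D + 1)) → ℝ, P *ᵥ g = g →
      (KM (D + 1) *ᵥ g) ⬝ᵥ (KM (D + 1) *ᵥ g) ≤ Real.exp (-((3 / 40) * x)) * (g ⬝ᵥ g) := by
    intro g hg
    have e1 := h1 D (Equiv.Perm (V (D + 1))) (LmHom (V (D + 1))) g (fun g => Lm_transpose g)
    rw [XU_LmHom, KU_LmHom] at e1
    refine e1.trans ?_
    have e2 := exp_le_of_lb X P (Xm_symm _) hXP (max x 0) θ (by linarith) (by
      intro v hv
      have hl : Lev k v := by rw [← hv]; exact L.lev k v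
      rcases le_total x 0 with h | h
      · rw [max_eq_right h, zero_mul]; exact Xm_nonneg _ v
      · rw [max_eq_left h]; exact hx v hl) g hg
    refine e2.trans ?_
    apply mul_le_mul_of_nonneg_right _ (LA.dot_self_nonneg g)
    apply Real.exp_le_exp.mpr
    have h5 : x ≤ max x 0 := le_max_left _ _
    have h6 : 0 ≤ max x 0 := le_max_right _ _
    nlinarith
  have hPf : (P *ᵥ f) ⬝ᵥ (P *ᵥ f) ≤ f ⬝ᵥ f := by
    have h2 : (P *ᵥ f) ⬝ᵥ (P *ᵥ f) = f ⬝ᵥ (P *ᵥ f) := by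
      rw [LA.dot_symm P (L.symm k), mulVec_mulVec, L.idem k, dotProduct_comm]
    have h3 := LA.dot_self_nonneg (f - P *ᵥ f)
    rw [sub_dotProduct, dotProduct_sub, dotProduct_sub, dotProduct_comm (P *ᵥ f) f, h2] at h3
    rw [h2]; linarith
  have hiter : ∀ t : ℕ, (KM (D + 1) ^ t *ᵥ (P *ᵥ f)) ⬝ᵥ (KM (D + 1) ^ t *ᵥ (P *ᵥ f))
      ≤ Real.exp (-((3 / 40) * x * t)) * ((P *ᵥ f) ⬝ᵥ (P *ᵥ f)) := by
    intro t
    induction t with
    | zero => simp
    | succ t ih =>
      rw [pow_succ', ← mulVec_mulVec]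
      have hg : P *ᵥ (KM (D + 1) ^ t *ᵥ (P *ᵥ f)) = KM (D + 1) ^ t *ᵥ (P *ᵥ f) := by
        have e1 : P * KM (D + 1) ^ t = KM (D + 1) ^ t * P :=
          (L.comm k _ ((RInv_KM (D + 1)).pow t)).symm
        have e2 : P * P = P := L.idem k
        rw [mulVec_mulVec, e1, mulVec_mulVec, Matrix.mul_assoc, e2, ← mulVec_mulVec]
      refine (hstep _ hg).trans ?_
      refine (mul_le_mul_of_nonneg_left ih (Real.exp_pos _).le).trans (le_of_eq ?_)
      rw [← mul_assoc, ← Real.exp_add]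
      congr 2
      push_cast
      ring
  exact (hiter t).trans (mul_le_mul_of_nonneg_left hPf (Real.exp_pos _).le)

end Crest.Agent.R155
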