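import Crest.Agent.R155.Defs

/-!
Row 155, task CS: coordinatewise summation.
-/

set_option autoImplicit false

namespace Crest.Agent.R155

open scoped BigOperators
open Finset

theorem cs : StCS := by
  intro D
  induction D with
  | zero =>
    intro β _ _ F C hC hF hdep hsum
    simp
  | succ D ih =>
    intro β _ _ F C hC hF hdep hsum
    rcases isEmpty_or_nonempty β with hβ | ⟨⟨b0⟩⟩
    · have : IsEmpty (Fin (D + 1) → β) := ⟨fun f => hβ.elim (f 0)⟩
      rw [Finset.univ_eq_empty, Finset.sum_empty]
      positivity
    · have hnd : ∀ (r : Fin D) (b : β) (z' : Fin D → β),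
          F r.succ (Fin.cons b z' : Fin (D + 1) → β) = F r.succ (Fin.cons b0 z') := by
        intro r b z'
        refine hdep _ _ _ fun j hj => ?_
        have hj0 : j ≠ 0 := by
          rintro rfl
          exact absurd hj (by simp)
        obtain ⟨k, rfl⟩ := Fin.exists_succ_eq.2 hj0
        simp
      have h1 : ∑ z : Fin (D + 1) → β, ∏ r, F r z
          = ∑ z' : Fin D → β, ∑ b : β, ∏ r, F r (Fin.cons b z' : Fin (D + 1) → β) := by
        rw [← (Fin.consEquiv (fun _ : Fin (D + 1) => β)).sum_comp, Fintype.sum_prod_type,
          Finset.sum_comm]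
        rfl
      rw [h1]
      have h2 : ∀ z' : Fin D → β, ∑ b : β, ∏ r, F r (Fin.cons b z' : Fin (D + 1) → β)
          ≤ C * ∏ r : Fin D, F r.succ (Fin.cons b0 z' : Fin (D + 1) → β) := by
        intro z'
        have : ∀ b : β, ∏ r, F r (Fin.cons b z' : Fin (D + 1) → β)
            = F 0 (Function.update (Fin.cons b0 z' : Fin (D + 1) → β) 0 b) *
              ∏ r : Fin D, F r.succ (Fin.cons b0 z' : Fin (D + 1) → β) := by
          intro b
          rw [Fin.prod_univ_succ]
          congr 1
          · rw [Fin.update_cons_zero]
          · exact Finset.prod_congr rfl fun r _ => hnd r b z'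
        rw [Finset.sum_congr rfl fun b _ => this b, ← Finset.sum_mul]
        exact mul_le_mul_of_nonneg_right (hsum 0 _) (Finset.prod_nonneg fun r _ => hF _ _)
      refine (Finset.sum_le_sum fun z' _ => h2 z').trans ?_
      rw [← Finset.mul_sum, pow_succ']
      refine mul_le_mul_of_nonneg_left ?_ hC
      refine ih β (fun r z' => F r.succ (Fin.cons b0 z' : Fin (D + 1) → β)) C hC
        (fun r z => hF _ _) ?_ ?_
      · intro r z z' h
        refine hdep _ _ _ fun j hj => ?_
        have hj0 : j ≠ 0 := by
          rintro rfl
          exact absurd hj (by simp)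
        obtain ⟨k, rfl⟩ := Fin.exists_succ_eq.2 hj0
        simp only [Fin.cons_succ]
        exact h k (by simpa using hj)
      · intro r z
        have : ∀ b, (Fin.cons b0 (Function.update z r b) : Fin (D + 1) → β) =
            Function.update (Fin.cons b0 z : Fin (D + 1) → β) r.succ b := by
          intro b
          rw [Fin.cons_update]
        simp only [this]
        exact hsum _ _

end Crest.Agent.R155
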