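import Crest.Agent.R155.SPC

set_option autoImplicit false

namespace Crest.Agent.R155
namespace SPC
open scoped BigOperators Matrix
open Finset

section rk
variable {n : Type} [Fintype n] [DecidableEq n]

noncomputable def rk (A : Matrix n n ℝ) : ℕ := Module.finrank ℝ (LinearMap.range (Matrix.toLin' A))

theorem rk_add (A B : Matrix n n ℝ) : rk (A + B) ≤ rk A + rk B := by
  unfold rk
  calc Module.finrank ℝ (LinearMap.range (Matrix.toLin' (A + B)))
      ≤ Module.finrank ℝ ((LinearMap.range (Matrix.toLin' A) ⊔ LinearMap.range (Matrix.toLin' B) : Submodule ℝ (n → ℝ))) := by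
        apply Submodule.finrank_mono
        rintro _ ⟨x, rfl⟩
        rw [map_add, LinearMap.add_apply]
        exact Submodule.mem_sup.2 ⟨_, ⟨x, rfl⟩, _, ⟨x, rfl⟩, rfl⟩
    _ ≤ _ := Submodule.finrank_add_le_finrank_add_finrank _ _

theorem rk_zero : rk (0 : Matrix n n ℝ) = 0 := by
  unfold rk
  rw [map_zero, LinearMap.range_zero, finrank_bot]

theorem rk_sum {κ : Type} (s : Finset κ) (A : κ → Matrix n n ℝ) : rk (∑ i ∈ s, A i) ≤ ∑ i ∈ s, rk (A i) := by
  classical
  induction s using Finset.induction_on with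
  | empty => simp [rk_zero]
  | insert a s ha ih =>
    rw [Finset.sum_insert ha, Finset.sum_insert ha]
    exact (rk_add _ _).trans (by omega)

theorem rk_ker (A B : Matrix n n ℝ) (h : ∀ f, A *ᵥ f = 0 → B *ᵥ f = 0) : rk B ≤ rk A := by
  unfold rk
  have h1 := LinearMap.finrank_range_add_finrank_ker (Matrix.toLin' A)
  have h2 := LinearMap.finrank_range_add_finrank_ker (Matrix.toLin' B)
  have h3 : Module.finrank ℝ (LinearMap.ker (Matrix.toLin' A)) ≤
      Module.finrank ℝ (LinearMap.ker (Matrix.toLin' B)) := by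
    apply Submodule.finrank_mono
    intro f hf
    rw [LinearMap.mem_ker, Matrix.toLin'_apply] at hf ⊢
    exact h f hf
  omega

theorem trace_rk {P : Matrix n n ℝ} (h : P * P = P) : Matrix.trace P = (rk P : ℝ) := by
  have h1 : IsIdempotentElem (Matrix.toLin' P) := by
    unfold IsIdempotentElem
    rw [Module.End.mul_eq_comp, ← Matrix.toLin'_mul, h]
  rw [← Matrix.trace_toLin'_eq]
  exact (LinearMap.IsIdempotentElem.isProj_range _ h1).trace

theorem rk_eq_zero {P : Matrix n n ℝ} (h : rk P = 0) : P = 0 := by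
  unfold rk at h
  rw [Submodule.finrank_eq_zero] at h
  rw [LinearMap.range_eq_bot] at h
  exact (Matrix.toLin').injective (by rw [h, map_zero])

end rk
end SPC

open SPC Finset Matrix

theorem dim (h1 : StEM) : StDim := by
  intro W _ _ k R Q hR hs hi hr hl
  obtain ⟨emT, emS, emC, emTr, emU, emE⟩ := h1 W
  -- the products `EM R' * Q` are symmetric projections
  have hpr : ∀ R' : Finset W, (EM R' * Q) * (EM R' * Q) = EM R' * Q := by
    intro R'
    have hc := emC R' Q hr
    calc (EM R' * Q) * (EM R' * Q) = EM R' * (Q * EM R') * Q := by simp only [Matrix.mul_assoc]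
      _ = (EM R' * EM R') * (Q * Q) := by rw [hc]; simp only [Matrix.mul_assoc]
      _ = EM R' * Q := by rw [(emS R' R' (Finset.Subset.refl _)).1, hi]
  have hker : ∀ f, (∑ R' ∈ (univ : Finset W).powersetCard k, EM R' * Q) *ᵥ f = 0 → Q *ᵥ f = 0 := by
    intro f hf
    -- each `EM R' *ᵥ (Q f) = 0`
    have hz : ∀ R' ∈ (univ : Finset W).powersetCard k, EM R' *ᵥ (Q *ᵥ f) = 0 := by
      have hsum : ∑ R' ∈ (univ : Finset W).powersetCard k,
          (EM R' *ᵥ (Q *ᵥ f)) ⬝ᵥ (EM R' *ᵥ (Q *ᵥ f)) = 0 := by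
        have e1 : ∀ R' : Finset W, (EM R' *ᵥ (Q *ᵥ f)) ⬝ᵥ (EM R' *ᵥ (Q *ᵥ f)) =
            (Q *ᵥ f) ⬝ᵥ ((EM R' * Q) *ᵥ f) := by
          intro R'
          rw [← proj_dot (emT R') (emS R' R' (Finset.Subset.refl _)).1, Matrix.mulVec_mulVec]
        rw [Finset.sum_congr rfl fun R' _ => e1 R', ← dotProduct_sum]
        have e2 : ∑ R' ∈ (univ : Finset W).powersetCard k, ((EM R' * Q) *ᵥ f) = 0 := by
          rw [← hf, Matrix.sum_mulVec]
        rw [e2, dotProduct_zero]
      intro R' hR'
      have h3 := (Finset.sum_eq_zero_iff_of_nonneg (fun R' _ =>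
        Finset.sum_nonneg fun i _ => mul_self_nonneg _)).1 hsum R' hR'
      funext i
      have h5 := (Finset.sum_eq_zero_iff_of_nonneg (fun i _ => mul_self_nonneg _)).1 h3 i (Finset.mem_univ i)
      exact mul_self_eq_zero.1 h5
    -- hence `Q f` is orthogonal to the span
    have hspan := (hl f).1
    have horth : ∀ g ∈ Submodule.span ℝ {g : Equiv.Perm W → ℝ | ∃ R : Finset W, R.card = k ∧ EM R *ᵥ g = g},
        (Q *ᵥ f) ⬝ᵥ g = 0 := by
      intro g hg
      induction hg using Submodule.span_induction with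
      | mem g hg =>
        obtain ⟨R', hR', hg'⟩ := hg
        rw [← hg', Matrix.dotProduct_mulVec, ← Matrix.mulVec_transpose, emT R',
          hz R' (Finset.mem_powersetCard.2 ⟨Finset.subset_univ _, hR'⟩), zero_dotProduct]
      | zero => exact dotProduct_zero _
      | add x y _ _ hx hy => rw [dotProduct_add, hx, hy, add_zero]
      | smul a x _ hx => rw [dotProduct_smul, hx, smul_zero]
    have h6 := horth _ hspan
    exact dotProduct_self_eq_zero.1 h6
  have hrk : rk Q ≤ ∑ R' ∈ (univ : Finset W).powersetCard k, rk (EM R' * Q) :=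
    (rk_ker _ _ hker).trans (rk_sum _ _)
  have htr : ∀ R' ∈ (univ : Finset W).powersetCard k, (rk (EM R' * Q) : ℝ) = Matrix.trace (EM R * Q) := by
    intro R' hR'
    rw [← trace_rk (hpr R')]
    exact emTr R' R Q hr (by rw [(Finset.mem_powersetCard.1 hR').2, hR])
  have hmain : Matrix.trace Q ≤ ((Fintype.card W).choose k : ℝ) * Matrix.trace (EM R * Q) := by
    rw [trace_rk hi]
    have h7 : (rk Q : ℝ) ≤ ∑ R' ∈ (univ : Finset W).powersetCard k, (rk (EM R' * Q) : ℝ) := by
      exact_mod_cast hrk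
    rw [Finset.sum_congr rfl htr, Finset.sum_const, Finset.card_powersetCard, Finset.card_univ,
      nsmul_eq_mul] at h7
    exact h7
  refine ⟨hmain, ?_⟩
  intro hQ
  rw [← htr R (Finset.mem_powersetCard.2 ⟨Finset.subset_univ _, hR⟩)]
  have h8 : rk (EM R * Q) ≠ 0 := by
    intro h0
    have h9 : Matrix.trace (EM R * Q) = 0 := by
      rw [trace_rk (hpr R), h0, Nat.cast_zero]
    rw [h9, mul_zero, trace_rk hi] at hmain
    have h10 : rk Q = 0 := by
      have : (rk Q : ℝ) ≤ 0 := hmain
      exact_mod_cast le_antisymm this (Nat.cast_nonneg _)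
    exact hQ (rk_eq_zero h10)
  exact_mod_cast Nat.one_le_iff_ne_zero.2 h8

end Crest.Agent.R155
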