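import Crest.Agent.R155.Defs

set_option autoImplicit false

namespace Crest.Agent.R155

open scoped BigOperators Matrix
open Finset

theorem trace_proj_nonneg {m : Type} [Fintype m] [DecidableEq m] (P M : Matrix m m ℝ)
    (h1 : Pᵀ = P) (h2 : P * P = P) : 0 ≤ Matrix.trace (P * (M * Mᵀ)) := by
  have : Matrix.trace (P * (M * Mᵀ)) = Matrix.trace ((P * M) * (P * M)ᵀ) := by
    rw [Matrix.transpose_mul, h1]
    rw [show (P * M) * (Mᵀ * P) = (P * (M * Mᵀ)) * P by simp only [Matrix.mul_assoc]]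
    rw [Matrix.trace_mul_comm (P * (M * Mᵀ)) P, ← Matrix.mul_assoc P P, h2]
  rw [this]
  simp only [Matrix.trace, Matrix.diag_apply, Matrix.mul_apply, Matrix.transpose_apply]
  exact Finset.sum_nonneg fun i _ => Finset.sum_nonneg fun j _ => mul_self_nonneg _

noncomputable def gB (n : ℝ) : ℝ :=
  n ^ (-(0.015 : ℝ)) + Real.exp (-Real.sqrt n) + Real.exp (-(Real.exp (-100) * n))

theorem gB_nonneg (n : ℝ) (hn : 0 ≤ n) : 0 ≤ gB n := by
  unfold gB
  have := Real.rpow_nonneg hn (-(0.015 : ℝ))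
  positivity

theorem dk_le (h1 : StNum) (D : ℕ) (L : LevSys (V (D + 1))) (k : ℕ) (hk : 1 ≤ k)
    (hk2 : k ≤ 2 ^ (D + 1)) :
    Matrix.trace (L.Pi k * (KM (D + 1) ^ 1600 * (KM (D + 1) ^ 1600)ᵀ))
      ≤ Real.exp (-3 * (k : ℝ)) * gB ((2 : ℝ) ^ (D + 1)) := by
  obtain ⟨ha, hb⟩ := h1 D L k hk hk2
  set n : ℝ := (2 : ℝ) ^ (D + 1) with hn
  have hn1 : 1 ≤ n := one_le_pow₀ (by norm_num)
  have hn0 : 0 < n := by linarith
  have hk1 : (1 : ℝ) ≤ k := by exact_mod_cast hk
  have hkn : (k : ℝ) ≤ n := by rw [hn]; exact_mod_cast hk2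
  have hp : 0 ≤ n ^ (-(0.015 : ℝ)) := Real.rpow_nonneg hn0.le _
  have e1 : 0 ≤ Real.exp (-Real.sqrt n) := (Real.exp_pos _).le
  have e2 : 0 ≤ Real.exp (-(Real.exp (-100) * n)) := (Real.exp_pos _).le
  have e3 : 0 < Real.exp (-3 * (k : ℝ)) := Real.exp_pos _
  by_cases hc : (k : ℝ) ≤ Real.exp (-100) * n
  · refine (ha hc).trans ?_
    by_cases hs : (k : ℝ) ≤ Real.sqrt n
    · have hl : (1 / 2) * Real.log n ≤ Real.log (n / k) := by
        rw [Real.log_div hn0.ne' (by linarith)]
        have : Real.log k ≤ Real.log (Real.sqrt n) := Real.log_le_log (by linarith) hs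
        rw [Real.log_sqrt hn0.le] at this
        linarith
      have hln : 0 ≤ Real.log n := Real.log_nonneg hn1
      have h3 : Real.exp (-4 * (k : ℝ) - 0.03 * k * Real.log (n / k))
          ≤ Real.exp (-3 * (k : ℝ)) * n ^ (-(0.015 : ℝ)) := by
        rw [Real.rpow_def_of_pos hn0, ← Real.exp_add]
        apply Real.exp_le_exp.mpr
        have : 0.03 * (1 : ℝ) * ((1 / 2) * Real.log n) ≤ 0.03 * k * Real.log (n / k) := by
          apply mul_le_mul _ hl (by positivity) (by positivity)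
          linarith
        nlinarith
      refine h3.trans ?_
      unfold gB
      nlinarith
    · push Not at hs
      have hl : 0 ≤ Real.log (n / k) := Real.log_nonneg (by rw [le_div_iff₀ (by linarith)]; linarith)
      have h3 : Real.exp (-4 * (k : ℝ) - 0.03 * k * Real.log (n / k))
          ≤ Real.exp (-3 * (k : ℝ)) * Real.exp (-Real.sqrt n) := by
        rw [← Real.exp_add]
        apply Real.exp_le_exp.mpr
        have : 0 ≤ 0.03 * k * Real.log (n / k) := by positivity
        linarith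
      refine h3.trans ?_
      unfold gB
      nlinarith
  · push Not at hc
    refine (hb hc).trans ?_
    have h3 : Real.exp (-4 * (k : ℝ))
          ≤ Real.exp (-3 * (k : ℝ)) * Real.exp (-(Real.exp (-100) * n)) := by
      rw [← Real.exp_add]
      apply Real.exp_le_exp.mpr
      linarith
    refine h3.trans ?_
    unfold gB
    nlinarith

theorem sum_exp_le (N : ℕ) : ∑ k ∈ Finset.Icc 1 N, Real.exp (-3 * (k : ℝ)) ≤ 1 := by
  have h1 : ∀ k : ℕ, Real.exp (-3 * (k : ℝ)) ≤ (1 / 2) ^ k := by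
    intro k
    have : Real.exp (-3 * (k : ℝ)) = (Real.exp (-3)) ^ k := by
      rw [← Real.exp_nat_mul]; ring_nf
    rw [this]
    apply pow_le_pow_left₀ (Real.exp_pos _).le
    rw [Real.exp_neg, one_div]
    apply inv_anti₀ (by norm_num)
    have := Real.add_one_le_exp (3 : ℝ)
    linarith
  have h2 : ∀ N : ℕ, ∑ k ∈ Finset.Icc 1 N, ((1 : ℝ) / 2) ^ k = 1 - (1 / 2) ^ N := by
    intro N
    induction N with
    | zero => simp
    | succ N ih =>
      rw [Finset.sum_Icc_succ_top (by omega), ih]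
      ring
  calc _ ≤ ∑ k ∈ Finset.Icc 1 N, ((1 : ℝ) / 2) ^ k := Finset.sum_le_sum fun k _ => h1 k
    _ = 1 - (1 / 2) ^ N := h2 N
    _ ≤ 1 := by have : (0 : ℝ) ≤ (1 / 2) ^ N := by positivity
                linarith

theorem final (h1 : StNum) : StFinal := by
  intro L
  have h2 : Filter.Tendsto (fun D : ℕ => gB ((2 : ℝ) ^ (D + 1))) Filter.atTop (nhds 0) := by
    have hn : Filter.Tendsto (fun D : ℕ => (2 : ℝ) ^ (D + 1)) Filter.atTop Filter.atTop :=
      (tendsto_pow_atTop_atTop_of_one_lt (by norm_num : (1 : ℝ) < 2)).comp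
        (Filter.tendsto_add_atTop_nat 1)
    have g1 : Filter.Tendsto (fun n : ℝ => n ^ (-(0.015 : ℝ))) Filter.atTop (nhds 0) :=
      tendsto_rpow_neg_atTop (by norm_num)
    have g2 : Filter.Tendsto (fun n : ℝ => Real.exp (-Real.sqrt n)) Filter.atTop (nhds 0) :=
      Real.tendsto_exp_neg_atTop_nhds_zero.comp Real.tendsto_sqrt_atTop
    have g3 : Filter.Tendsto (fun n : ℝ => Real.exp (-(Real.exp (-100) * n))) Filter.atTop
        (nhds 0) :=
      Real.tendsto_exp_neg_atTop_nhds_zero.comp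
        (Filter.tendsto_id.const_mul_atTop (Real.exp_pos _))
    have g4 : Filter.Tendsto gB Filter.atTop (nhds 0) := by
      have := (g1.add g2).add g3
      simp only [add_zero] at this
      exact this
    exact g4.comp hn
  refine squeeze_zero (fun D => ?_) (fun D => ?_) h2
  · exact Finset.sum_nonneg fun k _ => trace_proj_nonneg _ _ ((L D).symm k) ((L D).idem k)
  · calc _ ≤ ∑ k ∈ Finset.Icc (1 : ℕ) (2 ^ (D + 1)),
          Real.exp (-3 * (k : ℝ)) * gB ((2 : ℝ) ^ (D + 1)) := by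
          apply Finset.sum_le_sum
          intro k hk
          rw [Finset.mem_Icc] at hk
          exact dk_le h1 D (L D) k hk.1 hk.2
      _ = (∑ k ∈ Finset.Icc (1 : ℕ) (2 ^ (D + 1)), Real.exp (-3 * (k : ℝ))) * gB ((2 : ℝ) ^ (D + 1)) := by
          rw [Finset.sum_mul]
      _ ≤ 1 * gB ((2 : ℝ) ^ (D + 1)) :=
          mul_le_mul_of_nonneg_right (sum_exp_le _) (gB_nonneg _ (by positivity))
      _ = _ := one_mul _

end Crest.Agent.R155
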