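import Crest.Agent.R155.Defs
import Crest.Agent.R155.RI
import Crest.Agent.R155.FINAL

set_option autoImplicit false

namespace Crest.Agent.R155

open scoped BigOperators Matrix
open Finset

theorem trace_cols {m : Type} [Fintype m] [DecidableEq m] (P M : Matrix m m ℝ)
    (h1 : Pᵀ = P) (h2 : P * P = P) :
    Matrix.trace (P * (M * Mᵀ)) = ∑ j, (P *ᵥ (fun i => M i j)) ⬝ᵥ (P *ᵥ (fun i => M i j)) := by
  have : Matrix.trace (P * (M * Mᵀ)) = Matrix.trace ((P * M) * (P * M)ᵀ) := by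
    rw [Matrix.transpose_mul, h1]
    rw [show (P * M) * (Mᵀ * P) = (P * (M * Mᵀ)) * P by simp only [Matrix.mul_assoc]]
    rw [Matrix.trace_mul_comm (P * (M * Mᵀ)) P, ← Matrix.mul_assoc P P, h2]
  rw [this]
  simp only [Matrix.trace, Matrix.diag_apply, Matrix.mul_apply (M := P * M), Matrix.transpose_apply]
  rw [Finset.sum_comm]
  apply Finset.sum_congr rfl
  intro j _
  simp only [dotProduct, Matrix.mulVec]
  apply Finset.sum_congr rfl
  intro i _
  simp only [Matrix.mul_apply]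

theorem trace_contr_step {m : Type} [Fintype m] [DecidableEq m] (P A N : Matrix m m ℝ) (s : ℝ)
    (h1 : Pᵀ = P) (h2 : P * P = P) (hc : A * P = P * A)
    (hA : ∀ f : m → ℝ, (A *ᵥ (P *ᵥ f)) ⬝ᵥ (A *ᵥ (P *ᵥ f)) ≤ s * (f ⬝ᵥ f)) :
    Matrix.trace (P * ((A * N) * (A * N)ᵀ)) ≤ s * Matrix.trace (P * (N * Nᵀ)) := by
  rw [trace_cols P (A * N) h1 h2, trace_cols P N h1 h2, Finset.mul_sum]
  apply Finset.sum_le_sum
  intro j _
  have e : (P *ᵥ fun i => (A * N) i j) = A *ᵥ (P *ᵥ (P *ᵥ fun i => N i j)) := by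
    have e1 : (fun i => (A * N) i j) = A *ᵥ (fun i => N i j) := by
      ext i; simp [Matrix.mul_apply, Matrix.mulVec, dotProduct]
    rw [e1]
    simp only [Matrix.mulVec_mulVec]
    rw [h2, hc]
  rw [e]
  exact hA _

theorem trace_pow_step {m : Type} [Fintype m] [DecidableEq m] (P A : Matrix m m ℝ) (s : ℝ)
    (h1 : Pᵀ = P) (h2 : P * P = P) (hc : A * P = P * A) (hs : 0 ≤ s)
    (hA : ∀ f : m → ℝ, (A *ᵥ (P *ᵥ f)) ⬝ᵥ (A *ᵥ (P *ᵥ f)) ≤ s * (f ⬝ᵥ f)) (j : ℕ) :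
    Matrix.trace (P * ((A ^ (j + 1)) * (A ^ (j + 1))ᵀ)) ≤ s ^ j * Matrix.trace (P * (A * Aᵀ)) := by
  induction j with
  | zero => simp
  | succ j ih =>
    have h := trace_contr_step P A (A ^ (j + 1)) s h1 h2 hc hA
    rw [← pow_succ'] at h
    refine h.trans ?_
    rw [pow_succ' s, mul_assoc]
    exact mul_le_mul_of_nonneg_left ih hs

theorem pow_split1 {M : Type*} [Monoid M] (K : M) : K ^ 1600 = K ^ 704 * (K ^ 64) ^ (13 + 1) := by
  have h1 : (1600 : ℕ) = 704 + 64 * (13 + 1) := rfl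
  rw [h1, pow_add, pow_mul]

theorem pow_split2 {M : Type*} [Monoid M] (K : M) : K ^ 1600 = K ^ 1536 * K ^ 64 := by
  have h1 : (1600 : ℕ) = 1536 + 64 := rfl
  rw [h1, pow_add]

theorem dk (h1 : StContr) (h2 : StWeylP) (h3 : StLevA) : StDk := by
  intro D L k x hk hx
  set K := KM (D + 1) with hK
  set P := L.Pi k with hP
  have hR : RInv K := RInv_KM (D + 1)
  have hPs : Pᵀ = P := L.symm k
  have hPi : P * P = P := L.idem k
  have hcK : ∀ t : ℕ, K ^ t * P = P * K ^ t := fun t => L.comm k _ (hR.pow t)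
  have hN64 : Matrix.trace (P * (K ^ 64 * (K ^ 64)ᵀ)) ≤ Matrix.trace (P * (K * Kᵀ) ^ 64) :=
    h2 _ K P 64 (by norm_num) hPs hPi (by have := hcK 1; rwa [pow_one] at this)
  have hN64nn : 0 ≤ Matrix.trace (P * (K ^ 64 * (K ^ 64)ᵀ)) := trace_proj_nonneg _ _ hPs hPi
  have hcontr : ∀ (t : ℕ) (f : Equiv.Perm (V (D + 1)) → ℝ),
      (K ^ t *ᵥ (P *ᵥ f)) ⬝ᵥ (K ^ t *ᵥ (P *ᵥ f)) ≤ Real.exp (-((3 / 40) * x * t)) * (f ⬝ᵥ f) :=
    fun t f => h1 D L k t x f hx
  have hstep : ∀ (t : ℕ) (N : Matrix (Equiv.Perm (V (D + 1))) (Equiv.Perm (V (D + 1))) ℝ),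
      Matrix.trace (P * ((K ^ t * N) * (K ^ t * N)ᵀ)) ≤
        Real.exp (-((3 / 40) * x * t)) * Matrix.trace (P * (N * Nᵀ)) :=
    fun t N => trace_contr_step P (K ^ t) N _ hPs hPi (hcK t) (hcontr t)
  have hC : (0 : ℝ) < ((Fintype.card (V (D + 1))).choose k : ℝ) := by
    exact_mod_cast Nat.choose_pos hk
  constructor
  · have e : K ^ 1600 = K ^ 704 * (K ^ 64) ^ (13 + 1) := pow_split1 K
    have s1 := hstep 704 ((K ^ 64) ^ (13 + 1))
    rw [← e] at s1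
    have hs0 : 0 ≤ (2 : ℝ) ^ k * Matrix.trace (P * (K ^ 64 * (K ^ 64)ᵀ)) /
        ((Fintype.card (V (D + 1))).choose k : ℝ) :=
      div_nonneg (mul_nonneg (by positivity) hN64nn) hC.le
    have s2 := trace_pow_step P (K ^ 64) _ hPs hPi (hcK 64) hs0
      (fun f => h3 _ L k (K ^ 64) f hk (hR.pow 64)) 13
    refine s1.trans ?_
    rw [mul_comm]
    push_cast
    apply mul_le_mul_of_nonneg_right _ (Real.exp_pos _).le
    refine s2.trans ?_
    rw [mul_comm]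
    apply mul_le_mul hN64 _ (pow_nonneg hs0 _) (hN64nn.trans hN64)
    apply pow_le_pow_left₀ hs0
    apply div_le_div_of_nonneg_right _ hC.le
    exact mul_le_mul_of_nonneg_left hN64 (by positivity)
  · have e : K ^ 1600 = K ^ 1536 * K ^ 64 := pow_split2 K
    have s1 := hstep 1536 (K ^ 64)
    rw [← e] at s1
    refine s1.trans ?_
    rw [mul_comm]
    push_cast
    exact mul_le_mul_of_nonneg_right hN64 (Real.exp_pos _).le

end Crest.Agent.R155
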