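import Mathlib
import Crest.Prelude.Def_Shuffle

/-!
Row 155 (S0222): the Thorp shuffle.  Shared definitions and the closed statements (`St…`) of the tasks.

Conventions: `V D = Fin D → Bool` (positions, `n = 2^D`), `Coins D = Fin D → V D → Bool`.
`y` = position before a pass, `z` = position after the pass.
-/

set_option autoImplicit false

namespace Crest.Agent.R155

open scoped BigOperators Matrix
open Finset

/-! ## Basic definitions -/

abbrev V (D : ℕ) : Type := Fin D → Bool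
abbrev Coins (D : ℕ) : Type := Fin D → V D → Bool

/-- average over a finite type -/
noncomputable def av {Ω : Type*} [Fintype Ω] (f : Ω → ℝ) : ℝ := (∑ ω, f ω) / (Fintype.card Ω : ℝ)

/-- the switch used at stage `r` by a card entering at `y` and leaving at `z` -/
def key {D : ℕ} (r : Fin D) (y z : V D) : V D :=
  fun j => if j < r then y j else if j = r then false else z j

/-- stage `r` : flip bit `r` of `x` if the coin of the switch `x[r := false]` is `true` -/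
def stageFun {D : ℕ} (r : Fin D) (f : V D → Bool) (x : V D) : V D :=
  Function.update x r (xor (x r) (f (Function.update x r false)))

theorem stageFun_invol {D : ℕ} (r : Fin D) (f : V D → Bool) :
    Function.Involutive (stageFun r f) := by
  intro x
  unfold stageFun
  simp

def stage {D : ℕ} (r : Fin D) (f : V D → Bool) : Equiv.Perm (V D) :=
  (stageFun_invol r f).toPerm

/-- one pass: stage `D-1` is applied first, stage `0` last -/
def pass {D : ℕ} (c : Coins D) : Equiv.Perm (V D) := (List.ofFn fun r => stage r (c r)).prod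

def bwd {D : ℕ} (c : Coins D) : Equiv.Perm (V D) := (pass c).symm

def Rel {D : ℕ} (c : Coins D) (y z : V D) : Prop := ∀ r, z r = xor (y r) (c r (key r y z))

/-- take the coins of the stages `j < m` from `c0` and the others from `c'` -/
def merge {D : ℕ} (m : ℕ) (c0 c' : Coins D) : Coins D := fun j => if (j : ℕ) < m then c0 j else c' j

/-- kernel of one pass on tuples -/
noncomputable def Kt {D : ℕ} {ι : Type} [Fintype ι] (x z : ι → V D) : ℝ :=
  av fun c : Coins D => if ∀ a, pass c (x a) = z a then (1 : ℝ) else 0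

/-- kernel of (forward pass, then backward pass) on tuples -/
noncomputable def Tt {D : ℕ} {ι : Type} [Fintype ι] [DecidableEq ι] (x y : ι → V D) : ℝ :=
  ∑ z : ι → V D, Kt x z * Kt y z

/-- two different cards using the same switch at stage `r` -/
def Adj {D : ℕ} {ι : Type} (r : Fin D) (x z : ι → V D) (a b : ι) : Prop :=
  a ≠ b ∧ key r (x a) (z a) = key r (x b) (z b)

/-- consistency at stage `r` -/
def Cons {D : ℕ} {ι : Type} (r : Fin D) (x z : ι → V D) : Prop :=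
  ∀ a b, key r (x a) (z a) = key r (x b) (z b) → xor (x a r) (z a r) = xor (x b r) (z b r)

open Classical in
/-- half the number of ordered pairs in relation `A` -/
noncomputable def hp {ι : Type} [Fintype ι] (A : ι → ι → Prop) : ℝ :=
  ((univ.filter fun p : ι × ι => A p.1 p.2).card : ℝ) / 2

/-- number of switches of stage `r` used by two cards -/
noncomputable def Bc {D : ℕ} {ι : Type} [Fintype ι] (r : Fin D) (x z : ι → V D) : ℝ := hp (Adj r x z)

open Classical in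
/-- connected components of `A ∪ B` all of whose vertices have an `A`-partner and a `B`-partner -/
noncomputable def Cls {ι : Type} [Fintype ι] (A B : ι → ι → Prop) : Finset (Finset ι) :=
  univ.filter fun Q => Q.Nonempty ∧
    (∀ a ∈ Q, ∀ b, b ∈ Q ↔ Relation.EqvGen (fun a b => A a b ∨ B a b) a b) ∧
    ∀ a ∈ Q, (∃ b, A a b) ∧ (∃ b, B a b)

/-- number of loops at stage `r` -/
noncomputable def lc {D : ℕ} {ι : Type} [Fintype ι] (r : Fin D) (x y z : ι → V D) : ℝ :=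
  ((Cls (Adj r x z) (Adj r y z)).card : ℝ)

noncomputable def Phi {D : ℕ} {ι : Type} [Fintype ι] (x y z : ι → V D) : ℝ :=
  ∑ r : Fin D, lc r x y z

/-- the dyadic scale of `r` -/
noncomputable def dyad (r : ℕ) : ℝ := (2 : ℝ) ^ (Nat.log 2 r)

noncomputable def eps (r : ℕ) : ℝ :=
  if r < 32 then Real.log 2 / 63 else
    (Real.log 2 / 63) * (2 : ℝ) ^ (-(((r : ℝ) - dyad r / 2) / 6))
      + (8 / (3 * dyad r)) * (2 : ℝ) ^ (8 * dyad r / 63 - 5 * ((r : ℝ) - dyad r / 2) / 12)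

/-! ## P1: the network -/

/-- `pass c y = z` iff the switch equations hold -/
def StRel : Prop := ∀ (D : ℕ) (c : Coins D) (y z : V D), pass c y = z ↔ Rel c y z

/-- the first `m` coordinates of the backward image only depend on the coins of stages `< m` -/
def StDep : Prop := ∀ (D : ℕ) (c c' : Coins D) (m : ℕ) (z : V D),
  (∀ j : Fin D, (j : ℕ) < m → c j = c' j) → ∀ j : Fin D, (j : ℕ) < m → bwd c z j = bwd c' z j

/-- partial consistency from the top: if `x` is injective and stages `> r` are consistent then two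
different cards with the same switch at stage `r` sit at different inputs of it -/
def StSepTop : Prop := ∀ (D : ℕ) (ι : Type) (x z : ι → V D) (r : Fin D), Function.Injective x →
  (∀ j, r < j → Cons j x z) → ∀ a b, a ≠ b → key r (x a) (z a) = key r (x b) (z b) → x a r ≠ x b r

/-- for a true pass, both inputs and outputs are separated -/
def StSep : Prop := ∀ (D : ℕ) (ι : Type) (x : ι → V D) (c : Coins D) (r : Fin D),
  Function.Injective x → ∀ a b, a ≠ b →
    key r (x a) (pass c (x a)) = key r (x b) (pass c (x b)) →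
      x a r ≠ x b r ∧ pass c (x a) r ≠ pass c (x b) r

/-- sum against the kernel = average over backward passes -/
def StKav : Prop := ∀ (D : ℕ) (ι : Type) [Fintype ι] [DecidableEq ι] (z : ι → V D)
  (F : (ι → V D) → ℝ), ∑ y : ι → V D, Kt y z * F y = av fun c : Coins D => F fun a => bwd c (z a)

/-- formula for the kernel -/
def StKt : Prop := ∀ (D : ℕ) (ι : Type) [Fintype ι] [DecidableEq ι] (x z : ι → V D),
  Function.Injective x →
    ((∀ r, Cons r x z) → Kt x z = ∏ r : Fin D, (2 : ℝ) ^ (-((Fintype.card ι : ℝ) - Bc r x z))) ∧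
    (¬ (∀ r, Cons r x z) → Kt x z = 0)

open Classical in
/-- the edge-isoperimetric inequality for a set of cards -/
def StIso : Prop := ∀ (D : ℕ) (ι : Type) [Fintype ι] [DecidableEq ι] (x : ι → V D) (c : Coins D),
  Function.Injective x → ∀ C : Finset ι, C.Nonempty →
    ∑ r : Fin D, (((C ×ˢ C).filter fun p => Adj r x (fun a => pass c (x a)) p.1 p.2).card : ℝ)
      ≤ C.card * Real.logb 2 C.card

/-! ## P2: the abstract loop-counting lemma -/

/-- `C` is a cycle of the partial map `τ` -/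
def IsCyc {B : Type} (τ : B → Option B) (C : Finset B) : Prop :=
  C.Nonempty ∧ (∀ b ∈ C, ∃ b' ∈ C, τ b = some b') ∧
  ∀ b ∈ C, ∀ b' ∈ C, ∃ i : ℕ, (fun o : Option B => o.bind τ)^[i] (some b) = some b'

open Classical in
/-- the cycles of size `≤ m` -/
noncomputable def cycs {B : Type} [Fintype B] (τ : B → Option B) (m : ℕ) : Finset (Finset B) :=
  univ.filter fun C => IsCyc τ C ∧ C.card ≤ m

open Classical in
/-- abstract routing data. `Sw` = free switches, `B` = cards, `Loc` = locations -/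
structure ALData (Sw B Loc : Type) [Fintype Sw] [Fintype B] where
  out : (Sw → Bool) → B → Loc
  path : B → Loc → Finset Sw
  rho : Loc → Option B
  g : ℕ
  n1 : ∀ ω ω' b, (∀ σ ∈ path b (out ω b), ω σ = ω' σ) → out ω' b = out ω b
  n2 : ∀ ω ω' b, out ω b = out ω' b → ∀ σ ∈ path b (out ω b), ω σ = ω' σ
  hg : ∀ ω b, (path b (out ω b)).card = g
  outinj : ∀ ω b b', out ω b = out ω b' → b = b'
  two : ∀ ω σ, (univ.filter fun b => σ ∈ path b (out ω b)).card ≤ 2
  iso : ∀ ω (C : Finset B), C.Nonempty → ∃ p ∈ C,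
    (((path p (out ω p)).filter fun σ => ∃ b ∈ C, b ≠ p ∧ σ ∈ path b (out ω b)).card : ℝ)
      ≤ Real.logb 2 C.card
  inj : ∀ l l' b, rho l = some b → rho l' = some b → l = l'

namespace ALData
variable {Sw B Loc : Type} [Fintype Sw] [Fintype B]

/-- the partial map of the cards induced by the coins -/
def tau (A : ALData Sw B Loc) (ω : Sw → Bool) (b : B) : Option B := A.rho (A.out ω b)

open Classical in
/-- the closing card of a set of cards -/
noncomputable def cl (A : ALData Sw B Loc) (ω : Sw → Bool) (C : Finset B) : Option B :=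
  if h : C.Nonempty then some (Classical.choose (A.iso ω C h)) else none

open Classical in
/-- the switches of the closing cards of the cycles in `F` which no other card of `⋃ F` uses -/
noncomputable def clean (A : ALData Sw B Loc) (ω : Sw → Bool) (F : Finset (Finset B)) : Finset Sw :=
  univ.filter fun σ => ∃ C ∈ F, ∃ p, A.cl ω C = some p ∧ σ ∈ A.path p (A.out ω p) ∧
    ∀ C' ∈ F, ∀ b ∈ C', b ≠ p → σ ∉ A.path b (A.out ω b)

end ALData

open Classical in
/-- AL1: the injection -/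
def StAL1 : Prop := ∀ (Sw B Loc : Type) [Fintype Sw] [Fintype B] (A : ALData Sw B Loc) (m j : ℕ),
  ∑ ω : Sw → Bool, ∑ F ∈ (cycs (A.tau ω) m).powersetCard j, (2 : ℝ) ^ (A.clean ω F).card
    ≤ (2 : ℝ) ^ (Fintype.card Sw) * ((Fintype.card B).choose j : ℝ) * (m : ℝ) ^ j

open Classical in
/-- AL2: the average over subfamilies -/
def StAL2 : Prop := ∀ (Sw B Loc : Type) [Fintype Sw] [Fintype B] (A : ALData Sw B Loc) (m j : ℕ)
  (ω : Sw → Bool), 1 ≤ m → 1 ≤ j → 4 * (j - 1) ≤ (cycs (A.tau ω) m).card - 1 →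
    1 ≤ (cycs (A.tau ω) m).card →
    (((cycs (A.tau ω) m).card.choose j : ℕ) : ℝ) * ((2 : ℝ) ^ (3 * (A.g : ℝ) / 4) / m) ^ j
      ≤ ∑ F ∈ (cycs (A.tau ω) m).powersetCard j, (2 : ℝ) ^ (A.clean ω F).card

/-- AL: the exponential moment of the number of short cycles -/
def StAL : Prop := ∀ (Sw B Loc : Type) [Fintype Sw] [Fintype B] [DecidableEq Sw]
  (A : ALData Sw B Loc) (m : ℕ) (s : ℝ),
  1 ≤ m → 0 ≤ s →
    av (fun ω : Sw → Bool => (2 : ℝ) ^ (s * ((cycs (A.tau ω) m).card : ℝ)))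
      ≤ Real.exp ((16 / 3) * (Fintype.card B : ℝ) * (m : ℝ) ^ 2
          * (2 : ℝ) ^ (4 * s - 3 * (A.g : ℝ) / 4))

/-! ## Hölder -/

def StHol : Prop := ∀ (Ω κ : Type) [Fintype Ω] [Nonempty Ω] (s : Finset κ) (f : κ → Ω → ℝ)
  (p : κ → ℝ), (∀ i ω, 0 ≤ f i ω) → (∀ i, 0 ≤ p i) → ∑ i ∈ s, p i ≤ 1 →
    av (fun ω => ∏ i ∈ s, (f i ω) ^ (p i)) ≤ ∏ i ∈ s, (av (f i)) ^ (p i)

/-- conditional chain: `F i` is a function of the coins, bounded in mean given the coins `< m i`,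
and the earlier `F`'s depend only on the coins `< m j` -/
def StChain : Prop := ∀ (D N : ℕ) (F : Fin N → Coins D → ℝ) (m : Fin N → ℕ) (C : Fin N → ℝ),
  (∀ i c, 0 ≤ F i c) → (∀ i, 0 ≤ C i) →
  (∀ i c0, av (fun c' : Coins D => F i (merge (m i) c0 c')) ≤ C i) →
  (∀ i j, i < j → ∀ c c' : Coins D, (∀ k : Fin D, (k : ℕ) < m j → c k = c' k) → F i c = F i c') →
    av (fun c : Coins D => ∏ i, F i c) ≤ ∏ i, C i

/-! ## P3, P4: loops in the network -/

/-- free switches: stages in `[m, r)` on the side `k r = true` -/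
abbrev SwT (D : ℕ) (r : Fin D) (m : ℕ) : Type :=
  {σ : Fin D × V D // m ≤ (σ.1 : ℕ) ∧ σ.1 < r ∧ σ.2 r = true}

/-- override the base coins `cb` on the free switches -/
def ovr {D : ℕ} (r : Fin D) (m : ℕ) (cb : Coins D) (ω : SwT D r m → Bool) : Coins D :=
  fun j k => if h : m ≤ (j : ℕ) ∧ j < r ∧ k r = true then ω ⟨(j, k), h⟩ else cb j k

/-- the cards of side `true` at stage `r` having an `x`-partner -/
abbrev BT {D : ℕ} {ι : Type} (r : Fin D) (x z : ι → V D) : Type :=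
  {a : ι // z a r = true ∧ ∃ b, Adj r x z a b}

open Classical in
/-- P3a: the network gives routing data -/
def StP3a : Prop := ∀ (D : ℕ) (ι : Type) [Fintype ι] [DecidableEq ι] (x : ι → V D)
  (c cb : Coins D) (r : Fin D) (m : ℕ), Function.Injective x → m ≤ (r : ℕ) →
    ∃ A : ALData (SwT D r m) (BT r x fun i => pass c (x i)) (V D), A.g = (r : ℕ) - m ∧
      ∀ ω b b', A.tau ω b = some b' ↔ ∃ a,
        Adj r (fun i => bwd (ovr r m cb ω) (pass c (x i))) (fun i => pass c (x i)) b.1 a ∧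
        Adj r x (fun i => pass c (x i)) a b'.1

open Classical in
/-- P3b: loops are cycles of `tau`; the long ones are few -/
def StP3b : Prop := ∀ (D : ℕ) (ι : Type) [Fintype ι] [DecidableEq ι] (x : ι → V D)
  (c c2 : Coins D) (r : Fin D)
  (τ : (BT r x fun i => pass c (x i)) → Option (BT r x fun i => pass c (x i))) (m' : ℕ),
  Function.Injective x →
  (∀ b b', τ b = some b' ↔ ∃ a,
        Adj r (fun i => bwd c2 (pass c (x i))) (fun i => pass c (x i)) b.1 a ∧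
        Adj r x (fun i => pass c (x i)) a b'.1) →
    lc r x (fun i => bwd c2 (pass c (x i))) (fun i => pass c (x i))
      ≤ ((cycs τ m').card : ℝ) + (Fintype.card (BT r x fun i => pass c (x i)) : ℝ) / (m' + 1)

open Classical in
/-- P3c -/
def StP3c : Prop := ∀ (D : ℕ) (ι : Type) [Fintype ι] [DecidableEq ι] (x : ι → V D)
  (c : Coins D) (r : Fin D), Function.Injective x →
    (Fintype.card (BT r x fun i => pass c (x i)) : ℝ) = Bc r x (fun i => pass c (x i)) ∧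
    Bc r x (fun i => pass c (x i)) ≤ (Fintype.card ι : ℝ) / 2 ∧
    ∀ c2 : Coins D, lc r x (fun i => bwd c2 (pass c (x i))) (fun i => pass c (x i))
      ≤ Bc r x (fun i => pass c (x i))

/-- P3: loops at one stage, coins below `m` frozen -/
def StP3 : Prop := ∀ (D : ℕ) (ι : Type) [Fintype ι] [DecidableEq ι] (x : ι → V D) (c c0 : Coins D)
  (r : Fin D) (m : ℕ) (s : ℝ), Function.Injective x → m ≤ (r : ℕ) → 0 ≤ s →
    av (fun c' : Coins D => (2 : ℝ) ^ (s * lc r x (fun a => bwd (merge m c0 c') (pass c (x a)))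
        (fun a => pass c (x a))))
      ≤ Real.exp (Bc r x (fun a => pass c (x a)) *
          (s * Real.log 2 * (2 : ℝ) ^ (-(((r : ℕ) : ℝ) - m) / 6)
            + (16 / 3) * (2 : ℝ) ^ (4 * s - 5 * (((r : ℕ) : ℝ) - m) / 12)))

/-- P4a: one dyadic group of stages `[R, 2R)`, `R = 2^a ≥ 32`, coins below `R/2` frozen -/
def StP4a : Prop := ∀ (D : ℕ) (ι : Type) [Fintype ι] [DecidableEq ι] (x : ι → V D)
  (c c0 : Coins D) (a : ℕ), Function.Injective x → 5 ≤ a →
    av (fun c' : Coins D => (2 : ℝ) ^ ((2 / 63 : ℝ) *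
        ∑ r ∈ univ.filter (fun r : Fin D => Nat.log 2 (r : ℕ) = a),
          lc r x (fun i => bwd (merge (2 ^ (a - 1)) c0 c') (pass c (x i)))
            (fun i => pass c (x i))))
      ≤ Real.exp (2 * ∑ r ∈ univ.filter (fun r : Fin D => Nat.log 2 (r : ℕ) = a),
          eps r * Bc r x (fun i => pass c (x i)))

/-- P4: all stages together -/
def StP4 : Prop := ∀ (D : ℕ) (ι : Type) [Fintype ι] [DecidableEq ι] (x : ι → V D) (c : Coins D),
  Function.Injective x →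
    av (fun c' : Coins D => (2 : ℝ) ^ ((1 / 63 : ℝ) * Phi x (fun a => bwd c' (pass c (x a)))
        (fun a => pass c (x a))))
      ≤ Real.exp (∑ r : Fin D, eps r * Bc r x (fun a => pass c (x a)))

/-! ## P5 -/

/-- coordinatewise summation -/
def StCS : Prop := ∀ (D : ℕ) (β : Type) [Fintype β] [DecidableEq β] (F : Fin D → (Fin D → β) → ℝ)
  (C : ℝ), 0 ≤ C → (∀ r z, 0 ≤ F r z) →
  (∀ r (z z' : Fin D → β), (∀ j, r ≤ j → z j = z' j) → F r z = F r z') →
  (∀ r z, ∑ b : β, F r (Function.update z r b) ≤ C) →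
    ∑ z : Fin D → β, ∏ r, F r z ≤ C ^ D

open Classical in
/-- proper 2-colourings of the union of two matchings -/
def StCol : Prop := ∀ (ι : Type) [Fintype ι] [DecidableEq ι] (A B : ι → ι → Prop),
  (∀ a, ¬ A a a) → (∀ a, ¬ B a a) → (∀ a b, A a b → A b a) → (∀ a b, B a b → B b a) →
  (∀ a b b', A a b → A a b' → b = b') → (∀ a b b', B a b → B a b' → b = b') →
    ((univ.filter fun q : ι → Bool =>
        (∀ a b, A a b → q a ≠ q b) ∧ (∀ a b, B a b → q a ≠ q b)).card : ℝ)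
      ≤ (2 : ℝ) ^ ((Fintype.card ι : ℝ) - hp A - hp B + ((Cls A B).card : ℝ))

/-- (I) -/
def StI : Prop := ∀ (D : ℕ) (ι : Type) [Fintype ι] [DecidableEq ι] (x y : ι → V D),
  Function.Injective x → Function.Injective y →
    ∑ z : ι → V D, Kt x z * Kt y z * (2 : ℝ) ^ (-(Phi x y z))
      ≤ (((2 : ℝ) ^ D) ^ (Fintype.card ι))⁻¹

/-- Hölder step -/
def StP5 : Prop := ∀ (D : ℕ) (ι : Type) [Fintype ι] [DecidableEq ι] (x : ι → V D),
  Function.Injective x →
    ∑ y : ι → V D, Tt x y * ((((2 : ℝ) ^ D) ^ (Fintype.card ι)) * Tt x y) ^ (1 / 63 : ℝ)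
      ≤ av fun c : Coins D => Real.exp (∑ r : Fin D, eps r * Bc r x (fun a => pass c (x a)))

/-! ## P6 -/

/-- the product bound for one pass: `h ≥ 0` is any function of the switch at stage `r`.
(`w` ranges over all of `V D`; only its coordinates `> r` matter.) -/
def StSup : Prop := ∀ (D : ℕ) (ι : Type) [Fintype ι] [DecidableEq ι] (x : ι → V D) (r : Fin D)
  (h : V D → ℝ), Function.Injective x → (∀ v, 0 ≤ h v) →
    av (fun c : Coins D => ∏ a, h (key r (x a) (pass c (x a))))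
      ≤ ∏ a, av (fun w : V D => h (key r (x a) w))

/-- exponential moment of the number of doubly used switches of stage `r` -/
def StP6a : Prop := ∀ (D : ℕ) (ι : Type) [Fintype ι] [DecidableEq ι] (x : ι → V D) (r : Fin D)
  (t : ℝ), Function.Injective x → 0 ≤ t →
    av (fun c : Coins D => Real.exp (t * Bc r x (fun a => pass c (x a))))
      ≤ Real.exp ((Real.exp t - 1) * (Fintype.card ι : ℝ) ^ 2 * (2 : ℝ) ^ (r : ℕ)
          / (2 * (2 : ℝ) ^ D))

def StEps : Prop := (∀ r : ℕ, 0 ≤ eps r) ∧ (∀ r : ℕ, eps r ≤ 0.12 * (2 : ℝ) ^ (-(0.08 : ℝ) * r)) ∧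
  ∀ D : ℕ, ∑ r : Fin D, eps r ≤ 1

def StP6 : Prop := ∀ (D : ℕ) (ι : Type) [Fintype ι] [DecidableEq ι] (x : ι → V D),
  Function.Injective x →
    av (fun c : Coins D => Real.exp (∑ r : Fin D, eps r * Bc r x (fun a => pass c (x a))))
        ≤ Real.exp ((Fintype.card ι : ℝ) / 2) ∧
    av (fun c : Coins D => Real.exp (∑ r : Fin D, eps r * Bc r x (fun a => pass c (x a))))
        ≤ Real.exp (2 * (Fintype.card ι : ℝ) * ((Fintype.card ι : ℝ) / (2 : ℝ) ^ D) ^ (0.08 : ℝ))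

/-! ## P7: Young's inequality for a symmetric stochastic kernel -/

def StYoung : Prop := ∀ (Y : Type) [Fintype Y] [DecidableEq Y] [Nonempty Y] (T : Matrix Y Y ℝ)
  (M : ℝ), Tᵀ = T → (∀ x y, 0 ≤ T x y) → (∀ x, ∑ y, T x y = 1) →
  (∀ x, ∑ y, (T x y) ^ (64 / 63 : ℝ) * (Fintype.card Y : ℝ) ^ (1 / 63 : ℝ) ≤ M) →
    ∀ x, (Fintype.card Y : ℝ) * ∑ y, ((T ^ 32) x y) ^ 2 ≤ M ^ 63

/-! ## P8: Weyl's inequality for traces -/

def StWeyl : Prop := ∀ (m : Type) [Fintype m] [DecidableEq m] (A : Matrix m m ℝ) (k : ℕ),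
  Matrix.trace (A ^ k * (A ^ k)ᵀ) ≤ Matrix.trace ((A * Aᵀ) ^ k)

/-- the same on the range of a symmetric projection commuting with `A` and `Aᵀ` -/
def StWeylP : Prop := ∀ (m : Type) [Fintype m] [DecidableEq m] (A P : Matrix m m ℝ) (k : ℕ),
  1 ≤ k → Pᵀ = P → P * P = P → A * P = P * A →
    Matrix.trace (P * (A ^ k * (A ^ k)ᵀ)) ≤ Matrix.trace (P * (A * Aᵀ) ^ k)

/-! ## Group matrices -/

section group
variable {W : Type} [Fintype W] [DecidableEq W]

/-- left multiplication: `(Lm g *ᵥ f) h = f (g⁻¹ * h)` -/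
def Lm (g : Equiv.Perm W) : Matrix (Equiv.Perm W) (Equiv.Perm W) ℝ :=
  fun h h' => if h = g * h' then 1 else 0

/-- `A` commutes with all right multiplications -/
def RInv (A : Matrix (Equiv.Perm W) (Equiv.Perm W) ℝ) : Prop :=
  ∀ g h h', A (h * g) (h' * g) = A h h'

/-- average over the coset `{τ : τ = σ on R}` -/
noncomputable def EM (R : Finset W) : Matrix (Equiv.Perm W) (Equiv.Perm W) ℝ :=
  fun σ τ => if ∀ a ∈ R, σ a = τ a then (1 / (((Fintype.card W - R.card).factorial : ℕ) : ℝ)) else 0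

/-- the random transposition generator -/
noncomputable def Xm (W : Type) [Fintype W] [DecidableEq W] :
    Matrix (Equiv.Perm W) (Equiv.Perm W) ℝ :=
  (1 / (Fintype.card W : ℝ)) • ∑ p : W × W, (1 - Lm (Equiv.swap p.1 p.2))

/-- functions of pure level `k` -/
def Lev (k : ℕ) (f : Equiv.Perm W → ℝ) : Prop :=
  f ∈ Submodule.span ℝ {g : Equiv.Perm W → ℝ | ∃ R : Finset W, R.card = k ∧ EM R *ᵥ g = g} ∧
  ∀ R : Finset W, R.card + 1 = k → EM R *ᵥ f = 0

end group

/-- the matrix of one pass -/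
noncomputable def KM (D : ℕ) : Matrix (Equiv.Perm (V D)) (Equiv.Perm (V D)) ℝ :=
  fun h h' => av fun c : Coins D => Lm (pass c) h h'

/-! ## P0: reduction -/

/-- positions of the shuffle as bit vectors: `x ↦ ∑_j x_j 2^j` -/
noncomputable def StBits : Prop := ∀ d : ℕ, ∃ e : V (d + 1) ≃ Fin (2 * 2 ^ d), ∀ (t : ℕ)
  (g : Equiv.Perm (V (d + 1))),
    Crest.FinProb.uniformProb {cs : Fin (t * (d + 1)) → Fin (2 ^ d) → Bool |
      Crest.ProbabilityR.Shuffle.iterPos (2 ^ d) (t * (d + 1)) cs = ⇑(e.permCongr g)}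
      = (KM (d + 1) ^ t) g 1

def StP0 : Prop := ∀ d t : ℕ,
  Crest.ProbabilityR.Shuffle.tvFromUniform (2 ^ d) (t * (d + 1))
    ≤ (1 / 2) * Real.sqrt (Matrix.trace ((KM (d + 1)) ^ t * ((KM (d + 1)) ^ t)ᵀ) - 1)

/-! ## P9: levels -/

/-- elementary facts about `EM` -/
def StEM : Prop := ∀ (W : Type) [Fintype W] [DecidableEq W],
  (∀ R : Finset W, (EM R)ᵀ = EM R) ∧
  (∀ R S : Finset W, R ⊆ S → EM R * EM S = EM R ∧ EM S * EM R = EM R) ∧
  (∀ (R : Finset W) (A : Matrix (Equiv.Perm W) (Equiv.Perm W) ℝ), RInv A → A * EM R = EM R * A) ∧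
  (∀ (R S : Finset W) (A : Matrix (Equiv.Perm W) (Equiv.Perm W) ℝ), RInv A → R.card = S.card →
    Matrix.trace (EM R * A) = Matrix.trace (EM S * A)) ∧
  EM (univ : Finset W) = 1 ∧
  EM (∅ : Finset W) = fun _ _ => 1 / ((Fintype.card W).factorial : ℝ)

def StPur : Prop := ∀ (W : Type) [Fintype W] [DecidableEq W] (k : ℕ) (R' R'' : Finset W)
  (h : Equiv.Perm W → ℝ), R'.card = k → R''.card = k → EM R'' *ᵥ h = h →
  (∀ a ∈ R'', EM (R''.erase a) *ᵥ h = 0) →
    (EM R' *ᵥ h) ⬝ᵥ (EM R' *ᵥ h) ≤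
      (((R'' \ R').card.factorial : ℝ) /
        ((Fintype.card W - k).descFactorial (R'' \ R').card : ℝ)) ^ 2 * (h ⬝ᵥ h)

def StTwo : Prop := ∀ (W : Type) [Fintype W] [DecidableEq W] (k : ℕ) (S : Finset W)
  (f : Equiv.Perm W → ℝ), Lev k f → k ≤ S.card →
    ∑ R ∈ S.powersetCard k, (EM R *ᵥ f) ⬝ᵥ (EM R *ᵥ f) ≤
      (2 : ℝ) ^ k * ((EM S *ᵥ f) ⬝ᵥ (EM S *ᵥ f))

/-- dimension lemma, for an invariant projection `Q` whose range has pure level `k` -/
def StDim : Prop := ∀ (W : Type) [Fintype W] [DecidableEq W] (k : ℕ) (R : Finset W)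
  (Q : Matrix (Equiv.Perm W) (Equiv.Perm W) ℝ), R.card = k → Qᵀ = Q → Q * Q = Q → RInv Q →
  (∀ f, Lev k (Q *ᵥ f)) →
    Matrix.trace Q ≤ ((Fintype.card W).choose k : ℝ) * Matrix.trace (EM R * Q) ∧
    (Q ≠ 0 → 1 ≤ Matrix.trace (EM R * Q))

/-- the level projections -/
structure LevSys (W : Type) [Fintype W] [DecidableEq W] where
  Pi : ℕ → Matrix (Equiv.Perm W) (Equiv.Perm W) ℝ
  symm : ∀ k, (Pi k)ᵀ = Pi k
  idem : ∀ k, Pi k * Pi k = Pi k
  sum_one : ∑ k ∈ range (Fintype.card W + 1), Pi k = 1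
  zero : Pi 0 = fun _ _ => 1 / ((Fintype.card W).factorial : ℝ)
  comm : ∀ k (A : Matrix (Equiv.Perm W) (Equiv.Perm W) ℝ), RInv A → A * Pi k = Pi k * A
  rinv : ∀ k, RInv (Pi k)
  lev : ∀ k f, Lev k (Pi k *ᵥ f)
  fix : ∀ k f, Lev k f → Pi k *ᵥ f = f

def StLevSys : Prop := ∀ (W : Type) [Fintype W] [DecidableEq W], Nonempty (LevSys W)

/-- (b) -/
def StLevB : Prop := ∀ (W : Type) [Fintype W] [DecidableEq W] (L : LevSys W) (k : ℕ)
  (B : Matrix (Equiv.Perm W) (Equiv.Perm W) ℝ) (S : Finset W), k ≤ S.card → RInv B →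
  B.PosSemidef →
    Matrix.trace (L.Pi k * B) ≤ (2 : ℝ) ^ k * (((Fintype.card W).choose k : ℝ)
      / ((S.card).choose k : ℝ)) * Matrix.trace (EM S * B)

/-- (a') -/
def StLevA : Prop := ∀ (W : Type) [Fintype W] [DecidableEq W] (L : LevSys W) (k : ℕ)
  (A : Matrix (Equiv.Perm W) (Equiv.Perm W) ℝ) (f : Equiv.Perm W → ℝ), k ≤ Fintype.card W →
  RInv A →
    (A *ᵥ (L.Pi k *ᵥ f)) ⬝ᵥ (A *ᵥ (L.Pi k *ᵥ f)) ≤
      (2 : ℝ) ^ k * Matrix.trace (L.Pi k * (A * Aᵀ)) / ((Fintype.card W).choose k : ℝ) * (f ⬝ᵥ f)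

/-! ## the trace on tuples -/

/-- the link between `EM S` and tuples, for `A = KM * KMᵀ` -/
def StLink : Prop := ∀ (D : ℕ) (S : Finset (V D)) (m : ℕ),
  Matrix.trace (EM S * (KM D * (KM D)ᵀ) ^ m) =
    Matrix.trace ((fun x y : {x : S → V D // Function.Injective x} => Tt x.1 y.1 :
      Matrix {x : S → V D // Function.Injective x} {x : S → V D // Function.Injective x} ℝ) ^ m)

/-- the trace bounds -/
def StTr : Prop := ∀ (D : ℕ) (S : Finset (V D)),
  Matrix.trace (EM S * (KM D * (KM D)ᵀ) ^ 64) ≤ Real.exp (63 * ((S.card : ℝ) / 2)) ∧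
  Matrix.trace (EM S * (KM D * (KM D)ᵀ) ^ 64)
    ≤ Real.exp (126 * (S.card : ℝ) * ((S.card : ℝ) / (2 : ℝ) ^ D) ^ (0.08 : ℝ))

/-! ## P10 -/

def StXa : Prop := ∀ (W : Type) [Fintype W] [DecidableEq W] (k : ℕ) (f : Equiv.Perm W → ℝ),
  Lev k f →
    (2 * (k : ℝ) * ((Fintype.card W : ℝ) - k + 1) / (Fintype.card W : ℝ)) * (f ⬝ᵥ f)
      ≤ f ⬝ᵥ (Xm W *ᵥ f)

def StXb : Prop := ∀ (W : Type) [Fintype W] [DecidableEq W] (k : ℕ) (f : Equiv.Perm W → ℝ),
  Lev k f → (k : ℝ) * (f ⬝ᵥ f) ≤ f ⬝ᵥ (Xm W *ᵥ f)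

/-! ## P11 -/

section rep
variable {m : Type} [Fintype m] [DecidableEq m]

/-- generator of random transpositions in a representation -/
noncomputable def XU {W : Type} [Fintype W] [DecidableEq W]
    (U : Equiv.Perm W →* Matrix m m ℝ) : Matrix m m ℝ :=
  (1 / (Fintype.card W : ℝ)) • ∑ p : W × W, (1 - U (Equiv.swap p.1 p.2))

/-- generator of random transpositions inside the two halves `A × {false}`, `A × {true}` -/
noncomputable def SU {A : Type} [Fintype A] [DecidableEq A]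
    (U : Equiv.Perm (A × Bool) →* Matrix m m ℝ) : Matrix m m ℝ :=
  (1 / (Fintype.card A : ℝ)) • ∑ b : Bool, ∑ p : A × A, (1 - U (Equiv.swap (p.1, b) (p.2, b)))

/-- the matrix of one pass in a representation -/
noncomputable def KU {D : ℕ} (U : Equiv.Perm (V D) →* Matrix m m ℝ) : Matrix m m ℝ :=
  fun i j => av fun c : Coins D => U (pass c) i j

end rep

/-- algebra: `‖W v‖² ≤ (2/N) ⟨v, X v⟩` for `v` fixed by all `(x,0)(x,1)` -/
def StAlg : Prop := ∀ (A : Type) [Fintype A] [DecidableEq A] [Nonempty A] (m : Type) [Fintype m]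
  [DecidableEq m] (U : Equiv.Perm (A × Bool) →* Matrix m m ℝ) (v : m → ℝ),
  (∀ g, (U g)ᵀ = U g⁻¹) → (∀ x : A, U (Equiv.swap (x, false) (x, true)) *ᵥ v = v) →
    ((XU U - SU U) *ᵥ v) ⬝ᵥ ((XU U - SU U) *ᵥ v)
        ≤ (2 / (Fintype.card A : ℝ)) * (v ⬝ᵥ (XU U *ᵥ v)) ∧
    v ⬝ᵥ ((XU U - SU U) *ᵥ v) = 0

open Classical in
/-- counting words -/
def StWords : Prop := ∀ (A : Type) [Fintype A] [DecidableEq A] (k : ℕ) (O : Finset A),
  O.card = 2 →
    ((univ.filter fun w : Fin (2 * k) → A =>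
        ((univ.filter fun a : A => Odd ((univ.filter fun i => w i = a).card + if a ∈ O then 1 else 0)
          ).card = 2)).card : ℝ)
      ≤ (Fintype.card A : ℝ) ^ k * ((2 * k - 1).doubleFactorial : ℝ)
          * (2 * (k : ℝ) ^ 2 + 2 * k + 1)

/-- moments of `W = X - S` -/
def StMom : Prop := ∀ (A : Type) [Fintype A] [DecidableEq A] [Nonempty A] (m : Type) [Fintype m]
  [DecidableEq m] (U : Equiv.Perm (A × Bool) →* Matrix m m ℝ) (v : m → ℝ) (k : ℕ),
  (∀ g, (U g)ᵀ = U g⁻¹) → (∀ x : A, U (Equiv.swap (x, false) (x, true)) *ᵥ v = v) →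
    ((XU U - SU U) *ᵥ v) ⬝ᵥ ((XU U - SU U) ^ k *ᵥ ((XU U - SU U) *ᵥ v))
      ≤ (2 : ℝ) ^ k * ((2 * k - 1).doubleFactorial : ℝ) * (2 * (k : ℝ) ^ 2 + 2 * k + 1)
        * (((XU U - SU U) *ᵥ v) ⬝ᵥ ((XU U - SU U) *ᵥ v))

/-- one doubling step -/
def StOne : Prop := ∀ (A : Type) [Fintype A] [DecidableEq A] [Nonempty A] (m : Type) [Fintype m]
  [DecidableEq m] (U : Equiv.Perm (A × Bool) →* Matrix m m ℝ) (v : m → ℝ) (θ : ℝ),
  (∀ g, (U g)ᵀ = U g⁻¹) → (∀ x : A, U (Equiv.swap (x, false) (x, true)) *ᵥ v = v) →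
  0 ≤ θ → θ ≤ 1 / 8 →
    v ⬝ᵥ (NormedSpace.exp (-(θ • SU U)) *ᵥ v)
      ≤ v ⬝ᵥ (NormedSpace.exp (-((θ - 3 * θ ^ 2 / (Fintype.card A : ℝ)) • XU U)) *ᵥ v)

/-- contraction of one pass in any orthogonal representation -/
def StRec : Prop := ∀ (D : ℕ) (m : Type) [Fintype m] [DecidableEq m]
  (U : Equiv.Perm (V (D + 1)) →* Matrix m m ℝ) (f : m → ℝ), (∀ g, (U g)ᵀ = U g⁻¹) →
    (KU U *ᵥ f) ⬝ᵥ (KU U *ᵥ f)
      ≤ f ⬝ᵥ (NormedSpace.exp (-((3 / 40 + 1 / (10 * (2 : ℝ) ^ (D + 1))) • XU U)) *ᵥ f)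

/-- contraction on a level -/
def StContr : Prop := ∀ (D : ℕ) (L : LevSys (V (D + 1))) (k t : ℕ) (x : ℝ)
  (f : Equiv.Perm (V (D + 1)) → ℝ),
  (∀ f, Lev k f → x * (f ⬝ᵥ f) ≤ f ⬝ᵥ (Xm (V (D + 1)) *ᵥ f)) →
    (KM (D + 1) ^ t *ᵥ (L.Pi k *ᵥ f)) ⬝ᵥ (KM (D + 1) ^ t *ᵥ (L.Pi k *ᵥ f))
      ≤ Real.exp (-((3 / 40) * x * t)) * (f ⬝ᵥ f)

/-! ## P12: assembly -/

/-- the contribution of one level -/
def StDk : Prop := ∀ (D : ℕ) (L : LevSys (V (D + 1))) (k : ℕ) (x : ℝ),
  k ≤ Fintype.card (V (D + 1)) →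
  (∀ f, Lev k f → x * (f ⬝ᵥ f) ≤ f ⬝ᵥ (Xm (V (D + 1)) *ᵥ f)) →
    (Matrix.trace (L.Pi k * (KM (D + 1) ^ 1600 * (KM (D + 1) ^ 1600)ᵀ))
      ≤ Matrix.trace (L.Pi k * (KM (D + 1) * (KM (D + 1))ᵀ) ^ 64)
        * ((2 : ℝ) ^ k * Matrix.trace (L.Pi k * (KM (D + 1) * (KM (D + 1))ᵀ) ^ 64)
            / ((Fintype.card (V (D + 1))).choose k : ℝ)) ^ 13
        * Real.exp (-((3 / 40) * x * 704))) ∧
    (Matrix.trace (L.Pi k * (KM (D + 1) ^ 1600 * (KM (D + 1) ^ 1600)ᵀ))
      ≤ Matrix.trace (L.Pi k * (KM (D + 1) * (KM (D + 1))ᵀ) ^ 64)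
        * Real.exp (-((3 / 40) * x * 1536)))

/-- the contribution of one level, numerically (`n = 2^(D+1)`, constants not optimised) -/
def StNum : Prop := ∀ (D : ℕ) (L : LevSys (V (D + 1))) (k : ℕ), 1 ≤ k →
  k ≤ 2 ^ (D + 1) →
    ((k : ℝ) ≤ Real.exp (-100) * 2 ^ (D + 1) →
      Matrix.trace (L.Pi k * (KM (D + 1) ^ 1600 * (KM (D + 1) ^ 1600)ᵀ))
        ≤ Real.exp (-4 * (k : ℝ) - 0.03 * k * Real.log ((2 : ℝ) ^ (D + 1) / k))) ∧
    (Real.exp (-100) * 2 ^ (D + 1) < (k : ℝ) →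
      Matrix.trace (L.Pi k * (KM (D + 1) ^ 1600 * (KM (D + 1) ^ 1600)ᵀ))
        ≤ Real.exp (-4 * (k : ℝ)))

def StFinal : Prop := ∀ L : (D : ℕ) → LevSys (V (D + 1)),
  Filter.Tendsto (fun D : ℕ => ∑ k ∈ Finset.Icc 1 (2 ^ (D + 1)),
    Matrix.trace ((L D).Pi k * (KM (D + 1) ^ 1600 * (KM (D + 1) ^ 1600)ᵀ)))
    Filter.atTop (nhds 0)

end Crest.Agent.R155
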