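import Crest.Agent.R155.Defs

/-! Row 155, EM: elementary facts about `EM`. -/

set_option autoImplicit false

namespace Crest.Agent.R155
namespace EMp
open scoped BigOperators Matrix
open Finset

variable {W : Type} [Fintype W] [DecidableEq W]

theorem card_agree (S : Finset W) (τ : Equiv.Perm W) :
    (univ.filter fun ρ : Equiv.Perm W => ∀ a ∈ S, ρ a = τ a).card =
      (Fintype.card W - S.card).factorial := by
  have h1 : (univ.filter fun ρ : Equiv.Perm W => ∀ a ∈ S, ρ a = τ a).card =
      (univ.filter fun ρ : Equiv.Perm W => ∀ a, ¬ (a ∉ S) → ρ a = a).card := by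
    apply Finset.card_bij' (fun ρ _ => τ⁻¹ * ρ) (fun ρ _ => τ * ρ)
    · intro ρ hρ
      simp only [Finset.mem_filter, Finset.mem_univ, true_and, not_not] at hρ ⊢
      intro a ha
      rw [Equiv.Perm.mul_apply, hρ a ha]; exact τ.symm_apply_apply a
    · intro ρ hρ
      simp only [Finset.mem_filter, Finset.mem_univ, true_and, not_not] at hρ ⊢
      intro a ha
      rw [Equiv.Perm.mul_apply, hρ a ha]
    · intro ρ _
      simp
    · intro ρ _
      simp
  rw [h1, ← Fintype.card_subtype]
  rw [← Fintype.card_congr (Equiv.Perm.subtypeEquivSubtypePerm fun a : W => a ∉ S),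
    Fintype.card_perm]
  congr 1
  rw [Fintype.card_subtype_compl, Fintype.card_coe]

theorem EM_transpose (R : Finset W) : (EM R)ᵀ = EM R := by
  ext σ τ
  simp only [Matrix.transpose_apply, EM]
  congr 1
  exact propext ⟨fun h a ha => (h a ha).symm, fun h a ha => (h a ha).symm⟩

theorem EM_mul {R S : Finset W} (h : R ⊆ S) : EM R * EM S = EM R := by
  ext σ τ
  rw [Matrix.mul_apply]
  have h1 : ∀ ρ : Equiv.Perm W, EM R σ ρ * EM S ρ τ =
      if ∀ a ∈ S, ρ a = τ a then
        EM R σ τ * (1 / (((Fintype.card W - S.card).factorial : ℕ) : ℝ)) else 0 := by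
    intro ρ
    by_cases hρ : ∀ a ∈ S, ρ a = τ a
    · rw [if_pos hρ]
      simp only [EM]
      rw [if_pos hρ]
      congr 2
      exact propext ⟨fun h2 a ha => (h2 a ha).trans (hρ a (h ha)),
        fun h2 a ha => (h2 a ha).trans (hρ a (h ha)).symm⟩
    · rw [if_neg hρ]
      simp only [EM]
      rw [if_neg hρ, mul_zero]
  rw [Finset.sum_congr rfl fun ρ _ => h1 ρ, ← Finset.sum_filter, Finset.sum_const, card_agree,
    nsmul_eq_mul]
  have : (((Fintype.card W - S.card).factorial : ℕ) : ℝ) ≠ 0 := by positivity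
  field_simp

theorem EM_right (R : Finset W) (π σ τ : Equiv.Perm W) :
    EM R (σ * π) (τ * π) = EM (R.map π.toEmbedding) σ τ := by
  simp only [EM, Finset.card_map]
  congr 1
  apply propext
  constructor
  · intro h a ha
    obtain ⟨b, hb, rfl⟩ := Finset.mem_map.1 ha
    exact h b hb
  · intro h a ha
    exact h (π a) (Finset.mem_map.2 ⟨a, ha, rfl⟩)

end EMp

open EMp Finset in
theorem em : StEM := by
  intro W _ _
  refine ⟨EM_transpose, ?_, ?_, ?_, ?_, ?_⟩
  · intro R S h
    refine ⟨EM_mul h, ?_⟩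
    have h2 := congrArg Matrix.transpose (EM_mul h)
    rw [Matrix.transpose_mul, EM_transpose, EM_transpose] at h2
    exact h2
  · intro R A hA
    ext σ τ
    rw [Matrix.mul_apply, Matrix.mul_apply]
    -- ρ = τ s, ρ' = σ s⁻¹
    let e : Equiv.Perm (Equiv.Perm W) :=
      (Equiv.mulLeft τ⁻¹).trans ((Equiv.inv (Equiv.Perm W)).trans (Equiv.mulLeft σ))
    apply Fintype.sum_equiv e
    intro ρ
    have he : e ρ = σ * (τ⁻¹ * ρ)⁻¹ := rfl
    rw [he]
    have h1 : A σ ρ = A (σ * (τ⁻¹ * ρ)⁻¹) τ := by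
      have := hA (τ⁻¹ * ρ)⁻¹ σ ρ
      rw [← this]
      congr 1
      group
    rw [h1, mul_comm]
    congr 1
    simp only [EM]
    congr 1
    apply propext
    constructor
    · intro h a ha
      rw [Equiv.Perm.mul_apply]
      congr 1
      rw [Equiv.Perm.eq_inv_iff_eq, Equiv.Perm.mul_apply, h a ha]; exact τ.symm_apply_apply a
    · intro h a ha
      have h2 := h a ha
      rw [Equiv.Perm.mul_apply] at h2
      have h3 := σ.injective h2
      rw [Equiv.Perm.eq_inv_iff_eq, Equiv.Perm.mul_apply, Equiv.Perm.inv_eq_iff_eq] at h3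
      exact h3
  · intro R S A hA hc
    obtain ⟨π, hπ⟩ : ∃ π : Equiv.Perm W, R.map π.toEmbedding = S := by
      have e0 : {x // x ∈ R} ≃ {x // x ∈ S} := Finset.equivOfCardEq hc
      refine ⟨e0.extendSubtype, ?_⟩
      ext y
      rw [Finset.mem_map]
      constructor
      · rintro ⟨x, hx, rfl⟩
        exact e0.extendSubtype_mem x hx
      · intro hy
        refine ⟨e0.symm ⟨y, hy⟩, (e0.symm ⟨y, hy⟩).2, ?_⟩
        change e0.extendSubtype _ = y
        rw [e0.extendSubtype_apply_of_mem _ (e0.symm ⟨y, hy⟩).2]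
        simp
    have hA' : ∀ τ σ : Equiv.Perm W, A (τ * π) (σ * π) = A τ σ := fun τ σ => hA π τ σ
    simp only [Matrix.trace, Matrix.diag_apply, Matrix.mul_apply]
    rw [← Equiv.sum_comp (Equiv.mulRight π)]
    apply Finset.sum_congr rfl
    intro σ _
    rw [← Equiv.sum_comp (Equiv.mulRight π)]
    apply Finset.sum_congr rfl
    intro τ _
    simp only [Equiv.coe_mulRight]
    rw [EM_right, hπ, hA']
  · ext σ τ
    simp only [EM, Finset.card_univ, Nat.sub_self, Nat.factorial_zero, Nat.cast_one, div_one,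
      Finset.mem_univ, forall_true_left, Matrix.one_apply]
    congr 1
    apply propext
    exact ⟨fun h => Equiv.ext h, fun h a => by rw [h]⟩
  · funext σ τ
    simp [EM]

end Crest.Agent.R155
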