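import Crest.Agent.R155.Defs

set_option autoImplicit false

namespace Crest.Agent.R155
namespace Epsaux

open Finset

noncomputable def q : ℝ := (2 : ℝ) ^ (-(0.08 : ℝ))

theorem q_pos : 0 < q := Real.rpow_pos_of_pos (by norm_num) _

theorem q_pow (r : ℕ) : (2 : ℝ) ^ (-(0.08 : ℝ) * r) = q ^ r := by
  rw [q, ← Real.rpow_natCast, ← Real.rpow_mul (by norm_num)]

theorem q25 : q ^ 25 = 1 / 4 := by
  rw [q, ← Real.rpow_natCast, ← Real.rpow_mul (by norm_num)]
  rw [show -(0.08 : ℝ) * ((25 : ℕ) : ℝ) = -2 by norm_num]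
  rw [Real.rpow_neg (by norm_num)]
  norm_num

theorem q_le : q ≤ 0.95 := by
  by_contra h
  push Not at h
  have : (0.95 : ℝ) ^ 25 < q ^ 25 := pow_lt_pow_left₀ h (by norm_num) (by norm_num)
  rw [q25] at this
  norm_num at this

theorem q_lt_one : q ≤ 1 := q_le.trans (by norm_num)

theorem q31 : 1 / 8 ≤ q ^ 31 := by
  have h : q ^ 31 = (2 : ℝ) ^ (-(0.08 : ℝ) * (31 : ℕ)) := (q_pow 31).symm
  rw [h]
  have : (1 / 8 : ℝ) = (2 : ℝ) ^ (-3 : ℝ) := by
    rw [Real.rpow_neg (by norm_num)]; norm_num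
  rw [this]
  apply Real.rpow_le_rpow_of_exponent_le (by norm_num)
  norm_num

theorem q32 : q ^ 32 ≤ 0.175 := by
  have : q ^ 32 = q ^ 25 * q ^ 7 := by ring
  rw [this, q25]
  have : q ^ 7 ≤ 0.95 ^ 7 := pow_le_pow_left₀ q_pos.le q_le 7
  have h : (0.95 : ℝ) ^ 7 ≤ 0.699 := by norm_num
  linarith

theorem log2_63 : Real.log 2 / 63 ≤ 0.0111 := by
  have := Real.log_two_lt_d9
  rw [div_le_iff₀ (by norm_num)]
  linarith

theorem log2_63_pos : 0 < Real.log 2 / 63 := by
  have := Real.log_pos (by norm_num : (1 : ℝ) < 2)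
  positivity

theorem eps_nonneg (r : ℕ) : 0 ≤ eps r := by
  unfold eps
  split_ifs
  · exact log2_63_pos.le
  · have h1 := log2_63_pos
    have h2 : 0 < dyad r := by unfold dyad; positivity
    positivity

theorem eps_le (r : ℕ) : eps r ≤ 0.12 * q ^ r := by
  unfold eps
  split_ifs with h
  · have h1 : q ^ 31 ≤ q ^ r := pow_le_pow_of_le_one q_pos.le q_lt_one (by omega)
    have h2 := q31
    have h3 := log2_63
    linarith
  · push Not at h
    have hr0 : r ≠ 0 := by omega
    have hR1 : dyad r ≤ r := by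
      unfold dyad
      exact_mod_cast Nat.pow_log_le_self 2 hr0
    have hR2 : (r : ℝ) < 2 * dyad r := by
      unfold dyad
      have : r < 2 ^ (Nat.log 2 r + 1) := Nat.lt_pow_succ_log_self (by norm_num) r
      have h' : (r : ℝ) < (2 : ℝ) ^ (Nat.log 2 r + 1) := by exact_mod_cast this
      rw [pow_succ] at h'
      linarith
    have hR3 : 32 ≤ dyad r := by
      unfold dyad
      have h5 : 5 ≤ Nat.log 2 r := Nat.le_log_of_pow_le (by norm_num) (by norm_num; exact h)
      calc (32 : ℝ) = 2 ^ 5 := by norm_num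
        _ ≤ _ := pow_le_pow_right₀ (by norm_num) h5
    set R := dyad r with hR
    have e1 : (2 : ℝ) ^ (-(((r : ℝ) - R / 2) / 6)) ≤ q ^ r := by
      rw [← q_pow]
      apply Real.rpow_le_rpow_of_exponent_le (by norm_num)
      have : (0 : ℝ) ≤ r := Nat.cast_nonneg _
      norm_num
      linarith
    have e2 : (2 : ℝ) ^ (8 * R / 63 - 5 * ((r : ℝ) - R / 2) / 12) ≤ q ^ r := by
      rw [← q_pow]
      apply Real.rpow_le_rpow_of_exponent_le (by norm_num)
      norm_num
      linarith
    have e3 : 8 / (3 * R) ≤ 1 / 12 := by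
      rw [div_le_div_iff₀ (by positivity) (by norm_num)]
      linarith
    have e4 := log2_63
    have e5 := log2_63_pos
    have hq : 0 < q ^ r := pow_pos q_pos r
    calc Real.log 2 / 63 * (2 : ℝ) ^ (-(((r : ℝ) - R / 2) / 6))
          + 8 / (3 * R) * (2 : ℝ) ^ (8 * R / 63 - 5 * ((r : ℝ) - R / 2) / 12)
        ≤ 0.0111 * q ^ r + 1 / 12 * q ^ r := by
          apply add_le_add
          · exact mul_le_mul e4 e1 (by positivity) (by norm_num)
          · exact mul_le_mul e3 e2 (by positivity) (by norm_num)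
      _ ≤ 0.12 * q ^ r := by nlinarith

theorem sum_lo (D : ℕ) (hD : D ≤ 32) : ∑ r ∈ range D, eps r ≤ D * 0.0111 := by
  induction D with
  | zero => simp
  | succ D ih =>
    rw [sum_range_succ]
    have h1 := ih (by omega)
    have h2 : eps D ≤ 0.0111 := by
      unfold eps
      rw [if_pos (by omega)]
      exact log2_63
    push_cast
    linarith

theorem sum_hi (n : ℕ) : ∑ r ∈ range (32 + n), eps r ≤ 32 * 0.0111 + 2.4 * (q ^ 32 - q ^ (32 + n)) := by
  induction n with
  | zero =>
    have := sum_lo 32 le_rfl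
    simpa using this
  | succ n ih =>
    rw [← add_assoc, sum_range_succ]
    have h1 := eps_le (32 + n)
    have h2 : q ^ (32 + n + 1) = q ^ (32 + n) * q := pow_succ _ _
    have h3 : 0 < q ^ (32 + n) := pow_pos q_pos _
    have h4 := q_le
    rw [h2]
    nlinarith

end Epsaux

open Finset Epsaux in
theorem epsB : StEps := by
  refine ⟨eps_nonneg, ?_, ?_⟩
  · intro r
    rw [q_pow]
    exact eps_le r
  · intro D
    rw [Fin.sum_univ_eq_sum_range (fun r => eps r) D]
    have h1 : ∑ r ∈ range D, eps r ≤ ∑ r ∈ range (32 + D), eps r :=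
      sum_le_sum_of_subset_of_nonneg (range_mono (by omega)) fun r _ _ => eps_nonneg r
    refine h1.trans ((sum_hi D).trans ?_)
    have h2 := q32
    have h3 : 0 < q ^ (32 + D) := pow_pos q_pos _
    linarith

end Crest.Agent.R155
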