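import Crest.Agent.R155.Defs

/-!
Row 155, task HOL: generalised Hölder inequality.
-/

set_option autoImplicit false

namespace Crest.Agent.R155

open scoped BigOperators
open Finset

namespace HOL

theorem av_mono {Ω : Type*} [Fintype Ω] {f g : Ω → ℝ} (h : ∀ ω, f ω ≤ g ω) : av f ≤ av g := by
  unfold av
  exact div_le_div_of_nonneg_right (Finset.sum_le_sum fun ω _ => h ω) (Nat.cast_nonneg _)

theorem av_const_mul {Ω : Type*} [Fintype Ω] (f : Ω → ℝ) (a : ℝ) :
    av (fun ω => a * f ω) = a * av f := by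
  unfold av
  rw [← Finset.mul_sum]
  ring

theorem av_nonneg {Ω : Type*} [Fintype Ω] {f : Ω → ℝ} (h : ∀ ω, 0 ≤ f ω) : 0 ≤ av f := by
  unfold av
  exact div_nonneg (Finset.sum_nonneg fun ω _ => h ω) (Nat.cast_nonneg _)

theorem av_add {Ω : Type*} [Fintype Ω] (f g : Ω → ℝ) :
    av (fun ω => f ω + g ω) = av f + av g := by
  unfold av
  rw [Finset.sum_add_distrib, add_div]

theorem av_const {Ω : Type*} [Fintype Ω] [Nonempty Ω] (a : ℝ) :
    av (fun _ : Ω => a) = a := by
  unfold av
  have hc : (Fintype.card Ω : ℝ) ≠ 0 := by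
    exact_mod_cast Fintype.card_ne_zero
  rw [Finset.sum_const, Finset.card_univ, nsmul_eq_mul]
  field_simp

theorem av_sum {Ω κ : Type*} [Fintype Ω] (s : Finset κ) (f : κ → Ω → ℝ) :
    av (fun ω => ∑ i ∈ s, f i ω) = ∑ i ∈ s, av (f i) := by
  unfold av
  rw [Finset.sum_comm, Finset.sum_div]

theorem av_eq_zero {Ω : Type*} [Fintype Ω] [Nonempty Ω] {f : Ω → ℝ} (h : ∀ ω, 0 ≤ f ω)
    (h0 : av f = 0) (ω : Ω) : f ω = 0 := by
  have hc : (Fintype.card Ω : ℝ) ≠ 0 := by
    exact_mod_cast Fintype.card_ne_zero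
  unfold av at h0
  have h1 : ∑ ω, f ω = 0 := by
    rcases div_eq_zero_iff.1 h0 with h | h
    · exact h
    · exact absurd h hc
  exact (Finset.sum_eq_zero_iff_of_nonneg fun ω _ => h ω).1 h1 ω (Finset.mem_univ ω)

theorem amgm {κ : Type*} (s : Finset κ) (w z : κ → ℝ) (hw : ∀ i ∈ s, 0 ≤ w i)
    (hs : ∑ i ∈ s, w i ≤ 1) (hz : ∀ i ∈ s, 0 ≤ z i) :
    ∏ i ∈ s, z i ^ w i ≤ ∑ i ∈ s, w i * z i + (1 - ∑ i ∈ s, w i) := by
  have h := Real.geom_mean_le_arith_mean_weighted (Finset.insertNone s)
    (fun o : Option κ => o.elim (1 - ∑ i ∈ s, w i) w) (fun o : Option κ => o.elim 1 z)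
    (by
      intro o ho
      rcases o with _ | i
      · simpa using hs
      · simpa using hw i (by simpa using ho))
    (by
      rw [Finset.sum_insertNone]
      simp)
    (by
      intro o ho
      rcases o with _ | i
      · simp
      · simpa using hz i (by simpa using ho))
  rw [Finset.prod_insertNone, Finset.sum_insertNone] at h
  simp only [Option.elim, Real.one_rpow, one_mul, mul_one] at h
  linarith

end HOL

open HOL in
theorem hol : StHol := by
  intro Ω κ _ _ s f p hf hp hs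
  have hav : ∀ i, 0 ≤ av (f i) := fun i => av_nonneg (hf i)
  by_cases hz : ∃ i ∈ s, av (f i) = 0 ∧ p i ≠ 0
  · obtain ⟨i, hi, h0, hpi⟩ := hz
    have : (fun ω => ∏ i ∈ s, (f i ω) ^ (p i)) = fun _ => (0 : ℝ) := by
      funext ω
      refine Finset.prod_eq_zero hi ?_
      rw [av_eq_zero (hf i) h0 ω, Real.zero_rpow hpi]
    rw [this, av_const]
    exact Finset.prod_nonneg fun i _ => Real.rpow_nonneg (hav i) _
  · push Not at hz
    have e1 : (fun ω => ∏ i ∈ s, (f i ω) ^ (p i)) =
        fun ω => (∏ i ∈ s, (av (f i)) ^ (p i)) * ∏ i ∈ s, (f i ω / av (f i)) ^ (p i) := by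
      funext ω
      rw [← Finset.prod_mul_distrib]
      refine Finset.prod_congr rfl fun i hi => ?_
      by_cases h0 : av (f i) = 0
      · rw [hz i hi h0]
        simp
      · rw [← Real.mul_rpow (hav i) (div_nonneg (hf i ω) (hav i)), mul_div_cancel₀ _ h0]
    rw [e1, av_const_mul]
    have hP : 0 ≤ ∏ i ∈ s, (av (f i)) ^ (p i) :=
      Finset.prod_nonneg fun i _ => Real.rpow_nonneg (hav i) _
    refine mul_le_of_le_one_right hP ?_
    have h2 : ∀ ω, ∏ i ∈ s, (f i ω / av (f i)) ^ (p i) ≤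
        ∑ i ∈ s, p i * (f i ω / av (f i)) + (1 - ∑ i ∈ s, p i) := by
      intro ω
      exact amgm s p (fun i => f i ω / av (f i)) (fun i _ => hp i) hs
        (fun i _ => div_nonneg (hf i ω) (hav i))
    refine (av_mono h2).trans ?_
    rw [av_add, av_const, av_sum]
    have h3 : ∀ i ∈ s, av (fun ω => p i * (f i ω / av (f i))) = p i := by
      intro i hi
      rw [av_const_mul]
      by_cases h0 : av (f i) = 0
      · rw [hz i hi h0]
        simp
      · have : av (fun ω => f i ω / av (f i)) = 1 := by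
          have : (fun ω => f i ω / av (f i)) = fun ω => (av (f i))⁻¹ * f i ω := by
            funext ω
            rw [div_eq_inv_mul]
          rw [this, av_const_mul, inv_mul_cancel₀ h0]
        rw [this, mul_one]
    rw [Finset.sum_congr rfl h3]
    linarith

end Crest.Agent.R155
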