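import Crest.Agent.R155.Defs

set_option autoImplicit false

namespace Crest.Agent.R155

open scoped BigOperators
open Finset

/-- separation and consistency at stage `r` -/
def GoodI {D : ℕ} {ι : Type} (r : Fin D) (x z : ι → V D) : Prop :=
  (∀ a b, a ≠ b → key r (x a) (z a) = key r (x b) (z b) → x a r ≠ x b r) ∧ Cons r x z

/-- transpose -/
def trI {D : ℕ} {ι : Type} (zt : Fin D → (ι → Bool)) : ι → V D := fun a j => zt j a

open Classical in
noncomputable def FI {D : ℕ} {ι : Type} [Fintype ι] (x y : ι → V D) (r : Fin D)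
    (zt : Fin D → (ι → Bool)) : ℝ :=
  if GoodI r x (trI zt) ∧ GoodI r y (trI zt) then
    (2 : ℝ) ^ (-(Fintype.card ι : ℝ) - (Fintype.card ι : ℝ) + Bc r x (trI zt) + Bc r y (trI zt)
      - lc r x y (trI zt)) else 0

theorem key_upI {D : ℕ} {ι : Type} (r : Fin D) (x : ι → V D) (zt zt' : Fin D → (ι → Bool))
    (h : ∀ j, r < j → zt j = zt' j) (a : ι) :
    key r (x a) (trI zt a) = key r (x a) (trI zt' a) := by
  funext j
  unfold key trI
  split_ifs with h1 h2
  · rfl
  · rfl
  · rw [h j (lt_of_le_of_ne (not_lt.mp h1) (Ne.symm h2))]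

theorem adj_congrI {D : ℕ} {ι : Type} (r : Fin D) (x : ι → V D) (zt zt' : Fin D → (ι → Bool))
    (h : ∀ j, r < j → zt j = zt' j) : Adj r x (trI zt) = Adj r x (trI zt') := by
  funext a b
  unfold Adj
  rw [key_upI r x zt zt' h a, key_upI r x zt zt' h b]

theorem bc_congrI {D : ℕ} {ι : Type} [Fintype ι] (r : Fin D) (x : ι → V D)
    (zt zt' : Fin D → (ι → Bool))
    (h : ∀ j, r < j → zt j = zt' j) : Bc r x (trI zt) = Bc r x (trI zt') := by
  unfold Bc
  rw [adj_congrI r x zt zt' h]

theorem lc_congrI {D : ℕ} {ι : Type} [Fintype ι] (r : Fin D) (x y : ι → V D)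
    (zt zt' : Fin D → (ι → Bool))
    (h : ∀ j, r < j → zt j = zt' j) : lc r x y (trI zt) = lc r x y (trI zt') := by
  unfold lc
  rw [adj_congrI r x zt zt' h, adj_congrI r y zt zt' h]

theorem good_congrI {D : ℕ} {ι : Type} (r : Fin D) (x : ι → V D) (zt zt' : Fin D → (ι → Bool))
    (h : ∀ j, r ≤ j → zt j = zt' j) : GoodI r x (trI zt) ↔ GoodI r x (trI zt') := by
  unfold GoodI Cons
  have hk := fun a => key_upI r x zt zt' (fun j hj => h j hj.le) a
  have hz : ∀ a, trI zt a r = trI zt' a r := by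
    intro a
    unfold trI
    rw [h r le_rfl]
  simp only [hk, hz]

theorem FI_nonneg {D : ℕ} {ι : Type} [Fintype ι] (x y : ι → V D) (r : Fin D)
    (zt : Fin D → (ι → Bool)) : 0 ≤ FI x y r zt := by
  unfold FI
  split_ifs
  · positivity
  · exact le_refl _

theorem FI_congr {D : ℕ} {ι : Type} [Fintype ι] (x y : ι → V D) (r : Fin D)
    (zt zt' : Fin D → (ι → Bool)) (h : ∀ j, r ≤ j → zt j = zt' j) :
    FI x y r zt = FI x y r zt' := by
  unfold FI
  rw [bc_congrI r x zt zt' (fun j hj => h j hj.le), bc_congrI r y zt zt' (fun j hj => h j hj.le),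
    lc_congrI r x y zt zt' (fun j hj => h j hj.le)]
  have e := and_congr (good_congrI r x zt zt' h) (good_congrI r y zt zt' h)
  by_cases hg : GoodI r x (trI zt) ∧ GoodI r y (trI zt)
  · rw [if_pos hg, if_pos (e.mp hg)]
  · rw [if_neg hg, if_neg (fun h' => hg (e.mpr h'))]

theorem FI_sum (h3 : StCol) {D : ℕ} {ι : Type} [Fintype ι] [DecidableEq ι] (x y : ι → V D)
    (r : Fin D) (zt : Fin D → (ι → Bool)) :
    ∑ b : ι → Bool, FI x y r (Function.update zt r b) ≤ ((2 : ℝ) ^ (Fintype.card ι))⁻¹ := by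
  classical
  have hup : ∀ b : ι → Bool, ∀ j, r < j → Function.update zt r b j = zt j := by
    intro b j hj
    rw [Function.update_of_ne hj.ne']
  by_cases hsep : (∀ a b, a ≠ b → key r (x a) (trI zt a) = key r (x b) (trI zt b) → x a r ≠ x b r) ∧
      (∀ a b, a ≠ b → key r (y a) (trI zt a) = key r (y b) (trI zt b) → y a r ≠ y b r)
  swap
  · have h0 : ∀ b : ι → Bool, FI x y r (Function.update zt r b) = 0 := by
      intro b
      unfold FI
      rw [if_neg]
      rintro ⟨hg1, hg2⟩
      apply hsep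
      constructor
      · intro a a' haa hk
        apply hg1.1 a a' haa
        rw [key_upI r x _ zt (hup b) a, key_upI r x _ zt (hup b) a']
        exact hk
      · intro a a' haa hk
        apply hg2.1 a a' haa
        rw [key_upI r y _ zt (hup b) a, key_upI r y _ zt (hup b) a']
        exact hk
    rw [Finset.sum_congr rfl (fun b _ => h0 b)]
    simp
  obtain ⟨hsx, hsy⟩ := hsep
  set E : ℝ := (2 : ℝ) ^ (-(Fintype.card ι : ℝ) - (Fintype.card ι : ℝ) + Bc r x (trI zt) +
    Bc r y (trI zt) - lc r x y (trI zt)) with hE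
  have hE0 : 0 < E := by positivity
  set q0 : Finset (ι → Bool) := univ.filter fun q : ι → Bool =>
        (∀ a b, Adj r x (trI zt) a b → q a ≠ q b) ∧ (∀ a b, Adj r y (trI zt) a b → q a ≠ q b)
    with hq0
  have hle : ∀ b : ι → Bool, FI x y r (Function.update zt r b) ≤ if b ∈ q0 then E else 0 := by
    intro b
    unfold FI
    rw [bc_congrI r x _ zt (hup b), bc_congrI r y _ zt (hup b), lc_congrI r x y _ zt (hup b)]
    by_cases hg : GoodI r x (trI (Function.update zt r b)) ∧ GoodI r y (trI (Function.update zt r b))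
    · rw [if_pos hg, if_pos]
      rw [hq0, Finset.mem_filter]
      refine ⟨Finset.mem_univ _, ?_, ?_⟩
      · rintro a a' ⟨haa, hk⟩ hb
        have h1 := hsx a a' haa hk
        have h2 := hg.1.2 a a' (by
          rw [key_upI r x _ zt (hup b) a, key_upI r x _ zt (hup b) a']
          exact hk)
        simp only [trI, Function.update_self, hb] at h2
        apply h1
        simpa using h2
      · rintro a a' ⟨haa, hk⟩ hb
        have h1 := hsy a a' haa hk
        have h2 := hg.2.2 a a' (by
          rw [key_upI r y _ zt (hup b) a, key_upI r y _ zt (hup b) a']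
          exact hk)
        simp only [trI, Function.update_self, hb] at h2
        apply h1
        simpa using h2
    · rw [if_neg hg]
      split_ifs
      · exact hE0.le
      · exact le_refl _
  have hcard : (q0.card : ℝ) ≤ (2 : ℝ) ^ ((Fintype.card ι : ℝ) - Bc r x (trI zt) -
      Bc r y (trI zt) + lc r x y (trI zt)) := by
    have := h3 ι (Adj r x (trI zt)) (Adj r y (trI zt)) (fun a h => h.1 rfl) (fun a h => h.1 rfl)
      (fun a b h => ⟨h.1.symm, h.2.symm⟩) (fun a b h => ⟨h.1.symm, h.2.symm⟩)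
      (by
        intro a b b' h h'
        by_contra hne
        have e1 := hsx a b h.1 h.2
        have e2 := hsx a b' h'.1 h'.2
        have e3 := hsx b b' hne (h.2.symm.trans h'.2)
        revert e1 e2 e3
        cases x a r <;> cases x b r <;> cases x b' r <;> simp)
      (by
        intro a b b' h h'
        by_contra hne
        have e1 := hsy a b h.1 h.2
        have e2 := hsy a b' h'.1 h'.2
        have e3 := hsy b b' hne (h.2.symm.trans h'.2)
        revert e1 e2 e3
        cases y a r <;> cases y b r <;> cases y b' r <;> simp)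
    unfold Bc lc
    convert this using 2
  calc ∑ b : ι → Bool, FI x y r (Function.update zt r b)
      ≤ ∑ b : ι → Bool, if b ∈ q0 then E else 0 := Finset.sum_le_sum fun b _ => hle b
    _ = q0.card * E := by
        rw [Finset.sum_ite_mem, Finset.univ_inter, Finset.sum_const, nsmul_eq_mul]
    _ ≤ (2 : ℝ) ^ ((Fintype.card ι : ℝ) - Bc r x (trI zt) -
      Bc r y (trI zt) + lc r x y (trI zt)) * E := by
        exact mul_le_mul_of_nonneg_right hcard hE0.le
    _ = ((2 : ℝ) ^ (Fintype.card ι))⁻¹ := by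
        rw [hE, ← Real.rpow_add (by norm_num), ← Real.rpow_natCast, ← Real.rpow_neg (by norm_num)]
        congr 1
        ring

theorem stI (h1 : StKt) (h2 : StCS) (h3 : StCol) (h4 : StSepTop) : StI := by
  classical
  intro D ι _ _ x y hx hy
  have hstep : ∀ zt : Fin D → (ι → Bool), Kt x (trI zt) * Kt y (trI zt) *
      (2 : ℝ) ^ (-(Phi x y (trI zt))) ≤ ∏ r, FI x y r zt := by
    intro zt
    by_cases hcx : ∀ r, Cons r x (trI zt)
    · by_cases hcy : ∀ r, Cons r y (trI zt)
      · rw [(h1 D ι x (trI zt) hx).1 hcx, (h1 D ι y (trI zt) hy).1 hcy]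
        have hPhi : (2 : ℝ) ^ (-(Phi x y (trI zt))) = ∏ r : Fin D, (2 : ℝ) ^ (-lc r x y (trI zt)) := by
          unfold Phi
          rw [← Finset.sum_neg_distrib, Real.rpow_sum_of_pos (by norm_num)]
        rw [hPhi, ← Finset.prod_mul_distrib, ← Finset.prod_mul_distrib]
        apply le_of_eq
        apply Finset.prod_congr rfl
        intro r _
        unfold FI
        rw [if_pos]
        · rw [← Real.rpow_add (by norm_num), ← Real.rpow_add (by norm_num)]
          congr 1
          ring
        · exact ⟨⟨fun a b hab hk => h4 D ι x _ r hx (fun j _ => hcx j) a b hab hk, hcx r⟩,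
            ⟨fun a b hab hk => h4 D ι y _ r hy (fun j _ => hcy j) a b hab hk, hcy r⟩⟩
      · rw [(h1 D ι y (trI zt) hy).2 hcy, mul_zero, zero_mul]
        exact Finset.prod_nonneg fun r _ => FI_nonneg x y r zt
    · rw [(h1 D ι x (trI zt) hx).2 hcx, zero_mul, zero_mul]
      exact Finset.prod_nonneg fun r _ => FI_nonneg x y r zt
  have hsum : ∑ z : ι → V D, Kt x z * Kt y z * (2 : ℝ) ^ (-(Phi x y z)) =
      ∑ zt : Fin D → (ι → Bool), Kt x (trI zt) * Kt y (trI zt) *
        (2 : ℝ) ^ (-(Phi x y (trI zt))) := by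
    symm
    exact Fintype.sum_equiv (Equiv.piComm (fun (_ : Fin D) (_ : ι) => Bool)) _ _ (fun zt => rfl)
  rw [hsum]
  calc ∑ zt : Fin D → (ι → Bool), Kt x (trI zt) * Kt y (trI zt) *
        (2 : ℝ) ^ (-(Phi x y (trI zt)))
      ≤ ∑ zt : Fin D → (ι → Bool), ∏ r, FI x y r zt := Finset.sum_le_sum fun zt _ => hstep zt
    _ ≤ (((2 : ℝ) ^ (Fintype.card ι))⁻¹) ^ D :=
        h2 D (ι → Bool) (FI x y) _ (by positivity) (fun r z => FI_nonneg x y r z)
          (fun r z z' h => FI_congr x y r z z' h) (fun r z => FI_sum h3 x y r z)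
    _ = (((2 : ℝ) ^ D) ^ (Fintype.card ι))⁻¹ := by
        rw [inv_pow, ← pow_mul, ← pow_mul, mul_comm]

end Crest.Agent.R155
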