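import Crest.Agent.R155.Defs

set_option autoImplicit false

namespace Crest.Agent.R155
namespace IsoAux

open Finset

theorem ineq {a b : ℝ} (ha : 0 < a) (hab : a ≤ b) :
    a * Real.logb 2 a + b * Real.logb 2 b + 2 * a ≤ (a + b) * Real.logb 2 (a + b) := by
  have hb : 0 < b := lt_of_lt_of_le ha hab
  have h1 : 1 ≤ Real.logb 2 (a + b) - Real.logb 2 a := by
    rw [← Real.logb_div (by positivity) (by positivity)]
    have : (2 : ℝ) ≤ (a + b) / a := by
      rw [le_div_iff₀ ha]; linarith
    calc (1 : ℝ) = Real.logb 2 2 := by rw [Real.logb_self_eq_one (by norm_num)]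
      _ ≤ _ := Real.logb_le_logb_of_le (by norm_num) (by norm_num) this
  have h2 : a / b ≤ Real.logb 2 (a + b) - Real.logb 2 b := by
    rw [← Real.logb_div (by positivity) (by positivity)]
    have hu0 : 0 ≤ a / b := by positivity
    have hu1 : a / b ≤ 1 := by rw [div_le_one hb]; exact hab
    have h3 := rpow_one_add_le_one_add_mul_self (s := 1) (by norm_num) hu0 hu1
    have h4 : (2 : ℝ) ^ (a / b) ≤ (a + b) / b := by
      have : (a + b) / b = 1 + a / b * 1 := by field_simp; ring
      rw [this]
      convert h3 using 2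
      norm_num
    rw [Real.le_logb_iff_rpow_le (by norm_num) (by positivity)]
    exact h4
  have h3 : b * (a / b) = a := by field_simp
  nlinarith [mul_le_mul_of_nonneg_left h1 ha.le, mul_le_mul_of_nonneg_left h2 hb.le]

theorem ineq' {a b : ℕ} (ha : 0 < a) (hb : 0 < b) :
    (a : ℝ) * Real.logb 2 a + b * Real.logb 2 b + ((2 * min a b : ℕ) : ℝ)
      ≤ ((a + b : ℕ) : ℝ) * Real.logb 2 ((a + b : ℕ) : ℝ) := by
  rcases le_total a b with h | h
  · rw [min_eq_left h]
    push_cast
    exact ineq (by exact_mod_cast ha) (by exact_mod_cast h)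
  · rw [min_eq_right h]
    push_cast
    have := ineq (a := (b : ℝ)) (b := (a : ℝ)) (by exact_mod_cast hb) (by exact_mod_cast h)
    rw [add_comm (a : ℝ) b]
    linarith

open Classical in
theorem iso_aux {D : ℕ} {ι : Type} (z : ι → V D) (Ad : Fin D → ι → ι → Prop)
    (h2 : ∀ r a b, Ad r a b → ∀ j, r < j → z a j = z b j)
    (h3 : ∀ r a b, Ad r a b → z a r ≠ z b r)
    (h4 : ∀ r a b b', Ad r a b → Ad r a b' → b = b')
    (hs : ∀ r a b, Ad r a b → Ad r b a) :
    ∀ d : ℕ, ∀ C : Finset ι, C.Nonempty →
      (∀ a ∈ C, ∀ b ∈ C, ∀ j : Fin D, d ≤ (j : ℕ) → z a j = z b j) →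
      ∑ r : Fin D, (((C ×ˢ C).filter fun p => Ad r p.1 p.2).card : ℝ)
        ≤ C.card * Real.logb 2 C.card := by
  intro d
  induction d with
  | zero =>
    intro C hC hz
    have h0 : ∀ r : Fin D, ((C ×ˢ C).filter fun p => Ad r p.1 p.2) = ∅ := by
      intro r
      rw [filter_eq_empty_iff]
      rintro ⟨a, b⟩ hab h
      rw [mem_product] at hab
      exact h3 r a b h (hz a hab.1 b hab.2 r (Nat.zero_le _))
    simp only [h0, card_empty, Nat.cast_zero, sum_const_zero]
    have : (1 : ℝ) ≤ C.card := by exact_mod_cast card_pos.mpr hC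
    exact mul_nonneg (by positivity) (Real.logb_nonneg (by norm_num) this)
  | succ d ih =>
    intro C hC hz
    by_cases hd : d < D
    swap
    · exact ih C hC fun a ha b hb j hj => hz a ha b hb j (by have := j.2; omega)
    set δ : Fin D := ⟨d, hd⟩ with hδ
    set C₀ := C.filter (fun a => z a δ = false) with hC₀
    set C₁ := C.filter (fun a => z a δ = true) with hC₁
    have hagree : ∀ a ∈ C, ∀ b ∈ C, z a δ = z b δ → ∀ j : Fin D, d ≤ (j : ℕ) → z a j = z b j := by
      intro a ha b hb hab j hj
      rcases Nat.eq_or_lt_of_le hj with h | h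
      · have : j = δ := Fin.ext h.symm
        rw [this]; exact hab
      · exact hz a ha b hb j h
    by_cases h0 : C₀ = ∅
    · apply ih C hC
      intro a ha b hb
      apply hagree a ha b hb
      have e1 := (filter_eq_empty_iff.mp h0) ha
      have e2 := (filter_eq_empty_iff.mp h0) hb
      simp only [Bool.not_eq_false] at e1 e2
      rw [e1, e2]
    by_cases h1 : C₁ = ∅
    · apply ih C hC
      intro a ha b hb
      apply hagree a ha b hb
      have e1 := (filter_eq_empty_iff.mp h1) ha
      have e2 := (filter_eq_empty_iff.mp h1) hb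
      simp only [Bool.not_eq_true] at e1 e2
      rw [e1, e2]
    have hne0 : C₀.Nonempty := nonempty_iff_ne_empty.mpr h0
    have hne1 : C₁.Nonempty := nonempty_iff_ne_empty.mpr h1
    have ih0 := ih C₀ hne0 (by
      intro a ha b hb
      rw [hC₀, mem_filter] at ha hb
      exact hagree a ha.1 b hb.1 (by rw [ha.2, hb.2]))
    have ih1 := ih C₁ hne1 (by
      intro a ha b hb
      rw [hC₁, mem_filter] at ha hb
      exact hagree a ha.1 b hb.1 (by rw [ha.2, hb.2]))
    have hcard : C₀.card + C₁.card = C.card := by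
      have := card_filter_add_card_filter_not (s := C) (fun a => z a δ = false)
      rw [hC₀, hC₁, ← this]
      simp only [Bool.not_eq_false]
    -- the pairs at stage δ
    have hδcard : ((C ×ˢ C).filter fun p => Ad δ p.1 p.2).card ≤ 2 * min C₀.card C₁.card := by
      have hsub : ((C ×ˢ C).filter fun p => Ad δ p.1 p.2) ⊆
          ((C₀ ×ˢ C₁).filter fun p => Ad δ p.1 p.2) ∪ ((C₁ ×ˢ C₀).filter fun p => Ad δ p.1 p.2) := by
        rintro ⟨a, b⟩ hab
        rw [mem_filter, mem_product] at hab
        have hne := h3 δ a b hab.2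
        rw [mem_union, mem_filter, mem_filter, mem_product, mem_product, hC₀, hC₁]
        simp only [mem_filter]
        cases ha : z a δ <;> cases hb : z b δ
        · rw [ha, hb] at hne; exact absurd rfl hne
        · left; exact ⟨⟨⟨hab.1.1, rfl⟩, hab.1.2, rfl⟩, hab.2⟩
        · right; exact ⟨⟨⟨hab.1.1, rfl⟩, hab.1.2, rfl⟩, hab.2⟩
        · rw [ha, hb] at hne; exact absurd rfl hne
      have hle : ∀ X Y : Finset ι, ((X ×ˢ Y).filter fun p => Ad δ p.1 p.2).card ≤ min X.card Y.card := by
        intro X Y
        apply le_min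
        · apply card_le_card_of_injOn Prod.fst
          · rintro ⟨a, b⟩ h
            rw [mem_coe, mem_filter, mem_product] at h
            exact h.1.1
          · rintro ⟨a, b⟩ h ⟨a', b'⟩ h' heq
            rw [mem_coe, mem_filter] at h h'
            simp only at heq
            subst heq
            rw [h4 δ a b b' h.2 h'.2]
        · apply card_le_card_of_injOn Prod.snd
          · rintro ⟨a, b⟩ h
            rw [mem_coe, mem_filter, mem_product] at h
            exact h.1.2
          · rintro ⟨a, b⟩ h ⟨a', b'⟩ h' heq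
            rw [mem_coe, mem_filter] at h h'
            simp only at heq
            subst heq
            rw [h4 δ b a a' (hs _ _ _ h.2) (hs _ _ _ h'.2)]
      have l1 := hle C₀ C₁
      have l2 := hle C₁ C₀
      rw [min_comm] at l2
      have := (card_le_card hsub).trans (card_union_le _ _)
      omega
    -- pairs at other stages
    have hoth : ∀ r : Fin D, r ≠ δ → ((C ×ˢ C).filter fun p => Ad r p.1 p.2).card ≤
        ((C₀ ×ˢ C₀).filter fun p => Ad r p.1 p.2).card
          + ((C₁ ×ˢ C₁).filter fun p => Ad r p.1 p.2).card := by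
      intro r hr
      refine (card_le_card ?_).trans (card_union_le _ _)
      rintro ⟨a, b⟩ hab
      rw [mem_filter, mem_product] at hab
      obtain ⟨⟨ha, hb⟩, had⟩ := hab
      have hrd : r < δ := by
        rcases lt_trichotomy r δ with h | h | h
        · exact h
        · exact absurd h hr
        · exact absurd (hz a ha b hb r (by have : (δ : ℕ) < r := h; simp [hδ] at this; omega)) (h3 r a b had)
      have heq : z a δ = z b δ := h2 r a b had δ hrd
      rw [mem_union, mem_filter, mem_filter, mem_product, mem_product, hC₀, hC₁]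
      simp only [mem_filter]
      cases hza : z a δ
      · left; exact ⟨⟨⟨ha, rfl⟩, hb, by rw [← heq, hza]⟩, had⟩
      · right; exact ⟨⟨⟨ha, rfl⟩, hb, by rw [← heq, hza]⟩, had⟩
    have hall : ∀ r : Fin D, (((C ×ˢ C).filter fun p => Ad r p.1 p.2).card : ℝ) ≤
        (((C₀ ×ˢ C₀).filter fun p => Ad r p.1 p.2).card : ℝ)
          + (((C₁ ×ˢ C₁).filter fun p => Ad r p.1 p.2).card : ℝ)
          + (if r = δ then ((2 * min C₀.card C₁.card : ℕ) : ℝ) else 0) := by
      intro r
      by_cases hr : r = δ
      · subst hr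
        rw [if_pos rfl]
        have : (((C ×ˢ C).filter fun p => Ad δ p.1 p.2).card : ℝ)
            ≤ ((2 * min C₀.card C₁.card : ℕ) : ℝ) := by exact_mod_cast hδcard
        have p1 : (0 : ℝ) ≤ (((C₀ ×ˢ C₀).filter fun p => Ad δ p.1 p.2).card : ℝ) := Nat.cast_nonneg _
        have p2 : (0 : ℝ) ≤ (((C₁ ×ˢ C₁).filter fun p => Ad δ p.1 p.2).card : ℝ) := Nat.cast_nonneg _
        linarith
      · rw [if_neg hr, add_zero]
        exact_mod_cast hoth r hr
    have hsum := sum_le_sum fun r (_ : r ∈ (univ : Finset (Fin D))) => hall r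
    rw [sum_add_distrib, sum_add_distrib, sum_ite_eq' univ δ, if_pos (mem_univ _)] at hsum
    have hfin := ineq' (card_pos.mpr hne0) (card_pos.mpr hne1)
    rw [hcard] at hfin
    linarith

end IsoAux

open Classical in
open Finset IsoAux in
theorem iso (h2 : StSep) : StIso := by
  intro D ι _ _ x c hx C hC
  have huniq : ∀ r a b b', Adj r x (fun a => pass c (x a)) a b →
      Adj r x (fun a => pass c (x a)) a b' → b = b' := by
    intro r a b b' h h'
    by_contra hne
    have e1 := (h2 D ι x c r hx a b h.1 h.2).1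
    have e2 := (h2 D ι x c r hx a b' h'.1 h'.2).1
    have e3 := (h2 D ι x c r hx b b' hne (h.2.symm.trans h'.2)).1
    revert e1 e2 e3
    cases x a r <;> cases x b r <;> cases x b' r <;> simp
  have := iso_aux (fun a => pass c (x a)) (fun r => Adj r x (fun a => pass c (x a)))
    (by
      intro r a b h j hj
      have := congrFun h.2 j
      simpa [key, not_lt.mpr hj.le, hj.ne'] using this)
    (fun r a b h => (h2 D ι x c r hx a b h.1 h.2).2) huniq
    (fun r a b h => ⟨h.1.symm, h.2.symm⟩) D C hC (fun a _ b _ j hj => absurd j.2 (by omega))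
  exact this

end Crest.Agent.R155
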