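import Crest.Agent.R155.Defs

set_option autoImplicit false

namespace Crest.Agent.R155

open scoped BigOperators
open Finset

theorem kav_aux {D : ℕ} {ι : Type} [Fintype ι] [DecidableEq ι] (z : ι → V D)
    (F : (ι → V D) → ℝ) :
    ∑ y : ι → V D, Kt y z * F y = av fun c : Coins D => F fun a => bwd c (z a) := by
  unfold Kt av
  have h1 : ∀ y : ι → V D, (∑ c : Coins D, if ∀ a, pass c (y a) = z a then (1 : ℝ) else 0) /
      (Fintype.card (Coins D) : ℝ) * F y =
      (∑ c : Coins D, (if ∀ a, pass c (y a) = z a then F y else 0)) /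
        (Fintype.card (Coins D) : ℝ) := by
    intro y
    rw [div_mul_eq_mul_div, Finset.sum_mul]
    congr 1
    apply Finset.sum_congr rfl
    intro c _
    split_ifs <;> simp
  rw [Finset.sum_congr rfl (fun y _ => h1 y), ← Finset.sum_div, Finset.sum_comm]
  congr 1
  apply Finset.sum_congr rfl
  intro c _
  rw [Finset.sum_eq_single (fun a => bwd c (z a))]
  · rw [if_pos]
    intro a
    unfold bwd
    simp
  · intro y _ hy
    rw [if_neg]
    intro h
    apply hy
    funext a
    unfold bwd
    rw [← h a]
    simp
  · intro h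
    exact absurd (Finset.mem_univ _) h

theorem kav (_h : StRel) : StKav := by
  intro D ι _ _ z F
  exact kav_aux z F

end Crest.Agent.R155
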