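import Crest.Agent.R155.Defs

set_option autoImplicit false

namespace Crest.Agent.R155

open scoped BigOperators
open Finset

/-- ordered pairs with the same key, fibres of size at most two -/
theorem card_pairs {ι κ : Type*} [Fintype ι] [DecidableEq ι] [DecidableEq κ] (k : ι → κ)
    (h : ∀ a, (univ.filter fun b => k a = k b).card ≤ 2) :
    ((univ.filter fun p : ι × ι => p.1 ≠ p.2 ∧ k p.1 = k p.2).card : ℝ) =
      2 * ((Fintype.card ι : ℝ) - ((univ.image k).card : ℝ)) := by
  classical
  have h1 : (univ.filter fun p : ι × ι => p.1 ≠ p.2 ∧ k p.1 = k p.2).card =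
      ∑ a : ι, (univ.filter fun b => a ≠ b ∧ k a = k b).card := by
    rw [Finset.card_filter, ← Finset.univ_product_univ, Finset.sum_product]
    apply Finset.sum_congr rfl
    intro a _
    rw [Finset.card_filter]
  have h2 : ∀ a, ((univ.filter fun b => a ≠ b ∧ k a = k b).card : ℝ) =
      ((univ.filter fun b => k a = k b).card : ℝ) - 1 := by
    intro a
    have : (univ.filter fun b => k a = k b) = insert a (univ.filter fun b => a ≠ b ∧ k a = k b) := by
      ext b
      simp only [mem_filter, mem_univ, true_and, mem_insert]
      constructor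
      · intro hb
        by_cases hab : a = b
        · left; exact hab.symm
        · right; exact ⟨hab, hb⟩
      · rintro (rfl | hb)
        · rfl
        · exact hb.2
    rw [this, Finset.card_insert_of_notMem (by simp)]
    push_cast
    ring
  rw [h1]
  push_cast
  rw [Finset.sum_congr rfl (fun a _ => h2 a)]
  have h3 : ∑ a : ι, (((univ.filter fun b => k a = k b).card : ℝ) - 1) =
      ∑ v ∈ univ.image k, ∑ a ∈ univ.filter (fun a => k a = v),
        (((univ.filter fun b => k a = k b).card : ℝ) - 1) := by
    rw [Finset.sum_fiberwise_of_maps_to]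
    intro a _
    exact Finset.mem_image_of_mem _ (Finset.mem_univ _)
  rw [h3]
  have h4 : (Fintype.card ι : ℝ) = ∑ v ∈ univ.image k, ((univ.filter fun a => k a = v).card : ℝ) := by
    have : Fintype.card ι = ∑ v ∈ univ.image k, (univ.filter fun a => k a = v).card := by
      rw [← Finset.card_univ]
      exact Finset.card_eq_sum_card_image k univ
    exact_mod_cast this
  have h5 : ((univ.image k).card : ℝ) = ∑ v ∈ univ.image k, (1 : ℝ) := by simp
  rw [h4, h5, ← Finset.sum_sub_distrib, Finset.mul_sum]
  apply Finset.sum_congr rfl
  intro v hv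
  obtain ⟨a0, _, rfl⟩ := Finset.mem_image.mp hv
  have h6 : ∀ a ∈ univ.filter (fun a => k a = k a0),
      (((univ.filter fun b => k a = k b).card : ℝ) - 1) =
      (((univ.filter fun b => k b = k a0).card : ℝ) - 1) := by
    intro a ha
    have ha' : k a = k a0 := by simpa using ha
    rw [ha']
    congr 3
    ext b
    simp [eq_comm]
  rw [Finset.sum_congr rfl h6, Finset.sum_const, nsmul_eq_mul]
  have h7 : (univ.filter fun b => k b = k a0).card ≤ 2 := by
    have := h a0
    convert this using 3
    exact eq_comm
  have h8 : 1 ≤ (univ.filter fun b => k b = k a0).card := by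
    apply Finset.card_pos.mpr
    exact ⟨a0, by simp⟩
  interval_cases (univ.filter fun b => k b = k a0).card <;> norm_num

/-- the number of boolean functions with prescribed values -/
theorem card_prescribed {ι κ : Type*} [Fintype ι] [Fintype κ] [DecidableEq κ] (k : ι → κ)
    (v : ι → Bool) (hc : ∀ a b, k a = k b → v a = v b) :
    (univ.filter fun f : κ → Bool => ∀ a, f (k a) = v a).card * 2 ^ (univ.image k).card
      = 2 ^ (Fintype.card κ) := by
  classical
  have h1 : (univ.filter fun f : κ → Bool => ∀ a, f (k a) = v a) =
      Fintype.piFinset (fun w : κ => if h : ∃ a, k a = w then {v h.choose} else (univ : Finset Bool)) := by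
    ext f
    simp only [mem_filter, mem_univ, true_and, Fintype.mem_piFinset]
    constructor
    · intro hf w
      split_ifs with h
      · rw [Finset.mem_singleton, ← hf h.choose, h.choose_spec]
      · exact Finset.mem_univ _
    · intro hf a
      have h2 : ∃ a', k a' = k a := ⟨a, rfl⟩
      have h3 := hf (k a)
      rw [dif_pos h2, Finset.mem_singleton] at h3
      rw [h3]
      exact hc _ _ h2.choose_spec
  rw [h1, Fintype.card_piFinset]
  have h2 : (2 : ℕ) ^ (univ.image k).card = ∏ w : κ, if ∃ a, k a = w then 2 else 1 := by
    rw [Finset.prod_ite, Finset.prod_const, Finset.prod_const, one_pow, mul_one]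
    congr 2
    ext w
    simp
  rw [h2, ← Finset.prod_mul_distrib]
  rw [← Finset.card_univ, ← Finset.prod_const]
  apply Finset.prod_congr rfl
  intro w _
  split_ifs with h
  · simp
  · simp

theorem kt (h1 : StRel) (h2 : StSepTop) : StKt := by
  classical
  intro D ι _ _ x z hx
  have hiff : ∀ c : Coins D, (∀ a, pass c (x a) = z a) ↔
      ∀ r, c r ∈ (univ.filter fun f : V D → Bool => ∀ a, f (key r (x a) (z a)) =
        xor (x a r) (z a r)) := by
    intro c
    simp only [mem_filter, mem_univ, true_and]
    constructor
    · intro h r a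
      have := (h1 D c (x a) (z a)).mp (h a) r
      rw [this]
      simp
    · intro h a
      rw [h1 D c (x a) (z a)]
      intro r
      rw [h r a]
      simp
  have hKt : Kt x z = ((∏ r : Fin D, (univ.filter fun f : V D → Bool =>
      ∀ a, f (key r (x a) (z a)) = xor (x a r) (z a r)).card : ℕ) : ℝ) /
        (Fintype.card (Coins D) : ℝ) := by
    unfold Kt av
    congr 1
    rw [Finset.sum_boole, ← Fintype.card_piFinset]
    congr 2
    ext c
    rw [Finset.mem_filter, Fintype.mem_piFinset]
    simp only [mem_univ, true_and]
    exact hiff c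
  have hcard : (Fintype.card (Coins D) : ℝ) = ∏ r : Fin D, (2 : ℝ) ^ (Fintype.card (V D)) := by
    rw [show Fintype.card (Coins D) = ∏ r : Fin D, 2 ^ (Fintype.card (V D)) by
      rw [Fintype.card_pi]
      apply Finset.prod_congr rfl
      intro r _
      rw [Fintype.card_fun, Fintype.card_bool]]
    push_cast
    rfl
  constructor
  · intro hcons
    rw [hKt, hcard, Nat.cast_prod, ← Finset.prod_div_distrib]
    apply Finset.prod_congr rfl
    intro r _
    have hc := card_prescribed (fun a => key r (x a) (z a)) (fun a => xor (x a r) (z a r))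
      (fun a b hab => hcons r a b hab)
    have hpr := card_pairs (fun a => key r (x a) (z a)) (fun a => by
      rw [← Fintype.card_bool, ← Finset.card_univ]
      apply Finset.card_le_card_of_injOn (fun b => x b r) (fun b _ => Finset.mem_univ _)
      intro b hb b' hb' hbb
      by_contra hne
      have hb1 : key r (x a) (z a) = key r (x b) (z b) := by simpa using hb
      have hb2 : key r (x a) (z a) = key r (x b') (z b') := by simpa using hb'
      exact h2 D ι x z r hx (fun j _ => hcons j) b b' hne (hb1.symm.trans hb2) hbb)
    have hBc : Bc r x z = (Fintype.card ι : ℝ) -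
        ((univ.image fun a => key r (x a) (z a)).card : ℝ) := by
      unfold Bc hp Adj
      have : ((univ.filter fun p : ι × ι => p.1 ≠ p.2 ∧
          key r (x p.1) (z p.1) = key r (x p.2) (z p.2)).card : ℝ) =
        2 * ((Fintype.card ι : ℝ) - ((univ.image fun a => key r (x a) (z a)).card : ℝ)) := hpr
      rw [← mul_div_cancel_left₀ ((Fintype.card ι : ℝ) -
        ((univ.image fun a => key r (x a) (z a)).card : ℝ)) (two_ne_zero), ← this]
      congr!
    rw [hBc]
    have hexp : -((Fintype.card ι : ℝ) - ((Fintype.card ι : ℝ) -
        ((univ.image fun a => key r (x a) (z a)).card : ℝ))) =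
        -(((univ.image fun a => key r (x a) (z a)).card : ℕ) : ℝ) := by ring
    rw [hexp, Real.rpow_neg (by norm_num), Real.rpow_natCast]
    have hc' : ((univ.filter fun f : V D → Bool => ∀ a, f (key r (x a) (z a)) =
        xor (x a r) (z a r)).card : ℝ) * 2 ^ (univ.image fun a => key r (x a) (z a)).card
      = 2 ^ (Fintype.card (V D)) := by exact_mod_cast hc
    rw [← hc']
    have hpos : (0 : ℝ) < 2 ^ (univ.image fun a => key r (x a) (z a)).card := by positivity
    have hpos2 : ((univ.filter fun f : V D → Bool => ∀ a, f (key r (x a) (z a)) =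
        xor (x a r) (z a r)).card : ℝ) ≠ 0 := by
      intro h0
      rw [h0, zero_mul] at hc'
      have : (0 : ℝ) < 2 ^ (Fintype.card (V D)) := by positivity
      linarith
    field_simp
  · intro hncons
    rw [hKt]
    push Not at hncons
    obtain ⟨r, hr⟩ := hncons
    rw [Finset.prod_eq_zero (Finset.mem_univ r), Nat.cast_zero, zero_div]
    rw [Finset.card_eq_zero, Finset.filter_eq_empty_iff]
    intro f _ hf
    apply hr
    intro a b hab
    rw [← hf a, ← hf b, hab]

end Crest.Agent.R155
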