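import Crest.Agent.R155.LEVB

set_option autoImplicit false

namespace Crest.Agent.R155

open scoped BigOperators Matrix
open SPC Finset Matrix

theorem levA (h1 : StEM) (h2 : StDim) (h3 : StTwo) : StLevA := by
  intro W _ _ L k A f hk hr
  obtain ⟨emT, emS, emC, emTr, emU, emE⟩ := h1 W
  have hcA : A * L.Pi k = L.Pi k * A := L.comm k A hr
  set M : Matrix (Equiv.Perm W) (Equiv.Perm W) ℝ := L.Pi k * ((Aᵀ * A) * L.Pi k) with hM
  have hMs : Mᵀ = M := by
    rw [hM]
    simp only [Matrix.transpose_mul, Matrix.transpose_transpose, L.symm k, Matrix.mul_assoc]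
  have hMr : RInv M := rinv_mul (L.rinv k) (rinv_mul (rinv_mul (rinv_transpose hr) hr) (L.rinv k))
  have hMdot : ∀ g : Equiv.Perm W → ℝ, g ⬝ᵥ (M *ᵥ g) =
      (A *ᵥ (L.Pi k *ᵥ g)) ⬝ᵥ (A *ᵥ (L.Pi k *ᵥ g)) := by
    intro g
    rw [hM, ← Matrix.mulVec_mulVec, Matrix.dotProduct_mulVec, ← Matrix.mulVec_transpose, L.symm k,
      ← Matrix.mulVec_mulVec, ← Matrix.mulVec_mulVec, Matrix.dotProduct_mulVec _ Aᵀ,
      ← Matrix.mulVec_transpose, Matrix.transpose_transpose]
  have hMpsd : M.PosSemidef := by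
    refine Matrix.PosSemidef.of_dotProduct_mulVec_nonneg ?_ ?_
    · rw [Matrix.IsHermitian, Matrix.conjTranspose_eq_transpose_of_trivial, hMs]
    · intro g
      rw [star_trivial, hMdot g]
      exact Finset.sum_nonneg fun i _ => mul_self_nonneg _
  have hPM : L.Pi k * M = M := by
    rw [hM, ← Matrix.mul_assoc, L.idem k]
  have htrM : Matrix.trace M = Matrix.trace (L.Pi k * (A * Aᵀ)) := by
    calc Matrix.trace M = Matrix.trace ((Aᵀ * A) * L.Pi k * L.Pi k) := by
          rw [hM, Matrix.trace_mul_comm]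
      _ = Matrix.trace (Aᵀ * (L.Pi k * A)) := by
          rw [Matrix.mul_assoc, L.idem k, Matrix.mul_assoc, hcA]
      _ = Matrix.trace (L.Pi k * (A * Aᵀ)) := by
          rw [Matrix.trace_mul_comm, Matrix.mul_assoc]
  obtain ⟨R0, hR0S, hR0⟩ := Finset.exists_subset_card_eq
    (show k ≤ (univ : Finset W).card by rw [Finset.card_univ]; exact hk)
  have hchoose : (0 : ℝ) < ((Fintype.card W).choose k : ℝ) := by
    exact_mod_cast Nat.choose_pos hk
  have htrsum : Matrix.trace M = ∑ μ ∈ sf M, μ * Matrix.trace (sp M μ) := by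
    conv_lhs => rw [← sp_res hMs]
    rw [Matrix.trace_sum]
    apply Finset.sum_congr rfl
    intro μ _
    rw [Matrix.trace_smul, smul_eq_mul]
  have hterm : ∀ μ ∈ sf M, 0 ≤ μ * Matrix.trace (sp M μ) := by
    intro μ _
    rcases psd_eig hMpsd μ with h | h
    · exact mul_nonneg h (trace_nonneg (sp_symm M μ) (sp_idem M μ))
    · rw [h]; simp
  have htr0 : 0 ≤ Matrix.trace M := by
    rw [htrsum]; exact Finset.sum_nonneg hterm
  set c : ℝ := (2 : ℝ) ^ k * Matrix.trace M / ((Fintype.card W).choose k : ℝ) with hc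
  have hc0 : 0 ≤ c := by positivity
  have hμc : ∀ μ ∈ sf M, sp M μ = 0 ∨ μ ≤ c := by
    intro μ hμ
    by_cases hP : sp M μ = 0
    · exact Or.inl hP
    right
    rcases psd_eig hMpsd μ with h0 | h0
    swap
    · exact absurd h0 hP
    rcases h0.eq_or_lt with h00 | hpos
    · rw [← h00]; exact hc0
    have hPP : L.Pi k * sp M μ = sp M μ := by
      have e1 : sp M μ = μ⁻¹ • (M * sp M μ) := by
        rw [sp_mul hMs μ, smul_smul, inv_mul_cancel₀ hpos.ne', one_smul]
      conv_lhs => rw [e1]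
      rw [Matrix.mul_smul, ← Matrix.mul_assoc, hPM, ← e1]
    have hrP := rinv_sp hMr μ
    have hlP : ∀ g, Lev k (sp M μ *ᵥ g) := by
      intro g
      rw [← hPP, ← Matrix.mulVec_mulVec]
      exact L.lev k _
    have d1 := (h2 W k R0 (sp M μ) hR0 (sp_symm M μ) (sp_idem M μ) hrP hlP).2 hP
    have d2 := two_tr h1 h3 k univ R0 hR0 (by rw [Finset.card_univ]; exact hk) (sp M μ)
      (sp_symm M μ) (sp_idem M μ) hrP hlP
    rw [emU, Matrix.one_mul, Finset.card_univ] at d2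
    have d3 : μ * Matrix.trace (sp M μ) ≤ Matrix.trace M := by
      rw [htrsum]
      exact Finset.single_le_sum hterm hμ
    rw [hc, le_div_iff₀ hchoose]
    have d4 : ((Fintype.card W).choose k : ℝ) ≤ (2 : ℝ) ^ k * Matrix.trace (sp M μ) := by
      nlinarith
    calc μ * ((Fintype.card W).choose k : ℝ) ≤ μ * ((2 : ℝ) ^ k * Matrix.trace (sp M μ)) :=
          mul_le_mul_of_nonneg_left d4 hpos.le
      _ = (2 : ℝ) ^ k * (μ * Matrix.trace (sp M μ)) := by ring
      _ ≤ (2 : ℝ) ^ k * Matrix.trace M := mul_le_mul_of_nonneg_left d3 (by positivity)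
  rw [← hMdot f, ← htrM, ← hc]
  have q1 : f ⬝ᵥ (M *ᵥ f) = ∑ μ ∈ sf M, μ * (f ⬝ᵥ (sp M μ *ᵥ f)) := by
    conv_lhs => rw [← sp_res hMs]
    rw [Matrix.sum_mulVec, dotProduct_sum]
    apply Finset.sum_congr rfl
    intro μ _
    rw [Matrix.smul_mulVec, dotProduct_smul, smul_eq_mul]
  have q2 : f ⬝ᵥ f = ∑ μ ∈ sf M, f ⬝ᵥ (sp M μ *ᵥ f) := by
    rw [← dotProduct_sum, ← Matrix.sum_mulVec, sp_sum hMs, Matrix.one_mulVec]
  rw [q1, q2, Finset.mul_sum]
  apply Finset.sum_le_sum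
  intro μ hμ
  rcases hμc μ hμ with h | h
  · rw [h]; simp
  · exact mul_le_mul_of_nonneg_right h (proj_dot_nonneg (sp_symm M μ) (sp_idem M μ) f)

end Crest.Agent.R155
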