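import Crest.Agent.R155.SPC

set_option autoImplicit false

namespace Crest.Agent.R155
namespace SPC
open scoped BigOperators Matrix
open Finset

theorem proj_mul {n : Type} [Fintype n] [DecidableEq n] {P Q : Matrix n n ℝ} (h1 : Pᵀ = P)
    (h2 : P * P = P) (h3 : Qᵀ = Q) (h4 : Q * Q = Q) (h5 : P * Q = Q * P) :
    (P * Q)ᵀ = P * Q ∧ (P * Q) * (P * Q) = P * Q := by
  constructor
  · rw [Matrix.transpose_mul, h1, h3, h5]
  · calc (P * Q) * (P * Q) = P * (Q * P) * Q := by simp only [Matrix.mul_assoc]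
      _ = (P * P) * (Q * Q) := by rw [← h5]; simp only [Matrix.mul_assoc]
      _ = P * Q := by rw [h2, h4]

theorem two_tr (h1 : StEM) (h2 : StTwo) {W : Type} [Fintype W] [DecidableEq W] (k : ℕ)
    (S R0 : Finset W) (hR0 : R0.card = k) (hk : k ≤ S.card)
    (Q : Matrix (Equiv.Perm W) (Equiv.Perm W) ℝ) (hs : Qᵀ = Q) (hi : Q * Q = Q) (hr : RInv Q)
    (hl : ∀ f, Lev k (Q *ᵥ f)) :
    ((S.card).choose k : ℝ) * Matrix.trace (EM R0 * Q) ≤ (2 : ℝ) ^ k * Matrix.trace (EM S * Q) := by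
  obtain ⟨emT, emS, emC, emTr, emU, emE⟩ := h1 W
  have hid : ∀ R : Finset W, Matrix.trace (EM R * Q) =
      ∑ j, (EM R *ᵥ (Q *ᵥ Pi.single j 1)) ⬝ᵥ (EM R *ᵥ (Q *ᵥ Pi.single j 1)) := by
    intro R
    obtain ⟨e1, e2⟩ := proj_mul (emT R) (emS R R (Finset.Subset.refl _)).1 hs hi (emC R Q hr).symm
    have e3 : Matrix.trace (EM R * Q) = Matrix.trace ((EM R * Q)ᵀ * (EM R * Q)) := by rw [e1, e2]
    rw [e3, trace_eq_sum]
    simp only [Matrix.mulVec_mulVec]
  have hsum : ∑ R ∈ S.powersetCard k, Matrix.trace (EM R * Q) =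
      ((S.card).choose k : ℝ) * Matrix.trace (EM R0 * Q) := by
    rw [Finset.sum_congr rfl fun R hR => emTr R R0 Q hr
      (by rw [(Finset.mem_powersetCard.1 hR).2, hR0]), Finset.sum_const, Finset.card_powersetCard,
      nsmul_eq_mul]
  rw [← hsum]
  calc ∑ R ∈ S.powersetCard k, Matrix.trace (EM R * Q)
      = ∑ j, ∑ R ∈ S.powersetCard k,
          (EM R *ᵥ (Q *ᵥ Pi.single j 1)) ⬝ᵥ (EM R *ᵥ (Q *ᵥ Pi.single j 1)) := by
        rw [Finset.sum_congr rfl fun R _ => hid R, Finset.sum_comm]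
    _ ≤ ∑ j, (2 : ℝ) ^ k *
          ((EM S *ᵥ (Q *ᵥ Pi.single j 1)) ⬝ᵥ (EM S *ᵥ (Q *ᵥ Pi.single j 1))) :=
        Finset.sum_le_sum fun j _ => h2 W k S _ (hl _) hk
    _ = (2 : ℝ) ^ k * Matrix.trace (EM S * Q) := by rw [hid S, Finset.mul_sum]

end SPC

open SPC Finset Matrix

theorem levB (h1 : StEM) (h2 : StTwo) (h3 : StDim) : StLevB := by
  intro W _ _ L k B S hkS hr hB
  obtain ⟨emT, emS, emC, emTr, emU, emE⟩ := h1 W
  have hBs : Bᵀ = B := by
    have := hB.isHermitian.eq
    rwa [Matrix.conjTranspose_eq_transpose_of_trivial] at this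
  obtain ⟨R0, hR0S, hR0⟩ := Finset.exists_subset_card_eq hkS
  have hchoose : (0 : ℝ) < ((S.card).choose k : ℝ) := by
    exact_mod_cast Nat.choose_pos hkS
  -- the spectral pieces
  have key : ∀ μ ∈ sf B, μ * Matrix.trace (L.Pi k * sp B μ) ≤
      (2 : ℝ) ^ k * (((Fintype.card W).choose k : ℝ) / ((S.card).choose k : ℝ)) *
        (μ * Matrix.trace (EM S * sp B μ)) := by
    intro μ _
    rcases psd_eig hB μ with hμ | hμ
    · have hrP := rinv_sp hr μ
      have hcomm : L.Pi k * sp B μ = sp B μ * L.Pi k := (L.comm k _ hrP).symm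
      obtain ⟨e1, e2⟩ := proj_mul (L.symm k) (L.idem k) (sp_symm B μ) (sp_idem B μ) hcomm
      have hrQ : RInv (L.Pi k * sp B μ) := rinv_mul (L.rinv k) hrP
      have hlQ : ∀ f, Lev k ((L.Pi k * sp B μ) *ᵥ f) := by
        intro f
        rw [← Matrix.mulVec_mulVec]
        exact L.lev k _
      have d1 := (h3 W k R0 (L.Pi k * sp B μ) hR0 e1 e2 hrQ hlQ).1
      have d2 := two_tr h1 h2 k S R0 hR0 hkS (L.Pi k * sp B μ) e1 e2 hrQ hlQ
      -- drop `Pi k`
      have d3 : Matrix.trace (EM S * (L.Pi k * sp B μ)) ≤ Matrix.trace (EM S * sp B μ) := by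
        have f1 : (1 - L.Pi k)ᵀ = 1 - L.Pi k := by
          rw [Matrix.transpose_sub, Matrix.transpose_one, L.symm k]
        have f2 : (1 - L.Pi k) * (1 - L.Pi k) = 1 - L.Pi k := by
          rw [Matrix.sub_mul, Matrix.one_mul, Matrix.mul_sub, Matrix.mul_one, L.idem k, sub_self,
            sub_zero]
        have f3 : (1 - L.Pi k) * sp B μ = sp B μ * (1 - L.Pi k) := by
          rw [Matrix.sub_mul, Matrix.one_mul, Matrix.mul_sub, Matrix.mul_one, hcomm]
        obtain ⟨g1, g2⟩ := proj_mul f1 f2 (sp_symm B μ) (sp_idem B μ) f3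
        have f4 : EM S * ((1 - L.Pi k) * sp B μ) = ((1 - L.Pi k) * sp B μ) * EM S := by
          have i1 : RInv ((1 - L.Pi k) * sp B μ) := by
            have i2 : (1 - L.Pi k) * sp B μ = sp B μ - L.Pi k * sp B μ := by
              rw [Matrix.sub_mul, Matrix.one_mul]
            rw [i2]
            intro g h h'
            rw [Matrix.sub_apply, Matrix.sub_apply, hrP g h h', hrQ g h h']
          exact (emC S _ i1).symm
        obtain ⟨j1, j2⟩ := proj_mul (emT S) (emS S S (Finset.Subset.refl _)).1 g1 g2 f4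
        have j3 := trace_nonneg j1 j2
        have j4 : EM S * ((1 - L.Pi k) * sp B μ) = EM S * sp B μ - EM S * (L.Pi k * sp B μ) := by
          rw [Matrix.sub_mul, Matrix.one_mul, Matrix.mul_sub]
        rw [j4, Matrix.trace_sub] at j3
        linarith
      have d4 : Matrix.trace (L.Pi k * sp B μ) ≤
          (2 : ℝ) ^ k * (((Fintype.card W).choose k : ℝ) / ((S.card).choose k : ℝ)) *
            Matrix.trace (EM S * sp B μ) := by
        have hC : (0 : ℝ) ≤ ((Fintype.card W).choose k : ℝ) := Nat.cast_nonneg _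
        calc Matrix.trace (L.Pi k * sp B μ)
            ≤ ((Fintype.card W).choose k : ℝ) * Matrix.trace (EM R0 * (L.Pi k * sp B μ)) := d1
          _ = (((Fintype.card W).choose k : ℝ) / ((S.card).choose k : ℝ)) *
                (((S.card).choose k : ℝ) * Matrix.trace (EM R0 * (L.Pi k * sp B μ))) := by
              field_simp
          _ ≤ (((Fintype.card W).choose k : ℝ) / ((S.card).choose k : ℝ)) *
                ((2 : ℝ) ^ k * Matrix.trace (EM S * sp B μ)) := by
              apply mul_le_mul_of_nonneg_left _ (by positivity)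
              exact d2.trans (mul_le_mul_of_nonneg_left d3 (by positivity))
          _ = _ := by ring
      calc μ * Matrix.trace (L.Pi k * sp B μ) ≤ μ * _ := mul_le_mul_of_nonneg_left d4 hμ
        _ = _ := by ring
    · rw [hμ]
      simp
  have r1 : Matrix.trace (L.Pi k * B) = ∑ μ ∈ sf B, μ * Matrix.trace (L.Pi k * sp B μ) := by
    conv_lhs => rw [← sp_res hBs]
    rw [Finset.mul_sum, Matrix.trace_sum]
    apply Finset.sum_congr rfl
    intro μ _
    rw [Matrix.mul_smul, Matrix.trace_smul, smul_eq_mul]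
  have r2 : Matrix.trace (EM S * B) = ∑ μ ∈ sf B, μ * Matrix.trace (EM S * sp B μ) := by
    conv_lhs => rw [← sp_res hBs]
    rw [Finset.mul_sum, Matrix.trace_sum]
    apply Finset.sum_congr rfl
    intro μ _
    rw [Matrix.mul_smul, Matrix.trace_smul, smul_eq_mul]
  rw [r1, r2, Finset.mul_sum]
  exact Finset.sum_le_sum key

end Crest.Agent.R155
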