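import Crest.Agent.R155.Defs

set_option autoImplicit false

namespace Crest.Agent.R155

open scoped BigOperators Matrix
open Finset

namespace LEVSYS

section general
variable {G : Type} [Fintype G] [DecidableEq G]

/-- `Q` is the orthogonal projection matrix on `L` -/
structure IsProj (Q : Matrix G G ℝ) (L : Submodule ℝ (G → ℝ)) : Prop where
  symm : Qᵀ = Q
  fix : ∀ f ∈ L, Q *ᵥ f = f
  mem : ∀ f, Q *ᵥ f ∈ L

theorem ext_mulVec {A B : Matrix G G ℝ} (h : ∀ f : G → ℝ, A *ᵥ f = B *ᵥ f) : A = B := by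
  apply Matrix.mulVec_injective
  funext f
  exact h f

theorem exists_proj (L : Submodule ℝ (G → ℝ)) : ∃ Q : Matrix G G ℝ, IsProj Q L := by
  classical
  let e : EuclideanSpace ℝ G ≃ₗ[ℝ] (G → ℝ) := WithLp.linearEquiv 2 ℝ (G → ℝ)
  let L' : Submodule ℝ (EuclideanSpace ℝ G) := L.comap e.toLinearMap
  let P : EuclideanSpace ℝ G →L[ℝ] EuclideanSpace ℝ G := L'.starProjection
  let T : (G → ℝ) →ₗ[ℝ] (G → ℝ) := e.toLinearMap ∘ₗ P.toLinearMap ∘ₗ e.symm.toLinearMap
  have hQ : ∀ f, (LinearMap.toMatrix' T) *ᵥ f = T f := by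
    intro f
    rw [← Matrix.toLin'_apply, Matrix.toLin'_toMatrix']
  have hinner : ∀ u v : EuclideanSpace ℝ G, inner ℝ u v = (e v) ⬝ᵥ (e u) := by
    intro u v
    rw [EuclideanSpace.inner_eq_star_dotProduct]
    simp [e]
  have hT : ∀ f g : G → ℝ, f ⬝ᵥ T g = T f ⬝ᵥ g := by
    intro f g
    have h1 : inner ℝ (P (e.symm f)) (e.symm g) = inner ℝ (e.symm f) (P (e.symm g)) :=
      Submodule.inner_starProjection_left_eq_right L' _ _
    rw [hinner, hinner] at h1
    have h2 : e (P (e.symm g)) = T g := rfl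
    have h3 : e (P (e.symm f)) = T f := rfl
    rw [h2, h3, LinearEquiv.apply_symm_apply, LinearEquiv.apply_symm_apply] at h1
    rw [dotProduct_comm f, ← h1, dotProduct_comm]
  refine ⟨LinearMap.toMatrix' T, ?_, ?_, ?_⟩
  · ext i j
    have := hT (Pi.single j 1) (Pi.single i 1)
    rw [single_one_dotProduct, dotProduct_single_one] at this
    rw [Matrix.transpose_apply, LinearMap.toMatrix'_apply, LinearMap.toMatrix'_apply]
    exact this
  · intro f hf
    rw [hQ]
    have h1 : e.symm f ∈ L' := by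
      change e (e.symm f) ∈ L
      rw [LinearEquiv.apply_symm_apply]; exact hf
    have h2 : P (e.symm f) = e.symm f := Submodule.starProjection_eq_self_iff.2 h1
    change e (P (e.symm f)) = f
    rw [h2, LinearEquiv.apply_symm_apply]
  · intro f
    rw [hQ]
    have h1 : P (e.symm f) ∈ L' := Submodule.starProjection_apply_mem L' _
    exact h1

theorem IsProj.idem {Q : Matrix G G ℝ} {L : Submodule ℝ (G → ℝ)} (h : IsProj Q L) :
    Q * Q = Q := by
  apply ext_mulVec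
  intro f
  rw [← Matrix.mulVec_mulVec, h.fix _ (h.mem f)]

theorem IsProj.mul_of_le {Q Q' : Matrix G G ℝ} {L L' : Submodule ℝ (G → ℝ)} (h : IsProj Q L)
    (h' : IsProj Q' L') (hl : L ≤ L') : Q' * Q = Q ∧ Q * Q' = Q := by
  have h1 : Q' * Q = Q := by
    apply ext_mulVec
    intro f
    rw [← Matrix.mulVec_mulVec, h'.fix _ (hl (h.mem f))]
  refine ⟨h1, ?_⟩
  have := congrArg Matrix.transpose h1
  rwa [Matrix.transpose_mul, h.symm, h'.symm] at this

theorem IsProj.unique {Q Q' : Matrix G G ℝ} {L : Submodule ℝ (G → ℝ)} (h : IsProj Q L)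
    (h' : IsProj Q' L) : Q = Q' := by
  rw [← (h.mul_of_le h' le_rfl).2, (h'.mul_of_le h le_rfl).1]

theorem IsProj.comm {Q A : Matrix G G ℝ} {L : Submodule ℝ (G → ℝ)} (h : IsProj Q L)
    (h1 : ∀ f ∈ L, A *ᵥ f ∈ L) (h2 : ∀ f ∈ L, Aᵀ *ᵥ f ∈ L) : A * Q = Q * A := by
  have e1 : Q * (A * Q) = A * Q := by
    apply ext_mulVec
    intro f
    rw [← Matrix.mulVec_mulVec, h.fix]
    rw [← Matrix.mulVec_mulVec]
    exact h1 _ (h.mem f)
  have e2 : Q * (Aᵀ * Q) = Aᵀ * Q := by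
    apply ext_mulVec
    intro f
    rw [← Matrix.mulVec_mulVec, h.fix]
    rw [← Matrix.mulVec_mulVec]
    exact h2 _ (h.mem f)
  have e3 := congrArg Matrix.transpose e2
  rw [Matrix.transpose_mul, Matrix.transpose_mul, Matrix.transpose_transpose, h.symm] at e3
  rw [← e1, ← Matrix.mul_assoc, e3]

theorem IsProj.perp {Q : Matrix G G ℝ} {L : Submodule ℝ (G → ℝ)} (h : IsProj Q L) {f : G → ℝ}
    (hf : ∀ g ∈ L, g ⬝ᵥ f = 0) : Q *ᵥ f = 0 := by
  have h1 : (Q *ᵥ f) ⬝ᵥ (Q *ᵥ f) = 0 := by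
    have h2 := hf _ (h.mem (Q *ᵥ f))
    rw [Matrix.dotProduct_mulVec, ← Matrix.mulVec_transpose, h.symm]
    exact h2
  exact dotProduct_self_eq_zero.1 h1

end general

section levels
variable {W : Type} [Fintype W] [DecidableEq W]

abbrev LL (W : Type) [Fintype W] [DecidableEq W] (k : ℕ) : Submodule ℝ (Equiv.Perm W → ℝ) :=
  Submodule.span ℝ {g : Equiv.Perm W → ℝ | ∃ R : Finset W, R.card = k ∧ EM R *ᵥ g = g}

theorem mem_LL {k : ℕ} {R : Finset W} (hR : R.card = k) {g : Equiv.Perm W → ℝ}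
    (h : EM R *ᵥ g = g) : g ∈ LL W k := Submodule.subset_span ⟨R, hR, h⟩

theorem EM_mem (h1 : StEM) {k : ℕ} {R : Finset W} (hR : R.card = k) (f : Equiv.Perm W → ℝ) :
    EM R *ᵥ f ∈ LL W k := by
  apply mem_LL hR
  rw [Matrix.mulVec_mulVec, ((h1 W).2.1 R R (Finset.Subset.refl R)).1]

theorem LL_mono (h1 : StEM) {k : ℕ} (hk : k < Fintype.card W) : LL W k ≤ LL W (k + 1) := by
  apply Submodule.span_le.2
  rintro g ⟨R, hR, hg⟩
  obtain ⟨a, ha⟩ : ∃ a, a ∉ R := by
    by_contra hcon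
    push Not at hcon
    have : R = univ := Finset.eq_univ_iff_forall.2 hcon
    rw [this, Finset.card_univ] at hR
    omega
  apply mem_LL (R := insert a R)
  · rw [Finset.card_insert_of_notMem ha, hR]
  · conv_lhs => rw [← hg]
    rw [Matrix.mulVec_mulVec, ((h1 W).2.1 R (insert a R) (Finset.subset_insert a R)).2, hg]

theorem LL_top (h1 : StEM) : LL W (Fintype.card W) = ⊤ := by
  apply eq_top_iff.2
  intro g _
  apply mem_LL (R := univ) Finset.card_univ
  rw [(h1 W).2.2.2.2.1, Matrix.one_mulVec]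

theorem LL_bot {k : ℕ} (hk : Fintype.card W < k) : LL W k = ⊥ := by
  rw [LL, Submodule.span_eq_bot]
  rintro g ⟨R, hR, _⟩
  exfalso
  have := Finset.card_le_univ R
  omega

theorem RInv_transpose {A : Matrix (Equiv.Perm W) (Equiv.Perm W) ℝ} (hA : RInv A) : RInv Aᵀ := by
  intro g h h'
  exact hA g h' h

theorem LL_A (h1 : StEM) {A : Matrix (Equiv.Perm W) (Equiv.Perm W) ℝ} (hA : RInv A) {k : ℕ} :
    ∀ f ∈ LL W k, A *ᵥ f ∈ LL W k := by
  have : LL W k ≤ (LL W k).comap (Matrix.mulVecLin A) := by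
    apply Submodule.span_le.2
    rintro g ⟨R, hR, hg⟩
    change A *ᵥ g ∈ LL W k
    apply mem_LL hR
    rw [Matrix.mulVec_mulVec, ← (h1 W).2.2.1 R A hA, ← Matrix.mulVec_mulVec, hg]
  intro f hf
  exact this hf

/-- right translation -/
def rt (g : Equiv.Perm W) (f : Equiv.Perm W → ℝ) : Equiv.Perm W → ℝ := fun h => f (h * g)

theorem EM_rt (g : Equiv.Perm W) (R : Finset W) (σ τ : Equiv.Perm W) :
    EM (R.map g.toEmbedding) σ τ = EM R (σ * g) (τ * g) := by
  have hiff : (∀ a ∈ R.map g.toEmbedding, σ a = τ a) ↔ ∀ a ∈ R, (σ * g) a = (τ * g) a := by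
    constructor
    · intro h a ha
      exact h (g a) (Finset.mem_map.2 ⟨a, ha, rfl⟩)
    · intro h a ha
      obtain ⟨b, hb, rfl⟩ := Finset.mem_map.1 ha
      exact h b hb
  unfold EM
  rw [Finset.card_map]
  simp only [hiff]

theorem EM_mulVec_rt (g : Equiv.Perm W) (R : Finset W) (f : Equiv.Perm W → ℝ) :
    EM (R.map g.toEmbedding) *ᵥ (rt g f) = rt g (EM R *ᵥ f) := by
  funext σ
  unfold rt Matrix.mulVec dotProduct
  simp only [EM_rt]
  exact Equiv.sum_comp (Equiv.mulRight g) fun τ => EM R (σ * g) τ * f τ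

def rtl (g : Equiv.Perm W) : (Equiv.Perm W → ℝ) →ₗ[ℝ] (Equiv.Perm W → ℝ) where
  toFun := rt g
  map_add' _ _ := rfl
  map_smul' _ _ := rfl

theorem LL_rt {k : ℕ} (g : Equiv.Perm W) : ∀ f ∈ LL W k, rt g f ∈ LL W k := by
  have : LL W k ≤ (LL W k).comap (rtl g) := by
    apply Submodule.span_le.2
    rintro f ⟨R, hR, hf⟩
    change rt g f ∈ LL W k
    apply mem_LL (R := R.map g.toEmbedding) (by rw [Finset.card_map, hR])
    rw [EM_mulVec_rt, hf]
  intro f hf
  exact this hf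

theorem proj_RInv {k : ℕ} {Q : Matrix (Equiv.Perm W) (Equiv.Perm W) ℝ} (hQ : IsProj Q (LL W k)) :
    RInv Q := by
  intro g
  have key : ∀ f, (fun h h' => Q (h * g) (h' * g) : Matrix _ _ ℝ) *ᵥ f = rt g (Q *ᵥ (rt g⁻¹ f)) := by
    intro f
    funext σ
    unfold rt Matrix.mulVec dotProduct
    have := Equiv.sum_comp (Equiv.mulRight g) fun τ => Q (σ * g) τ * f (τ * g⁻¹)
    simp only [Equiv.coe_mulRight, mul_inv_cancel_right] at this
    exact this
  have : IsProj (fun h h' => Q (h * g) (h' * g) : Matrix _ _ ℝ) (LL W k) := by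
    refine ⟨?_, ?_, ?_⟩
    · ext h h'
      have := congrFun (congrFun hQ.symm (h * g)) (h' * g)
      exact this
    · intro f hf
      rw [key, hQ.fix _ (LL_rt _ f hf)]
      funext σ
      simp [rt]
    · intro f
      rw [key]
      exact LL_rt _ _ (hQ.mem _)
  intro h h'
  exact congrFun (congrFun (this.unique hQ) h) h'

theorem perp_of_EM (h1 : StEM) {k : ℕ} {f : Equiv.Perm W → ℝ}
    (hf : ∀ R : Finset W, R.card = k → EM R *ᵥ f = 0) : ∀ g ∈ LL W k, g ⬝ᵥ f = 0 := by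
  let φ : (Equiv.Perm W → ℝ) →ₗ[ℝ] ℝ :=
    { toFun := fun g => g ⬝ᵥ f
      map_add' := fun a b => add_dotProduct a b f
      map_smul' := fun c a => by simp }
  have : LL W k ≤ LinearMap.ker φ := by
    apply Submodule.span_le.2
    rintro g ⟨R, hR, hg⟩
    change g ⬝ᵥ f = 0
    rw [← hg, dotProduct_comm, Matrix.dotProduct_mulVec, ← Matrix.mulVec_transpose, (h1 W).1 R,
      hf R hR, zero_dotProduct]
  intro g hg
  exact this hg

theorem EM_of_perp (h1 : StEM) {k : ℕ} {f : Equiv.Perm W → ℝ}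
    (hf : ∀ g ∈ LL W k, g ⬝ᵥ f = 0) : ∀ R : Finset W, R.card = k → EM R *ᵥ f = 0 := by
  intro R hR
  have h2 : (EM R *ᵥ f) ⬝ᵥ (EM R *ᵥ f) = 0 := by
    have h3 := hf _ (EM_mem h1 hR (EM R *ᵥ f))
    rw [Matrix.mulVec_mulVec, ((h1 W).2.1 R R (Finset.Subset.refl R)).1] at h3
    rw [Matrix.dotProduct_mulVec, ← Matrix.mulVec_transpose, (h1 W).1 R, Matrix.mulVec_mulVec,
      ((h1 W).2.1 R R (Finset.Subset.refl R)).1]
    exact h3
  exact dotProduct_self_eq_zero.1 h2

theorem IsProj.dot {Q : Matrix (Equiv.Perm W) (Equiv.Perm W) ℝ}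
    {L : Submodule ℝ (Equiv.Perm W → ℝ)} (h : IsProj Q L) {g : Equiv.Perm W → ℝ} (hg : g ∈ L)
    (f : Equiv.Perm W → ℝ) : g ⬝ᵥ (Q *ᵥ f) = g ⬝ᵥ f := by
  rw [Matrix.dotProduct_mulVec, ← Matrix.mulVec_transpose, h.symm, h.fix g hg]

end levels

end LEVSYS

open LEVSYS in
theorem levsys (h1 : StEM) : StLevSys := by
  intro W _ _
  choose Q hQ using fun k : ℕ => exists_proj (LL W k)
  set n := Fintype.card W with hn
  let Pi : ℕ → Matrix (Equiv.Perm W) (Equiv.Perm W) ℝ := fun k =>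
    match k with
    | 0 => Q 0
    | k + 1 => if k + 1 ≤ n then Q (k + 1) - Q k else 0
  have hP0 : Pi 0 = Q 0 := rfl
  have hPs : ∀ k, k + 1 ≤ n → Pi (k + 1) = Q (k + 1) - Q k := fun k hk => if_pos hk
  have hPz : ∀ k, ¬ k + 1 ≤ n → Pi (k + 1) = 0 := fun k hk => if_neg hk
  have hmul : ∀ k, k + 1 ≤ n → Q (k + 1) * Q k = Q k ∧ Q k * Q (k + 1) = Q k := fun k hk =>
    (hQ k).mul_of_le (hQ (k + 1)) (LL_mono h1 (by omega))
  have hcomm : ∀ k (A : Matrix (Equiv.Perm W) (Equiv.Perm W) ℝ), RInv A → A * Q k = Q k * A := by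
    intro k A hA
    exact (hQ k).comm (LL_A h1 hA) (LL_A h1 (RInv_transpose hA))
  refine ⟨⟨Pi, ?_, ?_, ?_, ?_, ?_, ?_, ?_, ?_⟩⟩
  · rintro (_ | k)
    · exact (hQ 0).symm
    · by_cases hk : k + 1 ≤ n
      · rw [hPs k hk, Matrix.transpose_sub, (hQ (k + 1)).symm, (hQ k).symm]
      · rw [hPz k hk, Matrix.transpose_zero]
  · rintro (_ | k)
    · exact (hQ 0).idem
    · by_cases hk : k + 1 ≤ n
      · rw [hPs k hk, Matrix.sub_mul, Matrix.mul_sub, Matrix.mul_sub, (hQ (k + 1)).idem,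
          (hmul k hk).1, (hmul k hk).2, (hQ k).idem]
        abel
      · rw [hPz k hk, Matrix.zero_mul]
  · have h2 : ∀ m, m ≤ n → ∑ k ∈ range (m + 1), Pi k = Q m := by
      intro m
      induction m with
      | zero => intro _; simp [hP0]
      | succ m ih =>
        intro hm
        rw [Finset.sum_range_succ, ih (by omega), hPs m hm]
        abel
    rw [h2 n le_rfl]
    apply (hQ n).unique
    refine ⟨Matrix.transpose_one, fun f _ => Matrix.one_mulVec f, fun f => ?_⟩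
    rw [hn, LL_top h1]
    trivial
  · rw [hP0, ← (h1 W).2.2.2.2.2]
    apply (hQ 0).unique
    refine ⟨(h1 W).1 ∅, ?_, fun f => EM_mem h1 Finset.card_empty f⟩
    intro f hf
    have hker : LL W 0 ≤ LinearMap.ker (Matrix.mulVecLin (EM (∅ : Finset W)) - LinearMap.id) := by
      apply Submodule.span_le.2
      rintro g ⟨R, hR, hg⟩
      rw [Finset.card_eq_zero] at hR
      subst hR
      change EM ∅ *ᵥ g - g = 0
      rw [hg, sub_self]
    have := hker hf
    change EM ∅ *ᵥ f - f = 0 at this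
    exact sub_eq_zero.1 this
  · rintro (_ | k) A hA
    · exact hcomm 0 A hA
    · by_cases hk : k + 1 ≤ n
      · rw [hPs k hk, Matrix.mul_sub, Matrix.sub_mul, hcomm _ A hA, hcomm _ A hA]
      · rw [hPz k hk, Matrix.zero_mul, Matrix.mul_zero]
  · rintro (_ | k)
    · exact proj_RInv (hQ 0)
    · by_cases hk : k + 1 ≤ n
      · rw [hPs k hk]
        intro g h h'
        rw [Matrix.sub_apply, Matrix.sub_apply, proj_RInv (hQ (k + 1)) g h h',
          proj_RInv (hQ k) g h h']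
      · rw [hPz k hk]
        intro g h h'
        rfl
  · rintro (_ | k) f
    · refine ⟨(hQ 0).mem f, ?_⟩
      intro R hR
      omega
    · by_cases hk : k + 1 ≤ n
      · rw [hPs k hk, Matrix.sub_mulVec]
        refine ⟨?_, ?_⟩
        · exact Submodule.sub_mem _ ((hQ (k + 1)).mem f) (LL_mono h1 (by omega) ((hQ k).mem f))
        · intro R hR
          refine EM_of_perp h1 (k := k) ?_ R (by omega)
          intro g hg
          rw [dotProduct_sub, (hQ k).dot hg, (hQ (k + 1)).dot (LL_mono h1 (by omega) hg), sub_self]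
      · rw [hPz k hk, Matrix.zero_mulVec]
        refine ⟨Submodule.zero_mem _, fun R _ => Matrix.mulVec_zero _⟩
  · rintro (_ | k) f hf
    · exact (hQ 0).fix f hf.1
    · by_cases hk : k + 1 ≤ n
      · rw [hPs k hk, Matrix.sub_mulVec, (hQ (k + 1)).fix f hf.1,
          (hQ k).perp (perp_of_EM h1 fun R hR => hf.2 R (by omega)), sub_zero]
      · have h3 := hf.1
        have h4 : LL W (k + 1) = ⊥ := LL_bot (by omega)
        change f ∈ LL W (k + 1) at h3
        rw [h4, Submodule.mem_bot] at h3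
        rw [h3, Matrix.mulVec_zero]

end Crest.Agent.R155
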