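import Crest.Agent.R155.RI

set_option autoImplicit false

namespace Crest.Agent.R155

open scoped BigOperators Matrix
open Finset

namespace LINK

section general
variable {W : Type} [Fintype W] [DecidableEq W]

abbrev Y (W : Type) (S : Finset W) : Type := {x : S → W // Function.Injective x}

/-- action of a permutation on injective tuples -/
def ap {S : Finset W} (g : Equiv.Perm W) (x : Y W S) : Y W S :=
  ⟨fun s => g (x.1 s), g.injective.comp x.2⟩

/-- permutation matrix of the action -/
def Pm (S : Finset W) (g : Equiv.Perm W) : Matrix (Y W S) (Y W S) ℝ :=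
  fun x y => if x = ap g y then 1 else 0

theorem Pm_mul (S : Finset W) (g h : Equiv.Perm W) : Pm S (g * h) = Pm S g * Pm S h := by
  ext x y
  simp only [Pm, Matrix.mul_apply]
  rw [Finset.sum_eq_single (ap h y)]
  · rw [if_pos rfl, mul_one]
    rfl
  · intro b _ hb
    rw [if_neg hb, mul_zero]
  · intro h1; exact absurd (Finset.mem_univ _) h1

theorem Pm_one (S : Finset W) : Pm S (1 : Equiv.Perm W) = 1 := by
  ext x y
  rw [Matrix.one_apply]
  rfl

theorem Pm_transpose (S : Finset W) (g : Equiv.Perm W) : (Pm S g)ᵀ = Pm S g⁻¹ := by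
  ext x y
  simp only [Pm, Matrix.transpose_apply]
  have : (y = ap g x) ↔ (x = ap g⁻¹ y) := by
    constructor
    · rintro rfl
      apply Subtype.ext
      funext s
      change _ = g⁻¹ (g (x.1 s))
      simp
    · rintro rfl
      apply Subtype.ext
      funext s
      change _ = g (g⁻¹ (y.1 s))
      simp
  simp only [this]

/-- the matrix of the action of the group algebra -/
noncomputable def act (S : Finset W) (A : Matrix (Equiv.Perm W) (Equiv.Perm W) ℝ) :
    Matrix (Y W S) (Y W S) ℝ := ∑ g, A g 1 • Pm S g

theorem act_mul (S : Finset W) {A : Matrix (Equiv.Perm W) (Equiv.Perm W) ℝ} (hA : RInv A)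
    (B : Matrix (Equiv.Perm W) (Equiv.Perm W) ℝ) : act S (A * B) = act S A * act S B := by
  unfold act
  simp only [Matrix.mul_apply]
  have e1 : ∑ u, (∑ h, A u h * B h 1) • Pm S u
      = ∑ h, ∑ k, (A k 1 * B h 1) • Pm S (k * h) := by
    simp only [Finset.sum_smul]
    rw [Finset.sum_comm]
    apply Finset.sum_congr rfl
    intro h _
    rw [← Equiv.sum_comp (Equiv.mulRight h)]
    apply Finset.sum_congr rfl
    intro k _
    simp only [Equiv.coe_mulRight]
    have := hA h k 1
    rw [one_mul] at this
    rw [this]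
  rw [e1, Finset.sum_comm, Finset.sum_mul]
  apply Finset.sum_congr rfl
  intro k _
  rw [Finset.mul_sum]
  apply Finset.sum_congr rfl
  intro h _
  rw [Pm_mul, smul_mul_smul_comm]

theorem act_one (S : Finset W) : act S (1 : Matrix (Equiv.Perm W) (Equiv.Perm W) ℝ) = 1 := by
  unfold act
  rw [Finset.sum_eq_single (1 : Equiv.Perm W)]
  · rw [Matrix.one_apply_eq, one_smul, Pm_one]
  · intro b _ hb
    rw [Matrix.one_apply_ne hb, zero_smul]
  · intro h1; exact absurd (Finset.mem_univ _) h1

theorem act_pow (S : Finset W) {A : Matrix (Equiv.Perm W) (Equiv.Perm W) ℝ} (hA : RInv A)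
    (m : ℕ) : act S (A ^ m) = act S A ^ m := by
  induction m with
  | zero => rw [pow_zero, pow_zero, act_one]
  | succ m ih => rw [pow_succ', pow_succ', act_mul S hA, ih]

theorem act_transpose (S : Finset W) {A : Matrix (Equiv.Perm W) (Equiv.Perm W) ℝ} (hA : RInv A) :
    act S Aᵀ = (act S A)ᵀ := by
  unfold act
  rw [Matrix.transpose_sum, ← Equiv.sum_comp (Equiv.inv (Equiv.Perm W))]
  apply Finset.sum_congr rfl
  intro g _
  rw [Matrix.transpose_smul, Pm_transpose, Matrix.transpose_apply]
  have := hA g 1 g⁻¹
  simp only [one_mul, inv_mul_cancel] at this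
  change A 1 g⁻¹ • Pm S g⁻¹ = _
  rw [this]

/-- the number of permutations with prescribed restriction to `S` -/
theorem card_ext (S : Finset W) (x : Y W S) :
    (univ.filter fun σ : Equiv.Perm W => ∀ s : S, σ s = x.1 s).card
      = (Fintype.card W - S.card).factorial := by
  classical
  -- one extension
  obtain ⟨σ₀, h₀⟩ : ∃ σ₀ : Equiv.Perm W, ∀ s : S, σ₀ s = x.1 s := by
    let e : {a // a ∈ S} ≃ {b // b ∈ Set.range x.1} := Equiv.ofInjective x.1 x.2
    refine ⟨Equiv.extendSubtype (p := fun a => a ∈ S) (q := fun b => b ∈ Set.range x.1) e, ?_⟩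
    intro s
    rw [Equiv.extendSubtype_apply_of_mem (p := fun a => a ∈ S) (q := fun b => b ∈ Set.range x.1)
      e s.1 s.2]
    rfl
  have h1 : Fintype.card (Equiv.Perm {a // ¬ a ∈ S}) = (Fintype.card W - S.card).factorial := by
    rw [Fintype.card_perm, Fintype.card_subtype_compl]
    simp
  rw [← h1, ← Fintype.card_subtype]
  apply Fintype.card_congr
  refine Equiv.trans ?_ (Equiv.Perm.subtypeEquivSubtypePerm (fun a => ¬ a ∈ S)).symm
  refine
    { toFun := fun σ => ⟨σ₀⁻¹ * σ.1, ?_⟩
      invFun := fun τ => ⟨σ₀ * τ.1, ?_⟩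
      left_inv := ?_
      right_inv := ?_ }
  · intro a ha
    have ha' : a ∈ S := not_not.1 ha
    have h2 := σ.2 ⟨a, ha'⟩
    have h3 := h₀ ⟨a, ha'⟩
    simp only [Equiv.Perm.mul_apply]
    simp only at h2 h3
    rw [h2, ← h3]
    simp
  · intro s
    have := τ.2 s.1 (not_not.2 s.2)
    simp only [Equiv.Perm.mul_apply]
    rw [this, h₀]
  · intro σ
    apply Subtype.ext
    simp
  · intro τ
    apply Subtype.ext
    simp

/-- restriction of a permutation to `S` -/
def res (S : Finset W) (σ : Equiv.Perm W) : Y W S :=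
  ⟨fun s => σ s, fun a b h => Subtype.ext (σ.injective h)⟩

theorem trace_link (S : Finset W) {A : Matrix (Equiv.Perm W) (Equiv.Perm W) ℝ} (hA : RInv A) :
    Matrix.trace (EM S * A) = Matrix.trace (act S A) := by
  classical
  set N : ℝ := (((Fintype.card W - S.card).factorial : ℕ) : ℝ) with hN
  have hN0 : N ≠ 0 := by
    rw [hN]; exact_mod_cast Nat.factorial_ne_zero _
  -- left
  have e1 : Matrix.trace (EM S * A) = ∑ g, A g 1 * ∑ σ, if res S σ = ap g (res S σ) then 1 / N else 0 := by
    unfold Matrix.trace
    simp only [Matrix.diag_apply, Matrix.mul_apply]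
    -- ∑ σ, ∑ τ, EM S σ τ * A τ σ
    have : ∀ σ, ∑ τ, EM S σ τ * A τ σ = ∑ g, A g 1 * if res S σ = ap g (res S σ) then 1 / N else 0 := by
      intro σ
      rw [← Equiv.sum_comp (Equiv.mulRight σ)]
      apply Finset.sum_congr rfl
      intro g _
      simp only [Equiv.coe_mulRight]
      have h1 := hA σ g 1
      rw [one_mul] at h1
      rw [h1, mul_comm]
      congr 1
      unfold EM
      have hiff : (∀ a ∈ S, σ a = (g * σ) a) ↔ res S σ = ap g (res S σ) := by
        constructor
        · intro h
          apply Subtype.ext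
          funext s
          exact h s.1 s.2
        · intro h a ha
          have := congrFun (congrArg Subtype.val h) ⟨a, ha⟩
          exact this
      simp only [hiff, hN]
    simp only [this]
    rw [Finset.sum_comm]
    simp only [Finset.mul_sum]
  rw [e1]
  unfold act
  rw [Matrix.trace_sum]
  apply Finset.sum_congr rfl
  intro g _
  rw [Matrix.trace_smul, smul_eq_mul]
  congr 1
  unfold Matrix.trace
  simp only [Matrix.diag_apply, Pm]
  rw [← Finset.sum_fiberwise_of_maps_to (s := univ) (t := univ) (g := res S)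
    (fun _ _ => Finset.mem_univ _)]
  apply Finset.sum_congr rfl
  intro x _
  have e2 : ∀ σ ∈ univ.filter (fun σ => res S σ = x),
      (if res S σ = ap g (res S σ) then 1 / N else 0) = if x = ap g x then 1 / N else 0 := by
    intro σ hσ
    rw [(Finset.mem_filter.1 hσ).2]
  rw [Finset.sum_congr rfl e2, Finset.sum_const]
  have e3 : (univ.filter (fun σ => res S σ = x)).card = (Fintype.card W - S.card).factorial := by
    rw [← card_ext S x]
    congr 1
    apply Finset.filter_congr
    intro σ _
    constructor
    · intro h s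
      exact congrFun (congrArg Subtype.val h) s
    · intro h
      apply Subtype.ext
      funext s
      exact h s
  rw [e3, nsmul_eq_mul, ← hN]
  split_ifs
  · field_simp
  · rw [mul_zero]

end general

theorem act_KM (D : ℕ) (S : Finset (V D)) (x y : Y (V D) S) :
    act S (KM D) x y = Kt y.1 x.1 := by
  classical
  unfold act
  rw [Matrix.sum_apply]
  simp only [Matrix.smul_apply, smul_eq_mul, Pm, KM, av, Kt]
  simp only [div_mul_eq_mul_div, Finset.sum_mul]
  rw [← Finset.sum_div, Finset.sum_comm]
  congr 1
  apply Finset.sum_congr rfl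
  intro c _
  rw [Finset.sum_eq_single (pass c)]
  · simp only [Lm, mul_one, if_true, one_mul]
    have : (x = ap (pass c) y) ↔ ∀ a, pass c (y.1 a) = x.1 a := by
      constructor
      · rintro rfl a
        rfl
      · intro h
        apply Subtype.ext
        funext a
        exact (h a).symm
    simp only [this]
  · intro g _ hg
    simp only [Lm, mul_one]
    rw [if_neg hg, zero_mul]
  · intro h1; exact absurd (Finset.mem_univ _) h1

theorem Kt_zero {D : ℕ} {ι : Type} [Fintype ι] (x z : ι → V D) (hx : Function.Injective x)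
    (hz : ¬ Function.Injective z) : Kt x z = 0 := by
  unfold Kt av
  rw [Finset.sum_eq_zero, zero_div]
  intro c _
  rw [if_neg]
  intro h
  apply hz
  intro a b hab
  rw [← h a, ← h b] at hab
  exact hx ((pass c).injective hab)

theorem Tt_eq (D : ℕ) (S : Finset (V D)) (x y : Y (V D) S) :
    Tt x.1 y.1 = (act S ((KM D)ᵀ * KM D)) x y := by
  classical
  rw [act_mul S (RInv_KM D).transpose, act_transpose S (RInv_KM D), Matrix.mul_apply]
  simp only [Matrix.transpose_apply, act_KM]
  unfold Tt
  symm
  have h1 : ∑ z ∈ univ.filter (fun z : S → V D => Function.Injective z), Kt x.1 z * Kt y.1 z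
      = ∑ z : S → V D, Kt x.1 z * Kt y.1 z := by
    apply Finset.sum_subset (Finset.filter_subset _ _)
    intro z _ hz
    have hz' : ¬ Function.Injective z := by
      intro hcon
      exact hz (Finset.mem_filter.2 ⟨Finset.mem_univ _, hcon⟩)
    rw [Kt_zero _ _ x.2 hz', zero_mul]
  rw [← h1]
  exact (Finset.sum_subtype (univ.filter (fun z : S → V D => Function.Injective z)) (by simp)
    (fun z => Kt x.1 z * Kt y.1 z)).symm

theorem trace_pow_comm {n : Type} [Fintype n] [DecidableEq n] (P Q : Matrix n n ℝ) (m : ℕ) :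
    Matrix.trace ((P * Q) ^ m) = Matrix.trace ((Q * P) ^ m) := by
  cases m with
  | zero => rw [pow_zero, pow_zero]
  | succ m =>
    have h : ∀ k : ℕ, (P * Q) ^ (k + 1) = P * (Q * P) ^ k * Q := by
      intro k
      induction k with
      | zero => simp
      | succ k ih => rw [pow_succ, ih, pow_succ (Q * P)]; simp only [Matrix.mul_assoc]
    rw [h, Matrix.trace_mul_comm, ← Matrix.mul_assoc, pow_succ']

end LINK

/-- the kernel `Tt` on injective tuples, as a matrix -/
noncomputable def TM (D : ℕ) (S : Finset (V D)) :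
    Matrix {x : S → V D // Function.Injective x} {x : S → V D // Function.Injective x} ℝ :=
  Matrix.of fun x y => Tt x.1 y.1

/-- correct form of `StLink` (there the power is elaborated pointwise) -/
def StLinkM : Prop := ∀ (D : ℕ) (S : Finset (V D)) (m : ℕ),
  Matrix.trace (EM S * (KM D * (KM D)ᵀ) ^ m) = Matrix.trace (TM D S ^ m)

open LINK in
theorem linkM : StLinkM := by
  intro D S m
  rw [trace_link S (((RInv_KM D).mul (RInv_KM D).transpose).pow m),
    act_pow S ((RInv_KM D).mul (RInv_KM D).transpose), act_mul S (RInv_KM D), trace_pow_comm,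
    act_transpose S (RInv_KM D)]
  have : TM D S = (act S (KM D))ᵀ * act S (KM D) := by
    ext x y
    change Tt x.1 y.1 = _
    rw [Tt_eq, act_mul S (RInv_KM D).transpose, act_transpose S (RInv_KM D)]
  rw [this]

end Crest.Agent.R155
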