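import Crest.Agent.R155.ALG

set_option autoImplicit false

namespace Crest.Agent.R155

open scoped BigOperators Matrix
open Finset

namespace MM

open AM

section chars
variable {A : Type} [Fintype A] [DecidableEq A]

/-- characters of `(ℤ/2)^A` -/
def ch (O s : A → Bool) : ℝ := ∏ a, sg (O a && s a)

omit [DecidableEq A] in
theorem ch_comm (O s : A → Bool) : ch O s = ch s O := by
  unfold ch
  simp only [Bool.and_comm]

omit [DecidableEq A] in
theorem ch_xor_left (O O' s : A → Bool) :
    ch (fun a => xor (O a) (O' a)) s = ch O s * ch O' s := by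
  unfold ch
  rw [← Finset.prod_mul_distrib]
  apply Finset.prod_congr rfl
  intro a _
  rw [← sg_xor]
  congr 1
  show (xor (O a) (O' a) && s a) = _
  cases O a <;> cases O' a <;> cases s a <;> rfl

omit [DecidableEq A] in
theorem ch_xor_right (O s t : A → Bool) :
    ch O (fun a => xor (s a) (t a)) = ch O s * ch O t := by
  rw [ch_comm, ch_xor_left, ch_comm s, ch_comm t]

theorem ch_dl (x : A) (s : A → Bool) : ch (dl x) s = sg (s x) := by
  unfold ch
  rw [Finset.prod_eq_single x]
  · simp [dl]
  · intro b _ hb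
    simp [dl, hb]
  · simp

theorem ch_sum (s : A → Bool) :
    ∑ O : A → Bool, ch O s = if s = (fun _ => false) then 2 ^ (Fintype.card A) else 0 := by
  have h := Finset.prod_univ_sum (fun _ : A => (univ : Finset Bool)) (fun a b => sg (b && s a))
  rw [Fintype.piFinset_univ] at h
  unfold ch
  rw [← h]
  split_ifs with hs
  · subst hs
    simp only [Bool.and_false, sg_false, Finset.sum_const, Finset.card_univ, Fintype.card_bool,
      nsmul_eq_mul, mul_one, Finset.prod_const]
    norm_num
  · have : ∃ a, s a = true := by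
      by_contra hc
      push Not at hc
      exact hs (funext fun a => by simpa using hc a)
    obtain ⟨a, ha⟩ := this
    apply Finset.prod_eq_zero (mem_univ a)
    simp [ha, Fintype.sum_bool]

theorem ch_sum' (O : A → Bool) :
    ∑ s : A → Bool, ch O s = if O = (fun _ => false) then 2 ^ (Fintype.card A) else 0 := by
  simp only [ch_comm O]
  exact ch_sum O

/-- toggle -/
def fl (O : A → Bool) (x : A) : A → Bool := fun a => xor (O a) (dl x a)

omit [Fintype A] in
theorem fl_fl (O : A → Bool) (x y : A) : fl (fl (fl (fl O x) y) x) y = O := by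
  funext a
  simp only [fl]
  cases O a <;> cases dl x a <;> cases dl y a <;> rfl

theorem ch_fl (O s : A → Bool) (x : A) : ch (fl O x) s = ch O s * sg (s x) := by
  unfold fl
  rw [ch_xor_left, ch_dl]

end chars

section proj
variable {A : Type} [Fintype A] [DecidableEq A] {m : Type} [Fintype m] [DecidableEq m]
variable (U : Equiv.Perm (A × Bool) →* Matrix m m ℝ)

/-- projection on the isotypic part `O` -/
noncomputable def P (O : A → Bool) : Matrix m m ℝ :=
  (1 / 2 ^ (Fintype.card A) : ℝ) • ∑ s : A → Bool, ch O s • U (flip s)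

theorem P_sum : ∑ O, P U O = 1 := by
  unfold P
  rw [← Finset.smul_sum, Finset.sum_comm]
  simp only [← Finset.sum_smul, ch_sum, ite_smul, zero_smul, Finset.sum_ite_eq', mem_univ, if_true]
  rw [flip_zero, map_one, smul_smul]
  have : (1 / 2 ^ (Fintype.card A) : ℝ) * 2 ^ (Fintype.card A) = 1 := by
    field_simp
  rw [this, one_smul]

theorem P_symm (hU : ∀ g, (U g)ᵀ = U g⁻¹) (O : A → Bool) : (P U O)ᵀ = P U O := by
  unfold P
  rw [Matrix.transpose_smul, Matrix.transpose_sum]
  congr 1
  apply Finset.sum_congr rfl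
  intro s _
  rw [Matrix.transpose_smul, hU, flip_inv]

theorem P_idem (O : A → Bool) : P U O * P U O = P U O := by
  unfold P
  rw [Matrix.smul_mul, Matrix.mul_smul, Finset.sum_mul]
  have h : ∀ s : A → Bool, (ch O s • U (flip s)) * ∑ t : A → Bool, ch O t • U (flip t) =
      ∑ r : A → Bool, ch O r • U (flip r) := by
    intro s
    rw [Finset.mul_sum]
    have hinv : Function.Involutive (fun t : A → Bool => fun a => xor (s a) (t a)) := by
      intro t
      funext a
      simp
    rw [← Equiv.sum_comp hinv.toPerm (fun r => ch O r • U (flip r))]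
    apply Finset.sum_congr rfl
    intro t _
    simp only [Function.Involutive.coe_toPerm]
    rw [Matrix.smul_mul, Matrix.mul_smul, smul_smul, ← map_mul, flip_mul, ← ch_xor_right]
  rw [Finset.sum_congr rfl (fun s _ => h s), Finset.sum_const, Finset.card_univ]
  have hc : Fintype.card (A → Bool) = 2 ^ Fintype.card A := by simp
  rw [hc, ← Nat.cast_smul_eq_nsmul ℝ, smul_smul, smul_smul]
  congr 1
  push_cast
  field_simp

theorem B_P (x y : A) (O : A → Bool) : B U x y * P U O = P U (fl (fl O x) y) * B U x y := by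
  unfold P
  rw [Matrix.mul_smul, Matrix.smul_mul, Finset.mul_sum, Finset.sum_mul]
  congr 1
  apply Finset.sum_congr rfl
  intro s _
  rw [Matrix.mul_smul, Matrix.smul_mul, flip_B, smul_smul]
  congr 1
  rw [ch_fl, ch_fl]
  have h1 := sg_sq (s x)
  have h2 := sg_sq (s y)
  calc ch O s = ch O s * (sg (s x) * sg (s x)) * (sg (s y) * sg (s y)) := by rw [h1, h2]; ring
    _ = _ := by ring

theorem P_B (x y : A) (O : A → Bool) : P U O * B U x y = B U x y * P U (fl (fl O x) y) := by
  rw [B_P, fl_fl]

end proj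

section norm
variable {m : Type} [Fintype m] [DecidableEq m]

/-- euclidean norm -/
noncomputable def nr (w : m → ℝ) : ℝ := ‖(WithLp.toLp 2 w : EuclideanSpace ℝ m)‖

omit [DecidableEq m] in
theorem nr_nonneg (w : m → ℝ) : 0 ≤ nr w := norm_nonneg _

omit [DecidableEq m] in
theorem nr_sq (w : m → ℝ) : nr w ^ 2 = w ⬝ᵥ w := by
  unfold nr
  rw [EuclideanSpace.norm_sq_eq]
  simp only [dotProduct, Real.norm_eq_abs, sq_abs]
  exact Finset.sum_congr rfl fun i _ => sq (w i)

omit [DecidableEq m] in
theorem nr_cs (a b : m → ℝ) : a ⬝ᵥ b ≤ nr a * nr b := by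
  have h := real_inner_le_norm (WithLp.toLp 2 a : EuclideanSpace ℝ m) (WithLp.toLp 2 b)
  rw [EuclideanSpace.inner_eq_star_dotProduct] at h
  simpa [dotProduct_comm, nr] using h

omit [DecidableEq m] in
theorem nr_smul (c : ℝ) (hc : 0 ≤ c) (w : m → ℝ) : nr (c • w) = c * nr w := by
  unfold nr
  rw [WithLp.toLp_smul, norm_smul, Real.norm_eq_abs, abs_of_nonneg hc]

omit [DecidableEq m] in
theorem nr_sum {κ : Type} (s : Finset κ) (f : κ → m → ℝ) :
    nr (∑ i ∈ s, f i) ≤ ∑ i ∈ s, nr (f i) := by
  unfold nr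
  rw [WithLp.toLp_sum]
  exact norm_sum_le _ _

omit [DecidableEq m] in
theorem nr_add (a b : m → ℝ) : nr (a + b) ≤ nr a + nr b := by
  unfold nr
  rw [WithLp.toLp_add]
  exact norm_add_le _ _

omit [DecidableEq m] in
theorem nr_sub (a b : m → ℝ) : nr (a - b) ≤ nr a + nr b := by
  unfold nr
  rw [WithLp.toLp_sub]
  exact norm_sub_le _ _

omit [DecidableEq m] in
theorem nr_eq (a b : m → ℝ) (h : a ⬝ᵥ a = b ⬝ᵥ b) : nr a = nr b := by
  have h1 := nr_sq a
  have h2 := nr_sq b
  have h3 : nr a ^ 2 = nr b ^ 2 := by rw [h1, h2, h]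
  exact (pow_left_inj₀ (nr_nonneg a) (nr_nonneg b) (by norm_num)).1 h3

end norm

section words
variable {A : Type} [Fintype A] [DecidableEq A]

/-- odd set -/
def od {n : ℕ} (O : A → Bool) (w : Fin n → A) : A → Bool :=
  fun a => decide (Odd ((univ.filter fun i => w i = a).card + if O a = true then 1 else 0))

/-- sum over words -/
noncomputable def S (n : ℕ) (φ : (A → Bool) → ℝ) (O : A → Bool) : ℝ :=
  ∑ w : Fin n → A, φ (od O w)

omit [Fintype A] in
theorem od_zero (O : A → Bool) (w : Fin 0 → A) : od O w = O := by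
  funext a
  unfold od
  cases h : O a <;> simp

theorem S_zero (φ : (A → Bool) → ℝ) (O : A → Bool) : S 0 φ O = φ O := by
  unfold S
  simp only [od_zero]
  simp

theorem par1 (c : ℕ) (p : Bool) :
    decide (Odd (c + if decide (Odd (c + if p = true then 1 else 0)) = true then 1 else 0)) = p := by
  cases p <;> by_cases h : Odd c <;> simp [h, Nat.odd_add_one]

theorem par2 (c : ℕ) (p q : Bool) (Q : Prop) [Decidable Q] (h : q = true ↔ Q) :
    decide (Odd ((if Q then 1 else 0) + c + if p = true then 1 else 0)) =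
      decide (Odd (c + if xor p q = true then 1 else 0)) := by
  have e : (if Q then 1 else 0) = if q = true then 1 else 0 := by simp [h]
  rw [e]
  cases p <;> cases q <;> by_cases h : Odd c <;> simp [h, Nat.odd_add_one, add_comm 1 c]

omit [Fintype A] in
theorem od_cons {n : ℕ} (O : A → Bool) (x : A) (w : Fin n → A) :
    od O (Fin.cons x w : Fin (n + 1) → A) = od (fl O x) w := by
  funext a
  unfold od
  have h : (univ.filter fun i => (Fin.cons x w : Fin (n + 1) → A) i = a).card =
      (if x = a then 1 else 0) + (univ.filter fun i => w i = a).card := by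
    rw [Fin.card_filter_univ_succ']
    simp
  rw [h]
  generalize (univ.filter fun i => w i = a).card = c
  have h2 : fl O x a = xor (O a) (decide (x = a)) := by
    simp [fl, dl, eq_comm]
  rw [h2]
  exact par2 c (O a) (decide (x = a)) (x = a) (by simp)

theorem S_succ (n : ℕ) (φ : (A → Bool) → ℝ) (O : A → Bool) :
    S (n + 1) φ O = ∑ x, S n φ (fl O x) := by
  unfold S
  rw [← Equiv.sum_comp (Fin.consEquiv fun _ : Fin (n + 1) => A)
    (fun w : Fin (n + 1) → A => φ (od O w)), Fintype.sum_prod_type]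
  apply Finset.sum_congr rfl
  intro x _
  apply Finset.sum_congr rfl
  intro w _
  congr 1
  exact od_cons O x w

theorem S_mono (n : ℕ) (φ : (A → Bool) → ℝ) (O : A → Bool) (h : ∀ O, 0 ≤ φ O) : 0 ≤ S n φ O :=
  Finset.sum_nonneg fun _ _ => h _

omit [Fintype A] in
theorem od_invol {n : ℕ} (w : Fin n → A) : Function.Involutive fun O : A → Bool => od O w := by
  intro O
  funext a
  exact par1 _ _

end words

section main
variable {A : Type} [Fintype A] [DecidableEq A] {m : Type} [Fintype m] [DecidableEq m]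
variable (U : Equiv.Perm (A × Bool) →* Matrix m m ℝ) (hU : ∀ g, (U g)ᵀ = U g⁻¹)
include hU

theorem nr_U (g : Equiv.Perm (A × Bool)) (w : m → ℝ) : nr (U g *ᵥ w) = nr w :=
  nr_eq _ _ (dotU U hU g w w)

theorem nr_B (x y : A) (w : m → ℝ) : nr (B U x y *ᵥ w) ≤ 4 * nr w := by
  rw [B_eq, Matrix.sub_mulVec, Matrix.sub_mulVec, Matrix.add_mulVec]
  have h1 := nr_sub (U (Equiv.swap (x, false) (y, false)) *ᵥ w +
      U (Equiv.swap (x, true) (y, true)) *ᵥ w - U (Equiv.swap (x, false) (y, true)) *ᵥ w)
      (U (Equiv.swap (x, true) (y, false)) *ᵥ w)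
  have h2 := nr_sub (U (Equiv.swap (x, false) (y, false)) *ᵥ w +
      U (Equiv.swap (x, true) (y, true)) *ᵥ w) (U (Equiv.swap (x, false) (y, true)) *ᵥ w)
  have h3 := nr_add (U (Equiv.swap (x, false) (y, false)) *ᵥ w)
      (U (Equiv.swap (x, true) (y, true)) *ᵥ w)
  simp only [nr_U U hU] at h1 h2 h3
  linarith

theorem nr_PW (w : m → ℝ) (O : A → Bool) :
    nr (P U O *ᵥ ((XU U - SU U) *ᵥ w)) ≤
      (2 / (Fintype.card A : ℝ)) * ∑ x, ∑ y, nr (P U (fl (fl O x) y) *ᵥ w) := by
  have h : P U O *ᵥ ((XU U - SU U) *ᵥ w) = (1 / (2 * (Fintype.card A : ℝ))) •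
      ∑ x, ∑ y, B U x y *ᵥ (P U (fl (fl O x) y) *ᵥ w) := by
    rw [W_eq, Matrix.mulVec_mulVec, Matrix.mul_smul, Matrix.smul_mulVec]
    simp only [Finset.mul_sum, P_B, Matrix.sum_mulVec, Matrix.mulVec_mulVec]
  rw [h, nr_smul _ (by positivity)]
  have h2 : nr (∑ x, ∑ y, B U x y *ᵥ (P U (fl (fl O x) y) *ᵥ w)) ≤
      ∑ x, ∑ y, 4 * nr (P U (fl (fl O x) y) *ᵥ w) := by
    refine (nr_sum _ _).trans (Finset.sum_le_sum fun x _ => ?_)
    refine (nr_sum _ _).trans (Finset.sum_le_sum fun y _ => ?_)
    exact nr_B U hU x y _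
  have h3 : ∑ x, ∑ y, 4 * nr (P U (fl (fl O x) y) *ᵥ w) =
      4 * ∑ x, ∑ y, nr (P U (fl (fl O x) y) *ᵥ w) := by
    simp only [Finset.mul_sum]
  rw [h3] at h2
  calc _ ≤ 1 / (2 * (Fintype.card A : ℝ)) *
        (4 * ∑ x, ∑ y, nr (P U (fl (fl O x) y) *ᵥ w)) :=
        mul_le_mul_of_nonneg_left h2 (by positivity)
    _ = _ := by
        rw [one_div, mul_inv]
        ring

theorem nr_PWk (k : ℕ) (w : m → ℝ) : ∀ O : A → Bool,
    nr (P U O *ᵥ ((XU U - SU U) ^ k *ᵥ w)) ≤
      (2 / (Fintype.card A : ℝ)) ^ k * S (2 * k) (fun O => nr (P U O *ᵥ w)) O := by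
  induction k with
  | zero =>
    intro O
    rw [pow_zero, pow_zero, Matrix.one_mulVec, mul_zero, S_zero, one_mul]
  | succ k ih =>
    intro O
    rw [pow_succ', ← Matrix.mulVec_mulVec]
    refine (nr_PW U hU _ O).trans ?_
    have h2 : 0 ≤ 2 / (Fintype.card A : ℝ) := by positivity
    have h3 : S (2 * (k + 1)) (fun O => nr (P U O *ᵥ w)) O =
        ∑ x, ∑ y, S (2 * k) (fun O => nr (P U O *ᵥ w)) (fl (fl O x) y) := by
      have e : 2 * (k + 1) = (2 * k + 1) + 1 := by ring
      rw [e, S_succ]
      exact Finset.sum_congr rfl fun x _ => S_succ _ _ _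
    rw [h3, pow_succ', mul_assoc]
    apply mul_le_mul_of_nonneg_left _ h2
    rw [Finset.mul_sum]
    apply Finset.sum_le_sum
    intro x _
    rw [Finset.mul_sum]
    apply Finset.sum_le_sum
    intro y _
    exact ih _

theorem dot_P (a b : m → ℝ) : a ⬝ᵥ b = ∑ O, (P U O *ᵥ a) ⬝ᵥ (P U O *ᵥ b) := by
  have h : ∀ O, (P U O *ᵥ a) ⬝ᵥ (P U O *ᵥ b) = a ⬝ᵥ (P U O *ᵥ b) := by
    intro O
    rw [← P_symm U hU O, ← Matrix.vecMul_transpose, Matrix.transpose_transpose,
      ← Matrix.dotProduct_mulVec, P_symm U hU O, Matrix.mulVec_mulVec, P_idem]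
  rw [Finset.sum_congr rfl (fun O _ => h O), ← dotProduct_sum, ← Matrix.sum_mulVec, P_sum,
    Matrix.one_mulVec]

omit hU in
theorem P_fix (v : m → ℝ) (hv : ∀ x : A, U (Equiv.swap (x, false) (x, true)) *ᵥ v = v)
    (O : A → Bool) : P U O *ᵥ v = if O = (fun _ => false) then v else 0 := by
  unfold P
  rw [Matrix.smul_mulVec, Matrix.sum_mulVec]
  simp only [Matrix.smul_mulVec, fixF U v hv]
  rw [← Finset.sum_smul, ch_sum', smul_smul]
  split_ifs
  · have : (1 / 2 ^ (Fintype.card A) : ℝ) * 2 ^ (Fintype.card A) = 1 := by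
      field_simp
    rw [this, one_smul]
  · simp

omit hU in
theorem supp (v : m → ℝ) (hv : ∀ x : A, U (Equiv.swap (x, false) (x, true)) *ᵥ v = v)
    (O : A → Bool) (hO : (univ.filter fun a => O a = true).card ≠ 2) :
    P U O *ᵥ ((XU U - SU U) *ᵥ v) = 0 := by
  have h : P U O *ᵥ ((XU U - SU U) *ᵥ v) = (1 / (2 * (Fintype.card A : ℝ))) •
      ∑ x, ∑ y, B U x y *ᵥ (P U (fl (fl O x) y) *ᵥ v) := by
    rw [W_eq, Matrix.mulVec_mulVec, Matrix.mul_smul, Matrix.smul_mulVec]
    simp only [Finset.mul_sum, P_B, Matrix.sum_mulVec, Matrix.mulVec_mulVec]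
  rw [h]
  have h2 : ∀ x y, B U x y *ᵥ (P U (fl (fl O x) y) *ᵥ v) = 0 := by
    intro x y
    rw [P_fix U v hv]
    split_ifs with h3
    · by_cases hxy : x = y
      · subst hxy
        exact B_self U v hv x
      · exfalso
        apply hO
        have h4 : (univ.filter fun a => O a = true) = {x, y} := by
          ext a
          have h5 := congrFun h3 a
          simp only [fl, dl] at h5
          simp only [Finset.mem_filter, Finset.mem_univ, true_and, Finset.mem_insert,
            Finset.mem_singleton]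
          by_cases h6 : a = x
          · subst h6
            simp [hxy] at h5
            simp [h5]
          · by_cases h7 : a = y
            · subst h7
              simp [h6] at h5
              simp [h5]
            · simp [h6, h7] at h5
              simp [h5, h6, h7]
        rw [h4, Finset.card_pair hxy]
    · exact Matrix.mulVec_zero _
  simp [h2]

end main

end MM

open Classical in
theorem mom (h1 : StWords) : StMom := by
  intro A _ _ _ m _ _ U v k hU hv
  have hN : (0 : ℝ) < Fintype.card A := by exact_mod_cast Fintype.card_pos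
  set N : ℝ := (Fintype.card A : ℝ) with hNdef
  set Wv := (XU U - SU U) *ᵥ v with hWv
  set u : (A → Bool) → ℝ := fun O => MM.nr (MM.P U O *ᵥ Wv) with hu
  have hu0 : ∀ O, 0 ≤ u O := fun O => MM.nr_nonneg _
  have husupp : ∀ O, (univ.filter fun a => O a = true).card ≠ 2 → u O = 0 := by
    intro O hO
    simp only [hu]
    rw [hWv, MM.supp U v hv O hO]
    simp [MM.nr]
  set Mx : ℝ := N ^ k * ((2 * k - 1).doubleFactorial : ℝ) * (2 * (k : ℝ) ^ 2 + 2 * k + 1) with hMx
  have hMx0 : 0 ≤ Mx := by positivity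
  -- the counting bound
  have hcount : ∀ O : A → Bool, (univ.filter fun a => O a = true).card = 2 →
      ((univ.filter fun w : Fin (2 * k) → A =>
        (univ.filter fun a => MM.od O w a = true).card = 2).card : ℝ) ≤ Mx := by
    intro O hO
    have h := h1 A k (univ.filter fun a => O a = true) hO
    refine le_trans (le_of_eq ?_) h
    congr 2
    apply Finset.filter_congr
    intro w _
    have : (univ.filter fun a => MM.od O w a = true) = (univ.filter fun a : A =>
        Odd ((univ.filter fun i => w i = a).card +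
          if a ∈ (univ.filter fun a => O a = true) then 1 else 0)) := by
      ext a
      simp only [MM.od, Finset.mem_filter, Finset.mem_univ, true_and, decide_eq_true_iff]
    rw [this]
  -- the double sum
  have hdouble : ∑ O : A → Bool, u O * MM.S (2 * k) u O ≤ Mx * ∑ O : A → Bool, u O ^ 2 := by
    set c : (A → Bool) → Prop := fun O => (univ.filter fun a => O a = true).card = 2 with hc
    have hpt : ∀ O (w : Fin (2 * k) → A), u O * u (MM.od O w) ≤
        (if c O ∧ c (MM.od O w) then u O ^ 2 / 2 else 0) +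
        (if c O ∧ c (MM.od O w) then u (MM.od O w) ^ 2 / 2 else 0) := by
      intro O w
      by_cases h2 : c O
      · by_cases h3 : c (MM.od O w)
        · rw [if_pos ⟨h2, h3⟩, if_pos ⟨h2, h3⟩]
          nlinarith [sq_nonneg (u O - u (MM.od O w))]
        · rw [husupp _ h3]
          simp [h3]
      · rw [husupp _ h2]
        simp [h2]
    have hswap : ∑ O : A → Bool, ∑ w : Fin (2 * k) → A,
        (if c O ∧ c (MM.od O w) then u (MM.od O w) ^ 2 / 2 else 0) =
        ∑ O : A → Bool, ∑ w : Fin (2 * k) → A,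
          (if c O ∧ c (MM.od O w) then u O ^ 2 / 2 else 0) := by
      rw [Finset.sum_comm]
      rw [Finset.sum_comm (f := fun (O : A → Bool) (w : Fin (2 * k) → A) =>
        (if c O ∧ c (MM.od O w) then u O ^ 2 / 2 else 0))]
      apply Finset.sum_congr rfl
      intro w _
      have hinv := MM.od_invol w
      rw [← Equiv.sum_comp hinv.toPerm (fun O =>
        (if c O ∧ c (MM.od O w) then u O ^ 2 / 2 else 0))]
      apply Finset.sum_congr rfl
      intro O _
      simp only [Function.Involutive.coe_toPerm]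
      have h4 : MM.od (MM.od O w) w = O := hinv O
      rw [h4]
      simp only [and_comm]
    calc ∑ O : A → Bool, u O * MM.S (2 * k) u O
        = ∑ O : A → Bool, ∑ w : Fin (2 * k) → A, u O * u (MM.od O w) := by
          apply Finset.sum_congr rfl
          intro O _
          unfold MM.S
          rw [Finset.mul_sum]
      _ ≤ ∑ O : A → Bool, ∑ w : Fin (2 * k) → A,
          ((if c O ∧ c (MM.od O w) then u O ^ 2 / 2 else 0) +
          (if c O ∧ c (MM.od O w) then u (MM.od O w) ^ 2 / 2 else 0)) :=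
          Finset.sum_le_sum fun O _ => Finset.sum_le_sum fun w _ => hpt O w
      _ = ∑ O : A → Bool, ∑ w : Fin (2 * k) → A,
          (if c O ∧ c (MM.od O w) then u O ^ 2 / 2 else 0) +
          ∑ O : A → Bool, ∑ w : Fin (2 * k) → A,
          (if c O ∧ c (MM.od O w) then u (MM.od O w) ^ 2 / 2 else 0) := by
          simp only [Finset.sum_add_distrib]
      _ = ∑ O : A → Bool, ∑ w : Fin (2 * k) → A,
          (if c O ∧ c (MM.od O w) then u O ^ 2 else 0) := by
          rw [hswap, ← Finset.sum_add_distrib]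
          apply Finset.sum_congr rfl
          intro O _
          rw [← Finset.sum_add_distrib]
          apply Finset.sum_congr rfl
          intro w _
          split_ifs <;> ring
      _ ≤ ∑ O : A → Bool, Mx * u O ^ 2 := by
          apply Finset.sum_le_sum
          intro O _
          by_cases h2 : c O
          · simp only [h2, true_and]
            rw [← Finset.sum_filter, Finset.sum_const, nsmul_eq_mul]
            exact mul_le_mul_of_nonneg_right (hcount O h2) (sq_nonneg _)
          · simp only [h2, false_and, if_false, Finset.sum_const_zero]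
            positivity
      _ = Mx * ∑ O : A → Bool, u O ^ 2 := by rw [Finset.mul_sum]
  have husq : ∑ O : A → Bool, u O ^ 2 = Wv ⬝ᵥ Wv := by
    rw [MM.dot_P U hU Wv Wv]
    apply Finset.sum_congr rfl
    intro O _
    exact MM.nr_sq _
  calc Wv ⬝ᵥ ((XU U - SU U) ^ k *ᵥ Wv)
      = ∑ O, (MM.P U O *ᵥ Wv) ⬝ᵥ (MM.P U O *ᵥ ((XU U - SU U) ^ k *ᵥ Wv)) :=
        MM.dot_P U hU _ _
    _ ≤ ∑ O, u O * ((2 / N) ^ k * MM.S (2 * k) u O) := by
        apply Finset.sum_le_sum
        intro O _
        refine (MM.nr_cs _ _).trans ?_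
        exact mul_le_mul_of_nonneg_left (MM.nr_PWk U hU k Wv O) (hu0 O)
    _ = (2 / N) ^ k * ∑ O, u O * MM.S (2 * k) u O := by
        rw [Finset.mul_sum]
        apply Finset.sum_congr rfl
        intro O _
        ring
    _ ≤ (2 / N) ^ k * (Mx * ∑ O : A → Bool, u O ^ 2) :=
        mul_le_mul_of_nonneg_left hdouble (by positivity)
    _ = (2 : ℝ) ^ k * ((2 * k - 1).doubleFactorial : ℝ) * (2 * (k : ℝ) ^ 2 + 2 * k + 1) *
        (Wv ⬝ᵥ Wv) := by
        rw [husq, hMx, div_pow]
        have : N ^ k ≠ 0 := by positivity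
        field_simp

end Crest.Agent.R155
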