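import Crest.Agent.R155.Defs
import Crest.Agent.R155.RI
import Crest.Agent.R155.FINAL

set_option autoImplicit false

namespace Crest.Agent.R155

open scoped BigOperators Matrix
open Finset

/-! ### binomial bounds -/

theorem choose_le_exp (n k : ℕ) (hk : 1 ≤ k) (hn : k ≤ n) :
    ((n.choose k : ℕ) : ℝ) ≤ Real.exp ((k : ℝ) * (1 + Real.log ((n : ℝ) / k))) := by
  have hk0 : (0 : ℝ) < k := by exact_mod_cast hk
  have hn0 : (0 : ℝ) < n := by exact_mod_cast (lt_of_lt_of_le hk hn)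
  have h1 : ((n.choose k : ℕ) : ℝ) ≤ (n : ℝ) ^ k / k.factorial := Nat.choose_le_pow_div k n
  have h2 : (k : ℝ) ^ k / k.factorial ≤ Real.exp k := Real.pow_div_factorial_le_exp (k : ℝ) hk0.le k
  have h3 : Real.exp ((k : ℝ) * (1 + Real.log ((n : ℝ) / k))) = Real.exp k * ((n : ℝ) / k) ^ k := by
    rw [mul_add, mul_one, Real.exp_add]
    congr 1
    rw [mul_comm, Real.exp_mul, Real.exp_log (by positivity)]
    exact Real.rpow_natCast _ _
  rw [h3]
  refine h1.trans ?_
  have hf : (0 : ℝ) < k.factorial := by positivity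
  rw [div_le_iff₀ hf] at h2 ⊢
  rw [div_pow]
  have hkk : (0 : ℝ) < (k : ℝ) ^ k := by positivity
  have : Real.exp k * ((n : ℝ) ^ k / (k : ℝ) ^ k) * k.factorial
      = (Real.exp k * k.factorial) / (k : ℝ) ^ k * (n : ℝ) ^ k := by
    field_simp
  rw [this]
  have h4 : 1 ≤ (Real.exp k * k.factorial) / (k : ℝ) ^ k := by
    rw [le_div_iff₀ hkk]; linarith
  have : (0 : ℝ) ≤ (n : ℝ) ^ k := by positivity
  nlinarith

theorem le_choose_pow : ∀ (k K : ℕ), 1 ≤ k → k ≤ K →
    ((K : ℝ) / k) ^ k ≤ ((K.choose k : ℕ) : ℝ) := by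
  intro k
  induction k with
  | zero => intro K h; omega
  | succ k ih =>
    intro K _ hK
    obtain ⟨M, rfl⟩ : ∃ M, K = M + 1 := ⟨K - 1, by omega⟩
    rcases Nat.eq_zero_or_pos k with rfl | hk
    · simp
    · have h1 := ih M hk (by omega)
      have h2 : ((M + 1 : ℕ) : ℝ) * ((M.choose k : ℕ) : ℝ)
          = (((M + 1).choose (k + 1) : ℕ) : ℝ) * ((k + 1 : ℕ) : ℝ) := by
        exact_mod_cast Nat.add_one_mul_choose_eq M k
      have hk0 : (0 : ℝ) < k := by exact_mod_cast hk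
      have hMk : (k : ℝ) ≤ M := by exact_mod_cast (by omega : k ≤ M)
      have h3 : ((M + 1 : ℕ) : ℝ) / ((k + 1 : ℕ) : ℝ) ≤ (M : ℝ) / k := by
        rw [div_le_div_iff₀ (by positivity) hk0]
        push_cast
        nlinarith
      have h4 : (((M + 1).choose (k + 1) : ℕ) : ℝ)
          = ((M + 1 : ℕ) : ℝ) / ((k + 1 : ℕ) : ℝ) * ((M.choose k : ℕ) : ℝ) := by
        field_simp
        linarith
      rw [h4, pow_succ']
      apply mul_le_mul_of_nonneg_left _ (by positivity)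
      refine (pow_le_pow_left₀ (by positivity) h3 k).trans h1

/-! ### the level traces -/

section
variable (D : ℕ) (L : LevSys (V (D + 1))) (k : ℕ)

theorem card_V : Fintype.card (V (D + 1)) = 2 ^ (D + 1) := by simp [V]

noncomputable def Nk : ℝ := Matrix.trace (L.Pi k * (KM (D + 1) * (KM (D + 1))ᵀ) ^ 64)

theorem KK_symm : (KM (D + 1) * (KM (D + 1))ᵀ)ᵀ = KM (D + 1) * (KM (D + 1))ᵀ := by
  rw [Matrix.transpose_mul, Matrix.transpose_transpose]

theorem Nk_nonneg : 0 ≤ Nk D L k := by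
  unfold Nk
  have : (KM (D + 1) * (KM (D + 1))ᵀ) ^ 64 =
      (KM (D + 1) * (KM (D + 1))ᵀ) ^ 32 * ((KM (D + 1) * (KM (D + 1))ᵀ) ^ 32)ᵀ := by
    rw [Matrix.transpose_pow, KK_symm, ← pow_add]
  rw [this]
  exact trace_proj_nonneg _ _ (L.symm k) (L.idem k)

theorem KK_psd : ((KM (D + 1) * (KM (D + 1))ᵀ) ^ 64).PosSemidef := by
  have : (KM (D + 1) * (KM (D + 1))ᵀ).PosSemidef := by
    have := Matrix.posSemidef_self_mul_conjTranspose (KM (D + 1))
    rwa [Matrix.conjTranspose_eq_transpose_of_trivial] at this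
  exact this.pow 64

theorem Nk_le (h2 : StLevB) (K : ℕ) (τ : ℝ) (hkK : k ≤ K) (hK : K ≤ 2 ^ (D + 1))
    (hT : ∀ S : Finset (V (D + 1)), S.card = K →
      Matrix.trace (EM S * (KM (D + 1) * (KM (D + 1))ᵀ) ^ 64) ≤ Real.exp τ) :
    Nk D L k ≤ (2 : ℝ) ^ k * ((((2 ^ (D + 1) : ℕ).choose k : ℕ) : ℝ) / ((K.choose k : ℕ) : ℝ))
      * Real.exp τ := by
  obtain ⟨S, -, hS⟩ := Finset.exists_subset_card_eq (s := (univ : Finset (V (D + 1))))
    (n := K) (by rw [Finset.card_univ, card_V]; exact hK)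
  have h3 := h2 (V (D + 1)) L k ((KM (D + 1) * (KM (D + 1))ᵀ) ^ 64) S (by rw [hS]; exact hkK)
    (((RInv_KM (D + 1)).mul (RInv_KM (D + 1)).transpose).pow 64) (KK_psd D)
  rw [card_V, hS] at h3
  refine h3.trans ?_
  apply mul_le_mul_of_nonneg_left (hT S hS)
  positivity

end

theorem log2_bounds : 0.6931 < Real.log 2 ∧ Real.log 2 < 0.6932 := by
  constructor
  · have := Real.log_two_gt_d9; linarith
  · have := Real.log_two_lt_d9; linarith

theorem exp_two : (2 : ℝ) = Real.exp (Real.log 2) := (Real.exp_log (by norm_num)).symm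

theorem two_pow_exp (k : ℕ) : (2 : ℝ) ^ k = Real.exp (k * Real.log 2) := by
  rw [Real.exp_nat_mul, Real.exp_log (by norm_num)]

/-- case 3 -/
theorem num3 (h1 : StDk) (h2 : StLevB) (h3 : StTr) (h5 : StXb) (D : ℕ) (L : LevSys (V (D + 1)))
    (k : ℕ) (hk2 : k ≤ 2 ^ (D + 1)) (hk3 : (2 : ℝ) ^ (D + 1) < 2 * (k : ℝ)) :
    Matrix.trace (L.Pi k * (KM (D + 1) ^ 1600 * (KM (D + 1) ^ 1600)ᵀ))
      ≤ Real.exp (-4 * (k : ℝ)) := by
  have hx : ∀ f, Lev k f → (k : ℝ) * (f ⬝ᵥ f) ≤ f ⬝ᵥ (Xm (V (D + 1)) *ᵥ f) :=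
    fun f hf => h5 (V (D + 1)) k f hf
  have h6 := (h1 D L k k (by rw [card_V]; exact hk2) hx).2
  have h7 := Nk_le D L k h2 (2 ^ (D + 1)) (63 * (((2 : ℝ) ^ (D + 1)) / 2)) hk2 le_rfl (by
    intro S hS
    have := (h3 (D + 1) S).1
    rw [hS] at this
    push_cast at this
    exact this)
  have hC : (0 : ℝ) < (((2 ^ (D + 1) : ℕ).choose k : ℕ) : ℝ) := by
    exact_mod_cast Nat.choose_pos hk2
  rw [div_self hC.ne', mul_one] at h7
  refine h6.trans ?_
  unfold Nk at h7
  refine (mul_le_mul_of_nonneg_right h7 (Real.exp_pos _).le).trans ?_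
  rw [two_pow_exp k, ← Real.exp_add, ← Real.exp_add]
  apply Real.exp_le_exp.mpr
  have hl := log2_bounds
  have hk0 : (0 : ℝ) ≤ k := by positivity
  have : (k : ℝ) * Real.log 2 ≤ k * 0.6932 := mul_le_mul_of_nonneg_left hl.2.le hk0
  linarith

/-- case 2 -/
theorem num2 (h1 : StDk) (h2 : StLevB) (h3 : StTr) (h4 : StXa) (D : ℕ) (L : LevSys (V (D + 1)))
    (k : ℕ) (hk : 1 ≤ k) (hk2 : k ≤ 2 ^ (D + 1)) (hk3 : 2 * (k : ℝ) ≤ (2 : ℝ) ^ (D + 1))
    (hk4 : Real.exp (-100) * 2 ^ (D + 1) < (k : ℝ)) :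
    Matrix.trace (L.Pi k * (KM (D + 1) ^ 1600 * (KM (D + 1) ^ 1600)ᵀ))
      ≤ Real.exp (-4 * (k : ℝ)) := by
  set n : ℝ := (2 : ℝ) ^ (D + 1) with hn
  have hn1 : 1 ≤ n := one_le_pow₀ (by norm_num)
  have hn0 : 0 < n := by linarith
  have hk1 : (1 : ℝ) ≤ k := by exact_mod_cast hk
  have hk0 : (0 : ℝ) < k := by linarith
  have hcard : ((Fintype.card (V (D + 1)) : ℕ) : ℝ) = n := by rw [card_V]; push_cast; rfl
  have hx : ∀ f, Lev k f → (2 * (k : ℝ) * (n - k + 1) / n) * (f ⬝ᵥ f)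
      ≤ f ⬝ᵥ (Xm (V (D + 1)) *ᵥ f) := by
    intro f hf
    have := h4 (V (D + 1)) k f hf
    rwa [hcard] at this
  have h6 := (h1 D L k _ (by rw [card_V]; exact hk2) hx).2
  have hkN : 2 * k ≤ 2 ^ (D + 1) := by
    have : ((2 * k : ℕ) : ℝ) ≤ ((2 ^ (D + 1) : ℕ) : ℝ) := by push_cast; exact hk3
    exact Nat.cast_le.mp this
  have h7 := Nk_le D L k h2 (2 * k) (63 * k) (by omega) hkN (by
    intro S hS
    have := (h3 (D + 1) S).1
    rw [hS] at this
    push_cast at this
    have e : 63 * (2 * (k : ℝ) / 2) = 63 * k := by ring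
    rwa [e] at this)
  have hC : (0 : ℝ) < (((2 ^ (D + 1) : ℕ).choose k : ℕ) : ℝ) := by
    exact_mod_cast Nat.choose_pos hk2
  have hC2 : (1 : ℝ) ≤ (((2 * k).choose k : ℕ) : ℝ) := by
    exact_mod_cast Nat.choose_pos (by omega : k ≤ 2 * k)
  have hC3 : (((2 ^ (D + 1) : ℕ).choose k : ℕ) : ℝ) / (((2 * k).choose k : ℕ) : ℝ)
      ≤ Real.exp ((k : ℝ) * (1 + Real.log (n / k))) := by
    have := choose_le_exp (2 ^ (D + 1)) k hk hk2
    push_cast at this
    rw [← hn] at this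
    refine le_trans ?_ this
    exact div_le_self hC.le hC2
  refine h6.trans ?_
  unfold Nk at h7
  have h8 : Matrix.trace (L.Pi k * (KM (D + 1) * (KM (D + 1))ᵀ) ^ 64)
      ≤ (2 : ℝ) ^ k * Real.exp ((k : ℝ) * (1 + Real.log (n / k))) * Real.exp (63 * k) := by
    refine h7.trans ?_
    apply mul_le_mul_of_nonneg_right _ (Real.exp_pos _).le
    exact mul_le_mul_of_nonneg_left hC3 (by positivity)
  refine (mul_le_mul_of_nonneg_right h8 (Real.exp_pos _).le).trans ?_
  rw [two_pow_exp k, ← Real.exp_add, ← Real.exp_add, ← Real.exp_add]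
  apply Real.exp_le_exp.mpr
  have hl := log2_bounds
  have g1 : (k : ℝ) * Real.log 2 ≤ k * 0.6932 := mul_le_mul_of_nonneg_left hl.2.le hk0.le
  -- log bound
  have hu0 : 0 < (k : ℝ) / n := by positivity
  have hL1 : Real.log (n / k) ≤ 100 := by
    have : n / k ≤ Real.exp 100 := by
      rw [div_le_iff₀ hk0]
      have : Real.exp 100 * (Real.exp (-100) * n) = n := by
        rw [← mul_assoc, ← Real.exp_add]; simp
      nlinarith [Real.exp_pos 100]
    calc Real.log (n / k) ≤ Real.log (Real.exp 100) := Real.log_le_log (by positivity) this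
      _ = 100 := Real.log_exp 100
  have hL2 : Real.log (n / k) + 230.4 * (k / n) ≤ 125 := by
    by_cases hc : (k : ℝ) / n ≤ 0.1
    · linarith
    · push Not at hc
      have h9 : Real.log (n / k) ≤ n / k - 1 := Real.log_le_sub_one_of_pos (by positivity)
      have h10 : n / k < 10 := by
        rw [div_lt_iff₀ hk0]
        rw [lt_div_iff₀ hn0] at hc
        linarith
      have h11 : (k : ℝ) / n ≤ 1 / 2 := by
        rw [div_le_iff₀ hn0]; linarith
      linarith
  have hx2 : 2 * (k : ℝ) * (1 - k / n) ≤ 2 * (k : ℝ) * (n - k + 1) / n := by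
    have : 2 * (k : ℝ) * (n - k + 1) / n = 2 * (k : ℝ) * (1 - k / n) + 2 * k / n := by
      field_simp
    rw [this]
    have : 0 ≤ 2 * (k : ℝ) / n := by positivity
    linarith
  have g2 : (k : ℝ) * (Real.log (n / k) + 230.4 * (k / n)) ≤ k * 125 :=
    mul_le_mul_of_nonneg_left hL2 hk0.le
  nlinarith

set_option maxHeartbeats 1000000 in
/-- case 1 -/
theorem num1 (h1 : StDk) (h2 : StLevB) (h3 : StTr) (h4 : StXa) (D : ℕ) (L : LevSys (V (D + 1)))
    (k : ℕ) (hk : 1 ≤ k) (hk2 : k ≤ 2 ^ (D + 1))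
    (hk4 : (k : ℝ) ≤ Real.exp (-100) * 2 ^ (D + 1)) :
    Matrix.trace (L.Pi k * (KM (D + 1) ^ 1600 * (KM (D + 1) ^ 1600)ᵀ))
      ≤ Real.exp (-4 * (k : ℝ) - 0.03 * k * Real.log ((2 : ℝ) ^ (D + 1) / k)) := by
  set n : ℝ := (2 : ℝ) ^ (D + 1) with hn
  have hn1 : 1 ≤ n := one_le_pow₀ (by norm_num)
  have hn0 : 0 < n := by linarith
  have hk1 : (1 : ℝ) ≤ k := by exact_mod_cast hk
  have hk0 : (0 : ℝ) < k := by linarith
  have hcard : ((Fintype.card (V (D + 1)) : ℕ) : ℝ) = n := by rw [card_V]; push_cast; rfl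
  have hx : ∀ f, Lev k f → (2 * (k : ℝ) * (n - k + 1) / n) * (f ⬝ᵥ f)
      ≤ f ⬝ᵥ (Xm (V (D + 1)) *ᵥ f) := by
    intro f hf
    have := h4 (V (D + 1)) k f hf
    rwa [hcard] at this
  have h6 := (h1 D L k _ (by rw [card_V]; exact hk2) hx).1
  -- logs
  set l : ℝ := Real.log (n / k) with hl
  have hnk : Real.exp 100 ≤ n / k := by
    rw [le_div_iff₀ hk0]
    have e1 : Real.exp 100 * (Real.exp (-100) * n) = n := by
      rw [← mul_assoc, ← Real.exp_add]; simp
    have := mul_le_mul_of_nonneg_left hk4 (Real.exp_pos 100).le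
    linarith
  have hl100 : 100 ≤ l := by
    rw [hl]
    calc (100 : ℝ) = Real.log (Real.exp 100) := (Real.log_exp 100).symm
      _ ≤ _ := Real.log_le_log (Real.exp_pos _) hnk
  have hl126 : Real.log 126 ≤ 4.8523 := by
    have : Real.log 126 ≤ Real.log (2 ^ 7) := Real.log_le_log (by norm_num) (by norm_num)
    rw [Real.log_pow] at this
    have := Real.log_two_lt_d9
    push_cast at *
    linarith
  have hl126' : 0 ≤ Real.log 126 := Real.log_nonneg (by norm_num)
  -- u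
  set u : ℝ := n * Real.exp (-(l + Real.log 126) / 1.08) with hu
  have hu0 : 0 < u := by positivity
  have hkexp : (k : ℝ) = n * Real.exp (-l) := by
    rw [hl, Real.exp_neg, Real.exp_log (by positivity)]
    field_simp
  have hun : u ≤ n := by
    rw [hu]
    have : Real.exp (-(l + Real.log 126) / 1.08) ≤ 1 := by
      rw [Real.exp_le_one_iff]
      have : 0 ≤ (l + Real.log 126) / 1.08 := by positivity
      have e : -(l + Real.log 126) / 1.08 = -((l + Real.log 126) / 1.08) := by ring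
      rw [e]; linarith
    nlinarith
  have huk : (k : ℝ) * Real.exp ((2 / 27) * l - Real.log 126 / 1.08) = u := by
    rw [hu, hkexp, mul_assoc, ← Real.exp_add]
    congr 2
    ring
  have hu10 : 10 * (k : ℝ) ≤ u := by
    rw [← huk]
    have : (10 : ℝ) ≤ Real.exp ((2 / 27) * l - Real.log 126 / 1.08) := by
      have e1 : (2.9 : ℝ) ≤ (2 / 27) * l - Real.log 126 / 1.08 := by
        have : Real.log 126 / 1.08 ≤ 4.8523 / 1.08 := by
          apply div_le_div_of_nonneg_right hl126 (by norm_num)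
        have e2 : (4.8523 : ℝ) / 1.08 ≤ 4.4929 := by norm_num
        linarith
      have e3 : (10 : ℝ) ≤ Real.exp 2.9 := by
        have := Real.exp_one_gt_d9
        have e4 : Real.exp 2.9 = Real.exp 1 ^ 2 * Real.exp 0.9 := by
          rw [← Real.exp_nat_mul, ← Real.exp_add]; norm_num
        have e5 := Real.add_one_le_exp (0.9 : ℝ)
        rw [e4]
        nlinarith
      exact e3.trans (Real.exp_le_exp.mpr e1)
    nlinarith
  -- K
  set K : ℕ := ⌊u⌋₊ with hK
  have hKu : (K : ℝ) ≤ u := Nat.floor_le hu0.le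
  have hKu2 : 0.9 * u ≤ (K : ℝ) := by
    have := Nat.lt_floor_add_one u
    rw [← hK] at this
    linarith
  have hKk : k ≤ K := by
    have : (k : ℝ) ≤ (K : ℝ) := by linarith
    exact_mod_cast this
  have hKn : K ≤ 2 ^ (D + 1) := by
    have : (K : ℝ) ≤ ((2 ^ (D + 1) : ℕ) : ℝ) := by push_cast; linarith
    exact Nat.cast_le.mp this
  have hK0 : (0 : ℝ) < K := by linarith
  have hT : 126 * (K : ℝ) * ((K : ℝ) / n) ^ (0.08 : ℝ) ≤ k := by
    have e1 : ((K : ℝ) / n) ^ (0.08 : ℝ) ≤ (u / n) ^ (0.08 : ℝ) :=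
      Real.rpow_le_rpow (by positivity) (by gcongr) (by norm_num)
    have e2 : u / n = Real.exp (-(l + Real.log 126) / 1.08) := by
      rw [hu]; field_simp
    have e3 : 126 * u * (u / n) ^ (0.08 : ℝ) = k := by
      rw [e2, ← Real.exp_mul, hkexp, hu]
      have : (126 : ℝ) = Real.exp (Real.log 126) := (Real.exp_log (by norm_num)).symm
      calc 126 * (n * Real.exp (-(l + Real.log 126) / 1.08)) *
            Real.exp (-(l + Real.log 126) / 1.08 * 0.08)
          = n * (Real.exp (Real.log 126) * Real.exp (-(l + Real.log 126) / 1.08) *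
            Real.exp (-(l + Real.log 126) / 1.08 * 0.08)) := by rw [← this]; ring
        _ = n * Real.exp (-l) := by
            rw [← Real.exp_add, ← Real.exp_add]
            congr 2
            ring
    rw [← e3]
    have e4 : 0 ≤ ((K : ℝ) / n) ^ (0.08 : ℝ) := by positivity
    gcongr
  have h7 := Nk_le D L k h2 K k hKk hKn (by
    intro S hS
    have := (h3 (D + 1) S).2
    rw [hS] at this
    exact this.trans (Real.exp_le_exp.mpr hT))
  have hC : (0 : ℝ) < (((2 ^ (D + 1) : ℕ).choose k : ℕ) : ℝ) := by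
    exact_mod_cast Nat.choose_pos hk2
  -- lower bound for choose K k
  have hq : (k : ℝ) * ((2 / 27) * l - 4.6041) ≤ Real.log ((K.choose k : ℕ) : ℝ) := by
    have e1 := le_choose_pow k K hk hKk
    have e2 : Real.log (((K : ℝ) / k) ^ k) ≤ Real.log ((K.choose k : ℕ) : ℝ) :=
      Real.log_le_log (by positivity) e1
    rw [Real.log_pow] at e2
    refine le_trans ?_ e2
    apply mul_le_mul_of_nonneg_left _ hk0.le
    have e3 : Real.log (0.9 * u / k) ≤ Real.log ((K : ℝ) / k) :=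
      Real.log_le_log (by positivity) (by gcongr)
    refine le_trans ?_ e3
    have e4 : 0.9 * u / k = 0.9 * Real.exp ((2 / 27) * l - Real.log 126 / 1.08) := by
      rw [← huk]; field_simp
    rw [e4, Real.log_mul (by norm_num) (Real.exp_pos _).ne', Real.log_exp]
    have e5 : -(1 / 9 : ℝ) ≤ Real.log 0.9 := by
      have := Real.one_sub_inv_le_log_of_pos (show (0 : ℝ) < 0.9 by norm_num)
      refine le_trans ?_ this
      norm_num
    have e6 : Real.log 126 / 1.08 ≤ 4.8523 / 1.08 := by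
      apply div_le_div_of_nonneg_right hl126 (by norm_num)
    have e7 : (4.8523 : ℝ) / 1.08 + 1 / 9 ≤ 4.6041 := by norm_num
    linarith
  have hCK : (0 : ℝ) < ((K.choose k : ℕ) : ℝ) := by exact_mod_cast Nat.choose_pos hKk
  have hlC : Real.log (((2 ^ (D + 1) : ℕ).choose k : ℕ) : ℝ) ≤ (k : ℝ) * (1 + l) := by
    have := choose_le_exp (2 ^ (D + 1)) k hk hk2
    push_cast at this
    rw [← hn, ← hl] at this
    have := Real.log_le_log hC this
    rwa [Real.log_exp] at this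
  set C : ℝ := (((2 ^ (D + 1) : ℕ).choose k : ℕ) : ℝ) with hCdef
  set CK : ℝ := ((K.choose k : ℕ) : ℝ) with hCKdef
  have hN : Nk D L k ≤ Real.exp (k * Real.log 2 + Real.log C - Real.log CK + k) := by
    refine h7.trans (le_of_eq ?_)
    rw [two_pow_exp k, Real.exp_add, Real.exp_sub, Real.exp_add, Real.exp_log hC,
      Real.exp_log hCK]
    ring
  have hN0 := Nk_nonneg D L k
  have hcc : ((Fintype.card (V (D + 1))).choose k : ℝ) = C := by rw [card_V]
  rw [hcc] at h6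
  have h8 : (2 : ℝ) ^ k * Nk D L k / C
      ≤ Real.exp (2 * (k * Real.log 2) - Real.log CK + k) := by
    rw [div_le_iff₀ hC]
    calc (2 : ℝ) ^ k * Nk D L k ≤ (2 : ℝ) ^ k *
          Real.exp (k * Real.log 2 + Real.log C - Real.log CK + k) :=
          mul_le_mul_of_nonneg_left hN (by positivity)
      _ = Real.exp (2 * (k * Real.log 2) - Real.log CK + k) * C := by
          rw [two_pow_exp k]
          conv_rhs => rw [← Real.exp_log hC]
          rw [← Real.exp_add, ← Real.exp_add]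
          congr 1
          ring
  have h80 : 0 ≤ (2 : ℝ) ^ k * Nk D L k / C := by positivity
  have h9 : ((2 : ℝ) ^ k * Nk D L k / C) ^ 13
      ≤ Real.exp (13 * (2 * (k * Real.log 2) - Real.log CK + k)) := by
    have := pow_le_pow_left₀ h80 h8 13
    rw [← Real.exp_nat_mul] at this
    exact_mod_cast this
  refine h6.trans ?_
  change Nk D L k * ((2 : ℝ) ^ k * Nk D L k / C) ^ 13 *
    Real.exp (-(3 / 40 * (2 * (k : ℝ) * (n - k + 1) / n) * 704)) ≤ _
  have h10 : Nk D L k * ((2 : ℝ) ^ k * Nk D L k / C) ^ 13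
      ≤ Real.exp (k * Real.log 2 + Real.log C - Real.log CK + k)
        * Real.exp (13 * (2 * (k * Real.log 2) - Real.log CK + k)) :=
    mul_le_mul hN h9 (by positivity) (Real.exp_pos _).le
  refine (mul_le_mul_of_nonneg_right h10 (Real.exp_pos _).le).trans ?_
  rw [← Real.exp_add, ← Real.exp_add]
  apply Real.exp_le_exp.mpr
  have hl2 := log2_bounds
  have g1 : (k : ℝ) * Real.log 2 ≤ k * 0.6932 := mul_le_mul_of_nonneg_left hl2.2.le hk0.le
  have hx2 : 2 * (k : ℝ) * (1 - k / n) ≤ 2 * (k : ℝ) * (n - k + 1) / n := by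
    have : 2 * (k : ℝ) * (n - k + 1) / n = 2 * (k : ℝ) * (1 - k / n) + 2 * k / n := by
      field_simp
    rw [this]
    have : 0 ≤ 2 * (k : ℝ) / n := by positivity
    linarith
  have hkn : (k : ℝ) / n ≤ 0.01 := by
    have e1 : (k : ℝ) / n ≤ Real.exp (-100) := by
      rw [div_le_iff₀ hn0]; exact hk4
    have e2 : Real.exp (-100) ≤ 0.01 := by
      rw [Real.exp_neg]
      have := Real.add_one_le_exp (100 : ℝ)
      rw [inv_le_comm₀ (Real.exp_pos _) (by norm_num)]
      norm_num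
      linarith
    linarith
  have hx3 : (k : ℝ) * 1.98 ≤ 2 * (k : ℝ) * (n - k + 1) / n := by
    refine le_trans ?_ hx2
    have e1 : (0.99 : ℝ) ≤ 1 - (k : ℝ) / n := by linarith
    have e2 := mul_le_mul_of_nonneg_left e1 (show (0 : ℝ) ≤ 2 * k by positivity)
    linarith
  clear hx2
  have g2 : (k : ℝ) * 100 ≤ k * l := mul_le_mul_of_nonneg_left hl100 hk0.le
  have g3 : (k : ℝ) * ((2 / 27) * l - 4.6041) = (2 / 27) * (k * l) - 4.6041 * k := by ring
  have g4 : (k : ℝ) * (1 + l) = k + k * l := by ring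
  rw [g3] at hq
  rw [g4] at hlC
  have g5 : (0.03 : ℝ) * k * l = 0.03 * (k * l) := by ring
  rw [g5]
  set X : ℝ := 2 * (k : ℝ) * (n - k + 1) / n with hX
  clear_value X l
  linarith

theorem num (h1 : StDk) (h2 : StLevB) (h3 : StTr) (h4 : StXa) (h5 : StXb) : StNum := by
  intro D L k hk hk2
  refine ⟨fun h => num1 h1 h2 h3 h4 D L k hk hk2 h, fun h => ?_⟩
  by_cases hc : 2 * (k : ℝ) ≤ (2 : ℝ) ^ (D + 1)
  · exact num2 h1 h2 h3 h4 D L k hk hk2 hc h
  · push Not at hc
    exact num3 h1 h2 h3 h5 D L k hk2 hc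

end Crest.Agent.R155
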