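import Crest.Agent.R155.Defs

set_option autoImplicit false
set_option linter.unusedVariables false
set_option linter.unusedSectionVars false

namespace Crest.Agent.R155

open scoped BigOperators Matrix
open Finset

namespace OneAux

section
variable {m : Type} [Fintype m] [DecidableEq m]

/-- `v ↦ vᵀ M v` as a continuous additive map in `M` -/
def qf (v : m → ℝ) : Matrix m m ℝ →+ ℝ where
  toFun M := v ⬝ᵥ (M *ᵥ v)
  map_zero' := by simp
  map_add' M N := by rw [Matrix.add_mulVec, dotProduct_add]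

lemma qf_cont (v : m → ℝ) : Continuous (qf v) := by
  show Continuous fun M : Matrix m m ℝ => v ⬝ᵥ (M *ᵥ v)
  fun_prop

set_option backward.isDefEq.respectTransparency false in
lemma exp_hasSum (Y : Matrix m m ℝ) :
    HasSum (fun n : ℕ => ((n.factorial : ℝ)⁻¹) • Y ^ n) (NormedSpace.exp Y) :=
  open scoped Matrix.Norms.Operator in NormedSpace.exp_series_hasSum_exp' (𝕂 := ℝ) Y

lemma qf_exp (Y : Matrix m m ℝ) (v : m → ℝ) :
    HasSum (fun n : ℕ => ((n.factorial : ℝ)⁻¹) * (v ⬝ᵥ (Y ^ n *ᵥ v)))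
      (v ⬝ᵥ (NormedSpace.exp Y *ᵥ v)) := by
  have h := (exp_hasSum Y).map (qf v) (qf_cont v)
  have e : (⇑(qf v) ∘ fun n : ℕ => ((n.factorial : ℝ)⁻¹) • Y ^ n) =
      fun n : ℕ => ((n.factorial : ℝ)⁻¹) * (v ⬝ᵥ (Y ^ n *ᵥ v)) := by
    funext n
    show v ⬝ᵥ ((((n.factorial : ℝ)⁻¹) • Y ^ n) *ᵥ v) = _
    rw [Matrix.smul_mulVec, dotProduct_smul, smul_eq_mul]
  rw [e] at h
  exact h

lemma dot_symm {X : Matrix m m ℝ} (hX : Xᵀ = X) (v w : m → ℝ) :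
    v ⬝ᵥ (X *ᵥ w) = (X *ᵥ v) ⬝ᵥ w := by
  rw [Matrix.dotProduct_mulVec, ← Matrix.mulVec_transpose, hX]

lemma pow_symm {X : Matrix m m ℝ} (hX : Xᵀ = X) (n : ℕ) : (X ^ n)ᵀ = X ^ n := by
  rw [Matrix.transpose_pow, hX]

lemma exp_symm {X : Matrix m m ℝ} (hX : Xᵀ = X) : (NormedSpace.exp X)ᵀ = NormedSpace.exp X := by
  rw [← Matrix.exp_transpose, hX]

lemma dot_self_nonneg (v : m → ℝ) : 0 ≤ v ⬝ᵥ v := by
  rw [dotProduct]; exact sum_nonneg fun i _ => mul_self_nonneg _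

/-- powers of a positive semidefinite symmetric matrix -/
lemma pow_nonneg_form {X : Matrix m m ℝ} (hX : Xᵀ = X) (hpos : ∀ v : m → ℝ, 0 ≤ v ⬝ᵥ (X *ᵥ v))
    (n : ℕ) (v : m → ℝ) : 0 ≤ v ⬝ᵥ (X ^ n *ᵥ v) := by
  rcases Nat.even_or_odd' n with ⟨k, hk | hk⟩
  · have : X ^ n = X ^ k * X ^ k := by rw [hk, two_mul, pow_add]
    rw [this, ← Matrix.mulVec_mulVec, dot_symm (pow_symm hX k)]
    exact dot_self_nonneg _
  · have : X ^ n = X ^ k * (X * X ^ k) := by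
      rw [hk, ← pow_succ', ← pow_add]; congr 1; omega
    rw [this, ← Matrix.mulVec_mulVec, dot_symm (pow_symm hX k), ← Matrix.mulVec_mulVec]
    exact hpos _

/-- `1 + Y ≤ exp Y` for positive semidefinite `Y` -/
lemma exp_lower {Y : Matrix m m ℝ} (hY : Yᵀ = Y) (hpos : ∀ v : m → ℝ, 0 ≤ v ⬝ᵥ (Y *ᵥ v))
    (v : m → ℝ) : v ⬝ᵥ v + v ⬝ᵥ (Y *ᵥ v) ≤ v ⬝ᵥ (NormedSpace.exp Y *ᵥ v) := by
  have h := qf_exp Y v
  have h2 := sum_le_hasSum (range 2) (fun n _ => mul_nonneg (by positivity)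
    (pow_nonneg_form hY hpos n v)) h
  simpa [sum_range_succ] using h2

end

section
variable {A : Type} [Fintype A] [DecidableEq A] {m : Type} [Fintype m] [DecidableEq m]
  (U : Equiv.Perm (A × Bool) →* Matrix m m ℝ)

lemma XU_comm {W : Type} [Fintype W] [DecidableEq W] (U : Equiv.Perm W →* Matrix m m ℝ)
    (g : Equiv.Perm W) : Commute (XU U) (U g) := by
  unfold XU
  refine Commute.smul_left ?_ _
  show (∑ p : W × W, (1 - U (Equiv.swap p.1 p.2))) * U g =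
    U g * ∑ p : W × W, (1 - U (Equiv.swap p.1 p.2))
  rw [sum_mul, mul_sum]
  symm
  refine Fintype.sum_equiv (Equiv.prodCongr g g) _ _ fun p => ?_
  simp only [Equiv.prodCongr_apply, Prod.map_fst, Prod.map_snd]
  rw [mul_sub, sub_mul, mul_one, one_mul, ← map_mul, ← map_mul, Equiv.swap_apply_apply]
  simp

lemma XU_symm {W : Type} [Fintype W] [DecidableEq W] (U : Equiv.Perm W →* Matrix m m ℝ)
    (hU : ∀ g, (U g)ᵀ = U g⁻¹) : (XU U)ᵀ = XU U := by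
  unfold XU
  rw [Matrix.transpose_smul, Matrix.transpose_sum]
  congr 1
  refine sum_congr rfl fun p _ => ?_
  rw [Matrix.transpose_sub, Matrix.transpose_one, hU, Equiv.swap_inv]

lemma SU_symm (hU : ∀ g, (U g)ᵀ = U g⁻¹) : (SU U)ᵀ = SU U := by
  unfold SU
  rw [Matrix.transpose_smul, Matrix.transpose_sum]
  congr 1
  refine sum_congr rfl fun b _ => ?_
  rw [Matrix.transpose_sum]
  refine sum_congr rfl fun p _ => ?_
  rw [Matrix.transpose_sub, Matrix.transpose_one, hU, Equiv.swap_inv]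

lemma XU_SU_comm : Commute (XU U) (SU U) := by
  unfold SU
  refine Commute.smul_right ?_ _
  refine Commute.sum_right _ _ _ fun b _ => Commute.sum_right _ _ _ fun p _ => ?_
  exact (Commute.one_right _).sub_right (XU_comm U _)

lemma one_sub_pos {W : Type} [Fintype W] [DecidableEq W] (U : Equiv.Perm W →* Matrix m m ℝ)
    (hU : ∀ g, (U g)ᵀ = U g⁻¹) (a b : W) (v : m → ℝ) :
    0 ≤ v ⬝ᵥ ((1 - U (Equiv.swap a b)) *ᵥ v) := by
  set B := U (Equiv.swap a b) with hB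
  have hBs : Bᵀ = B := by rw [hB, hU, Equiv.swap_inv]
  have hBB : B * B = 1 := by rw [hB, ← map_mul, Equiv.swap_mul_self, map_one]
  have h1 : 0 ≤ (v - B *ᵥ v) ⬝ᵥ (v - B *ᵥ v) := dot_self_nonneg _
  have h2 : (v - B *ᵥ v) ⬝ᵥ (v - B *ᵥ v) = 2 * (v ⬝ᵥ ((1 - B) *ᵥ v)) := by
    have e1 : (B *ᵥ v) ⬝ᵥ (B *ᵥ v) = v ⬝ᵥ v := by
      rw [← dot_symm hBs, Matrix.mulVec_mulVec, hBB, Matrix.one_mulVec]
    have e2 : (B *ᵥ v) ⬝ᵥ v = v ⬝ᵥ (B *ᵥ v) := (dot_symm hBs v v).symm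
    rw [sub_dotProduct, dotProduct_sub, dotProduct_sub, e1, e2, Matrix.sub_mulVec,
      Matrix.one_mulVec, dotProduct_sub]
    ring
  linarith

lemma XU_pos {W : Type} [Fintype W] [DecidableEq W] (U : Equiv.Perm W →* Matrix m m ℝ)
    (hU : ∀ g, (U g)ᵀ = U g⁻¹) (v : m → ℝ) : 0 ≤ v ⬝ᵥ (XU U *ᵥ v) := by
  unfold XU
  rw [Matrix.smul_mulVec, dotProduct_smul, smul_eq_mul, Matrix.sum_mulVec, dotProduct_sum]
  refine mul_nonneg (by positivity) (sum_nonneg fun p _ => one_sub_pos U hU _ _ v)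

end

/-- `(2k-1)!! ≤ 2^(k-1) k!`, i.e. `2 (2k-1)!! ≤ 2^k k!` for `k ≥ 1` -/
lemma df_le (k : ℕ) : 2 * (2 * (k + 1) - 1).doubleFactorial ≤ 2 ^ (k + 1) * (k + 1).factorial := by
  induction k with
  | zero => simp
  | succ k ih =>
    have e1 : 2 * (k + 1 + 1) - 1 = (2 * (k + 1) - 1) + 2 := by omega
    rw [e1, Nat.doubleFactorial_add_two, Nat.factorial_succ (k + 1), pow_succ 2 (k + 1)]
    have e2 : 2 * (k + 1) - 1 + 2 ≤ 2 * (k + 1 + 1) := by omega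
    calc 2 * ((2 * (k + 1) - 1 + 2) * (2 * (k + 1) - 1).doubleFactorial)
        = (2 * (k + 1) - 1 + 2) * (2 * (2 * (k + 1) - 1).doubleFactorial) := by ring
      _ ≤ (2 * (k + 1 + 1)) * (2 ^ (k + 1) * (k + 1).factorial) := Nat.mul_le_mul e2 ih
      _ = _ := by ring

/-- coefficient bound -/
lemma coef_le (θ : ℝ) (h0 : 0 ≤ θ) (h1 : θ ≤ 1 / 8) (k : ℕ) :
    (((k + 2).factorial : ℝ)⁻¹) * θ ^ (k + 2) *
      ((2 : ℝ) ^ k * ((2 * k - 1).doubleFactorial : ℝ) * (2 * (k : ℝ) ^ 2 + 2 * k + 1))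
      ≤ θ ^ 2 * ((1 / 2) ^ k - if k = 0 then 1 / 2 else 0) := by
  rcases k with _ | k
  · have e : ((0 + 2 : ℕ).factorial : ℝ) = 2 := by norm_num [Nat.factorial]
    rw [e]
    norm_num
    exact le_of_eq (mul_comm _ _)
  · rw [if_neg (by omega), sub_zero]
    have hdf : 2 * ((2 * (k + 1) - 1).doubleFactorial : ℝ) ≤ 2 ^ (k + 1) * ((k + 1).factorial : ℝ) := by
      exact_mod_cast df_le k
    have hf : ((k + 1 + 2).factorial : ℝ) = ((k : ℝ) + 3) * ((k : ℝ) + 2) * ((k + 1).factorial : ℝ) := by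
      rw [Nat.factorial_succ (k + 2), Nat.factorial_succ (k + 1)]
      push_cast; ring
    have hfp : (0 : ℝ) < ((k + 1).factorial : ℝ) := by exact_mod_cast Nat.factorial_pos _
    have hk0 : (0 : ℝ) ≤ k := Nat.cast_nonneg k
    have hpoly : 2 * ((k + 1 : ℕ) : ℝ) ^ 2 + 2 * ((k + 1 : ℕ) : ℝ) + 1 ≤ 2 * ((k : ℝ) + 2) * ((k : ℝ) + 3) := by
      push_cast; nlinarith
    have hθ4 : (4 * θ) ^ (k + 1) ≤ (1 / 2) ^ (k + 1) := by
      apply pow_le_pow_left₀ (by positivity); linarith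
    rw [hf]
    have hmain : (2 : ℝ) ^ (k + 1) * ((2 * (k + 1) - 1).doubleFactorial : ℝ) *
        (2 * ((k + 1 : ℕ) : ℝ) ^ 2 + 2 * ((k + 1 : ℕ) : ℝ) + 1) ≤
        4 ^ (k + 1) * (((k : ℝ) + 3) * ((k : ℝ) + 2) * ((k + 1).factorial : ℝ)) := by
      have hd0 : (0 : ℝ) ≤ ((2 * (k + 1) - 1).doubleFactorial : ℝ) := Nat.cast_nonneg _
      calc (2 : ℝ) ^ (k + 1) * ((2 * (k + 1) - 1).doubleFactorial : ℝ) *
          (2 * ((k + 1 : ℕ) : ℝ) ^ 2 + 2 * ((k + 1 : ℕ) : ℝ) + 1)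
          ≤ (2 : ℝ) ^ (k + 1) * ((2 * (k + 1) - 1).doubleFactorial : ℝ) *
            (2 * ((k : ℝ) + 2) * ((k : ℝ) + 3)) := mul_le_mul_of_nonneg_left hpoly (by positivity)
        _ = (2 : ℝ) ^ (k + 1) * (2 * ((2 * (k + 1) - 1).doubleFactorial : ℝ)) *
            (((k : ℝ) + 2) * ((k : ℝ) + 3)) := by ring
        _ ≤ (2 : ℝ) ^ (k + 1) * (2 ^ (k + 1) * ((k + 1).factorial : ℝ)) *
            (((k : ℝ) + 2) * ((k : ℝ) + 3)) := by gcongr
        _ = _ := by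
            have : (4 : ℝ) ^ (k + 1) = 2 ^ (k + 1) * 2 ^ (k + 1) := by
              rw [← mul_pow]; norm_num
            rw [this]; ring
    have hF : (0 : ℝ) < ((k : ℝ) + 3) * ((k : ℝ) + 2) * ((k + 1).factorial : ℝ) := by positivity
    calc (((k : ℝ) + 3) * ((k : ℝ) + 2) * ((k + 1).factorial : ℝ))⁻¹ * θ ^ (k + 1 + 2) *
          ((2 : ℝ) ^ (k + 1) * ((2 * (k + 1) - 1).doubleFactorial : ℝ) *
            (2 * ((k + 1 : ℕ) : ℝ) ^ 2 + 2 * ((k + 1 : ℕ) : ℝ) + 1))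
        ≤ (((k : ℝ) + 3) * ((k : ℝ) + 2) * ((k + 1).factorial : ℝ))⁻¹ * θ ^ (k + 1 + 2) *
          (4 ^ (k + 1) * (((k : ℝ) + 3) * ((k : ℝ) + 2) * ((k + 1).factorial : ℝ))) :=
          mul_le_mul_of_nonneg_left hmain (by positivity)
      _ = θ ^ 2 * (4 * θ) ^ (k + 1) := by
          field_simp
          rw [mul_pow]; ring
      _ ≤ θ ^ 2 * (1 / 2) ^ (k + 1) := mul_le_mul_of_nonneg_left hθ4 (by positivity)

end OneAux

open OneAux in
theorem one (h1 : StAlg) (h2 : StMom) : StOne := by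
  intro A _ _ _ m _ _ U v θ hU hv hθ0 hθ1
  set X := XU U with hX
  set S := SU U with hS
  set N : ℝ := (Fintype.card A : ℝ) with hN
  have hNpos : 0 < N := by rw [hN]; exact_mod_cast Fintype.card_pos
  have hXs : Xᵀ = X := XU_symm U hU
  have hSs : Sᵀ = S := SU_symm U hU
  have hXS : Commute X S := XU_SU_comm U
  set c : ℝ := 3 * θ ^ 2 / N with hc
  have hc0 : 0 ≤ c := by positivity
  set P := NormedSpace.exp (-((θ / 2) • X)) with hP
  have hPs : Pᵀ = P := exp_symm (by rw [Matrix.transpose_neg, Matrix.transpose_smul, hXs])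
  set v' := P *ᵥ v with hv'
  have hv'fix : ∀ x : A, U (Equiv.swap (x, false) (x, true)) *ᵥ v' = v' := by
    intro x
    have hcom : Commute (U (Equiv.swap (x, false) (x, true))) P := by
      apply Commute.exp_right
      exact ((XU_comm U _).symm.smul_right _).neg_right
    rw [hv', Matrix.mulVec_mulVec, hcom.eq, ← Matrix.mulVec_mulVec, hv x]
  obtain ⟨ha1, ha2⟩ := h1 A m U v' hU hv'fix
  set W := X - S with hW
  have hWs : Wᵀ = W := by rw [hW, Matrix.transpose_sub, hXs, hSs]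
  have hXW : Commute X W := (Commute.refl X).sub_right hXS
  -- splitting of exp(-θ S)
  have hsplit : NormedSpace.exp (-(θ • S)) = P * (NormedSpace.exp (θ • W) * P) := by
    have e : -(θ • S) = -((θ / 2) • X) + (θ • W + -((θ / 2) • X)) := by
      rw [hW, smul_sub]
      have : θ • X = (θ / 2) • X + (θ / 2) • X := by rw [← add_smul]; congr 1; ring
      rw [this]; abel
    have hc1 : Commute (θ • W) (-((θ / 2) • X)) :=
      ((hXW.symm.smul_left _).smul_right _).neg_right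
    have hc2 : Commute (-((θ / 2) • X)) (θ • W + -((θ / 2) • X)) :=
      (hc1.symm).add_right (Commute.refl _)
    rw [e, Matrix.exp_add_of_commute _ _ hc2, Matrix.exp_add_of_commute _ _ hc1]
  have hL : v ⬝ᵥ (NormedSpace.exp (-(θ • S)) *ᵥ v) = v' ⬝ᵥ (NormedSpace.exp (θ • W) *ᵥ v') := by
    rw [hsplit, ← Matrix.mulVec_mulVec, dot_symm hPs, ← Matrix.mulVec_mulVec]
  have hR : v' ⬝ᵥ (NormedSpace.exp (c • X) *ᵥ v') =
      v ⬝ᵥ (NormedSpace.exp (-((θ - c) • X)) *ᵥ v) := by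
    have e : -((θ - c) • X) = -((θ / 2) • X) + (c • X + -((θ / 2) • X)) := by
      have : (θ - c) • X = (θ / 2) • X + (θ / 2) • X - c • X := by
        rw [← add_smul, ← sub_smul]; congr 1; ring
      rw [this]; abel
    have hc1 : Commute (c • X) (-((θ / 2) • X)) :=
      (((Commute.refl X).smul_left _).smul_right _).neg_right
    have hc2 : Commute (-((θ / 2) • X)) (c • X + -((θ / 2) • X)) :=
      (hc1.symm).add_right (Commute.refl _)
    rw [e, Matrix.exp_add_of_commute _ _ hc2, Matrix.exp_add_of_commute _ _ hc1,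
      ← Matrix.mulVec_mulVec, dot_symm hPs, ← Matrix.mulVec_mulVec]
  rw [hL, ← hR]
  -- upper bound of the left side
  set B := (W *ᵥ v') ⬝ᵥ (W *ᵥ v') with hB
  have hB0 : 0 ≤ B := dot_self_nonneg _
  have hsum := qf_exp (θ • W) v'
  have hsum2 := (hasSum_nat_add_iff' 2).2 hsum
  have hgeo : HasSum (fun k : ℕ => (θ ^ 2 * B) * ((1 / 2 : ℝ) ^ k - if k = 0 then 1 / 2 else 0))
      ((θ ^ 2 * B) * (2 - 1 / 2)) :=
    (hasSum_geometric_two.sub (hasSum_ite_eq 0 (1 / 2 : ℝ))).mul_left _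
  have hterm : ∀ k : ℕ, (((k + 2).factorial : ℝ)⁻¹) * (v' ⬝ᵥ ((θ • W) ^ (k + 2) *ᵥ v')) ≤
      (θ ^ 2 * B) * ((1 / 2 : ℝ) ^ k - if k = 0 then 1 / 2 else 0) := by
    intro k
    have hmom := h2 A m U v' k hU hv'fix
    have e1 : v' ⬝ᵥ ((θ • W) ^ (k + 2) *ᵥ v') = θ ^ (k + 2) *
        ((W *ᵥ v') ⬝ᵥ (W ^ k *ᵥ (W *ᵥ v'))) := by
      rw [smul_pow, Matrix.smul_mulVec, dotProduct_smul, smul_eq_mul, pow_succ W (k + 1),
        pow_succ' W k, mul_assoc, ← Matrix.mulVec_mulVec, dot_symm hWs, ← Matrix.mulVec_mulVec]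
    rw [e1]
    have hco := coef_le θ hθ0 hθ1 k
    calc (((k + 2).factorial : ℝ)⁻¹) * (θ ^ (k + 2) * ((W *ᵥ v') ⬝ᵥ (W ^ k *ᵥ (W *ᵥ v'))))
        ≤ (((k + 2).factorial : ℝ)⁻¹) * (θ ^ (k + 2) *
          ((2 : ℝ) ^ k * ((2 * k - 1).doubleFactorial : ℝ) * (2 * (k : ℝ) ^ 2 + 2 * k + 1) * B)) := by
          gcongr
      _ = (((k + 2).factorial : ℝ)⁻¹) * θ ^ (k + 2) *
          ((2 : ℝ) ^ k * ((2 * k - 1).doubleFactorial : ℝ) * (2 * (k : ℝ) ^ 2 + 2 * k + 1)) * B := by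
          ring
      _ ≤ θ ^ 2 * ((1 / 2) ^ k - if k = 0 then 1 / 2 else 0) * B :=
          mul_le_mul_of_nonneg_right hco hB0
      _ = _ := by ring
  have hle := hasSum_le hterm hsum2 hgeo
  have e2 : ∑ i ∈ range 2, ((i.factorial : ℝ)⁻¹) * (v' ⬝ᵥ ((θ • W) ^ i *ᵥ v')) = v' ⬝ᵥ v' := by
    rw [sum_range_succ, sum_range_one]
    simp only [Nat.factorial_zero, Nat.cast_one, inv_one, pow_zero, Matrix.one_mulVec, one_mul,
      Nat.factorial_one, pow_one, Matrix.smul_mulVec, dotProduct_smul, ha2, smul_zero, add_zero]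
  rw [e2] at hle
  have hupper : v' ⬝ᵥ (NormedSpace.exp (θ • W) *ᵥ v') ≤ v' ⬝ᵥ v' + c * (v' ⬝ᵥ (X *ᵥ v')) := by
    have h3 : θ ^ 2 * B * (2 - 1 / 2) ≤ c * (v' ⬝ᵥ (X *ᵥ v')) := by
      have h4 : θ ^ 2 * B ≤ θ ^ 2 * ((2 / N) * (v' ⬝ᵥ (X *ᵥ v'))) :=
        mul_le_mul_of_nonneg_left ha1 (by positivity)
      calc θ ^ 2 * B * (2 - 1 / 2) ≤ θ ^ 2 * ((2 / N) * (v' ⬝ᵥ (X *ᵥ v'))) * (2 - 1 / 2) :=
            mul_le_mul_of_nonneg_right h4 (by norm_num)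
        _ = c * (v' ⬝ᵥ (X *ᵥ v')) := by rw [hc]; field_simp; ring
    linarith
  refine hupper.trans ?_
  have hcX : (c • X)ᵀ = c • X := by rw [Matrix.transpose_smul, hXs]
  have hcpos : ∀ w : m → ℝ, 0 ≤ w ⬝ᵥ ((c • X) *ᵥ w) := by
    intro w
    rw [Matrix.smul_mulVec, dotProduct_smul, smul_eq_mul]
    exact mul_nonneg hc0 (XU_pos U hU w)
  have hlow := exp_lower hcX hcpos v'
  rw [Matrix.smul_mulVec, dotProduct_smul, smul_eq_mul] at hlow
  exact hlow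

end Crest.Agent.R155
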