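import Crest.Agent.R155.Defs
import Crest.Agent.R155.RI

set_option autoImplicit false

namespace Crest.Agent.R155

open scoped BigOperators Matrix
open Finset

/-- column sums of `KM` -/
theorem KM_col (D : ℕ) (h' : Equiv.Perm (V D)) : ∑ h, KM D h h' = 1 := by
  unfold KM av
  rw [← Finset.sum_div, Finset.sum_comm]
  have h1 : ∀ c : Coins D, ∑ h : Equiv.Perm (V D), Lm (pass c) h h' = 1 := by
    intro c
    unfold Lm
    simp
  rw [Finset.sum_congr rfl (fun c _ => h1 c)]
  simp only [Finset.sum_const, Finset.card_univ, nsmul_eq_mul, mul_one]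
  rw [div_self]
  exact_mod_cast Fintype.card_ne_zero

theorem KM_pow_col (D t : ℕ) (h' : Equiv.Perm (V D)) : ∑ h, (KM D ^ t) h h' = 1 := by
  induction t generalizing h' with
  | zero => simp [Matrix.one_apply]
  | succ t ih =>
    rw [pow_succ]
    simp only [Matrix.mul_apply]
    rw [Finset.sum_comm]
    have h1 : ∀ j, ∑ i, (KM D ^ t) i j * KM D j h' = KM D j h' := by
      intro j
      rw [← Finset.sum_mul, ih j, one_mul]
    rw [Finset.sum_congr rfl (fun j _ => h1 j)]
    exact KM_col D h'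

theorem RInv.trace_sq {W : Type} [Fintype W] [DecidableEq W]
    {A : Matrix (Equiv.Perm W) (Equiv.Perm W) ℝ} (hA : RInv A) :
    Matrix.trace (A * Aᵀ) = ((Fintype.card W).factorial : ℝ) * ∑ g, (A g 1) ^ 2 := by
  have h1 : ∀ g h, A g h = A (g * h⁻¹) 1 := by
    intro g h
    have := hA h (g * h⁻¹) 1
    simpa using this
  unfold Matrix.trace
  simp only [Matrix.diag_apply, Matrix.mul_apply, Matrix.transpose_apply]
  have h2 : ∀ g, ∑ h, A g h * A g h = ∑ k, (A k 1) ^ 2 := by
    intro g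
    rw [← Equiv.sum_comp ((Equiv.inv (Equiv.Perm W)).trans (Equiv.mulRight g))]
    apply Finset.sum_congr rfl
    intro h _
    have h3 : ((Equiv.inv (Equiv.Perm W)).trans (Equiv.mulRight g)) h = h⁻¹ * g := rfl
    have h4 : A g (h⁻¹ * g) = A h 1 := by
      rw [h1 g (h⁻¹ * g)]
      congr 1
      group
    rw [h3, h4, sq]
  rw [Finset.sum_congr rfl (fun g _ => h2 g), Finset.sum_const, nsmul_eq_mul, Finset.card_univ,
    Fintype.card_perm]

theorem p0 (h : StBits) : StP0 := by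
  intro d t
  obtain ⟨e, he⟩ := h d
  unfold Crest.ProbabilityR.Shuffle.tvFromUniform
  rw [← Equiv.sum_comp e.permCongr]
  have hcardV : Fintype.card (V (d + 1)) = 2 * 2 ^ d := by
    rw [Fintype.card_congr e, Fintype.card_fin]
  have h1 : ∀ g : Equiv.Perm (V (d + 1)),
      Crest.FinProb.uniformProb {cs : Fin (t * (d + 1)) → Fin (2 ^ d) → Bool |
      Crest.ProbabilityR.Shuffle.iterPos (2 ^ d) (t * (d + 1)) cs = ⇑(e.permCongr g)}
      = (KM (d + 1) ^ t) g 1 := he t
  simp only [h1]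
  rw [RInv.trace_sq (RInv.pow (RInv_KM (d + 1)) t), hcardV]
  set N : ℝ := ((2 * 2 ^ d).factorial : ℝ) with hN
  have hNpos : 0 < N := by
    rw [hN]
    exact_mod_cast Nat.factorial_pos _
  set p : Equiv.Perm (V (d + 1)) → ℝ := fun g => (KM (d + 1) ^ t) g 1 with hp
  have hsum : ∑ g, p g = 1 := KM_pow_col (d + 1) t 1
  have hcard : ((univ : Finset (Equiv.Perm (V (d + 1)))).card : ℝ) = N := by
    rw [Finset.card_univ, Fintype.card_perm, hcardV]
  have hcs : (∑ g, |p g - 1 / N|) ^ 2 ≤ N * (∑ g, (p g) ^ 2) - 1 := by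
    have h2 : (∑ g, |p g - 1 / N|) ^ 2 ≤
        ((univ : Finset (Equiv.Perm (V (d + 1)))).card : ℝ) * ∑ g, |p g - 1 / N| ^ 2 :=
      sq_sum_le_card_mul_sum_sq
    have h3 : ∑ g, |p g - 1 / N| ^ 2 = ∑ g, (p g) ^ 2 - 1 / N := by
      have h4 : ∀ g, |p g - 1 / N| ^ 2 = (p g) ^ 2 - 2 / N * p g + 1 / N ^ 2 := by
        intro g
        rw [sq_abs]
        ring
      rw [Finset.sum_congr rfl (fun g _ => h4 g), Finset.sum_add_distrib, Finset.sum_sub_distrib,
        ← Finset.mul_sum, hsum, Finset.sum_const, nsmul_eq_mul, hcard]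
      field_simp
      ring
    rw [hcard, h3] at h2
    have h5 : N * (∑ g, (p g) ^ 2 - 1 / N) = N * (∑ g, (p g) ^ 2) - 1 := by
      field_simp
    linarith
  have h6 : ∑ g, |p g - 1 / N| ≤ Real.sqrt (N * (∑ g, (p g) ^ 2) - 1) := by
    apply Real.le_sqrt_of_sq_le
    exact hcs
  linarith

end Crest.Agent.R155
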