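import Crest.Agent.R155.Defs

set_option autoImplicit false

namespace Crest.Agent.R155
namespace P3aux

open Finset

/-- exchange the coins of the free switches -/
def exch {D : ℕ} (r : Fin D) (m : ℕ) (p : Coins D × (SwT D r m → Bool)) :
    Coins D × (SwT D r m → Bool) :=
  (ovr r m p.1 p.2, fun σ => p.1 σ.1.1 σ.1.2)

theorem exch_invol {D : ℕ} (r : Fin D) (m : ℕ) : Function.Involutive (exch r m) := by
  rintro ⟨cb, ω⟩
  simp only [exch, Prod.mk.injEq]
  constructor
  · funext j k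
    unfold ovr
    split_ifs with h
    · rfl
    · rfl
  · funext σ
    obtain ⟨⟨j, k⟩, h⟩ := σ
    simp only [ovr]
    rw [dif_pos h]

theorem av_const {Ω : Type*} [Fintype Ω] [Nonempty Ω] (c : ℝ) : av (fun _ : Ω => c) = c := by
  unfold av
  rw [sum_const, card_univ, nsmul_eq_mul]
  field_simp

theorem av_mono {Ω : Type*} [Fintype Ω] {f g : Ω → ℝ} (h : ∀ ω, f ω ≤ g ω) : av f ≤ av g := by
  unfold av
  exact div_le_div_of_nonneg_right (sum_le_sum fun ω _ => h ω) (Nat.cast_nonneg _)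

theorem av_mul_right {Ω : Type*} [Fintype Ω] (f : Ω → ℝ) (c : ℝ) :
    av (fun ω => f ω * c) = av f * c := by
  unfold av
  rw [← sum_mul]
  ring

open Classical in
theorem av_ovr {D : ℕ} (r : Fin D) (m : ℕ) (H : Coins D → ℝ) :
    av H = av (fun cb : Coins D => av (fun ω : SwT D r m → Bool => H (ovr r m cb ω))) := by
  have h1 : ∑ p : Coins D × (SwT D r m → Bool), H (ovr r m p.1 p.2)
      = ∑ p : Coins D × (SwT D r m → Bool), H p.1 := by
    exact Equiv.sum_comp (exch_invol r m).toPerm (fun p => H p.1)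
  rw [Fintype.sum_prod_type, Fintype.sum_prod_type] at h1
  simp only [sum_const, card_univ, nsmul_eq_mul] at h1
  have hpos : (0 : ℝ) < (Fintype.card (SwT D r m → Bool) : ℝ) := by
    exact_mod_cast Fintype.card_pos
  unfold av
  rw [← sum_div, h1, ← mul_sum]
  field_simp

theorem merge_ovr {D : ℕ} (r : Fin D) (m : ℕ) (c0 cb : Coins D) (ω : SwT D r m → Bool) :
    merge m c0 (ovr r m cb ω) = ovr r m (merge m c0 cb) ω := by
  funext j k
  unfold merge ovr
  by_cases h : (j : ℕ) < m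
  · rw [if_pos h, dif_neg (by intro h'; omega)]
    simp only [h, if_true]
  · rw [if_neg h]
    split_ifs with h2
    · rfl
    · simp only [h, if_false]

end P3aux

open Classical in
open Finset P3aux in
theorem p3 (h1 : StAL) (h2 : StP3a) (h3 : StP3b) (h4 : StP3c) (_h0 : StDep) : StP3 := by
  intro D ι _ _ x c c0 r m s hx hm hs
  rw [av_ovr r m]
  have hB := (h4 D ι x c r hx).1
  set nB : ℝ := (Fintype.card (BT r x fun i => pass c (x i)) : ℝ) with hnB
  rw [← hB]
  set g : ℕ := (r : ℕ) - m with hg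
  have hgR : ((r : ℕ) : ℝ) - (m : ℝ) = (g : ℝ) := by rw [hg]; push_cast [hm]; ring
  rw [hgR]
  set E : ℝ := Real.exp (nB * (s * Real.log 2 * (2 : ℝ) ^ (-(g : ℝ) / 6)
            + (16 / 3) * (2 : ℝ) ^ (4 * s - 5 * (g : ℝ) / 12))) with hE
  have hnB0 : 0 ≤ nB := Nat.cast_nonneg _
  have key : ∀ cb : Coins D, av (fun ω : SwT D r m → Bool => (2 : ℝ) ^ (s * lc r x
      (fun a => bwd (merge m c0 (ovr r m cb ω)) (pass c (x a))) (fun a => pass c (x a)))) ≤ E := by
    intro cb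
    obtain ⟨A, hAg, hA⟩ := h2 D ι x c (merge m c0 cb) r m hx hm
    set M : ℕ := ⌊(2 : ℝ) ^ ((g : ℝ) / 6)⌋₊ with hM
    have h2g : (1 : ℝ) ≤ (2 : ℝ) ^ ((g : ℝ) / 6) := by
      apply Real.one_le_rpow (by norm_num)
      positivity
    have hM1 : 1 ≤ M := by
      rw [hM]; exact Nat.le_floor (by simpa using h2g)
    have hMle : (M : ℝ) ≤ (2 : ℝ) ^ ((g : ℝ) / 6) := Nat.floor_le (by positivity)
    have hMge : (2 : ℝ) ^ ((g : ℝ) / 6) ≤ (M : ℝ) + 1 := (Nat.lt_floor_add_one _).le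
    -- pointwise bound
    have hpt : ∀ ω : SwT D r m → Bool, (2 : ℝ) ^ (s * lc r x
        (fun a => bwd (merge m c0 (ovr r m cb ω)) (pass c (x a))) (fun a => pass c (x a)))
        ≤ (2 : ℝ) ^ (s * ((cycs (A.tau ω) M).card : ℝ)) * (2 : ℝ) ^ (s * (nB * (2 : ℝ) ^ (-(g : ℝ) / 6))) := by
      intro ω
      rw [← Real.rpow_add (by norm_num)]
      apply Real.rpow_le_rpow_of_exponent_le (by norm_num)
      rw [← mul_add]
      apply mul_le_mul_of_nonneg_left _ hs
      rw [merge_ovr]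
      have := h3 D ι x c (ovr r m (merge m c0 cb) ω) r (A.tau ω) M hx (hA ω)
      refine this.trans ?_
      have hdiv : nB / ((M : ℝ) + 1) ≤ nB * (2 : ℝ) ^ (-(g : ℝ) / 6) := by
        rw [div_eq_mul_inv]
        apply mul_le_mul_of_nonneg_left _ hnB0
        rw [show -(g : ℝ) / 6 = -((g : ℝ) / 6) by ring, Real.rpow_neg (by norm_num)]
        exact inv_anti₀ (by positivity) hMge
      exact add_le_add le_rfl hdiv
    refine (av_mono hpt).trans ?_
    rw [av_mul_right]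
    have hAL := h1 _ _ _ A M s hM1 hs
    rw [hAg] at hAL
    have hAL' : av (fun ω : SwT D r m → Bool => (2 : ℝ) ^ (s * ((cycs (A.tau ω) M).card : ℝ)))
        ≤ Real.exp ((16 / 3) * nB * (M : ℝ) ^ 2 * (2 : ℝ) ^ (4 * s - 3 * (g : ℝ) / 4)) := by
      convert hAL
    refine (mul_le_mul_of_nonneg_right hAL' (by positivity)).trans ?_
    rw [Real.rpow_def_of_pos (by norm_num : (0 : ℝ) < 2) (s * (nB * (2 : ℝ) ^ (-(g : ℝ) / 6))),
      ← Real.exp_add, hE]
    apply Real.exp_le_exp.mpr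
    have hM2 : (M : ℝ) ^ 2 * (2 : ℝ) ^ (4 * s - 3 * (g : ℝ) / 4) ≤ (2 : ℝ) ^ (4 * s - 5 * (g : ℝ) / 12) := by
      have : (2 : ℝ) ^ (4 * s - 5 * (g : ℝ) / 12)
          = ((2 : ℝ) ^ ((g : ℝ) / 6)) ^ 2 * (2 : ℝ) ^ (4 * s - 3 * (g : ℝ) / 4) := by
        rw [← Real.rpow_natCast, ← Real.rpow_mul (by norm_num), ← Real.rpow_add (by norm_num)]
        congr 1
        push_cast
        ring
      rw [this]
      apply mul_le_mul_of_nonneg_right _ (by positivity)
      exact pow_le_pow_left₀ (Nat.cast_nonneg _) hMle 2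
    nlinarith [mul_le_mul_of_nonneg_left hM2 hnB0]
  refine (av_mono key).trans ?_
  rw [av_const]

end Crest.Agent.R155
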