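import Crest.Agent.R155.Defs

set_option autoImplicit false

namespace Crest.Agent.R155

open scoped BigOperators Matrix
open Finset

namespace P3AAux

theorem key_congr {D : ℕ} {j : Fin D} {y y' z : V D} (h : ∀ i, i < j → y i = y' i) :
    key j y z = key j y' z := by
  funext i
  unfold key
  split_ifs with h1 h2
  · exact h i h1
  · rfl
  · rfl

theorem key_lt {D : ℕ} {j i : Fin D} {y z : V D} (h : i < j) : key j y z i = y i := by
  unfold key
  rw [if_pos h]

theorem key_gt {D : ℕ} {j i : Fin D} {y z : V D} (h : j < i) : key j y z i = z i := by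
  unfold key
  rw [if_neg (not_lt.2 h.le), if_neg h.ne']

theorem adj_symm {D : ℕ} {ι : Type} {r : Fin D} {x z : ι → V D} {a b : ι} (h : Adj r x z a b) :
    Adj r x z b a := ⟨h.1.symm, h.2.symm⟩

theorem bool3 : ∀ p q r : Bool, p ≠ q → p ≠ r → q ≠ r → False := by decide

/-- agreement below `r` -/
theorem agree {D : ℕ} {r : Fin D} {c c' : Coins D} {y y' z : V D}
    (h : ∀ j, z j = xor (y j) (c j (key j y z))) (h' : ∀ j, z j = xor (y' j) (c' j (key j y' z)))
    (hcc : ∀ j, j < r → (∀ i, i < j → y i = y' i) → c j (key j y z) = c' j (key j y z)) :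
    ∀ j, j < r → y j = y' j := by
  intro j
  induction j using WellFoundedLT.induction with
  | _ j ih =>
    intro hj
    have hlt : ∀ i, i < j → y i = y' i := fun i hi => ih i hi (hi.trans hj)
    have h1 := h j
    have h2 := h' j
    rw [← key_congr hlt, ← hcc j hj hlt] at h2
    rw [h2] at h1
    have : ∀ p q r : Bool, xor q r = xor p r → p = q := by decide
    exact this _ _ _ h1

open Classical in
theorem core {D : ℕ} {ι : Type} [Fintype ι] (x z : ι → V D) (cb : Coins D) (r : Fin D) (m : ℕ)
    (hm : m ≤ (r : ℕ))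
    (y : (SwT D r m → Bool) → ι → V D) (y0 : ι → V D)
    (hsepx : ∀ a b, Adj r x z a b → z a r ≠ z b r)
    (hrel : ∀ ω i j, z i j = xor (y ω i j) (ovr r m cb ω j (key j (y ω i) (z i))))
    (hrel0 : ∀ i j, z i j = xor (y0 i j) (cb j (key j (y0 i) (z i))))
    (hsep : ∀ ω j a b, Adj j (y ω) z a b → z a j ≠ z b j)
    (hsep0 : ∀ j a b, Adj j y0 z a b → z a j ≠ z b j)
    (hiso : ∀ ω, ∀ C : Finset ι, C.Nonempty →
      ∑ j : Fin D, (((C ×ˢ C).filter fun p => Adj j (y ω) z p.1 p.2).card : ℝ)
        ≤ C.card * Real.logb 2 C.card) :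
    ∃ A : ALData (SwT D r m) (BT r x z) (V D), A.g = (r : ℕ) - m ∧
      ∀ ω b b', A.tau ω b = some b' ↔ ∃ a, Adj r (y ω) z b.1 a ∧ Adj r x z a b'.1 := by
  have hboolt : ∀ {p q : Bool}, p ≠ q → p = true → q = false := by decide
  have hboolf : ∀ {p q : Bool}, p ≠ q → p = false → q = true := by decide
  -- x-partners are unique
  have hux : ∀ a b b', Adj r x z a b → Adj r x z a b' → b = b' := by
    intro a b b' h h'
    by_contra hne
    have h3 : Adj r x z b b' := ⟨hne, h.2.symm.trans h'.2⟩
    exact bool3 _ _ _ (hsepx _ _ h) (hsepx _ _ h') (hsepx _ _ h3)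
  -- the path
  let path : BT r x z → V D → Finset (SwT D r m) := fun b l =>
    univ.filter fun σ => σ.1.2 = key σ.1.1 l (z b.1)
  have mem_path : ∀ b l σ, σ ∈ path b l ↔ σ.1.2 = key σ.1.1 l (z b.1) := by
    intro b l σ
    simp only [path, Finset.mem_filter, Finset.mem_univ, true_and]
  let out : (SwT D r m → Bool) → BT r x z → V D := fun ω b => key r (y ω b.1) (z b.1)
  -- on a true path the key is the true key
  have mem_out : ∀ ω b σ, σ ∈ path b (out ω b) ↔ σ.1.2 = key σ.1.1 (y ω b.1) (z b.1) := by
    intro ω b σ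
    rw [mem_path]
    have : key σ.1.1 (out ω b) (z b.1) = key σ.1.1 (y ω b.1) (z b.1) := by
      apply key_congr
      intro i hi
      exact key_lt (hi.trans σ.2.2.1)
    rw [this]
  let P : V D → BT r x z → Prop := fun l b' =>
    ∃ a, z a r = false ∧ key r (y0 a) (z a) = l ∧ Adj r x z a b'.1
  let rho : V D → Option (BT r x z) := fun l =>
    if h : ∃ b', P l b' then some h.choose else none
  have hPu : ∀ l b b', P l b → P l b' → b = b' := by
    rintro l b b' ⟨a, ha, hk, hab⟩ ⟨a', ha', hk', hab'⟩
    have haa : a = a' := by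
      by_contra hne
      exact (hsep0 r a a' ⟨hne, hk.trans hk'.symm⟩) (ha.trans ha'.symm)
    subst haa
    exact Subtype.ext (hux a _ _ hab hab')
  have hrho : ∀ l b, rho l = some b ↔ P l b := by
    intro l b
    constructor
    · intro h
      by_cases he : ∃ b', P l b'
      · have : rho l = some he.choose := dif_pos he
        rw [this] at h
        cases h
        exact he.choose_spec
      · have : rho l = none := dif_neg he
        rw [this] at h
        cases h
    · intro h
      have he : ∃ b', P l b' := ⟨b, h⟩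
      have : rho l = some he.choose := dif_pos he
      rw [this]
      exact congrArg some (hPu l _ _ he.choose_spec h)
  -- side-0 cards do not see the free switches
  have hside0 : ∀ ω a, z a r = false → ∀ j, j < r → y0 a j = y ω a j := by
    intro ω a ha
    apply agree (hrel0 a) (hrel ω a)
    intro j hj _
    unfold ovr
    rw [dif_neg]
    rintro ⟨_, _, h3⟩
    rw [key_gt hj, ha] at h3
    cases h3
  refine ⟨{ out := out, path := path, rho := rho, g := (r : ℕ) - m,
            n1 := ?_, n2 := ?_, hg := ?_, outinj := ?_, two := ?_, iso := ?_, inj := ?_ }, rfl, ?_⟩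
  · -- n1
    intro ω ω' b h
    apply key_congr
    intro j hj
    symm
    revert hj
    revert j
    apply agree (hrel ω b.1) (hrel ω' b.1)
    intro j hj _
    unfold ovr
    by_cases hc : m ≤ (j : ℕ) ∧ j < r ∧ key j (y ω b.1) (z b.1) r = true
    · rw [dif_pos hc, dif_pos hc]
      apply h
      rw [mem_out]
    · rw [dif_neg hc, dif_neg hc]
  · -- n2
    intro ω ω' b h σ hσ
    rw [mem_out] at hσ
    have hlt : ∀ i, i < r → y ω b.1 i = y ω' b.1 i := by
      intro i hi
      have := congrFun h i
      simp only [out] at this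
      rw [key_lt hi, key_lt hi] at this
      exact this
    have hk : key σ.1.1 (y ω' b.1) (z b.1) = key σ.1.1 (y ω b.1) (z b.1) := by
      apply key_congr
      intro i hi
      exact (hlt i (hi.trans σ.2.2.1)).symm
    have h1 := hrel ω b.1 σ.1.1
    have h2 := hrel ω' b.1 σ.1.1
    rw [hk, ← hσ, ← hlt _ σ.2.2.1] at h2
    rw [← hσ, h2] at h1
    have hx : ∀ p q r : Bool, xor r p = xor r q → q = p := by decide
    have h3 := hx _ _ _ h1
    have e1 : ovr r m cb ω σ.1.1 σ.1.2 = ω σ := by
      unfold ovr
      rw [dif_pos σ.2]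
    have e2 : ovr r m cb ω' σ.1.1 σ.1.2 = ω' σ := by
      unfold ovr
      rw [dif_pos σ.2]
    rw [e1, e2] at h3
    exact h3
  · -- hg
    intro ω b
    have hcard : ((univ : Finset (Fin D)).filter fun j : Fin D => m ≤ (j : ℕ) ∧ j < r).card = (r : ℕ) - m := by
      have : (((univ : Finset (Fin D)).filter fun j : Fin D => m ≤ (j : ℕ) ∧ j < r).map
          Fin.valEmbedding) = Finset.Ico m (r : ℕ) := by
        ext k
        simp only [Finset.mem_map, Finset.mem_filter, Finset.mem_univ, true_and,
          Fin.valEmbedding_apply, Finset.mem_Ico]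
        constructor
        · rintro ⟨j, ⟨h1, h2⟩, rfl⟩
          exact ⟨h1, h2⟩
        · rintro ⟨h1, h2⟩
          exact ⟨⟨k, h2.trans r.2⟩, ⟨h1, h2⟩, rfl⟩
      rw [← Finset.card_map, this, Nat.card_Ico]
    rw [← hcard]
    apply Finset.card_bij (fun σ _ => σ.1.1)
    · intro σ _
      simp only [Finset.mem_filter, Finset.mem_univ, true_and]
      exact ⟨σ.2.1, σ.2.2.1⟩
    · intro σ hσ σ' hσ' he
      rw [mem_path] at hσ hσ'
      apply Subtype.ext
      apply Prod.ext he
      rw [hσ, hσ', he]
    · intro j hj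
      simp only [Finset.mem_filter, Finset.mem_univ, true_and] at hj
      refine ⟨⟨(j, key j (out ω b) (z b.1)), hj.1, hj.2, ?_⟩, ?_, rfl⟩
      · show key j (out ω b) (z b.1) r = true
        rw [key_gt hj.2]
        exact b.2.1
      · rw [mem_path]
  · -- outinj
    intro ω b b' h
    by_contra hne
    have hne' : b.1 ≠ b'.1 := fun h => hne (Subtype.ext h)
    exact hsep ω r b.1 b'.1 ⟨hne', h⟩ (b.2.1.trans b'.2.1.symm)
  · -- two
    intro ω σ
    have h2 : ∀ inst : DecidablePred fun b : BT r x z => σ ∈ path b (out ω b),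
        (@Finset.filter _ (fun b : BT r x z => σ ∈ path b (out ω b)) inst univ).card ≤ 2 := by
      intro inst
      have : (@Finset.filter _ (fun b : BT r x z => σ ∈ path b (out ω b)) inst univ).card
          ≤ (univ : Finset Bool).card := by
        apply Finset.card_le_card_of_injOn (fun b => z b.1 σ.1.1)
        · intro b _
          exact Finset.mem_coe.2 (Finset.mem_univ _)
        · intro b hb b' hb' he
          have hb := (Finset.mem_filter.1 (Finset.mem_coe.1 hb)).2
          have hb' := (Finset.mem_filter.1 (Finset.mem_coe.1 hb')).2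
          rw [mem_out] at hb hb'
          by_contra hne
          have hne' : b.1 ≠ b'.1 := fun h => hne (Subtype.ext h)
          exact hsep ω σ.1.1 b.1 b'.1 ⟨hne', hb.symm.trans hb'⟩ he
      simpa using this
    exact h2 _
  · -- iso
    intro ω C hC
    let C' : Finset ι := C.map (Function.Embedding.subtype _)
    have hC' : C'.Nonempty := by simpa [C'] using hC
    have hcardC : C'.card = C.card := Finset.card_map _
    have h1 := hiso ω C' hC'
    rw [hcardC] at h1
    -- N p = number of (j,b)
    let N : BT r x z → ℕ := fun p => ∑ j : Fin D, (C.filter fun b => Adj j (y ω) z p.1 b.1).card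
    have hsum : ∑ j : Fin D, (((C' ×ˢ C').filter fun p => Adj j (y ω) z p.1 p.2).card : ℝ)
        = ∑ p ∈ C, (N p : ℝ) := by
      simp only [N]
      push_cast
      rw [Finset.sum_comm]
      apply Finset.sum_congr rfl
      intro j _
      rw [← Nat.cast_sum]
      congr 1
      rw [Finset.card_filter, Finset.sum_product, Finset.sum_map]
      apply Finset.sum_congr rfl
      intro p _
      rw [Finset.sum_map, Finset.card_filter]
      rfl
    rw [hsum] at h1
    obtain ⟨p, hp, hpN⟩ : ∃ p ∈ C, (N p : ℝ) ≤ Real.logb 2 C.card := by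
      by_contra hcon
      push Not at hcon
      have h2 : ∑ p ∈ C, Real.logb 2 (C.card : ℝ) < ∑ p ∈ C, (N p : ℝ) :=
        Finset.sum_lt_sum_of_nonempty hC hcon
      rw [Finset.sum_const, nsmul_eq_mul] at h2
      linarith
    refine ⟨p, hp, le_trans ?_ hpN⟩
    have h3 : ((path p (out ω p)).filter fun σ => ∃ b ∈ C, b ≠ p ∧ σ ∈ path b (out ω b)).card
        ≤ N p := by
      have hN : N p = ((univ : Finset (Fin D)).sigma
          fun j => C.filter fun b => Adj j (y ω) z p.1 b.1).card := by
        rw [Finset.card_sigma]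
      rw [hN]
      have hex : ∀ σ ∈ (path p (out ω p)).filter fun σ => ∃ b ∈ C, b ≠ p ∧ σ ∈ path b (out ω b),
          ∃ b ∈ C, b ≠ p ∧ σ ∈ path b (out ω b) := fun σ hσ => (Finset.mem_filter.1 hσ).2
      have : Inhabited (BT r x z) := ⟨p⟩
      choose! fb hfbC hfbne hfbm using hex
      apply Finset.card_le_card_of_injOn (fun σ => (⟨σ.1.1, fb σ⟩ : (_ : Fin D) × BT r x z))
      · intro σ hσ
        have hσ := Finset.mem_coe.1 hσ
        have h1 := (Finset.mem_filter.1 hσ).1
        have h2 := hfbm σ hσ
        rw [mem_out] at h1 h2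
        apply Finset.mem_coe.2
        rw [Finset.mem_sigma, Finset.mem_filter]
        refine ⟨Finset.mem_univ _, hfbC σ hσ, ?_, h1.symm.trans h2⟩
        intro h
        exact hfbne σ hσ (Subtype.ext h.symm)
      · intro σ hσ σ' hσ' he
        have h1 := (Finset.mem_filter.1 (Finset.mem_coe.1 hσ)).1
        have h2 := (Finset.mem_filter.1 (Finset.mem_coe.1 hσ')).1
        rw [mem_path] at h1 h2
        have he1 : σ.1.1 = σ'.1.1 := congrArg Sigma.fst he
        apply Subtype.ext
        apply Prod.ext he1
        rw [h1, h2, he1]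
    exact_mod_cast h3
  · -- inj
    intro l l' b h h'
    obtain ⟨a, ha, hk, hab⟩ := (hrho l b).1 h
    obtain ⟨a', ha', hk', hab'⟩ := (hrho l' b).1 h'
    have : a = a' := hux b.1 a a' (adj_symm hab) (adj_symm hab')
    subst this
    exact hk.symm.trans hk'
  · -- tau
    intro ω b b'
    show rho (out ω b) = some b' ↔ _
    rw [hrho]
    constructor
    · rintro ⟨a, ha, hk, hab⟩
      refine ⟨a, ⟨?_, ?_⟩, hab⟩
      · intro h
        have := b.2.1
        rw [h, ha] at this
        cases this
      · show key r (y ω b.1) (z b.1) = key r (y ω a) (z a)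
        rw [← key_congr (hside0 ω a ha)]
        exact hk.symm
    · rintro ⟨a, hba, hab⟩
      have ha : z a r = false := hboolt (hsep ω r b.1 a hba) b.2.1
      refine ⟨a, ha, ?_, hab⟩
      rw [key_congr (hside0 ω a ha)]
      exact hba.2.symm

end P3AAux

open P3AAux

theorem p3a (h1 : StRel) (_h2 : StDep) (h3 : StSep) (h4 : StIso) : StP3a := by
  classical
  intro D ι _ _ x c cb r m hx hm
  have hyinj : ∀ c2 : Coins D, Function.Injective (fun i => bwd c2 (pass c (x i))) := by
    intro c2 a b hab
    exact hx ((pass c).injective ((bwd c2).injective hab))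
  have hyz : ∀ (c2 : Coins D) i, pass c2 (bwd c2 (pass c (x i))) = pass c (x i) := by
    intro c2 i
    simp [bwd]
  have hsepx : ∀ a b, Adj r x (fun i => pass c (x i)) a b → pass c (x a) r ≠ pass c (x b) r :=
    fun a b hab => (h3 D ι x c r hx a b hab.1 hab.2).2
  have hsepy : ∀ (c2 : Coins D) (j : Fin D) a b,
      Adj j (fun i => bwd c2 (pass c (x i))) (fun i => pass c (x i)) a b →
      pass c (x a) j ≠ pass c (x b) j := by
    intro c2 j a b hab
    have := h3 D ι _ c2 j (hyinj c2) a b hab.1 (by simp only [hyz]; exact hab.2)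
    simp only [hyz] at this
    exact this.2
  have hrel : ∀ (c2 : Coins D) i j, pass c (x i) j = xor (bwd c2 (pass c (x i)) j)
      (c2 j (key j (bwd c2 (pass c (x i))) (pass c (x i)))) := by
    intro c2 i
    exact (h1 D c2 _ _).1 (hyz c2 i)
  have hiso : ∀ (c2 : Coins D), ∀ C : Finset ι, C.Nonempty →
      ∑ j : Fin D, (((C ×ˢ C).filter fun p =>
        Adj j (fun i => bwd c2 (pass c (x i))) (fun i => pass c (x i)) p.1 p.2).card : ℝ)
        ≤ C.card * Real.logb 2 C.card := by
    intro c2 C hC
    have := h4 D ι _ c2 (hyinj c2) C hC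
    simp only [hyz] at this
    convert this using 4
  obtain ⟨A, hA, hA'⟩ := core x (fun i => pass c (x i)) cb r m hm
    (fun ω i => bwd (ovr r m cb ω) (pass c (x i))) (fun i => bwd cb (pass c (x i)))
    hsepx (fun ω => hrel _) (hrel cb) (fun ω => hsepy _) (hsepy cb)
    (fun ω C hC => by
      have := hiso (ovr r m cb ω) C hC
      convert this using 4)
  exact ⟨A, hA, hA'⟩

end Crest.Agent.R155
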