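import Crest.Agent.R155.Defs

set_option autoImplicit false

namespace Crest.Agent.R155

open scoped BigOperators Matrix
open Finset

namespace P3BAux

/-- iterate of the partial map -/
def it {B : Type} (τ : B → Option B) (i : ℕ) (b : B) : Option B :=
  (fun o : Option B => o.bind τ)^[i] (some b)

theorem it_zero {B : Type} (τ : B → Option B) (b : B) : it τ 0 b = some b := rfl

theorem it_succ {B : Type} (τ : B → Option B) (i : ℕ) (b : B) :
    it τ (i + 1) b = (it τ i b).bind τ := by
  unfold it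
  rw [Function.iterate_succ_apply']

theorem it_add {B : Type} (τ : B → Option B) (i j : ℕ) (b b' : B) (h : it τ i b = some b') :
    it τ (j + i) b = it τ j b' := by
  unfold it at *
  rw [Function.iterate_add_apply, h]

/-- a cycle is the forward orbit of each of its points -/
theorem cyc_mem_iff {B : Type} {τ : B → Option B} {C : Finset B} (hC : IsCyc τ C) {b : B}
    (hb : b ∈ C) (b' : B) : b' ∈ C ↔ ∃ i, it τ i b = some b' := by
  constructor
  · intro hb'
    exact hC.2.2 b hb b' hb'
  · rintro ⟨i, hi⟩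
    induction i generalizing b' with
    | zero =>
      rw [it_zero] at hi
      cases hi
      exact hb
    | succ i ih =>
      rw [it_succ] at hi
      cases h : it τ i b with
      | none => rw [h] at hi; simp at hi
      | some d =>
        rw [h] at hi
        have hd : d ∈ C := ih d h
        obtain ⟨d', hd', hτ⟩ := hC.2.1 d hd
        simp only [Option.bind_some] at hi
        rw [hτ] at hi
        cases hi
        exact hd'

theorem cyc_eq {B : Type} {τ : B → Option B} {C C' : Finset B} (hC : IsCyc τ C)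
    (hC' : IsCyc τ C') {b : B} (hb : b ∈ C) (hb' : b ∈ C') : C = C' := by
  ext d
  rw [cyc_mem_iff hC hb, cyc_mem_iff hC' hb']

open Classical in
/-- counting: all cycles versus short cycles -/
theorem card_cyc_le {B : Type} [Fintype B] (τ : B → Option B) (m' : ℕ) :
    ((univ.filter fun C : Finset B => IsCyc τ C).card : ℝ)
      ≤ ((cycs τ m').card : ℝ) + (Fintype.card B : ℝ) / (m' + 1) := by
  have hsplit : (univ.filter fun C : Finset B => IsCyc τ C).card
      = (cycs τ m').card + (univ.filter fun C : Finset B => IsCyc τ C ∧ ¬ C.card ≤ m').card := by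
    unfold cycs
    have := Finset.card_filter_add_card_filter_not
      (s := univ.filter fun C : Finset B => IsCyc τ C) (fun C : Finset B => C.card ≤ m')
    rw [Finset.filter_filter, Finset.filter_filter] at this
    rw [← this]
  have hlong : (univ.filter fun C : Finset B => IsCyc τ C ∧ ¬ C.card ≤ m').card * (m' + 1)
      ≤ Fintype.card B := by
    generalize hL : (univ.filter fun C : Finset B => IsCyc τ C ∧ ¬ C.card ≤ m') = L
    have hLm : ∀ C ∈ L, IsCyc τ C ∧ ¬ C.card ≤ m' := by
      intro C hC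
      rw [← hL] at hC
      exact (Finset.mem_filter.1 hC).2
    have h1 : (L.biUnion id).card = ∑ C ∈ L, C.card := by
      rw [Finset.card_biUnion]
      · rfl
      · intro C hC C' hC' hne
        have hC := hLm C (Finset.mem_coe.1 hC)
        have hC' := hLm C' (Finset.mem_coe.1 hC')
        show Disjoint C C'
        rw [Finset.disjoint_left]
        intro b hb hb'
        exact hne (cyc_eq hC.1 hC'.1 hb hb')
    have h2 : L.card * (m' + 1) ≤ ∑ C ∈ L, C.card := by
      have := Finset.card_nsmul_le_sum L (fun C => C.card) (m' + 1) (by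
        intro C hC
        have := (hLm C hC).2
        omega)
      simpa using this
    calc L.card * (m' + 1) ≤ ∑ C ∈ L, C.card := h2
      _ = (L.biUnion id).card := h1.symm
      _ ≤ Fintype.card B := Finset.card_le_univ _
  have hlong' : ((univ.filter fun C : Finset B => IsCyc τ C ∧ ¬ C.card ≤ m').card : ℝ)
      ≤ (Fintype.card B : ℝ) / (m' + 1) := by
    rw [le_div_iff₀ (by positivity)]
    exact_mod_cast hlong
  rw [hsplit]
  push_cast
  linarith

/-- in a set on which `τ` is defined and which is stable there is a cycle -/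
theorem exists_cyc {B : Type} [Fintype B] (τ : B → Option B) (Q : Set B) (b0 : B) (hb0 : b0 ∈ Q)
    (hQ : ∀ b ∈ Q, ∃ b' ∈ Q, τ b = some b') :
    ∃ C : Finset B, IsCyc τ C ∧ ∀ b ∈ C, b ∈ Q := by
  classical
  -- all iterates are defined
  have hdef : ∀ b ∈ Q, ∀ i, ∃ b' ∈ Q, it τ i b = some b' := by
    intro b hb i
    induction i with
    | zero => exact ⟨b, hb, rfl⟩
    | succ i ih =>
      obtain ⟨d, hd, hi⟩ := ih
      obtain ⟨d', hd', hτ⟩ := hQ d hd
      exact ⟨d', hd', by rw [it_succ, hi]; simpa using hτ⟩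
  choose s hsQ hs using hdef b0 hb0
  obtain ⟨i, j, hne, hij⟩ := Finite.exists_ne_map_eq_of_infinite s
  -- wlog i < j
  obtain ⟨i, j, hlt, hij⟩ : ∃ i j, i < j ∧ s i = s j := by
    rcases lt_or_gt_of_ne hne with h | h
    · exact ⟨i, j, h, hij⟩
    · exact ⟨j, i, h, hij.symm⟩
  set b := s i with hb
  have hbQ : b ∈ Q := hsQ i
  obtain ⟨p, hp, hper⟩ : ∃ p, 0 < p ∧ it τ p b = some b := by
    refine ⟨j - i, by omega, ?_⟩
    have h1 := it_add τ i (j - i) b0 b (hs i)
    have h2 : j - i + i = j := by omega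
    rw [h2, hs j, ← hij] at h1
    exact h1.symm
  have hmul : ∀ q, it τ (q * p) b = some b := by
    intro q
    induction q with
    | zero => simp [it_zero]
    | succ q ih =>
      have : (q + 1) * p = q * p + p := by ring
      rw [this, it_add τ p (q * p) b b hper, ih]
  refine ⟨univ.filter fun d => ∃ k, it τ k b = some d, ⟨?_, ?_, ?_⟩, ?_⟩
  · exact ⟨b, by simp only [mem_filter, mem_univ, true_and]; exact ⟨0, rfl⟩⟩
  · intro d hd
    simp only [mem_filter, mem_univ, true_and] at hd ⊢
    obtain ⟨k, hk⟩ := hd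
    obtain ⟨d', hd', hk'⟩ := hdef b hbQ (k + 1)
    refine ⟨d', ⟨k + 1, hk'⟩, ?_⟩
    rw [it_succ, hk] at hk'
    simpa using hk'
  · intro d hd d' hd'
    simp only [mem_filter, mem_univ, true_and] at hd hd'
    obtain ⟨k, hk⟩ := hd
    obtain ⟨k', hk'⟩ := hd'
    -- go from d to b then to d'
    refine ⟨k' + (k * p - k), ?_⟩
    have hkp : k ≤ k * p := Nat.le_mul_of_pos_right k hp
    have h1 : it τ (k * p - k) d = some b := by
      have := it_add τ k (k * p - k) b d hk
      rw [← this, Nat.sub_add_cancel hkp, hmul]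
    have h2 := it_add τ (k * p - k) k' d b h1
    show it τ (k' + (k * p - k)) d = some d'
    rw [h2, hk']
  · intro d hd
    simp only [mem_filter, mem_univ, true_and] at hd
    obtain ⟨k, hk⟩ := hd
    obtain ⟨d', hd', hk'⟩ := hdef b hbQ k
    rw [hk] at hk'
    cases hk'
    exact hd'

theorem adj_symm {D : ℕ} {ι : Type} {r : Fin D} {x z : ι → V D} {a b : ι} (h : Adj r x z a b) :
    Adj r x z b a := ⟨h.1.symm, h.2.symm⟩

open Classical in
theorem mem_Cls {ι : Type} [Fintype ι] {A B : ι → ι → Prop} {Q : Finset ι} : Q ∈ Cls A B ↔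
    Q.Nonempty ∧ (∀ a ∈ Q, ∀ b, b ∈ Q ↔ Relation.EqvGen (fun a b => A a b ∨ B a b) a b) ∧
    ∀ a ∈ Q, (∃ b, A a b) ∧ (∃ b, B a b) := by
  unfold Cls
  rw [Finset.mem_filter]
  exact ⟨fun h => h.2, fun h => ⟨Finset.mem_univ _, h⟩⟩

open Classical in
theorem core {D : ℕ} {ι : Type} [Fintype ι] (x y z : ι → V D) (r : Fin D)
    (hsepx : ∀ a b, Adj r x z a b → z a r ≠ z b r)
    (hsepy : ∀ a b, Adj r y z a b → z a r ≠ z b r)
    (τ : BT r x z → Option (BT r x z))
    (hτ : ∀ b b', τ b = some b' ↔ ∃ a, Adj r y z b.1 a ∧ Adj r x z a b'.1) :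
    (Cls (Adj r x z) (Adj r y z)).card
      ≤ (univ.filter fun C : Finset (BT r x z) => IsCyc τ C).card := by
  have hboolt : ∀ {p q : Bool}, p ≠ q → p = true → q = false := by decide
  have hboolf : ∀ {p q : Bool}, p ≠ q → p = false → q = true := by decide
  have key1 : ∀ Q ∈ Cls (Adj r x z) (Adj r y z), ∃ C : Finset (BT r x z), IsCyc τ C ∧
      ∀ b ∈ C, b.1 ∈ Q := by
    intro Q hQ
    obtain ⟨hne, hcl, hpart⟩ := mem_Cls.1 hQ
    have hclx : ∀ a ∈ Q, ∀ b, Adj r x z a b → b ∈ Q := fun a ha b hab =>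
      (hcl a ha b).2 (Relation.EqvGen.rel _ _ (Or.inl hab))
    have hcly : ∀ a ∈ Q, ∀ b, Adj r y z a b → b ∈ Q := fun a ha b hab =>
      (hcl a ha b).2 (Relation.EqvGen.rel _ _ (Or.inr hab))
    obtain ⟨a0, ha0⟩ := hne
    obtain ⟨b0, hb0Q, hb0⟩ : ∃ b0, b0 ∈ Q ∧ z b0 r = true := by
      cases hz0 : z a0 r with
      | true => exact ⟨a0, ha0, hz0⟩
      | false =>
        obtain ⟨b, hb⟩ := (hpart a0 ha0).1
        exact ⟨b, hclx a0 ha0 b hb, hboolf (hsepx a0 b hb) hz0⟩
    have := exists_cyc τ {b : BT r x z | b.1 ∈ Q} ⟨b0, hb0, (hpart b0 hb0Q).1⟩ hb0Q (by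
      intro b hb
      have hbQ : b.1 ∈ Q := hb
      obtain ⟨a, ha⟩ := (hpart b.1 hbQ).2
      have haQ := hcly b.1 hbQ a ha
      have haf : z a r = false := hboolt (hsepy b.1 a ha) b.2.1
      obtain ⟨b', hb'⟩ := (hpart a haQ).1
      have hb'Q := hclx a haQ b' hb'
      have hb't : z b' r = true := hboolf (hsepx a b' hb') haf
      refine ⟨⟨b', hb't, (hpart b' hb'Q).1⟩, hb'Q, ?_⟩
      exact (hτ _ _).2 ⟨a, ha, hb'⟩)
    obtain ⟨C, hC, hCQ⟩ := this
    exact ⟨C, hC, hCQ⟩
  choose! f hf hfQ using key1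
  apply Finset.card_le_card_of_injOn f
  · intro Q hQ
    exact Finset.mem_coe.2 (Finset.mem_filter.2 ⟨Finset.mem_univ _, hf Q hQ⟩)
  · intro Q hQ Q' hQ' hff
    obtain ⟨b, hb⟩ := (hf Q hQ).1
    have h1 : b.1 ∈ Q := hfQ Q hQ b hb
    have h2 : b.1 ∈ Q' := hfQ Q' hQ' b (by rw [← hff]; exact hb)
    have hQ := mem_Cls.1 hQ
    have hQ' := mem_Cls.1 hQ'
    ext d
    rw [hQ.2.1 b.1 h1, hQ'.2.1 b.1 h2]

end P3BAux

open P3BAux

theorem p3b (_h1 : StRel) (h3 : StSep) : StP3b := by
  classical
  intro D ι _ _ x c c2 r τ m' hx hτ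
  have hyinj : Function.Injective (fun i => bwd c2 (pass c (x i))) := by
    intro a b hab
    exact hx ((pass c).injective ((bwd c2).injective hab))
  have hsepx : ∀ a b, Adj r x (fun i => pass c (x i)) a b → pass c (x a) r ≠ pass c (x b) r :=
    fun a b hab => (h3 D ι x c r hx a b hab.1 hab.2).2
  have hyz : ∀ i, pass c2 (bwd c2 (pass c (x i))) = pass c (x i) := by
    intro i
    simp [bwd]
  have hsepy : ∀ a b, Adj r (fun i => bwd c2 (pass c (x i))) (fun i => pass c (x i)) a b →
      pass c (x a) r ≠ pass c (x b) r := by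
    intro a b hab
    have := h3 D ι _ c2 r hyinj a b hab.1 (by simp only [hyz]; exact hab.2)
    simp only [hyz] at this
    exact this.2
  have h := core x (fun i => bwd c2 (pass c (x i))) (fun i => pass c (x i)) r hsepx hsepy τ
    (by intro b b'; exact hτ b b')
  have h' := card_cyc_le τ m'
  have h'' : ((Cls (Adj r x (fun i => pass c (x i)))
      (Adj r (fun i => bwd c2 (pass c (x i))) (fun i => pass c (x i)))).card : ℝ)
      ≤ ((univ.filter fun C : Finset (BT r x (fun i => pass c (x i))) => IsCyc τ C).card : ℝ) := by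
    exact_mod_cast h
  have h4 := h''.trans h'
  unfold lc
  convert h4 using 2

end Crest.Agent.R155
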