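import Crest.Agent.R155.Defs

set_option autoImplicit false

namespace Crest.Agent.R155
namespace P3Caux

open Finset

theorem adj_uniq (h2 : StSep) {D : ℕ} {ι : Type} (x : ι → V D) (c : Coins D) (r : Fin D)
    (hx : Function.Injective x) (a b b' : ι) (h : Adj r x (fun a => pass c (x a)) a b)
    (h' : Adj r x (fun a => pass c (x a)) a b') : b = b' := by
  by_contra hne
  have e1 := (h2 D ι x c r hx a b h.1 h.2).1
  have e2 := (h2 D ι x c r hx a b' h'.1 h'.2).1
  have e3 := (h2 D ι x c r hx b b' hne (h.2.symm.trans h'.2)).1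
  revert e1 e2 e3
  cases x a r <;> cases x b r <;> cases x b' r <;> simp

theorem adj_symm {D : ℕ} {ι : Type} {r : Fin D} {x z : ι → V D} {a b : ι} (h : Adj r x z a b) :
    Adj r x z b a := ⟨h.1.symm, h.2.symm⟩

open Classical in
theorem mem_Cls' {ι : Type} [Fintype ι] {A B : ι → ι → Prop} {Q : Finset ι} (h : Q ∈ Cls A B) :
    Q.Nonempty ∧
    (∀ a ∈ Q, ∀ b, b ∈ Q ↔ Relation.EqvGen (fun a b => A a b ∨ B a b) a b) ∧
    ∀ a ∈ Q, (∃ b, A a b) ∧ (∃ b, B a b) := by
  unfold Cls at h
  exact (mem_filter.mp h).2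

end P3Caux

open Classical in
open Finset P3Caux in
theorem p3c (h2 : StSep) : StP3c := by
  intro D ι _ _ x c r hx
  set z : ι → V D := fun i => pass c (x i) with hz
  have huniq : ∀ a b b', Adj r x z a b → Adj r x z a b' → b = b' :=
    fun a b b' h h' => adj_uniq h2 x c r hx a b b' h h'
  have hzne : ∀ a b, Adj r x z a b → z a r ≠ z b r := fun a b h => (h2 D ι x c r hx a b h.1 h.2).2
  set P : Finset (ι × ι) := univ.filter fun p : ι × ι => Adj r x z p.1 p.2 with hP
  set Pt := P.filter (fun p => z p.1 r = true) with hPt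
  set Pf := P.filter (fun p => ¬ z p.1 r = true) with hPf
  have hsplit : Pt.card + Pf.card = P.card := card_filter_add_card_filter_not _
  have hswap : Pt.card = Pf.card := by
    apply card_bij (fun p _ => (p.2, p.1))
    · rintro ⟨a, b⟩ h
      simp only [hPt, hP, hPf, mem_filter, mem_univ, true_and] at h ⊢
      refine ⟨adj_symm h.1, ?_⟩
      intro hb
      exact hzne a b h.1 (h.2.trans hb.symm)
    · rintro ⟨a, b⟩ _ ⟨a', b'⟩ _ heq
      simp only [Prod.mk.injEq] at heq ⊢
      exact ⟨heq.2, heq.1⟩
    · rintro ⟨a, b⟩ h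
      simp only [hPt, hP, hPf, mem_filter, mem_univ, true_and] at h
      refine ⟨(b, a), ?_, rfl⟩
      simp only [hPt, hP, mem_filter, mem_univ, true_and]
      refine ⟨adj_symm h.1, ?_⟩
      have := hzne a b h.1
      revert this
      have h2' := h.2
      revert h2'
      cases z a r <;> cases z b r <;> simp
  have hBT : Fintype.card (BT r x z) = Pt.card := by
    rw [← card_univ]
    symm
    apply card_bij (fun (p : ι × ι) (hp : p ∈ Pt) => (⟨p.1, by
      simp only [hPt, hP, mem_filter, mem_univ, true_and] at hp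
      exact ⟨hp.2, p.2, hp.1⟩⟩ : BT r x z))
    · intro p hp; exact mem_univ _
    · rintro ⟨a, b⟩ h ⟨a', b'⟩ h' heq
      simp only [hPt, hP, mem_filter, mem_univ, true_and] at h h'
      simp only [Subtype.mk.injEq] at heq
      subst heq
      rw [huniq a b b' h.1 h'.1]
    · rintro ⟨a, ha, b, hb⟩ _
      exact ⟨(a, b), by simp only [hPt, hP, mem_filter, mem_univ, true_and]; exact ⟨hb, ha⟩, rfl⟩
  have hBc : Bc r x z = (P.card : ℝ) / 2 := rfl
  have h1 : (Fintype.card (BT r x z) : ℝ) = Bc r x z := by
    rw [hBc, hBT, ← hsplit, ← hswap]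
    push_cast
    ring
  refine ⟨h1, ?_, ?_⟩
  · rw [hBc]
    have : P.card ≤ Fintype.card ι := by
      rw [← card_univ]
      apply card_le_card_of_injOn Prod.fst (fun _ _ => mem_univ _)
      rintro ⟨a, b⟩ h ⟨a', b'⟩ h' heq
      rw [mem_coe, hP, mem_filter] at h h'
      simp only at heq
      subst heq
      rw [huniq a b b' h.2 h'.2]
    have : (P.card : ℝ) ≤ Fintype.card ι := by exact_mod_cast this
    linarith
  · intro c2
    rw [← h1]
    unfold lc
    set A := Adj r x z with hA
    set B := Adj r (fun i => bwd c2 (pass c (x i))) z with hB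
    have hsub : Cls A B ⊆ (univ : Finset (BT r x z)).image (fun e : BT r x z =>
        univ.filter fun b => Relation.EqvGen (fun a b => A a b ∨ B a b) e.1 b) := by
      intro Q hQ
      obtain ⟨⟨a, ha⟩, hcl, hpart⟩ := mem_Cls' hQ
      obtain ⟨⟨b, hb⟩, _⟩ := hpart a ha
      have hbQ : b ∈ Q := (hcl a ha b).mpr (Relation.EqvGen.rel _ _ (Or.inl hb))
      -- an element of `Q` with output bit true
      obtain ⟨e, heQ, he⟩ : ∃ e ∈ Q, z e r = true ∧ ∃ b, Adj r x z e b := by
        by_cases hza : z a r = true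
        · exact ⟨a, ha, hza, b, hb⟩
        · refine ⟨b, hbQ, ?_, a, adj_symm hb⟩
          have := hzne a b hb
          revert this hza
          cases z a r <;> cases z b r <;> simp
      rw [mem_image]
      refine ⟨⟨e, he⟩, mem_univ _, ?_⟩
      ext b'
      rw [mem_filter]
      simp only [mem_univ, true_and]
      exact (hcl e heQ b').symm
    have := (card_le_card hsub).trans card_image_le
    rw [card_univ] at this
    exact_mod_cast this

end Crest.Agent.R155
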