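import Crest.Agent.R155.Defs

set_option autoImplicit false

namespace Crest.Agent.R155
namespace P4aux

open Finset

theorem log_lt {r : ℕ} (h : r < 32) : Nat.log 2 r < 5 := by
  rcases Nat.eq_zero_or_pos r with h0 | h0
  · subst h0; simp
  · exact Nat.log_lt_of_lt_pow h0.ne' (by norm_num; exact h)

theorem log_ge {r : ℕ} (h : ¬ r < 32) : 5 ≤ Nat.log 2 r :=
  Nat.le_log_of_pow_le (by norm_num) (by norm_num; omega)

theorem regroup {D : ℕ} (w : Fin D → ℝ) :
    ∑ r, w r = ∑ r ∈ univ.filter (fun r : Fin D => (r : ℕ) < 32), w r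
      + ∑ i : Fin D, ∑ r ∈ univ.filter (fun r : Fin D => Nat.log 2 (r : ℕ) = 5 + 2 * (i : ℕ)), w r
      + ∑ i : Fin D, ∑ r ∈ univ.filter (fun r : Fin D => Nat.log 2 (r : ℕ) = 6 + 2 * (i : ℕ)), w r := by
  simp only [sum_filter]
  rw [sum_comm (s := (univ : Finset (Fin D))) (t := univ)
    (f := fun (i r : Fin D) => if Nat.log 2 (r : ℕ) = 5 + 2 * (i : ℕ) then w r else 0),
    sum_comm (s := (univ : Finset (Fin D))) (t := univ)
    (f := fun (i r : Fin D) => if Nat.log 2 (r : ℕ) = 6 + 2 * (i : ℕ) then w r else 0),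
    ← sum_add_distrib, ← sum_add_distrib]
  apply sum_congr rfl
  intro r _
  by_cases h : (r : ℕ) < 32
  · have hl := log_lt h
    rw [if_pos h, sum_eq_zero, sum_eq_zero]
    · ring
    · intro i _
      rw [if_neg (by omega)]
    · intro i _
      rw [if_neg (by omega)]
  · have hl := log_ge h
    have hlD : Nat.log 2 (r : ℕ) ≤ r := Nat.log_le_self 2 r
    have hrD := r.2
    rw [if_neg h]
    set l := Nat.log 2 (r : ℕ) with hldef
    set i0 : Fin D := ⟨(l - 5) / 2, by omega⟩ with hi0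
    rcases Nat.mod_two_eq_zero_or_one (l - 5) with hp | hp
    · have e1 : ∑ i : Fin D, (if l = 5 + 2 * (i : ℕ) then w r else 0) = w r := by
        rw [sum_eq_single i0]
        · rw [if_pos (by simp only [hi0]; omega)]
        · intro i _ hi
          rw [if_neg]
          intro h'
          apply hi
          apply Fin.ext
          simp only [hi0]; omega
        · intro h'; exact absurd (mem_univ _) h'
      have e2 : ∑ i : Fin D, (if l = 6 + 2 * (i : ℕ) then w r else 0) = 0 := by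
        apply sum_eq_zero
        intro i _
        rw [if_neg (by omega)]
      rw [e1, e2]; ring
    · have e1 : ∑ i : Fin D, (if l = 6 + 2 * (i : ℕ) then w r else 0) = w r := by
        rw [sum_eq_single i0]
        · rw [if_pos (by simp only [hi0]; omega)]
        · intro i _ hi
          rw [if_neg]
          intro h'
          apply hi
          apply Fin.ext
          simp only [hi0]; omega
        · intro h'; exact absurd (mem_univ _) h'
      have e2 : ∑ i : Fin D, (if l = 5 + 2 * (i : ℕ) then w r else 0) = 0 := by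
        apply sum_eq_zero
        intro i _
        rw [if_neg (by omega)]
      rw [e1, e2]; ring

theorem av_mono {Ω : Type*} [Fintype Ω] {f g : Ω → ℝ} (h : ∀ ω, f ω ≤ g ω) : av f ≤ av g := by
  unfold av
  exact div_le_div_of_nonneg_right (sum_le_sum fun ω _ => h ω) (Nat.cast_nonneg _)

theorem av_mul_left {Ω : Type*} [Fintype Ω] (f : Ω → ℝ) (c : ℝ) :
    av (fun ω => c * f ω) = c * av f := by
  unfold av
  rw [← mul_sum]
  ring

theorem av_nonneg {Ω : Type*} [Fintype Ω] {f : Ω → ℝ} (h : ∀ ω, 0 ≤ f ω) : 0 ≤ av f := by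
  unfold av
  exact div_nonneg (sum_nonneg fun ω _ => h ω) (Nat.cast_nonneg _)

/-- `lc` only depends on the coins below `r` -/
theorem lc_dep (h5 : StDep) {D : ℕ} {ι : Type} [Fintype ι] (r : Fin D) (x z : ι → V D)
    (c c' : Coins D) (hc : ∀ k : Fin D, (k : ℕ) < r → c k = c' k) :
    lc r x (fun a => bwd c (z a)) z = lc r x (fun a => bwd c' (z a)) z := by
  have : Adj r (fun a => bwd c (z a)) z = Adj r (fun a => bwd c' (z a)) z := by
    have hk : ∀ a, key r (bwd c (z a)) (z a) = key r (bwd c' (z a)) (z a) := by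
      intro a
      funext j
      unfold key
      split_ifs with h1 h2
      · exact h5 D c c' r (z a) hc j h1
      · rfl
      · rfl
    funext a b
    unfold Adj
    rw [hk a, hk b]
  unfold lc
  rw [this]

end P4aux

open Finset P4aux in
theorem p4 (h1 : StP4a) (h2 : StChain) (h3 : StP3c) (h4 : StHol) (h5 : StDep) : StP4 := by
  intro D ι _ _ x c hx
  set z : ι → V D := fun a => pass c (x a) with hz
  set L : Fin D → Coins D → ℝ := fun r c' => lc r x (fun a => bwd c' (z a)) z with hL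
  set B : Fin D → ℝ := fun r => Bc r x z with hB
  set S : ℕ → Coins D → ℝ := fun a c' =>
    ∑ r ∈ univ.filter (fun r : Fin D => Nat.log 2 (r : ℕ) = a), L r c' with hS
  set W : ℕ → ℝ := fun a =>
    ∑ r ∈ univ.filter (fun r : Fin D => Nat.log 2 (r : ℕ) = a), eps r * B r with hW
  -- the chain bound
  have hchain : ∀ p : ℕ, 5 ≤ p → av (fun c' : Coins D => (2 : ℝ) ^ ((2 / 63 : ℝ) * ∑ i : Fin D,
      S (p + 2 * (i : ℕ)) c')) ≤ Real.exp (2 * ∑ i : Fin D, W (p + 2 * (i : ℕ))) := by
    intro p hp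
    have := h2 D D (fun i c' => (2 : ℝ) ^ ((2 / 63 : ℝ) * S (p + 2 * (i : ℕ)) c'))
      (fun i => 2 ^ (p + 2 * (i : ℕ) - 1)) (fun i => Real.exp (2 * W (p + 2 * (i : ℕ))))
      (fun i c' => by positivity) (fun i => (Real.exp_pos _).le)
      (fun i c0 => h1 D ι x c c0 (p + 2 * (i : ℕ)) hx (by omega))
      (by
        intro i j hij c1 c2 hc
        have : S (p + 2 * (i : ℕ)) c1 = S (p + 2 * (i : ℕ)) c2 := by
          apply sum_congr rfl
          intro r hr
          rw [mem_filter] at hr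
          apply lc_dep h5 r x z c1 c2
          intro k hk
          apply hc
          have hr0 : (r : ℕ) < 2 ^ (Nat.log 2 (r : ℕ) + 1) :=
            Nat.lt_pow_succ_log_self (by norm_num) _
          rw [hr.2] at hr0
          have hij' : (i : ℕ) < j := hij
          have : 2 ^ (p + 2 * (i : ℕ) + 1) ≤ 2 ^ (p + 2 * (j : ℕ) - 1) :=
            Nat.pow_le_pow_right (by norm_num) (by omega)
          omega
        change (2 : ℝ) ^ ((2 / 63 : ℝ) * S (p + 2 * (i : ℕ)) c1) = (2 : ℝ) ^ ((2 / 63 : ℝ) * S (p + 2 * (i : ℕ)) c2)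
        rw [this])
    have e1 : ∀ c' : Coins D, ∏ i : Fin D, (2 : ℝ) ^ ((2 / 63 : ℝ) * S (p + 2 * (i : ℕ)) c')
        = (2 : ℝ) ^ ((2 / 63 : ℝ) * ∑ i : Fin D, S (p + 2 * (i : ℕ)) c') := by
      intro c'
      rw [mul_sum, Real.rpow_sum_of_pos (by norm_num)]
    have e2 : ∏ i : Fin D, Real.exp (2 * W (p + 2 * (i : ℕ)))
        = Real.exp (2 * ∑ i : Fin D, W (p + 2 * (i : ℕ))) := by
      rw [mul_sum, Real.exp_sum]
    simp only [e1] at this
    rw [e2] at this
    exact this
  have hc5 := hchain 5 le_rfl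
  have hc6 := hchain 6 (by norm_num)
  -- Hölder
  set f : Bool → Coins D → ℝ := fun b c' => (2 : ℝ) ^ ((2 / 63 : ℝ) * ∑ i : Fin D,
      S ((if b then 5 else 6) + 2 * (i : ℕ)) c') with hf
  have hhol := h4 (Coins D) Bool univ f (fun _ => 1 / 2) (fun b c' => by positivity)
    (fun _ => by norm_num) (by simp)
  simp only [Fintype.prod_bool] at hhol
  have hft : f true = fun c' => (2 : ℝ) ^ ((2 / 63 : ℝ) * ∑ i : Fin D, S (5 + 2 * (i : ℕ)) c') := by
    funext c'; simp [hf]
  have hff : f false = fun c' => (2 : ℝ) ^ ((2 / 63 : ℝ) * ∑ i : Fin D, S (6 + 2 * (i : ℕ)) c') := by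
    funext c'; simp [hf]
  set E0 : ℝ := Real.exp (∑ r ∈ univ.filter (fun r : Fin D => (r : ℕ) < 32), eps r * B r) with hE0
  -- pointwise
  have hpt : ∀ c' : Coins D, (2 : ℝ) ^ ((1 / 63 : ℝ) * Phi x (fun a => bwd c' (z a)) z)
      ≤ E0 * (f true c' ^ (1 / 2 : ℝ) * f false c' ^ (1 / 2 : ℝ)) := by
    intro c'
    have hPhi : Phi x (fun a => bwd c' (z a)) z
        = ∑ r ∈ univ.filter (fun r : Fin D => (r : ℕ) < 32), L r c'
          + ∑ i : Fin D, S (5 + 2 * (i : ℕ)) c' + ∑ i : Fin D, S (6 + 2 * (i : ℕ)) c' :=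
      regroup (fun r => L r c')
    have e1 : f true c' ^ (1 / 2 : ℝ) = (2 : ℝ) ^ ((1 / 63 : ℝ) * ∑ i : Fin D, S (5 + 2 * (i : ℕ)) c') := by
      rw [congrFun hft c', ← Real.rpow_mul (by norm_num)]
      congr 1
      ring
    have e2 : f false c' ^ (1 / 2 : ℝ) = (2 : ℝ) ^ ((1 / 63 : ℝ) * ∑ i : Fin D, S (6 + 2 * (i : ℕ)) c') := by
      rw [congrFun hff c', ← Real.rpow_mul (by norm_num)]
      congr 1
      ring
    have e3 : (2 : ℝ) ^ ((1 / 63 : ℝ) * ∑ r ∈ univ.filter (fun r : Fin D => (r : ℕ) < 32), L r c')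
        ≤ E0 := by
      rw [Real.rpow_def_of_pos (by norm_num), hE0]
      apply Real.exp_le_exp.mpr
      rw [mul_sum, mul_sum]
      apply sum_le_sum
      intro r hr
      rw [mem_filter] at hr
      have hle : L r c' ≤ B r := (h3 D ι x c r hx).2.2 c'
      have he : eps r = Real.log 2 / 63 := by
        unfold eps; rw [if_pos hr.2]
      rw [he]
      have hlog : 0 < Real.log 2 := Real.log_pos (by norm_num)
      have := mul_le_mul_of_nonneg_left hle (by positivity : 0 ≤ Real.log 2 / 63)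
      calc Real.log 2 * (1 / 63 * L r c') = Real.log 2 / 63 * L r c' := by ring
        _ ≤ _ := this
    rw [hPhi, mul_add, mul_add, Real.rpow_add (by norm_num), Real.rpow_add (by norm_num), e1, e2,
      mul_assoc]
    exact mul_le_mul_of_nonneg_right e3 (by positivity)
  refine (av_mono hpt).trans ?_
  rw [av_mul_left]
  have hE0pos : 0 < E0 := Real.exp_pos _
  rw [hft, hff] at hhol ⊢
  have hA : (av (fun c' : Coins D => (2 : ℝ) ^ ((2 / 63 : ℝ) * ∑ i : Fin D, S (5 + 2 * (i : ℕ)) c')))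
      ^ (1 / 2 : ℝ) ≤ Real.exp (∑ i : Fin D, W (5 + 2 * (i : ℕ))) := by
    refine (Real.rpow_le_rpow (av_nonneg fun _ => by positivity) hc5 (by norm_num)).trans ?_
    rw [← Real.exp_mul]
    apply le_of_eq
    congr 1
    ring
  have hBb : (av (fun c' : Coins D => (2 : ℝ) ^ ((2 / 63 : ℝ) * ∑ i : Fin D, S (6 + 2 * (i : ℕ)) c')))
      ^ (1 / 2 : ℝ) ≤ Real.exp (∑ i : Fin D, W (6 + 2 * (i : ℕ))) := by
    refine (Real.rpow_le_rpow (av_nonneg fun _ => by positivity) hc6 (by norm_num)).trans ?_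
    rw [← Real.exp_mul]
    apply le_of_eq
    congr 1
    ring
  have hfin := hhol.trans (mul_le_mul hA hBb
    (Real.rpow_nonneg (av_nonneg fun _ => by positivity) _) (Real.exp_pos _).le)
  refine (mul_le_mul_of_nonneg_left hfin hE0pos.le).trans ?_
  rw [hE0, ← Real.exp_add, ← Real.exp_add]
  apply le_of_eq
  congr 1
  rw [regroup (fun r => eps r * B r)]
  ring

end Crest.Agent.R155
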