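import Crest.Agent.R155.Defs

/-! Row 155, task P4A: one dyadic group of stages (helper20). -/

set_option autoImplicit false

namespace Crest.Agent.R155

open Finset in
theorem p4a (h1 : StP3) (h2 : StHol) : StP4a := by
  classical
  intro D ι _ _ x c c0 a hx ha
  set s : Finset (Fin D) := univ.filter (fun r : Fin D => Nat.log 2 (r : ℕ) = a) with hs
  set R : ℝ := (2 : ℝ) ^ a with hR
  have hR0 : 0 < R := by positivity
  set y : Coins D → ι → V D := fun c' i => bwd (merge (2 ^ (a - 1)) c0 c') (pass c (x i)) with hy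
  set z : ι → V D := fun i => pass c (x i) with hz
  have hmem : ∀ r ∈ s, 2 ^ a ≤ (r : ℕ) ∧ (r : ℕ) < 2 ^ (a + 1) := by
    intro r hr
    rw [hs, mem_filter] at hr
    have hr0 : (r : ℕ) ≠ 0 := by
      intro h
      rw [h] at hr
      simp at hr
      omega
    exact (Nat.log_eq_iff (Or.inr ⟨by norm_num, hr0⟩)).1 hr.2
  have hcard : (s.card : ℝ) ≤ R := by
    have h3 : s.card ≤ 2 ^ a := by
      calc s.card = (s.image (fun r : Fin D => (r : ℕ))).card :=
            (card_image_of_injective s Fin.val_injective).symm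
        _ ≤ (Ico (2 ^ a) (2 ^ (a + 1))).card := by
            refine card_le_card fun n hn => ?_
            obtain ⟨r, hr, rfl⟩ := mem_image.1 hn
            exact mem_Ico.2 (hmem r hr)
        _ = 2 ^ a := by
            rw [Nat.card_Ico, pow_succ]
            omega
    rw [hR]
    exact_mod_cast h3
  have key := h2 (Coins D) (Fin D) s
    (fun r c' => (2 : ℝ) ^ ((2 * R / 63) * lc r x (y c') z)) (fun _ => 1 / R)
    (fun r c' => by positivity) (fun _ => by positivity)
    (by
      rw [sum_const, nsmul_eq_mul, mul_one_div]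
      exact (div_le_one hR0).2 hcard)
  have e1 : (fun c' : Coins D => (2 : ℝ) ^ ((2 / 63 : ℝ) * ∑ r ∈ s, lc r x (y c') z)) =
      fun c' => ∏ r ∈ s, ((2 : ℝ) ^ ((2 * R / 63) * lc r x (y c') z)) ^ (1 / R) := by
    funext c'
    rw [mul_sum, Real.rpow_sum_of_pos (by norm_num)]
    refine prod_congr rfl fun r _ => ?_
    rw [← Real.rpow_mul (by norm_num)]
    congr 1
    field_simp
  rw [e1]
  refine key.trans ?_
  rw [mul_sum, Real.exp_sum]
  refine prod_le_prod (fun r _ => ?_) fun r hr => ?_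
  · refine Real.rpow_nonneg ?_ _
    unfold av
    positivity
  · have hrm := hmem r hr
    have hpow : 2 ^ a = 2 * 2 ^ (a - 1) := by
      rw [← pow_succ']
      congr 1
      omega
    have hmr : 2 ^ (a - 1) ≤ (r : ℕ) := by omega
    have h4 := h1 D ι x c c0 r (2 ^ (a - 1)) (2 * R / 63) hx hmr (by positivity)
    have h5 : (av fun c' : Coins D => (2 : ℝ) ^ ((2 * R / 63) * lc r x (y c') z)) ^ (1 / R) ≤
        (Real.exp (Bc r x z *
          ((2 * R / 63) * Real.log 2 * (2 : ℝ) ^ (-(((r : ℕ) : ℝ) - ((2 ^ (a - 1) : ℕ) : ℝ)) / 6)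
            + (16 / 3) * (2 : ℝ) ^ (4 * (2 * R / 63) - 5 * (((r : ℕ) : ℝ) -
              ((2 ^ (a - 1) : ℕ) : ℝ)) / 12)))) ^ (1 / R) := by
      refine Real.rpow_le_rpow ?_ h4 (by positivity)
      unfold av
      positivity
    refine h5.trans (le_of_eq ?_)
    rw [← Real.exp_mul]
    congr 1
    have hdy : dyad (r : ℕ) = R := by
      unfold dyad
      rw [(mem_filter.1 hr).2]
    have hm : ((2 ^ (a - 1) : ℕ) : ℝ) = R / 2 := by
      have : ((2 ^ a : ℕ) : ℝ) = ((2 * 2 ^ (a - 1) : ℕ) : ℝ) := by rw [hpow]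
      push_cast at this ⊢
      rw [hR, this]
      ring
    have h32 : ¬ ((r : ℕ) < 32) := by
      have : 2 ^ 5 ≤ 2 ^ a := Nat.pow_le_pow_right (by norm_num) ha
      omega
    unfold eps
    rw [if_neg h32, hdy, hm]
    have e2 : 4 * (2 * R / 63) = 8 * R / 63 := by ring
    have e3 : -(((r : ℕ) : ℝ) - R / 2) / 6 = -((((r : ℕ) : ℝ) - R / 2) / 6) := by ring
    rw [e2, e3]
    field_simp
    ring

end Crest.Agent.R155
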