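import Crest.Agent.R155.Defs

set_option autoImplicit false

namespace Crest.Agent.R155

open scoped BigOperators
open Finset

section p5

theorem p5_kt_nonneg {D : ℕ} {ι : Type} [Fintype ι] [DecidableEq ι] (x z : ι → V D) :
    0 ≤ Kt x z := by
  unfold Kt av
  apply div_nonneg
  · apply Finset.sum_nonneg
    intro c _
    split_ifs
    · norm_num
    · norm_num
  · positivity

theorem p5_kt_sum {D : ℕ} {ι : Type} [Fintype ι] [DecidableEq ι] (x : ι → V D)
    (G : (ι → V D) → ℝ) :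
    ∑ z : ι → V D, Kt x z * G z = av fun c : Coins D => G (fun a => pass c (x a)) := by
  unfold Kt av
  simp_rw [div_mul_eq_mul_div, ← Finset.sum_div, Finset.sum_mul]
  rw [Finset.sum_comm]
  congr 1
  apply Finset.sum_congr rfl
  intro c _
  rw [Finset.sum_eq_single (fun a => pass c (x a))]
  · simp
  · intro z _ hz
    rw [if_neg, zero_mul]
    intro h
    exact hz (funext fun a => (h a).symm)
  · intro h
    exact absurd (Finset.mem_univ _) h

theorem p5_inj {D : ℕ} {ι : Type} [Fintype ι] [DecidableEq ι] (x y z : ι → V D)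
    (hx : Function.Injective x) (hy : ¬ Function.Injective y) : Kt x z * Kt y z = 0 := by
  have key : ∀ u : ι → V D, Kt u z ≠ 0 → ∃ c : Coins D, ∀ a, pass c (u a) = z a := by
    intro u hu
    by_contra hne
    push Not at hne
    apply hu
    unfold Kt av
    rw [Finset.sum_eq_zero, zero_div]
    intro c _
    rw [if_neg]
    intro h
    obtain ⟨a, ha⟩ := hne c
    exact ha (h a)
  by_contra hne
  rcases ne_zero_and_ne_zero_of_mul hne with ⟨h1, h2⟩
  obtain ⟨c, hc⟩ := key x h1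
  obtain ⟨c', hc'⟩ := key y h2
  apply hy
  intro a b hab
  have h3 : z a = z b := by rw [← hc', ← hc', hab]
  rw [← hc, ← hc] at h3
  exact hx ((pass c).injective h3)

theorem p5_holder {Z : Type} [Fintype Z] (w P : Z → ℝ) (hw : ∀ z, 0 ≤ w z) (N : ℝ) (hN : 0 < N)
    (hI : ∑ z, w z * (2 : ℝ) ^ (-(P z)) ≤ N⁻¹) :
    (∑ z, w z) * (N * ∑ z, w z) ^ (1 / 63 : ℝ) ≤ ∑ z, w z * (2 : ℝ) ^ ((1 / 63 : ℝ) * P z) := by
  set A := ∑ z, w z * (2 : ℝ) ^ ((1 / 63 : ℝ) * P z) with hA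
  set T := ∑ z, w z with hT
  have hT0 : 0 ≤ T := Finset.sum_nonneg fun z _ => hw z
  have hA0 : 0 ≤ A := Finset.sum_nonneg fun z _ => mul_nonneg (hw z) (by positivity)
  have hB0 : 0 ≤ ∑ z, w z * (2 : ℝ) ^ (-(P z)) :=
    Finset.sum_nonneg fun z _ => mul_nonneg (hw z) (by positivity)
  have hconj : Real.HolderConjugate (64 / 63 : ℝ) 64 := by
    rw [Real.holderConjugate_iff]
    constructor
    · norm_num
    · norm_num
  have hH := Real.inner_le_Lp_mul_Lq_of_nonneg (s := univ)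
    (f := fun z => (w z * (2 : ℝ) ^ ((1 / 63 : ℝ) * P z)) ^ (63 / 64 : ℝ))
    (g := fun z => (w z * (2 : ℝ) ^ (-(P z))) ^ (1 / 64 : ℝ)) hconj
    (fun z _ => Real.rpow_nonneg (mul_nonneg (hw z) (by positivity)) _)
    (fun z _ => Real.rpow_nonneg (mul_nonneg (hw z) (by positivity)) _)
  have e1 : ∀ z, (w z * (2 : ℝ) ^ ((1 / 63 : ℝ) * P z)) ^ (63 / 64 : ℝ)
      * (w z * (2 : ℝ) ^ (-(P z))) ^ (1 / 64 : ℝ) = w z := by
    intro z
    rw [Real.mul_rpow (hw z) (by positivity), Real.mul_rpow (hw z) (by positivity),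
      ← Real.rpow_mul (by norm_num), ← Real.rpow_mul (by norm_num)]
    have e2 : w z ^ (63 / 64 : ℝ) * w z ^ (1 / 64 : ℝ) = w z := by
      rw [← Real.rpow_add_of_nonneg (hw z) (by norm_num) (by norm_num)]
      norm_num
    have e3 : (2 : ℝ) ^ (1 / 63 * P z * (63 / 64)) * (2 : ℝ) ^ (-P z * (1 / 64)) = 1 := by
      rw [← Real.rpow_add (by norm_num)]
      have : 1 / 63 * P z * (63 / 64) + -P z * (1 / 64) = 0 := by ring
      rw [this, Real.rpow_zero]
    calc w z ^ (63 / 64 : ℝ) * (2 : ℝ) ^ (1 / 63 * P z * (63 / 64))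
          * (w z ^ (1 / 64 : ℝ) * (2 : ℝ) ^ (-P z * (1 / 64)))
        = (w z ^ (63 / 64 : ℝ) * w z ^ (1 / 64 : ℝ))
          * ((2 : ℝ) ^ (1 / 63 * P z * (63 / 64)) * (2 : ℝ) ^ (-P z * (1 / 64))) := by ring
      _ = w z := by rw [e2, e3, mul_one]
  have e4 : ∀ z, ((w z * (2 : ℝ) ^ ((1 / 63 : ℝ) * P z)) ^ (63 / 64 : ℝ)) ^ (64 / 63 : ℝ)
      = w z * (2 : ℝ) ^ ((1 / 63 : ℝ) * P z) := by
    intro z
    rw [← Real.rpow_mul (mul_nonneg (hw z) (by positivity))]
    norm_num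
  have e5 : ∀ z, ((w z * (2 : ℝ) ^ (-(P z))) ^ (1 / 64 : ℝ)) ^ (64 : ℝ)
      = w z * (2 : ℝ) ^ (-(P z)) := by
    intro z
    rw [← Real.rpow_mul (mul_nonneg (hw z) (by positivity))]
    norm_num
  simp only [e1, e4, e5] at hH
  rw [← hT, ← hA] at hH
  -- hH : T ≤ A^(1/(64/63)) * B^(1/64)
  have h1 : T ≤ A ^ (63 / 64 : ℝ) * (N⁻¹) ^ (1 / 64 : ℝ) := by
    refine hH.trans ?_
    have : (1 / (64 / 63 : ℝ)) = 63 / 64 := by norm_num
    rw [this]
    exact mul_le_mul_of_nonneg_left (Real.rpow_le_rpow hB0 hI (by norm_num))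
      (Real.rpow_nonneg hA0 _)
  have h2 : T ^ (64 / 63 : ℝ) ≤ A * (N⁻¹) ^ (1 / 63 : ℝ) := by
    have h3 := Real.rpow_le_rpow hT0 h1 (by norm_num : (0 : ℝ) ≤ 64 / 63)
    rw [Real.mul_rpow (Real.rpow_nonneg hA0 _) (by positivity), ← Real.rpow_mul hA0,
      ← Real.rpow_mul (by positivity)] at h3
    have e6 : (63 / 64 : ℝ) * (64 / 63) = 1 := by norm_num
    have e7 : (1 / 64 : ℝ) * (64 / 63) = 1 / 63 := by norm_num
    rw [e6, e7, Real.rpow_one] at h3
    exact h3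
  rw [Real.mul_rpow hN.le hT0]
  have e8 : T * (N ^ (1 / 63 : ℝ) * T ^ (1 / 63 : ℝ)) = N ^ (1 / 63 : ℝ) * T ^ (64 / 63 : ℝ) := by
    have : T ^ (64 / 63 : ℝ) = T * T ^ (1 / 63 : ℝ) := by
      rw [show (64 / 63 : ℝ) = 1 + 1 / 63 by norm_num,
        Real.rpow_add_of_nonneg hT0 (by norm_num) (by norm_num), Real.rpow_one]
    rw [this]; ring
  rw [e8]
  calc N ^ (1 / 63 : ℝ) * T ^ (64 / 63 : ℝ)
      ≤ N ^ (1 / 63 : ℝ) * (A * (N⁻¹) ^ (1 / 63 : ℝ)) :=
        mul_le_mul_of_nonneg_left h2 (by positivity)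
    _ = A * (N ^ (1 / 63 : ℝ) * (N⁻¹) ^ (1 / 63 : ℝ)) := by ring
    _ = A := by
      rw [← Real.mul_rpow hN.le (by positivity), mul_inv_cancel₀ hN.ne', Real.one_rpow, mul_one]

theorem p5 (h1 : StI) (h2 : StP4) (h3 : StKav) : StP5 := by
  intro D ι _ _ x hx
  have step : ∀ y : ι → V D,
      Tt x y * ((((2 : ℝ) ^ D) ^ (Fintype.card ι)) * Tt x y) ^ (1 / 63 : ℝ)
        ≤ ∑ z : ι → V D, (Kt x z * Kt y z) * (2 : ℝ) ^ ((1 / 63 : ℝ) * Phi x y z) := by
    intro y
    by_cases hy : Function.Injective y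
    · have := p5_holder (fun z => Kt x z * Kt y z) (fun z => Phi x y z)
        (fun z => mul_nonneg (p5_kt_nonneg _ _) (p5_kt_nonneg _ _))
        (((2 : ℝ) ^ D) ^ (Fintype.card ι)) (by positivity) (h1 D ι x y hx hy)
      exact this
    · have hT : Tt x y = 0 := by
        unfold Tt
        exact Finset.sum_eq_zero fun z _ => p5_inj x y z hx hy
      rw [hT, zero_mul]
      apply Finset.sum_nonneg
      intro z _
      exact mul_nonneg (mul_nonneg (p5_kt_nonneg _ _) (p5_kt_nonneg _ _)) (by positivity)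
  calc ∑ y : ι → V D, Tt x y * ((((2 : ℝ) ^ D) ^ (Fintype.card ι)) * Tt x y) ^ (1 / 63 : ℝ)
      ≤ ∑ y : ι → V D, ∑ z : ι → V D,
          (Kt x z * Kt y z) * (2 : ℝ) ^ ((1 / 63 : ℝ) * Phi x y z) :=
        Finset.sum_le_sum fun y _ => step y
    _ = ∑ z : ι → V D, Kt x z * ∑ y : ι → V D,
          Kt y z * (2 : ℝ) ^ ((1 / 63 : ℝ) * Phi x y z) := by
        rw [Finset.sum_comm]
        apply Finset.sum_congr rfl
        intro z _
        rw [Finset.mul_sum]
        apply Finset.sum_congr rfl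
        intro y _
        ring
    _ = ∑ z : ι → V D, Kt x z * av (fun c' : Coins D =>
          (2 : ℝ) ^ ((1 / 63 : ℝ) * Phi x (fun a => bwd c' (z a)) z)) := by
        apply Finset.sum_congr rfl
        intro z _
        rw [h3 D ι z (fun y => (2 : ℝ) ^ ((1 / 63 : ℝ) * Phi x y z))]
    _ = av fun c : Coins D => av (fun c' : Coins D =>
          (2 : ℝ) ^ ((1 / 63 : ℝ) * Phi x (fun a => bwd c' (pass c (x a)))
            (fun a => pass c (x a)))) := by
        rw [p5_kt_sum x (fun z => av (fun c' : Coins D =>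
          (2 : ℝ) ^ ((1 / 63 : ℝ) * Phi x (fun a => bwd c' (z a)) z)))]
    _ ≤ av fun c : Coins D => Real.exp (∑ r : Fin D, eps r * Bc r x (fun a => pass c (x a))) := by
        unfold av
        apply div_le_div_of_nonneg_right _ (by positivity)
        apply Finset.sum_le_sum
        intro c _
        exact h2 D ι x c hx

end p5

end Crest.Agent.R155
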