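import Crest.Agent.R155.Defs

set_option autoImplicit false

namespace Crest.Agent.R155

open scoped BigOperators
open Finset

section p6

theorem p6_av_mono {Ω : Type} [Fintype Ω] (f g : Ω → ℝ) (h : ∀ ω, f ω ≤ g ω) : av f ≤ av g := by
  unfold av
  apply div_le_div_of_nonneg_right _ (by positivity)
  exact Finset.sum_le_sum fun ω _ => h ω

theorem p6_av_mul {Ω : Type} [Fintype Ω] (a : ℝ) (f : Ω → ℝ) :
    av (fun ω => a * f ω) = a * av f := by
  unfold av
  rw [← Finset.mul_sum, mul_div_assoc]

theorem p6_av_const {Ω : Type} [Fintype Ω] [Nonempty Ω] (a : ℝ) : av (fun _ : Ω => a) = a := by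
  unfold av
  rw [Finset.sum_const, nsmul_eq_mul, Finset.card_univ]
  field_simp

theorem p6_geom_hi (q A : ℝ) (hq0 : 0 ≤ q) (hq1 : q < 1) (hA : 0 ≤ A) (S : Finset ℕ)
    (hS : ∀ r ∈ S, q ^ r ≤ A) : ∑ r ∈ S, q ^ r ≤ A / (1 - q) := by
  have h1q : 0 < 1 - q := by linarith
  rcases S.eq_empty_or_nonempty with h | h
  · subst h
    simp only [Finset.sum_empty]
    positivity
  · have hsub : S ⊆ Finset.Ico (S.min' h) (S.sup id + 1) := by
      intro r hr
      rw [Finset.mem_Ico]
      refine ⟨Finset.min'_le _ _ hr, ?_⟩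
      have : id r ≤ S.sup id := Finset.le_sup hr
      simp only [id] at this ⊢
      omega
    calc ∑ r ∈ S, q ^ r ≤ ∑ r ∈ Finset.Ico (S.min' h) (S.sup id + 1), q ^ r :=
          Finset.sum_le_sum_of_subset_of_nonneg hsub fun i _ _ => pow_nonneg hq0 i
      _ ≤ q ^ (S.min' h) / (1 - q) := geom_sum_Ico_le_of_lt_one hq0 hq1
      _ ≤ A / (1 - q) := div_le_div_of_nonneg_right (hS _ (Finset.min'_mem _ _)) h1q.le

theorem p6_geom_lo (y A : ℝ) (hy : 1 < y) (hA : 0 ≤ A) (S : Finset ℕ)
    (hS : ∀ r ∈ S, y ^ r ≤ A) : ∑ r ∈ S, y ^ r ≤ A * (y / (y - 1)) := by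
  have h1y : 0 < y - 1 := by linarith
  rcases S.eq_empty_or_nonempty with h | h
  · subst h
    simp only [Finset.sum_empty]
    positivity
  · have hsub : S ⊆ Finset.range (S.max' h + 1) := by
      intro r hr
      rw [Finset.mem_range]
      have := Finset.le_max' _ _ hr
      omega
    calc ∑ r ∈ S, y ^ r ≤ ∑ r ∈ Finset.range (S.max' h + 1), y ^ r :=
          Finset.sum_le_sum_of_subset_of_nonneg hsub fun i _ _ => pow_nonneg (by linarith) i
      _ = (y ^ (S.max' h + 1) - 1) / (y - 1) := geom_sum_eq hy.ne' _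
      _ ≤ (y ^ (S.max' h + 1)) / (y - 1) := by
          apply div_le_div_of_nonneg_right _ h1y.le
          linarith
      _ = y ^ (S.max' h) * (y / (y - 1)) := by rw [pow_succ]; ring
      _ ≤ A * (y / (y - 1)) := by
          apply mul_le_mul_of_nonneg_right (hS _ (Finset.max'_mem _ _))
          positivity

/-- numeric bounds for `q = 2^{-0.08}` -/
theorem p6_q : (0.945 : ℝ) ≤ (2 : ℝ) ^ (-(0.08 : ℝ)) ∧ (2 : ℝ) ^ (-(0.08 : ℝ)) ≤ 0.947 := by
  have h0 : (0 : ℝ) < (2 : ℝ) ^ (-(0.08 : ℝ)) := by positivity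
  have h25 : ((2 : ℝ) ^ (-(0.08 : ℝ))) ^ 25 = 1 / 4 := by
    rw [← Real.rpow_natCast, ← Real.rpow_mul (by norm_num)]
    have : -(0.08 : ℝ) * ((25 : ℕ) : ℝ) = ((-2 : ℤ) : ℝ) := by norm_num
    rw [this, Real.rpow_intCast]
    norm_num
  constructor
  · by_contra hlt
    push Not at hlt
    have := pow_lt_pow_left₀ hlt h0.le (by norm_num : 25 ≠ 0)
    rw [h25] at this
    norm_num at this
  · by_contra hlt
    push Not at hlt
    have := pow_lt_pow_left₀ hlt (by norm_num : (0 : ℝ) ≤ 0.947) (by norm_num : 25 ≠ 0)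
    rw [h25] at this
    norm_num at this

theorem p6_exp : Real.exp (2.3 : ℝ) ≤ 10 := by
  have h1 := Real.exp_one_lt_d9
  have h2 : Real.exp (2.3 : ℝ) ^ 10 = Real.exp 1 ^ 23 := by
    rw [← Real.exp_nat_mul, ← Real.exp_nat_mul]
    norm_num
  by_contra hlt
  push Not at hlt
  have h3 := pow_lt_pow_left₀ hlt (by norm_num : (0 : ℝ) ≤ 10) (by norm_num : 10 ≠ 0)
  rw [h2] at h3
  have h4 : Real.exp 1 ^ 23 ≤ (2.7182818286 : ℝ) ^ 23 :=
    pow_le_pow_left₀ (Real.exp_pos 1).le h1.le 23
  have h5 : (2.7182818286 : ℝ) ^ 23 ≤ 10 ^ 10 := by norm_num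
  linarith

theorem p6_num (q : ℝ) (h1 : 0.945 ≤ q) (h2 : q ≤ 0.947) :
    0.06 / (1 - q) + (1 - q) * (Real.exp (0.12 / (1 - q)) - 1) / 2 * (2 * q / (2 * q - 1)) ≤ 2 := by
  have hd : 0.053 ≤ 1 - q := by linarith
  have hd2 : 1 - q ≤ 0.055 := by linarith
  have e1 : 0.06 / (1 - q) ≤ 0.06 / 0.053 :=
    div_le_div_of_nonneg_left (by norm_num) (by norm_num) hd
  have e2 : 0.12 / (1 - q) ≤ 2.3 := by
    rw [div_le_iff₀ (by linarith)]
    linarith
  have e3 : Real.exp (0.12 / (1 - q)) - 1 ≤ 9 := by
    have := (Real.exp_le_exp.2 e2).trans p6_exp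
    linarith
  have e3' : 0 ≤ Real.exp (0.12 / (1 - q)) - 1 := by
    have : 0 ≤ 0.12 / (1 - q) := div_nonneg (by norm_num) (by linarith)
    have := Real.one_le_exp this
    linarith
  have e4 : 2 * q / (2 * q - 1) ≤ 2.13 := by
    rw [div_le_iff₀ (by linarith)]
    linarith
  have e4' : 0 ≤ 2 * q / (2 * q - 1) := div_nonneg (by linarith) (by linarith)
  have e5 : (1 - q) * (Real.exp (0.12 / (1 - q)) - 1) / 2 ≤ 0.055 * 9 / 2 := by
    apply div_le_div_of_nonneg_right _ (by norm_num)
    exact mul_le_mul hd2 e3 e3' (by norm_num)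
  have e6 : (1 - q) * (Real.exp (0.12 / (1 - q)) - 1) / 2 * (2 * q / (2 * q - 1))
      ≤ (0.055 * 9 / 2) * 2.13 :=
    mul_le_mul e5 e4 e4' (by norm_num)
  have e7 : (0.06 : ℝ) / 0.053 + (0.055 * 9 / 2) * 2.13 ≤ 2 := by norm_num
  linarith

theorem p6 (h1 : StP6a) (h2 : StEps) (h3 : StHol) (h4 : StP3c) : StP6 := by
  intro D ι _ _ x hx
  obtain ⟨heps0, heps1, heps2⟩ := h2
  have hB0 : ∀ (r : Fin D) (c : Coins D), 0 ≤ Bc r x (fun a => pass c (x a)) := by
    intro r c
    unfold Bc hp
    positivity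
  have hB1 : ∀ (r : Fin D) (c : Coins D), Bc r x (fun a => pass c (x a))
      ≤ (Fintype.card ι : ℝ) / 2 := fun r c => (h4 D ι x c r hx).2.1
  constructor
  · calc av (fun c : Coins D => Real.exp (∑ r : Fin D, eps r * Bc r x (fun a => pass c (x a))))
        ≤ av (fun _ : Coins D => Real.exp ((Fintype.card ι : ℝ) / 2)) := by
          apply p6_av_mono
          intro c
          apply Real.exp_le_exp.2
          calc ∑ r : Fin D, eps r * Bc r x (fun a => pass c (x a))
              ≤ ∑ r : Fin D, eps r * ((Fintype.card ι : ℝ) / 2) :=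
                Finset.sum_le_sum fun r _ => mul_le_mul_of_nonneg_left (hB1 r c) (heps0 r)
            _ = (∑ r : Fin D, eps r) * ((Fintype.card ι : ℝ) / 2) := by rw [Finset.sum_mul]
            _ ≤ 1 * ((Fintype.card ι : ℝ) / 2) :=
                mul_le_mul_of_nonneg_right (heps2 D) (by positivity)
            _ = _ := one_mul _
      _ = _ := p6_av_const _
  · obtain ⟨hq1, hq2⟩ := p6_q
    set q : ℝ := (2 : ℝ) ^ (-(0.08 : ℝ)) with hq
    set K : ℝ := (Fintype.card ι : ℝ) with hK
    set n : ℝ := (2 : ℝ) ^ D with hn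
    have hn0 : 0 < n := by positivity
    have hK0 : 0 ≤ K := by positivity
    rcases hK0.eq_or_lt with hK00 | hKpos
    · -- K = 0
      have hz : ∀ (r : Fin D) (c : Coins D), Bc r x (fun a => pass c (x a)) = 0 := by
        intro r c
        have e1 := hB0 r c
        have e2 := hB1 r c
        rw [← hK00] at e2
        linarith
      simp only [hz, mul_zero, Finset.sum_const_zero, ← hK00, zero_mul, Real.exp_zero]
      rw [p6_av_const]
    set A : ℝ := (K / n) ^ (0.08 : ℝ) with hA
    have hA0 : 0 ≤ A := by positivity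
    have h1q : 0 < 1 - q := by linarith
    set t0 : ℝ := 0.12 / (1 - q) with ht0
    have ht00 : 0 ≤ t0 := div_nonneg (by norm_num) h1q.le
    have hqr : ∀ r : ℕ, (2 : ℝ) ^ (-(0.08 : ℝ) * r) = q ^ r := by
      intro r
      rw [Real.rpow_mul (by norm_num), Real.rpow_natCast]
    set S1 : Finset (Fin D) := univ.filter fun r => n ≤ 2 ^ (r : ℕ) * K with hS1
    set S2 : Finset (Fin D) := univ.filter fun r => ¬ n ≤ 2 ^ (r : ℕ) * K with hS2
    -- geometric sums
    have hsum1 : ∑ r ∈ S1, q ^ (r : ℕ) ≤ A / (1 - q) := by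
      have := p6_geom_hi q A (by linarith) (by linarith) hA0 (S1.map Fin.valEmbedding) (by
        intro r hr
        rw [Finset.mem_map] at hr
        obtain ⟨r', hr', rfl⟩ := hr
        rw [hS1, Finset.mem_filter] at hr'
        have h5 : n / K ≤ 2 ^ (r' : ℕ) := by rw [div_le_iff₀ hKpos]; exact hr'.2
        show q ^ (r' : ℕ) ≤ A
        rw [← hqr, hA]
        have h6 : (2 : ℝ) ^ (-(0.08 : ℝ) * ((r' : ℕ) : ℝ)) = (((2 : ℝ) ^ (r' : ℕ))⁻¹) ^ (0.08 : ℝ) := by
          rw [← Real.rpow_natCast, ← Real.rpow_neg (by norm_num), ← Real.rpow_mul (by norm_num)]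
          congr 1; ring
        rw [h6]
        apply Real.rpow_le_rpow (by positivity) _ (by norm_num)
        rw [← inv_div]
        exact inv_anti₀ (by positivity) h5)
      rw [Finset.sum_map] at this
      exact this
    have hsum2 : ∑ r ∈ S2, (2 * q) ^ (r : ℕ) ≤ (n / K) ^ (0.92 : ℝ) * (2 * q / (2 * q - 1)) := by
      have := p6_geom_lo (2 * q) ((n / K) ^ (0.92 : ℝ)) (by linarith) (by positivity)
        (S2.map Fin.valEmbedding) (by
        intro r hr
        rw [Finset.mem_map] at hr
        obtain ⟨r', hr', rfl⟩ := hr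
        rw [hS2, Finset.mem_filter] at hr'
        have h5 : 2 ^ (r' : ℕ) ≤ n / K := by rw [le_div_iff₀ hKpos]; exact (not_le.1 hr'.2).le
        show (2 * q) ^ (r' : ℕ) ≤ _
        have h6 : (2 * q) ^ (r' : ℕ) = ((2 : ℝ) ^ (r' : ℕ)) ^ (0.92 : ℝ) := by
          rw [mul_pow, ← hqr, ← Real.rpow_natCast, ← Real.rpow_mul (by norm_num),
            ← Real.rpow_add (by norm_num)]
          congr 1; ring
        rw [h6]
        exact Real.rpow_le_rpow (by positivity) h5 (by norm_num))
      rw [Finset.sum_map] at this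
      exact this
    have hsum3 : ∑ r ∈ S2, (1 - q) * q ^ (r : ℕ) ≤ 1 := by
      have := p6_geom_hi q 1 (by linarith) (by linarith) (by norm_num) (S2.map Fin.valEmbedding) (by
        intro r _
        exact pow_le_one₀ (by linarith) (by linarith))
      rw [Finset.sum_map] at this
      rw [← Finset.mul_sum]
      calc (1 - q) * ∑ r ∈ S2, q ^ (r : ℕ) ≤ (1 - q) * (1 / (1 - q)) :=
            mul_le_mul_of_nonneg_left this h1q.le
        _ = 1 := by field_simp
    -- pointwise bound
    have hpt : ∀ c : Coins D, Real.exp (∑ r : Fin D, eps r * Bc r x (fun a => pass c (x a)))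
        ≤ Real.exp (0.06 / (1 - q) * (K * A)) *
          ∏ r ∈ S2, (Real.exp (t0 * Bc r x (fun a => pass c (x a)))) ^ ((1 - q) * q ^ (r : ℕ)) := by
      intro c
      have e1 : ∏ r ∈ S2, (Real.exp (t0 * Bc r x (fun a => pass c (x a)))) ^ ((1 - q) * q ^ (r : ℕ))
          = Real.exp (∑ r ∈ S2, 0.12 * q ^ (r : ℕ) * Bc r x (fun a => pass c (x a))) := by
        rw [Real.exp_sum]
        apply Finset.prod_congr rfl
        intro r _
        rw [← Real.exp_mul]
        congr 1
        rw [ht0]
        field_simp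
      rw [e1, ← Real.exp_add]
      apply Real.exp_le_exp.2
      rw [← Finset.sum_filter_add_sum_filter_not univ (fun r : Fin D => n ≤ 2 ^ (r : ℕ) * K)]
      apply add_le_add
      · calc ∑ r ∈ S1, eps r * Bc r x (fun a => pass c (x a))
            ≤ ∑ r ∈ S1, 0.12 * q ^ (r : ℕ) * (K / 2) := by
              apply Finset.sum_le_sum
              intro r _
              apply mul_le_mul _ (hB1 r c) (hB0 r c) (by positivity)
              have := heps1 r
              rw [hqr] at this
              exact this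
          _ = 0.06 * K * ∑ r ∈ S1, q ^ (r : ℕ) := by
              rw [Finset.mul_sum]
              apply Finset.sum_congr rfl
              intro r _
              ring
          _ ≤ 0.06 * K * (A / (1 - q)) := mul_le_mul_of_nonneg_left hsum1 (by positivity)
          _ = 0.06 / (1 - q) * (K * A) := by ring
      · apply Finset.sum_le_sum
        intro r _
        apply mul_le_mul_of_nonneg_right _ (hB0 r c)
        have := heps1 r
        rw [hqr] at this
        exact this
    have hhol := h3 (Coins D) (Fin D) S2 (fun r c => Real.exp (t0 * Bc r x (fun a => pass c (x a))))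
      (fun r => (1 - q) * q ^ (r : ℕ)) (fun r c => (Real.exp_pos _).le)
      (fun r => by positivity) hsum3
    have hprod : ∏ r ∈ S2, (av fun c : Coins D => Real.exp (t0 * Bc r x (fun a => pass c (x a))))
          ^ ((1 - q) * q ^ (r : ℕ))
        ≤ Real.exp ((1 - q) * (Real.exp t0 - 1) / 2 * (2 * q / (2 * q - 1)) * (K * A)) := by
      calc ∏ r ∈ S2, (av fun c : Coins D => Real.exp (t0 * Bc r x (fun a => pass c (x a))))
              ^ ((1 - q) * q ^ (r : ℕ))
          ≤ ∏ r ∈ S2, (Real.exp ((Real.exp t0 - 1) * K ^ 2 * (2 : ℝ) ^ (r : ℕ) / (2 * n)))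
              ^ ((1 - q) * q ^ (r : ℕ)) := by
            apply Finset.prod_le_prod
            · intro r _
              apply Real.rpow_nonneg
              unfold av
              positivity
            · intro r _
              apply Real.rpow_le_rpow
              · unfold av
                positivity
              · exact h1 D ι x r t0 hx ht00
              · positivity
        _ = Real.exp (∑ r ∈ S2, (Real.exp t0 - 1) * K ^ 2 * (2 : ℝ) ^ (r : ℕ) / (2 * n)
              * ((1 - q) * q ^ (r : ℕ))) := by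
            rw [Real.exp_sum]
            apply Finset.prod_congr rfl
            intro r _
            rw [← Real.exp_mul]
        _ = Real.exp ((Real.exp t0 - 1) * K ^ 2 / (2 * n) * (1 - q)
              * ∑ r ∈ S2, (2 * q) ^ (r : ℕ)) := by
            congr 1
            rw [Finset.mul_sum]
            apply Finset.sum_congr rfl
            intro r _
            rw [mul_pow]
            ring
        _ ≤ Real.exp ((Real.exp t0 - 1) * K ^ 2 / (2 * n) * (1 - q)
              * ((n / K) ^ (0.92 : ℝ) * (2 * q / (2 * q - 1)))) := by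
            apply Real.exp_le_exp.2
            apply mul_le_mul_of_nonneg_left hsum2
            have : 0 ≤ Real.exp t0 - 1 := by
              have := Real.one_le_exp ht00
              linarith
            positivity
        _ = _ := by
            congr 1
            have e1 : (n / K) ^ (0.92 : ℝ) = (n / K) * A := by
              have : (K / n) = (n / K)⁻¹ := by rw [inv_div]
              rw [hA, this, Real.inv_rpow (by positivity), ← Real.rpow_neg (by positivity)]
              nth_rw 2 [← Real.rpow_one (n / K)]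
              rw [← Real.rpow_add (by positivity)]
              norm_num
            rw [e1]
            field_simp
    calc av (fun c : Coins D => Real.exp (∑ r : Fin D, eps r * Bc r x (fun a => pass c (x a))))
        ≤ av (fun c : Coins D => Real.exp (0.06 / (1 - q) * (K * A)) *
          ∏ r ∈ S2, (Real.exp (t0 * Bc r x (fun a => pass c (x a)))) ^ ((1 - q) * q ^ (r : ℕ))) :=
          p6_av_mono _ _ hpt
      _ = Real.exp (0.06 / (1 - q) * (K * A)) * av (fun c : Coins D =>
          ∏ r ∈ S2, (Real.exp (t0 * Bc r x (fun a => pass c (x a)))) ^ ((1 - q) * q ^ (r : ℕ))) :=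
          p6_av_mul _ _
      _ ≤ Real.exp (0.06 / (1 - q) * (K * A)) *
          Real.exp ((1 - q) * (Real.exp t0 - 1) / 2 * (2 * q / (2 * q - 1)) * (K * A)) :=
          mul_le_mul_of_nonneg_left (hhol.trans hprod) (Real.exp_pos _).le
      _ = Real.exp ((0.06 / (1 - q) + (1 - q) * (Real.exp t0 - 1) / 2 * (2 * q / (2 * q - 1)))
            * (K * A)) := by
          rw [← Real.exp_add]; congr 1; ring
      _ ≤ Real.exp (2 * K * A) := by
          apply Real.exp_le_exp.2
          rw [mul_assoc]
          apply mul_le_mul_of_nonneg_right (p6_num q hq1 hq2) (by positivity)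

end p6

end Crest.Agent.R155
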