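import Crest.Agent.R155.Defs

set_option autoImplicit false

namespace Crest.Agent.R155

open scoped BigOperators Matrix
open Finset

namespace P6aAux

theorem av_mono {Ω : Type*} [Fintype Ω] (f g : Ω → ℝ) (h : ∀ ω, f ω ≤ g ω) : av f ≤ av g := by
  unfold av
  apply div_le_div_of_nonneg_right _ (Nat.cast_nonneg _)
  exact Finset.sum_le_sum fun i _ => h i

theorem av_const {Ω : Type*} [Fintype Ω] [Nonempty Ω] (C : ℝ) : av (fun _ : Ω => C) = C := by
  unfold av
  rw [Finset.sum_const, Finset.card_univ, nsmul_eq_mul]
  have : (Fintype.card Ω : ℝ) ≠ 0 := by exact_mod_cast Fintype.card_ne_zero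
  field_simp

/-- coins of `c'` on the side `true`, of `c` on the side `false` -/
def sp {D : ℕ} (r : Fin D) (c c' : Coins D) : Coins D :=
  fun j k => if k r = true then c' j k else c j k

theorem av_sp {D : ℕ} (r : Fin D) (F : Coins D → ℝ) :
    av F = av (fun c' => av (fun c => F (sp r c c'))) := by
  have hinv : Function.Involutive
      (fun p : Coins D × Coins D => (sp r p.1 p.2, sp r p.2 p.1)) := by
    rintro ⟨c, c'⟩
    simp only [Prod.mk.injEq]
    constructor
    · funext j k
      unfold sp
      by_cases h : k r = true <;> simp [h]
    · funext j k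
      unfold sp
      by_cases h : k r = true <;> simp [h]
  have h1 : ∑ p : Coins D × Coins D, F (sp r p.1 p.2) = ∑ p : Coins D × Coins D, F p.1 :=
    Equiv.sum_comp hinv.toPerm (fun p : Coins D × Coins D => F p.1)
  rw [Fintype.sum_prod_type, Fintype.sum_prod_type] at h1
  simp only [Finset.sum_const, Finset.card_univ, nsmul_eq_mul] at h1
  rw [Finset.sum_comm] at h1
  unfold av
  rw [← Finset.sum_div, h1, ← Finset.mul_sum]
  have : (Fintype.card (Coins D) : ℝ) ≠ 0 := by exact_mod_cast Fintype.card_ne_zero
  field_simp

theorem pass_side (h2 : StRel) {D : ℕ} (c1 c2 : Coins D) (r : Fin D) (y : V D)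
    (h : ∀ j k, r < j → k r = y r → c1 j k = c2 j k) :
    ∀ j, r < j → pass c1 y j = pass c2 y j := by
  have hr1 : Rel c1 y (pass c1 y) := (h2 D c1 y (pass c1 y)).1 rfl
  have hr2 : Rel c2 y (pass c2 y) := (h2 D c2 y (pass c2 y)).1 rfl
  have key1 : ∀ n : ℕ, ∀ j : Fin D, D - j = n → r < j → pass c1 y j = pass c2 y j := by
    intro n
    induction n using Nat.strong_induction_on with
    | _ n ih =>
      intro j hn hj
      have hk : key j y (pass c1 y) = key j y (pass c2 y) := by
        funext i
        unfold key
        by_cases h1 : i < j
        · rw [if_pos h1, if_pos h1]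
        · rw [if_neg h1, if_neg h1]
          by_cases h3 : i = j
          · rw [if_pos h3, if_pos h3]
          · rw [if_neg h3, if_neg h3]
            have h4 : (j : ℕ) < i := by
              have h5 : (i : ℕ) ≠ j := fun h => h3 (Fin.ext h)
              have h6 : ¬ (i : ℕ) < j := h1
              omega
            have := i.2
            exact ih (D - i) (by omega) i rfl (lt_trans hj h4)
      rw [hr1 j, hr2 j, ← hk, h j _ hj]
      unfold key
      rw [if_pos hj]
  intro j hj
  exact key1 _ j rfl hj

theorem key_side (h2 : StRel) {D : ℕ} (c1 c2 : Coins D) (r : Fin D) (y : V D)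
    (h : ∀ j k, r < j → k r = y r → c1 j k = c2 j k) :
    key r y (pass c1 y) = key r y (pass c2 y) := by
  funext j
  unfold key
  by_cases h1 : j < r
  · rw [if_pos h1, if_pos h1]
  · rw [if_neg h1, if_neg h1]
    by_cases h3 : j = r
    · rw [if_pos h3, if_pos h3]
    · rw [if_neg h3, if_neg h3]
      apply pass_side h2 c1 c2 r y h
      have h5 : (j : ℕ) ≠ r := fun h => h3 (Fin.ext h)
      have h6 : ¬ (j : ℕ) < r := h1
      change (r : ℕ) < j
      omega

theorem card_key {D : ℕ} (r : Fin D) (y l : V D) :
    (univ.filter fun w : V D => key r y w = l).card ≤ 2 ^ ((r : ℕ) + 1) := by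
  calc _ ≤ (univ : Finset (Fin ((r : ℕ) + 1) → Bool)).card := by
        apply Finset.card_le_card_of_injOn
          (fun w => fun i : Fin ((r : ℕ) + 1) => w ⟨i, by have := i.2; have := r.2; omega⟩)
        · intro w _
          simp
        · intro w hw w' hw' heq
          rw [Finset.mem_coe, Finset.mem_filter] at hw hw'
          funext j
          by_cases hj : (j : ℕ) < (r : ℕ) + 1
          · exact congrFun heq ⟨j, hj⟩
          · have h1 := congrFun (hw.2.trans hw'.2.symm) j
            unfold key at h1
            have h3 : ¬ j < r := by
              change ¬ (j : ℕ) < r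
              omega
            have h4 : j ≠ r := by rintro rfl; omega
            rw [if_neg h3, if_neg h3, if_neg h4, if_neg h4] at h1
            exact h1
    _ = _ := by simp

theorem av_h {D : ℕ} (r : Fin D) (y : V D) (L : Finset (V D)) (t : ℝ) (ht : 0 ≤ t) :
    av (fun w : V D => if key r y w ∈ L then Real.exp t else 1)
      ≤ Real.exp ((Real.exp t - 1) * (L.card : ℝ) * 2 ^ ((r : ℕ) + 1) / 2 ^ D) := by
  have h1 : (univ.filter fun w : V D => key r y w ∈ L).card ≤ L.card * 2 ^ ((r : ℕ) + 1) := by
    calc _ ≤ (L.biUnion fun l => univ.filter fun w : V D => key r y w = l).card := by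
          apply Finset.card_le_card
          intro w hw
          rw [Finset.mem_filter] at hw
          rw [Finset.mem_biUnion]
          exact ⟨_, hw.2, Finset.mem_filter.2 ⟨Finset.mem_univ _, rfl⟩⟩
      _ ≤ ∑ l ∈ L, (univ.filter fun w : V D => key r y w = l).card := Finset.card_biUnion_le
      _ ≤ ∑ _l ∈ L, 2 ^ ((r : ℕ) + 1) := Finset.sum_le_sum fun l _ => card_key r y l
      _ = _ := by rw [Finset.sum_const, smul_eq_mul]
  have hcard : (Fintype.card (V D) : ℝ) = 2 ^ D := by
    simp [V]
  have h2 : ∑ w : V D, (if key r y w ∈ L then Real.exp t else 1)
      = 2 ^ D + (Real.exp t - 1) * ((univ.filter fun w : V D => key r y w ∈ L).card : ℝ) := by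
    have h3 : ∀ w : V D, (if key r y w ∈ L then Real.exp t else 1)
        = 1 + (if key r y w ∈ L then (Real.exp t - 1) else 0) := by
      intro w
      split_ifs <;> ring
    simp_rw [h3]
    rw [Finset.sum_add_distrib, ← Finset.sum_filter, Finset.sum_const, Finset.sum_const,
      Finset.card_univ, nsmul_eq_mul, nsmul_eq_mul, hcard]
    ring
  have hE : 0 ≤ Real.exp t - 1 := by
    have := Real.add_one_le_exp t
    linarith
  unfold av
  rw [h2, hcard]
  have h4 : (2 : ℝ) ^ D ≠ 0 := by positivity
  have h5 : (2 ^ D + (Real.exp t - 1) * ((univ.filter fun w : V D => key r y w ∈ L).card : ℝ)) / 2 ^ D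
      ≤ 1 + (Real.exp t - 1) * (L.card : ℝ) * 2 ^ ((r : ℕ) + 1) / 2 ^ D := by
    rw [add_div, div_self h4]
    apply add_le_add_right
    apply div_le_div_of_nonneg_right _ (by positivity)
    rw [mul_assoc]
    apply mul_le_mul_of_nonneg_left _ hE
    exact_mod_cast h1
  refine h5.trans ?_
  have h6 := Real.add_one_le_exp ((Real.exp t - 1) * (L.card : ℝ) * 2 ^ ((r : ℕ) + 1) / 2 ^ D)
  linarith

end P6aAux

open P6aAux

theorem p6a (h1 : StSup) (h2 : StRel) (h3 : StSep) : StP6a := by
  classical
  intro D ι _ _ x r t hx ht
  have hE : 0 ≤ Real.exp t - 1 := by
    have := Real.add_one_le_exp t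
    linarith
  set K0 : ℕ := (univ.filter fun a : ι => x a r = false).card with hK0
  set K1 : ℕ := (univ.filter fun a : ι => x a r = true).card with hK1
  have hK : K0 + K1 = Fintype.card ι := by
    rw [hK0, hK1, ← Finset.card_univ (α := ι), ← Finset.card_filter_add_card_filter_not
      (s := univ) (p := fun a : ι => x a r = false)]
    congr 2
    ext a
    simp
  rw [av_sp r]
  have hmain : ∀ c' : Coins D, av (fun c : Coins D =>
      Real.exp (t * Bc r x (fun a => pass (sp r c c') (x a))))
      ≤ Real.exp ((Real.exp t - 1) * (K1 : ℝ) * 2 ^ ((r : ℕ) + 1) / 2 ^ D * K0) := by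
    intro c'
    set L : Finset (V D) := (univ.filter fun a : ι => x a r = true).image
      (fun b => key r (x b) (pass c' (x b))) with hL
    have hLK : L.card ≤ K1 := Finset.card_image_le
    have hstep : ∀ c : Coins D, Real.exp (t * Bc r x (fun a => pass (sp r c c') (x a)))
        ≤ ∏ a : {a : ι // x a r = false},
          (if key r (x a.1) (pass c (x a.1)) ∈ L then Real.exp t else 1) := by
      intro c
      set c2 := sp r c c' with hc2
      -- keys
      have k0 : ∀ a : ι, x a r = false →
          key r (x a) (pass c2 (x a)) = key r (x a) (pass c (x a)) := by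
        intro a ha
        apply key_side h2
        intro j k _ hk
        rw [hc2]
        unfold sp
        rw [hk, ha]
        simp
      have k1 : ∀ a : ι, x a r = true →
          key r (x a) (pass c2 (x a)) = key r (x a) (pass c' (x a)) := by
        intro a ha
        apply key_side h2
        intro j k _ hk
        rw [hc2]
        unfold sp
        rw [hk, ha]
        simp
      set A : Finset ι := univ.filter fun a => x a r = false ∧ key r (x a) (pass c (x a)) ∈ L with hA
      have hsep := fun a b hab hk => (h3 D ι x c2 r hx a b hab hk).1
      have hBc : Bc r x (fun a => pass c2 (x a)) ≤ A.card := by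
        unfold Bc hp
        rw [div_le_iff₀ (by norm_num : (0 : ℝ) < 2)]
        have hcount : (univ.filter fun p : ι × ι =>
            Adj r x (fun a => pass c2 (x a)) p.1 p.2).card ≤ (A ×ˢ (univ : Finset Bool)).card := by
          apply Finset.card_le_card_of_injOn
            (fun p => if x p.1 r = false then (p.1, false) else (p.2, true))
          · rintro ⟨a, b⟩ hp
            rw [Finset.mem_coe, Finset.mem_filter] at hp
            obtain ⟨-, hab, hk⟩ := hp
            have hs := hsep a b hab hk
            simp only
            by_cases ha : x a r = false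
            · have hb : x b r = true := by
                rw [ha] at hs
                cases hb : x b r
                · exact absurd hb.symm hs
                · rfl
              rw [if_pos ha]
              simp only [Finset.coe_product, Set.mem_prod, Finset.mem_coe, Finset.mem_univ, and_true]
              rw [hA, Finset.mem_filter]
              refine ⟨Finset.mem_univ _, ha, ?_⟩
              rw [← k0 a ha, hk, k1 b hb, hL]
              exact Finset.mem_image_of_mem _ (Finset.mem_filter.2 ⟨Finset.mem_univ _, hb⟩)
            · have ha' : x a r = true := by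
                cases h : x a r
                · exact absurd h ha
                · rfl
              have hb : x b r = false := by
                rw [ha'] at hs
                cases hb : x b r
                · rfl
                · exact absurd hb.symm hs
              rw [if_neg ha]
              simp only [Finset.coe_product, Set.mem_prod, Finset.mem_coe, Finset.mem_univ, and_true]
              rw [hA, Finset.mem_filter]
              refine ⟨Finset.mem_univ _, hb, ?_⟩
              rw [← k0 b hb, ← hk, k1 a ha', hL]
              exact Finset.mem_image_of_mem _ (Finset.mem_filter.2 ⟨Finset.mem_univ _, ha'⟩)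
          · rintro ⟨a, b⟩ hp ⟨a', b'⟩ hp' heq
            rw [Finset.mem_coe, Finset.mem_filter] at hp hp'
            obtain ⟨-, hab, hk⟩ := hp
            obtain ⟨-, hab', hk'⟩ := hp'
            have hs := hsep a b hab hk
            have hs' := hsep a' b' hab' hk'
            simp only at heq hab hk hab' hk'
            by_cases ha : x a r = false
            · by_cases ha' : x a' r = false
              · rw [if_pos ha, if_pos ha'] at heq
                simp only [Prod.mk.injEq, and_true] at heq
                subst heq
                have : b = b' := by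
                  by_contra hne
                  have hs2 := hsep b b' hne (hk.symm.trans hk')
                  rw [ha] at hs hs'
                  cases hb : x b r <;> cases hb' : x b' r <;> simp_all
                rw [this]
              · rw [if_pos ha, if_neg ha'] at heq
                simp at heq
            · by_cases ha' : x a' r = false
              · rw [if_neg ha, if_pos ha'] at heq
                simp at heq
              · rw [if_neg ha, if_neg ha'] at heq
                simp only [Prod.mk.injEq, and_true] at heq
                subst heq
                have : a = a' := by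
                  by_contra hne
                  have hs2 := hsep a a' hne (hk.trans hk'.symm)
                  cases hb : x a r <;> cases hb' : x a' r <;> simp_all
                rw [this]
        rw [Finset.card_product] at hcount
        simp only [Finset.card_univ, Fintype.card_bool] at hcount
        exact_mod_cast hcount
      have hprod : ∏ a : {a : ι // x a r = false},
          (if key r (x a.1) (pass c (x a.1)) ∈ L then Real.exp t else 1)
          = Real.exp (t * A.card) := by
        have e1 : ∏ a : {a : ι // x a r = false},
            (if key r (x a.1) (pass c (x a.1)) ∈ L then Real.exp t else 1)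
            = ∏ a ∈ univ.filter (fun a : ι => x a r = false),
              (if key r (x a) (pass c (x a)) ∈ L then Real.exp t else 1) := by
          rw [Finset.prod_subtype (univ.filter (fun a : ι => x a r = false))
            (p := fun a : ι => x a r = false) (by simp)]
        rw [e1, ← Finset.prod_filter, Finset.filter_filter, Finset.prod_const, ← hA,
          mul_comm, Real.exp_nat_mul]
      rw [hprod]
      apply Real.exp_le_exp.2
      exact mul_le_mul_of_nonneg_left hBc ht
    refine (av_mono _ _ hstep).trans ?_
    have hsup := h1 D {a : ι // x a r = false} (fun a => x a.1) r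
      (fun v => if v ∈ L then Real.exp t else 1)
      (fun a b hab => Subtype.ext (hx hab))
      (by intro v; split_ifs; exacts [(Real.exp_pos t).le, zero_le_one])
    refine hsup.trans ?_
    calc _ ≤ ∏ _a : {a : ι // x a r = false},
          Real.exp ((Real.exp t - 1) * (K1 : ℝ) * 2 ^ ((r : ℕ) + 1) / 2 ^ D) := by
          apply Finset.prod_le_prod
          · intro a _
            unfold av
            apply div_nonneg _ (Nat.cast_nonneg _)
            apply Finset.sum_nonneg
            intro w _
            split_ifs
            exacts [(Real.exp_pos t).le, zero_le_one]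
          · intro a _
            refine (av_h r (x a.1) L t ht).trans ?_
            apply Real.exp_le_exp.2
            apply div_le_div_of_nonneg_right _ (by positivity)
            apply mul_le_mul_of_nonneg_right _ (by positivity)
            apply mul_le_mul_of_nonneg_left _ hE
            exact_mod_cast hLK
      _ = _ := by
          rw [Finset.prod_const, Finset.card_univ, Fintype.card_subtype, ← hK0, ← Real.exp_nat_mul,
            mul_comm]
  refine (av_mono _ _ hmain).trans ?_
  rw [av_const]
  apply Real.exp_le_exp.2
  have h4 : (K0 : ℝ) * K1 ≤ (Fintype.card ι : ℝ) ^ 2 / 4 := by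
    rw [← hK]
    push_cast
    nlinarith [sq_nonneg ((K0 : ℝ) - K1)]
  have h5 : (0 : ℝ) ≤ (Real.exp t - 1) * 2 ^ ((r : ℕ) + 1) / 2 ^ D := by positivity
  calc _ = ((Real.exp t - 1) * 2 ^ ((r : ℕ) + 1) / 2 ^ D) * ((K0 : ℝ) * K1) := by ring
    _ ≤ ((Real.exp t - 1) * 2 ^ ((r : ℕ) + 1) / 2 ^ D) * ((Fintype.card ι : ℝ) ^ 2 / 4) :=
        mul_le_mul_of_nonneg_left h4 h5
    _ = _ := by
        rw [pow_succ]
        field_simp
        ring

end Crest.Agent.R155
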