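import Crest.Agent.R155.Defs

set_option autoImplicit false

namespace Crest.Agent.R155

open scoped BigOperators Matrix
open Finset

namespace PurAux

variable {W : Type} [Fintype W] [DecidableEq W]

/-- right translate -/
def rt (π : Equiv.Perm W) (h : Equiv.Perm W → ℝ) : Equiv.Perm W → ℝ := fun σ => h (σ * π)

theorem em_insert (T : Finset W) (a : W) (ha : a ∉ T) (σ τ : Equiv.Perm W) :
    EM T σ τ = (1 / ((Fintype.card W - T.card : ℕ) : ℝ)) *
      ∑ c ∈ Tᶜ, EM (insert a T) (σ * Equiv.swap a c) τ := by
  have hcard : (insert a T).card = T.card + 1 := Finset.card_insert_of_notMem ha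
  have hle : (insert a T).card ≤ Fintype.card W := Finset.card_le_univ _
  have hpos : 0 < Fintype.card W - T.card := by omega
  have hfac : (Fintype.card W - T.card).factorial
      = (Fintype.card W - T.card) * (Fintype.card W - (insert a T).card).factorial := by
    rw [hcard]
    have : Fintype.card W - T.card = (Fintype.card W - (T.card + 1)) + 1 := by omega
    rw [this, Nat.factorial_succ]
  have hiff : ∀ c ∈ Tᶜ, ((∀ b ∈ insert a T, (σ * Equiv.swap a c) b = τ b) ↔
      ((∀ b ∈ T, σ b = τ b) ∧ c = σ⁻¹ (τ a))) := by
    intro c hc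
    rw [Finset.mem_compl] at hc
    constructor
    · intro h
      refine ⟨fun b hb => ?_, ?_⟩
      · have := h b (Finset.mem_insert_of_mem hb)
        rw [Equiv.Perm.mul_apply, Equiv.swap_apply_of_ne_of_ne] at this
        · exact this
        · rintro rfl; exact ha hb
        · rintro rfl; exact hc hb
      · have := h a (Finset.mem_insert_self _ _)
        rw [Equiv.Perm.mul_apply, Equiv.swap_apply_left] at this
        rw [← this]; simp
    · rintro ⟨h, rfl⟩ b hb
      rcases Finset.mem_insert.1 hb with rfl | hb
      · rw [Equiv.Perm.mul_apply, Equiv.swap_apply_left]; simp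
      · rw [Equiv.Perm.mul_apply, Equiv.swap_apply_of_ne_of_ne]
        · exact h b hb
        · intro h'; rw [h'] at hb; exact ha hb
        · intro h'; rw [← h'] at hc; exact hc hb
  by_cases hT : ∀ b ∈ T, σ b = τ b
  · have hmem : σ⁻¹ (τ a) ∈ Tᶜ := by
      rw [Finset.mem_compl]
      intro h
      have h2 := hT _ h
      have h2' : σ (σ⁻¹ (τ a)) = τ a := by simp
      rw [h2'] at h2
      have h3 := τ.injective h2
      exact ha (by rw [← h3] at h; exact h)
    rw [Finset.sum_eq_single_of_mem _ hmem]
    · have h1 : (∀ b ∈ insert a T, (σ * Equiv.swap a (σ⁻¹ (τ a))) b = τ b) :=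
        (hiff _ hmem).2 ⟨hT, rfl⟩
      unfold EM
      rw [if_pos hT, if_pos h1, hfac]
      push_cast
      have : ((Fintype.card W - T.card : ℕ) : ℝ) ≠ 0 := by positivity
      have h3 : (((Fintype.card W - (insert a T).card).factorial : ℕ) : ℝ) ≠ 0 := by positivity
      field_simp
    · intro c hc hne
      unfold EM
      rw [if_neg]
      intro h
      exact hne ((hiff c hc).1 h).2
  · unfold EM
    rw [if_neg hT, Finset.sum_eq_zero, mul_zero]
    intro c hc
    rw [if_neg]
    intro h
    exact hT ((hiff c hc).1 h).1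

theorem em_mulVec (T : Finset W) (a : W) (ha : a ∉ T) (h : Equiv.Perm W → ℝ)
    (hh : EM (insert a T) *ᵥ h = h) (σ : Equiv.Perm W) :
    (EM T *ᵥ h) σ = (1 / ((Fintype.card W - T.card : ℕ) : ℝ)) *
      ∑ c ∈ Tᶜ, h (σ * Equiv.swap a c) := by
  rw [Matrix.mulVec, dotProduct]
  simp_rw [em_insert T a ha]
  calc _ = (1 / ((Fintype.card W - T.card : ℕ) : ℝ)) *
      ∑ c ∈ Tᶜ, ∑ τ, EM (insert a T) (σ * Equiv.swap a c) τ * h τ := by
        rw [Finset.sum_comm, Finset.mul_sum]
        apply Finset.sum_congr rfl
        intro τ _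
        rw [mul_assoc, Finset.sum_mul]
    _ = _ := by
        congr 1
        apply Finset.sum_congr rfl
        intro c _
        exact congrFun hh (σ * Equiv.swap a c)

theorem em_rt (R : Finset W) (π : Equiv.Perm W) (h : Equiv.Perm W → ℝ) :
    EM (R.map π.toEmbedding) *ᵥ (rt π h) = rt π (EM R *ᵥ h) := by
  funext σ
  rw [Matrix.mulVec, dotProduct]
  unfold rt
  rw [Matrix.mulVec, dotProduct]
  rw [← Equiv.sum_comp (Equiv.mulRight π) (fun τ => EM R (σ * π) τ * h τ)]
  apply Finset.sum_congr rfl
  intro τ _
  simp only [Equiv.coe_mulRight]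
  congr 1
  unfold EM
  rw [Finset.card_map]
  congr 1
  apply propext
  constructor
  · intro h a ha
    have := h (π a) (Finset.mem_map_of_mem _ ha)
    simpa [Equiv.Perm.mul_apply] using this
  · intro h a ha
    rw [Finset.mem_map] at ha
    obtain ⟨b, hb, rfl⟩ := ha
    have := h b hb
    simpa [Equiv.Perm.mul_apply] using this

theorem dot_rt (π : Equiv.Perm W) (h : Equiv.Perm W → ℝ) :
    rt π h ⬝ᵥ rt π h = h ⬝ᵥ h := by
  unfold rt dotProduct
  rw [← Equiv.sum_comp (Equiv.mulRight π) (fun i => h i * h i)]
  rfl

end PurAux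

open PurAux

theorem pur (h1 : StEM) : StPur := by
  intro W _ _ k R' R'' h hR' hR'' hE hP
  obtain ⟨-, hmul, -, -, -, -⟩ := h1 W
  generalize hj : (R'' \ R').card = j
  induction j generalizing R'' h with
  | zero =>
    have hsub : R'' ⊆ R' := by
      rw [Finset.card_eq_zero, Finset.sdiff_eq_empty_iff_subset] at hj
      exact hj
    have heq : R'' = R' := Finset.eq_of_subset_of_card_le hsub (by omega)
    subst heq
    rw [hE]
    simp
  | succ j ih =>
    have hne : (R'' \ R').Nonempty := by
      rw [← Finset.card_pos]; omega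
    obtain ⟨a, ha⟩ := hne
    rw [Finset.mem_sdiff] at ha
    obtain ⟨haR, haR'⟩ := ha
    set S : Finset W := R' ∪ R''.erase a with hS
    have haS : a ∉ S := by
      rw [hS, Finset.mem_union]
      rintro (h | h)
      · exact haR' h
      · exact Finset.notMem_erase a R'' h
    have hinsS : insert a S = R' ∪ R'' := by
      ext x
      simp only [hS, Finset.mem_insert, Finset.mem_union, Finset.mem_erase]
      constructor
      · rintro (rfl | h | h)
        · exact Or.inr haR
        · exact Or.inl h
        · exact Or.inr h.2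
      · rintro (h | h)
        · exact Or.inr (Or.inl h)
        · by_cases hx : x = a
          · exact Or.inl hx
          · exact Or.inr (Or.inr ⟨hx, h⟩)
    have hScard : S.card = k + j := by
      have h2 : (insert a S).card = S.card + 1 := Finset.card_insert_of_notMem haS
      rw [hinsS] at h2
      have h3 : (R' ∪ R'').card = R'.card + (R'' \ R').card := by
        rw [← Finset.card_union_of_disjoint Finset.disjoint_sdiff, Finset.union_sdiff_self_eq_union]
      omega
    have hle : k + (j + 1) ≤ Fintype.card W := by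
      have := Finset.card_le_univ (insert a S)
      rw [Finset.card_insert_of_notMem haS] at this
      omega
    have hinsE : insert a (R''.erase a) = R'' := Finset.insert_erase haR
    -- the two averages
    have hES : EM (insert a S) *ᵥ h = h := by
      have h2 := (hmul R'' (insert a S) (by rw [hinsS]; exact Finset.subset_union_right)).2
      calc EM (insert a S) *ᵥ h = EM (insert a S) *ᵥ (EM R'' *ᵥ h) := by rw [hE]
        _ = (EM (insert a S) * EM R'') *ᵥ h := by rw [Matrix.mulVec_mulVec]
        _ = h := by rw [h2, hE]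
    have hA := fun σ => em_mulVec S a haS h hES σ
    have hB := fun σ => em_mulVec (R''.erase a) a (Finset.notMem_erase a R'') h
      (by rw [hinsE]; exact hE) σ
    have hB0 : ∀ σ : Equiv.Perm W, ∑ c ∈ (R''.erase a)ᶜ, h (σ * Equiv.swap a c) = 0 := by
      intro σ
      have h2 := hB σ
      rw [hP a haR] at h2
      have h3 : ((Fintype.card W - (R''.erase a).card : ℕ) : ℝ) ≠ 0 := by
        rw [Finset.card_erase_of_mem haR]
        have : Fintype.card W - (R''.card - 1) ≠ 0 := by omega
        exact_mod_cast this
      have h4 : (1 / ((Fintype.card W - (R''.erase a).card : ℕ) : ℝ)) ≠ 0 := one_div_ne_zero h3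
      simp only [Pi.zero_apply] at h2
      rcases mul_eq_zero.1 h2.symm with h5 | h5
      · exact absurd h5 h4
      · exact h5
    have hsplit : (R''.erase a)ᶜ = Sᶜ ∪ (R' \ R'') := by
      ext x
      simp only [hS, Finset.mem_compl, Finset.mem_union, Finset.mem_erase, Finset.mem_sdiff]
      constructor
      · intro hx
        by_cases hxR : x ∈ R'
        · refine Or.inr ⟨hxR, fun hx2 => hx ⟨?_, hx2⟩⟩
          rintro rfl
          exact haR' hxR
        · left
          rintro (h | h)
          · exact hxR h
          · exact hx h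
      · rintro (h | h)
        · intro h2; exact h (Or.inr h2)
        · intro h2; exact h.2 h2.2
    have hdisj : Disjoint Sᶜ (R' \ R'') := by
      rw [Finset.disjoint_left]
      intro x hx hx2
      rw [Finset.mem_compl] at hx
      exact hx (Finset.mem_union_left _ (Finset.mem_sdiff.1 hx2).1)
    have hN : Fintype.card W - S.card = Fintype.card W - k - j := by omega
    set N : ℝ := ((Fintype.card W - k - j : ℕ) : ℝ) with hNdef
    have hNpos : 0 < N := by
      have : 0 < Fintype.card W - k - j := by omega
      rw [hNdef]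
      exact_mod_cast this
    have hES2 : EM S *ᵥ h = fun σ => - (1 / N) * ∑ b ∈ R' \ R'', rt (Equiv.swap a b) h σ := by
      funext σ
      rw [hA σ, hN]
      have h2 := hB0 σ
      rw [hsplit, Finset.sum_union hdisj] at h2
      have h3 : ∑ c ∈ Sᶜ, h (σ * Equiv.swap a c)
          = - ∑ c ∈ R' \ R'', h (σ * Equiv.swap a c) := by linarith
      rw [h3]
      unfold rt
      rw [← hNdef]
      ring
    have hER : EM R' *ᵥ h = fun σ => - (1 / N) *
        ∑ b ∈ R' \ R'', (EM R' *ᵥ rt (Equiv.swap a b) h) σ := by
      have h2 := (hmul R' S Finset.subset_union_left).1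
      have h3 : EM R' *ᵥ h = EM R' *ᵥ (EM S *ᵥ h) := by
        rw [Matrix.mulVec_mulVec, h2]
      rw [h3, hES2]
      funext σ
      simp only [Matrix.mulVec, dotProduct]
      rw [Finset.sum_comm, Finset.mul_sum]
      apply Finset.sum_congr rfl
      intro τ _
      rw [← Finset.mul_sum]
      ring
    -- induction hypothesis for each b
    have hcb : (R' \ R'').card = j + 1 := by
      have h2 : (R' \ R'').card = (R'' \ R').card := by
        have h3 := Finset.card_sdiff_add_card_inter R' R''
        have h4 := Finset.card_sdiff_add_card_inter R'' R'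
        rw [Finset.inter_comm] at h4
        omega
      omega
    have hib : ∀ b ∈ R' \ R'',
        (EM R' *ᵥ rt (Equiv.swap a b) h) ⬝ᵥ (EM R' *ᵥ rt (Equiv.swap a b) h) ≤
        (((j.factorial : ℕ) : ℝ) / ((Fintype.card W - k).descFactorial j : ℝ)) ^ 2 * (h ⬝ᵥ h) := by
      intro b hb
      rw [Finset.mem_sdiff] at hb
      have hmapE : ∀ R : Finset W, a ∈ R → b ∉ R →
          R.map (Equiv.swap a b).toEmbedding = insert b (R.erase a) := by
        intro R haR hbR
        ext x
        simp only [Finset.mem_map, Equiv.coe_toEmbedding, Finset.mem_insert, Finset.mem_erase]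
        constructor
        · rintro ⟨y, hy, rfl⟩
          by_cases hya : y = a
          · left; rw [hya, Equiv.swap_apply_left]
          · right
            have hyb : y ≠ b := by rintro rfl; exact hbR hy
            rw [Equiv.swap_apply_of_ne_of_ne hya hyb]
            exact ⟨hya, hy⟩
        · rintro (rfl | ⟨hx, hx2⟩)
          · exact ⟨a, haR, Equiv.swap_apply_left _ _⟩
          · refine ⟨x, hx2, Equiv.swap_apply_of_ne_of_ne hx ?_⟩
            rintro rfl
            exact hbR hx2
      rw [← dot_rt (Equiv.swap a b) h]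
      apply ih (R''.map (Equiv.swap a b).toEmbedding) (rt (Equiv.swap a b) h)
      · rw [Finset.card_map]; exact hR''
      · rw [em_rt, hE]
      · intro c hc
        rw [Finset.mem_map] at hc
        obtain ⟨y, hy, rfl⟩ := hc
        rw [← Finset.map_erase, em_rt, hP y hy]
        funext σ
        rfl
      · rw [hmapE R'' haR hb.2]
        rw [Finset.insert_sdiff_of_mem _ hb.1]
        have h2 : R''.erase a \ R' = (R'' \ R').erase a := by
          rw [Finset.erase_sdiff_comm]
        rw [h2, Finset.card_erase_of_mem (Finset.mem_sdiff.2 ⟨haR, haR'⟩), hj]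
        simp
    -- conclusion
    set C : ℝ := ((j.factorial : ℕ) : ℝ) / ((Fintype.card W - k).descFactorial j : ℝ) with hC
    have hfin : (EM R' *ᵥ h) ⬝ᵥ (EM R' *ᵥ h)
        ≤ (1 / N) ^ 2 * ((j + 1 : ℝ) * ((j + 1 : ℝ) * (C ^ 2 * (h ⬝ᵥ h)))) := by
      have h2 : (EM R' *ᵥ h) ⬝ᵥ (EM R' *ᵥ h) ≤ (1 / N) ^ 2 * ((j + 1 : ℝ) *
          ∑ b ∈ R' \ R'', (EM R' *ᵥ rt (Equiv.swap a b) h) ⬝ᵥ
            (EM R' *ᵥ rt (Equiv.swap a b) h)) := by
        conv_lhs => rw [hER]
        unfold dotProduct
        rw [Finset.sum_comm, Finset.mul_sum, Finset.mul_sum]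
        apply Finset.sum_le_sum
        intro σ _
        have h3 := sq_sum_le_card_mul_sum_sq (s := R' \ R'')
          (f := fun b => (EM R' *ᵥ rt (Equiv.swap a b) h) σ)
        rw [hcb] at h3
        push_cast at h3
        have h4 : ∑ b ∈ R' \ R'', (EM R' *ᵥ rt (Equiv.swap a b) h) σ ^ 2
            = ∑ b ∈ R' \ R'', (EM R' *ᵥ rt (Equiv.swap a b) h) σ *
              (EM R' *ᵥ rt (Equiv.swap a b) h) σ := by
          apply Finset.sum_congr rfl
          intro b _
          ring
        rw [h4] at h3
        calc _ = (1 / N) ^ 2 * (∑ b ∈ R' \ R'', (EM R' *ᵥ rt (Equiv.swap a b) h) σ) ^ 2 := by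
              ring
          _ ≤ _ := by
              apply mul_le_mul_of_nonneg_left h3 (by positivity)
      refine h2.trans ?_
      apply mul_le_mul_of_nonneg_left _ (by positivity)
      apply mul_le_mul_of_nonneg_left _ (by positivity)
      calc _ ≤ ∑ b ∈ R' \ R'', C ^ 2 * (h ⬝ᵥ h) := Finset.sum_le_sum hib
        _ = _ := by
            rw [Finset.sum_const, hcb, nsmul_eq_mul]
            push_cast
            ring
    refine hfin.trans (le_of_eq ?_)
    have hd : ((Fintype.card W - k).descFactorial (j + 1) : ℝ)
        = N * ((Fintype.card W - k).descFactorial j : ℝ) := by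
      rw [Nat.descFactorial_succ, hNdef]
      push_cast
      ring
    have hdp : (0 : ℝ) < ((Fintype.card W - k).descFactorial j : ℝ) := by
      have : 0 < (Fintype.card W - k).descFactorial j := by
        rw [Nat.pos_iff_ne_zero]
        intro h0
        rw [Nat.descFactorial_eq_zero_iff_lt] at h0
        omega
      exact_mod_cast this
    rw [hd, Nat.factorial_succ, hC]
    push_cast
    field_simp

end Crest.Agent.R155
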