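import Crest.Agent.R155.XULib

/-!
Row 155, task REC: contraction of one pass by recursion (helper13).
-/

set_option autoImplicit false

namespace Crest.Agent.R155

open scoped BigOperators Matrix
open Finset Matrix

namespace REC

open Crest.Agent.R155.LA Crest.Agent.R155.XUL

/-! ### splitting off the top bit -/

/-- top bit last -/
def eTop (D : ℕ) : V (D + 1) ≃ V D × Bool where
  toFun x := (fun i => x i.castSucc, x (Fin.last D))
  invFun p := Fin.snoc (α := fun _ => Bool) p.1 p.2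
  left_inv x := by
    funext i
    refine Fin.lastCases ?_ (fun i => ?_) i <;> simp
  right_inv p := by
    ext i <;> simp

/-- act on one half -/
def extB {A : Type} (b : Bool) : Equiv.Perm A →* Equiv.Perm (A × Bool) where
  toFun π :=
    { toFun := fun p => if p.2 = b then (π p.1, p.2) else p
      invFun := fun p => if p.2 = b then (π.symm p.1, p.2) else p
      left_inv := fun p => by
        obtain ⟨a, c⟩ := p
        by_cases h : c = b <;> simp [h]
      right_inv := fun p => by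
        obtain ⟨a, c⟩ := p
        by_cases h : c = b <;> simp [h] }
  map_one' := by
    ext p
    · by_cases h : p.2 = b <;> simp [h]
    · by_cases h : p.2 = b <;> simp [h]
  map_mul' π σ := by
    apply Equiv.ext
    intro p
    by_cases h : p.2 = b <;> simp [h]

theorem extB_apply {A : Type} (b : Bool) (π : Equiv.Perm A) (p : A × Bool) :
    extB b π p = if p.2 = b then (π p.1, p.2) else p := rfl

theorem extB_comm {A : Type} (π σ : Equiv.Perm A) :
    Commute (extB false π) (extB true σ) := by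
  apply Equiv.ext
  rintro ⟨a, b⟩
  cases b <;> simp [extB_apply]

theorem extB_swap {A : Type} [DecidableEq A] (b : Bool) (x y : A) :
    extB b (Equiv.swap x y) = Equiv.swap (x, b) (y, b) := by
  apply Equiv.ext
  rintro ⟨a, c⟩
  rw [extB_apply]
  simp only [Equiv.swap_apply_def, Prod.mk.injEq]
  by_cases hc : c = b
  · subst hc
    by_cases h1 : a = x
    · subst h1; simp
    · by_cases h2 : a = y
      · subst h2; simp [h1]
      · simp [h1, h2]
  · simp [hc]

/-- transport to `V (D+1)` -/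
def F (D : ℕ) : Equiv.Perm (V D × Bool) →* Equiv.Perm (V (D + 1)) :=
  (eTop D).symm.permCongrHom.toMonoidHom

theorem F_apply (D : ℕ) (π : Equiv.Perm (V D × Bool)) (x : V (D + 1)) :
    F D π x = (eTop D).symm (π (eTop D x)) := rfl

theorem F_swap (D : ℕ) (a b : V D × Bool) :
    F D (Equiv.swap a b) = Equiv.swap ((eTop D).symm a) ((eTop D).symm b) := by
  apply Equiv.ext
  intro x
  rw [F_apply]
  simp only [Equiv.swap_apply_def]
  by_cases h1 : eTop D x = a
  · subst h1; simp
  · have h1' : x ≠ (eTop D).symm a := fun h => h1 (by rw [h]; simp)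
    by_cases h2 : eTop D x = b
    · subst h2; simp [h1, h1']
    · have h2' : x ≠ (eTop D).symm b := fun h => h2 (by rw [h]; simp)
      simp [h1, h2, h1', h2']

/-- coins of a half -/
def half {D : ℕ} (b : Bool) (c : Coins (D + 1)) : Coins D :=
  fun j k => c j.castSucc (Fin.snoc (α := fun _ => Bool) k b)

theorem stage_castSucc {D : ℕ} (r : Fin D) (f : V (D + 1) → Bool) :
    stage r.castSucc f =
      F D (extB false (stage r fun k => f (Fin.snoc (α := fun _ => Bool) k false))) *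
      F D (extB true (stage r fun k => f (Fin.snoc (α := fun _ => Bool) k true))) := by
  apply Equiv.ext
  intro x
  rw [Equiv.Perm.mul_apply, F_apply, F_apply]
  obtain ⟨⟨y, b⟩, rfl⟩ := (eTop D).symm.surjective x
  rw [Equiv.apply_symm_apply, Equiv.apply_symm_apply]
  change stageFun r.castSucc f (Fin.snoc (α := fun _ => Bool) y b) = _
  cases b
  · simp only [extB_apply]
    change stageFun r.castSucc f (Fin.snoc (α := fun _ => Bool) y false) =
      Fin.snoc (α := fun _ => Bool) (stageFun r (fun k => f (Fin.snoc (α := fun _ => Bool) k false)) y) false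
    unfold stageFun
    simp only [Fin.snoc_update, Fin.snoc_castSucc]
  · simp only [extB_apply]
    change stageFun r.castSucc f (Fin.snoc (α := fun _ => Bool) y true) =
      Fin.snoc (α := fun _ => Bool) (stageFun r (fun k => f (Fin.snoc (α := fun _ => Bool) k true)) y) true
    unfold stageFun
    simp only [Fin.snoc_update, Fin.snoc_castSucc]

theorem prod_split {G H K : Type} [Monoid G] [Monoid H] [Monoid K] (a : G →* K) (b : H →* K)
    (hc : ∀ g h, Commute (a g) (b h)) (n : ℕ) (g : Fin n → G) (h : Fin n → H) :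
    (List.ofFn fun i => a (g i) * b (h i)).prod = a (List.ofFn g).prod * b (List.ofFn h).prod := by
  induction n with
  | zero => simp
  | succ n ih =>
    simp only [List.ofFn_succ, List.prod_cons, map_mul]
    rw [ih]
    have := (hc (List.ofFn fun i => g (Fin.succ i)).prod (h 0)).eq
    rw [mul_assoc, mul_assoc, ← mul_assoc (b (h 0)), ← this, mul_assoc]

theorem pass_split {D : ℕ} (c : Coins (D + 1)) :
    pass c = F D (extB false (pass (half false c))) * F D (extB true (pass (half true c))) *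
      stage (Fin.last D) (c (Fin.last D)) := by
  unfold pass
  rw [List.ofFn_succ', List.concat_eq_append, List.prod_append, List.prod_singleton]
  congr 1
  simp only [stage_castSucc]
  exact prod_split ((F D).comp (extB false)) ((F D).comp (extB true))
    (fun g h => (extB_comm g h).map (F D)) D _ _

/-! ### one stage -/

theorem stage_apply {D : ℕ} (r : Fin D) (f : V D → Bool) (x : V D) :
    stage r f x = stageFun r f x := rfl

theorem stage_mul {D : ℕ} (r : Fin D) (f g : V D → Bool) :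
    stage r f * stage r g = stage r fun k => xor (f k) (g k) := by
  apply Equiv.ext
  intro x
  rw [Equiv.Perm.mul_apply, stage_apply, stage_apply, stage_apply]
  unfold stageFun
  simp only [Function.update_self, Function.update_idem]
  congr 1
  rw [Bool.xor_assoc, Bool.xor_comm (g _)]

theorem stage_false {D : ℕ} (r : Fin D) : stage r (fun _ => false) = 1 := by
  apply Equiv.ext
  intro x
  rw [stage_apply, Equiv.Perm.one_apply]
  unfold stageFun
  simp

theorem stage_inv {D : ℕ} (r : Fin D) (f : V D → Bool) : (stage r f)⁻¹ = stage r f := by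
  rw [inv_eq_iff_mul_eq_one, stage_mul]
  simp [stage_false]

variable {m : Type} [Fintype m] [DecidableEq m]

/-- average of a stage -/
noncomputable def PS {D : ℕ} (U : Equiv.Perm (V D) →* Matrix m m ℝ) (r : Fin D) : Matrix m m ℝ :=
  ((Fintype.card (V D → Bool) : ℝ)⁻¹) • ∑ f : V D → Bool, U (stage r f)

theorem PS_symm {D : ℕ} (U : Equiv.Perm (V D) →* Matrix m m ℝ) (hU : ∀ g, (U g)ᵀ = U g⁻¹)
    (r : Fin D) : (PS U r)ᵀ = PS U r := by
  unfold PS
  rw [transpose_smul, transpose_sum]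
  congr 1
  exact Finset.sum_congr rfl fun f _ => by rw [hU, stage_inv]

theorem mul_PS {D : ℕ} (U : Equiv.Perm (V D) →* Matrix m m ℝ) (r : Fin D) (g : V D → Bool) :
    U (stage r g) * PS U r = PS U r := by
  unfold PS
  rw [Matrix.mul_smul, Finset.mul_sum]
  congr 1
  refine Fintype.sum_bijective (fun f k => xor (g k) (f k)) ?_ _ _ fun f => ?_
  · apply Function.Involutive.bijective
    intro f
    funext k
    simp
  · rw [← map_mul, stage_mul]

theorem PS_idem {D : ℕ} (U : Equiv.Perm (V D) →* Matrix m m ℝ) (r : Fin D) :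
    PS U r * PS U r = PS U r := by
  conv_lhs => unfold PS
  rw [Matrix.smul_mul, Finset.sum_mul]
  have h : ∀ f : V D → Bool, U (stage r f) *
      ((Fintype.card (V D → Bool) : ℝ)⁻¹ • ∑ f : V D → Bool, U (stage r f)) = PS U r :=
    fun f => mul_PS U r f
  rw [Finset.sum_congr rfl fun f _ => h f, Finset.sum_const, Finset.card_univ,
    ← Nat.cast_smul_eq_nsmul ℝ, smul_smul, inv_mul_cancel₀, one_smul]
  exact_mod_cast Fintype.card_ne_zero

theorem PS_comm {D : ℕ} (U : Equiv.Perm (V D) →* Matrix m m ℝ) (r : Fin D) :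
    Commute (XU U) (PS U r) := by
  unfold PS
  refine Commute.smul_right (Commute.sum_right _ _ _ fun f _ => XU_comm U _) _

/-! ### the average over the coins -/

theorem KU_eq {D : ℕ} (U : Equiv.Perm (V D) →* Matrix m m ℝ) :
    KU U = ((Fintype.card (Coins D) : ℝ)⁻¹) • ∑ c : Coins D, U (pass c) := by
  ext i j
  unfold KU av
  rw [Matrix.smul_apply, Matrix.sum_apply, div_eq_inv_mul, smul_eq_mul]

/-- split the coins -/
def coinEquiv (D : ℕ) : Coins (D + 1) ≃ (Coins D × Coins D) × (V (D + 1) → Bool) where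
  toFun c := ((half false c, half true c), c (Fin.last D))
  invFun q := Fin.snoc (α := fun _ => V (D + 1) → Bool)
    (fun i k => if k (Fin.last D) = true then q.1.2 i (fun j => k j.castSucc)
      else q.1.1 i (fun j => k j.castSucc)) q.2
  left_inv c := by
    funext j
    refine Fin.lastCases ?_ (fun i => ?_) j
    · simp
    · funext k
      obtain ⟨⟨y, b⟩, rfl⟩ := (eTop D).symm.surjective k
      simp only [Fin.snoc_castSucc]
      change (if (Fin.snoc (α := fun _ => Bool) y b : V (D + 1)) (Fin.last D) = true then _ else _) = _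
      cases b <;> simp [half, eTop]
  right_inv q := by
    obtain ⟨⟨q1, q2⟩, q3⟩ := q
    simp only [Prod.mk.injEq]
    refine ⟨⟨?_, ?_⟩, ?_⟩
    · funext i k
      simp [half]
    · funext i k
      simp [half]
    · simp

theorem KU_split {D : ℕ} (U : Equiv.Perm (V (D + 1)) →* Matrix m m ℝ) :
    KU U = KU ((U.comp (F D)).comp (extB false)) * KU ((U.comp (F D)).comp (extB true)) *
      PS U (Fin.last D) := by
  rw [KU_eq, KU_eq, KU_eq, PS]
  simp only [Matrix.smul_mul, Matrix.mul_smul, smul_smul]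
  have hcard : (Fintype.card (Coins (D + 1)) : ℝ) =
      Fintype.card (Coins D) * Fintype.card (Coins D) * Fintype.card (V (D + 1) → Bool) := by
    rw [Fintype.card_congr (coinEquiv D), Fintype.card_prod, Fintype.card_prod]
    push_cast
    ring
  have hL : ∑ c : Coins (D + 1), U (pass c) =
      ∑ q : (Coins D × Coins D) × (V (D + 1) → Bool),
        ((U.comp (F D)).comp (extB false)) (pass q.1.1) *
          ((U.comp (F D)).comp (extB true)) (pass q.1.2) * U (stage (Fin.last D) q.2) := by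
    refine Fintype.sum_equiv (coinEquiv D) _ _ fun c => ?_
    rw [pass_split, map_mul, map_mul]
    rfl
  congr 1
  · rw [hcard, mul_inv, mul_inv]
    ring
  · rw [hL, Fintype.sum_prod_type, Fintype.sum_prod_type]
    simp only [Finset.mul_sum, Finset.sum_mul]
    conv_lhs => rw [Finset.sum_comm]
    conv_rhs => rw [Finset.sum_comm]
    exact Finset.sum_congr rfl fun c1 _ => Finset.sum_comm

/-! ### the generators -/

theorem eTop_symm_last {D : ℕ} (p : V D × Bool) : (eTop D).symm p (Fin.last D) = p.2 := by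
  simp [eTop]

theorem XU_F {D : ℕ} (U : Equiv.Perm (V (D + 1)) →* Matrix m m ℝ) :
    XU (U.comp (F D)) = XU U := by
  unfold XU
  rw [← Fintype.card_congr (eTop D)]
  congr 1
  refine Fintype.sum_equiv (Equiv.prodCongr (eTop D).symm (eTop D).symm) _ _ fun p => ?_
  rw [MonoidHom.comp_apply, F_swap]
  rfl

theorem SU_eq {A : Type} [Fintype A] [DecidableEq A]
    (U : Equiv.Perm (A × Bool) →* Matrix m m ℝ) :
    SU U = XU (U.comp (extB false)) + XU (U.comp (extB true)) := by
  unfold SU XU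
  rw [Fintype.sum_bool, ← smul_add, add_comm]
  simp only [MonoidHom.comp_apply, extB_swap]

theorem swap_eq_stage {D : ℕ} (x : V D) :
    F D (Equiv.swap (x, false) (x, true)) =
      stage (Fin.last D) fun k => decide (k = (eTop D).symm (x, false)) := by
  apply Equiv.ext
  intro y
  rw [F_swap, stage_apply]
  obtain ⟨⟨w, b⟩, rfl⟩ := (eTop D).symm.surjective y
  have hupd : ∀ (w : V D) (b c : Bool),
      Function.update ((eTop D).symm (w, b)) (Fin.last D) c = (eTop D).symm (w, c) := by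
    intro w b c
    change Function.update (Fin.snoc (α := fun _ => Bool) w b) (Fin.last D) c =
      Fin.snoc (α := fun _ => Bool) w c
    rw [Fin.update_snoc_last]
  unfold stageFun
  rw [hupd, hupd, eTop_symm_last]
  by_cases h : w = x
  · subst h
    cases b <;> simp
  · have h1 : ((eTop D).symm (w, false) = (eTop D).symm (x, false)) ↔ False := by
      simp [h]
    simp only [h1]
    rw [Equiv.swap_apply_of_ne_of_ne]
    · simp
    · simp [h]
    · simp [h]

/-! ### the induction -/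

theorem base (U : Equiv.Perm (V 1) →* Matrix m m ℝ) : XU U * PS U 0 = 0 := by
  unfold XU
  rw [Matrix.smul_mul, Finset.sum_mul, Finset.sum_eq_zero, smul_zero]
  intro p _
  rw [sub_mul, one_mul, sub_eq_zero]
  have h : ∀ p q : V 1, Equiv.swap p q = stage 0 fun _ => decide (p ≠ q) := by decide
  rw [h, mul_PS]

theorem KU_zero (U : Equiv.Perm (V 0) →* Matrix m m ℝ) : KU U = 1 := by
  rw [KU_eq]
  have h : ∀ c : Coins 0, U (pass c) = 1 := by
    intro c
    rw [show pass c = 1 from Subsingleton.elim _ _, map_one]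
  rw [Finset.sum_congr rfl fun c _ => h c, Finset.sum_const, Finset.card_univ,
    ← Nat.cast_smul_eq_nsmul ℝ, smul_smul, inv_mul_cancel₀, one_smul]
  exact_mod_cast Fintype.card_ne_zero

theorem exp_ge_lin (X : Matrix m m ℝ) (hX : Xᵀ = X) (t : ℝ) (v : m → ℝ) :
    v ⬝ᵥ v - t * (v ⬝ᵥ (X *ᵥ v)) ≤ v ⬝ᵥ (NormedSpace.exp (-(t • X)) *ᵥ v) := by
  obtain ⟨O, l, h1, h2, h3, h4⟩ := spec X hX
  have e1 : v ⬝ᵥ (X *ᵥ v) = ∑ i, l i * ((Oᵀ *ᵥ v) i) ^ 2 := by
    conv_lhs => rw [h3]
    exact quad O l v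
  rw [← neg_smul, h4, quad, e1, quad_one O h1, Finset.mul_sum, ← Finset.sum_sub_distrib]
  refine Finset.sum_le_sum fun i _ => ?_
  have := Real.add_one_le_exp (-t * l i)
  nlinarith [sq_nonneg ((Oᵀ *ᵥ v) i)]

theorem exp_sandwich (X Y : Matrix m m ℝ) (hc : Commute X Y) (θ : ℝ) :
    NormedSpace.exp (-((θ / 2) • X)) * (NormedSpace.exp (-(θ • Y)) *
      NormedSpace.exp (-((θ / 2) • X))) = NormedSpace.exp (-(θ • (X + Y))) := by
  have a1 : Commute (-(θ • Y)) (-((θ / 2) • X)) :=
    (((hc.symm.smul_left θ).smul_right (θ / 2)).neg_left).neg_right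
  have a2 : Commute (-((θ / 2) • X)) (-(θ • Y) + -((θ / 2) • X)) :=
    a1.symm.add_right (Commute.refl _)
  rw [← Matrix.exp_add_of_commute _ _ a1, ← Matrix.exp_add_of_commute _ _ a2]
  congr 1
  have : θ • X = (θ / 2) • X + (θ / 2) • X := by
    rw [← add_smul]; congr 1; ring
  rw [smul_add, this]
  abel

theorem chain_step {X0 X1 K0 K1 : Matrix m m ℝ} (hX0 : X0ᵀ = X0)
    (c1 : Commute X0 K1) (c2 : Commute X0 X1) (θ : ℝ)
    (i0 : ∀ f : m → ℝ, (K0 *ᵥ f) ⬝ᵥ (K0 *ᵥ f) ≤ f ⬝ᵥ (NormedSpace.exp (-(θ • X0)) *ᵥ f))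
    (i1 : ∀ f : m → ℝ, (K1 *ᵥ f) ⬝ᵥ (K1 *ᵥ f) ≤ f ⬝ᵥ (NormedSpace.exp (-(θ • X1)) *ᵥ f))
    (w : m → ℝ) :
    (K0 *ᵥ (K1 *ᵥ w)) ⬝ᵥ (K0 *ᵥ (K1 *ᵥ w)) ≤
      w ⬝ᵥ (NormedSpace.exp (-(θ • (X0 + X1))) *ᵥ w) := by
  refine le_trans (i0 (K1 *ᵥ w)) ?_
  rw [exp_half _ hX0]
  have e1 : NormedSpace.exp (-((θ / 2) • X0)) *ᵥ (K1 *ᵥ w) =
      K1 *ᵥ (NormedSpace.exp (-((θ / 2) • X0)) *ᵥ w) := by
    rw [mulVec_mulVec, mulVec_mulVec, (exp_comm c1 (θ / 2)).eq]
  rw [e1]
  refine le_trans (i1 _) (le_of_eq ?_)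
  rw [← dot_symm _ (exp_symm _ hX0 _), mulVec_mulVec, mulVec_mulVec, ← exp_sandwich X0 X1 c2 θ,
    Matrix.mul_assoc]

theorem num_step (N : ℝ) (hN2 : 2 ≤ N) :
    0 ≤ 3 / 40 + 1 / (10 * N) ∧ 3 / 40 + 1 / (10 * N) ≤ 1 / 8 ∧
    3 / 40 + 1 / (10 * (2 * N)) ≤
      (3 / 40 + 1 / (10 * N)) - 3 * (3 / 40 + 1 / (10 * N)) ^ 2 / N := by
  have h0 : 0 ≤ 1 / (10 * N) := by positivity
  have h1 : 1 / (10 * N) ≤ 1 / 20 := by
    apply one_div_le_one_div_of_le <;> linarith
  refine ⟨by linarith, by linarith, ?_⟩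
  have h2 : (3 / 40 + 1 / (10 * N)) ^ 2 ≤ 1 / 64 := by nlinarith
  have e4 : 1 / (10 * N) - 1 / (10 * (2 * N)) = 1 / 20 / N := by
    field_simp; ring
  have e5 : 3 * (3 / 40 + 1 / (10 * N)) ^ 2 / N ≤ 1 / 20 / N := by
    apply div_le_div_of_nonneg_right _ (by linarith)
    linarith
  linarith

theorem XU_comm_of {W W' : Type} [Fintype W] [DecidableEq W] [Fintype W'] [DecidableEq W']
    (U0 : Equiv.Perm W →* Matrix m m ℝ) (U1 : Equiv.Perm W' →* Matrix m m ℝ)
    (hc : ∀ g h, Commute (U0 g) (U1 h)) (h : Equiv.Perm W') : Commute (XU U0) (U1 h) := by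
  unfold XU
  refine Commute.smul_left (Commute.sum_left _ _ _ fun p _ => ?_) _
  exact (Commute.one_left _).sub_left (hc _ _)

theorem XU_comm_KU {W : Type} [Fintype W] [DecidableEq W] {D : ℕ}
    (U0 : Equiv.Perm W →* Matrix m m ℝ) (U1 : Equiv.Perm (V D) →* Matrix m m ℝ)
    (hc : ∀ g h, Commute (U0 g) (U1 h)) : Commute (XU U0) (KU U1) := by
  rw [KU_eq]
  exact Commute.smul_right (Commute.sum_right _ _ _ fun c _ => XU_comm_of U0 U1 hc _) _

theorem XU_comm_XU {W W' : Type} [Fintype W] [DecidableEq W] [Fintype W'] [DecidableEq W']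
    (U0 : Equiv.Perm W →* Matrix m m ℝ) (U1 : Equiv.Perm W' →* Matrix m m ℝ)
    (hc : ∀ g h, Commute (U0 g) (U1 h)) : Commute (XU U0) (XU U1) := by
  have h := XU_comm_of U0 U1 hc
  unfold XU at *
  refine Commute.smul_right (Commute.sum_right _ _ _ fun p _ => ?_) _
  exact (Commute.one_right _).sub_right (h _)

theorem comp_tr {G H : Type} [Group G] [Group H] (U : G →* Matrix m m ℝ) (a : H →* G)
    (hU : ∀ g, (U g)ᵀ = U g⁻¹) (h : H) : ((U.comp a) h)ᵀ = (U.comp a) h⁻¹ := by
  have : a h⁻¹ = (a h)⁻¹ := map_inv a h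
  rw [MonoidHom.comp_apply, hU, MonoidHom.comp_apply, this]

theorem main_step (h1 : StOne) (D : ℕ)
    (ih : ∀ (m : Type) [Fintype m] [DecidableEq m]
      (U : Equiv.Perm (V (D + 1)) →* Matrix m m ℝ) (f : m → ℝ), (∀ g, (U g)ᵀ = U g⁻¹) →
      (KU U *ᵥ f) ⬝ᵥ (KU U *ᵥ f)
        ≤ f ⬝ᵥ (NormedSpace.exp (-((3 / 40 + 1 / (10 * (2 : ℝ) ^ (D + 1))) • XU U)) *ᵥ f))
    (U : Equiv.Perm (V (D + 1 + 1)) →* Matrix m m ℝ) (f : m → ℝ) (hU : ∀ g, (U g)ᵀ = U g⁻¹) :
    (KU U *ᵥ f) ⬝ᵥ (KU U *ᵥ f)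
        ≤ f ⬝ᵥ (NormedSpace.exp (-((3 / 40 + 1 / (10 * (2 : ℝ) ^ (D + 1 + 1))) • XU U)) *ᵥ f) := by
  have hU' : ∀ g, ((U.comp (F (D + 1))) g)ᵀ = (U.comp (F (D + 1))) g⁻¹ := comp_tr U _ hU
  have hU0 := comp_tr (U.comp (F (D + 1))) (extB false) hU'
  have hU1 := comp_tr (U.comp (F (D + 1))) (extB true) hU'
  have hcomm : ∀ g h, Commute (((U.comp (F (D + 1))).comp (extB false)) g)
      (((U.comp (F (D + 1))).comp (extB true)) h) :=
    fun g h => (extB_comm g h).map (U.comp (F (D + 1)))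
  have hN2 : (2 : ℝ) ≤ 2 ^ (D + 1) := by
    rw [pow_succ]
    have : (1 : ℝ) ≤ 2 ^ D := one_le_pow₀ (by norm_num)
    linarith
  obtain ⟨n1, n2, n3⟩ := num_step _ hN2
  have s2 := chain_step (XU_symm _ hU0) (XU_comm_KU _ _ hcomm) (XU_comm_XU _ _ hcomm)
    (3 / 40 + 1 / (10 * (2 : ℝ) ^ (D + 1))) (fun f => ih m _ f hU0) (fun f => ih m _ f hU1)
    (PS U (Fin.last (D + 1)) *ᵥ f)
  rw [← SU_eq, mulVec_mulVec, mulVec_mulVec, ← KU_split] at s2
  refine le_trans s2 ?_
  have hfix : ∀ x : V (D + 1), (U.comp (F (D + 1))) (Equiv.swap (x, false) (x, true)) *ᵥ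
      (PS U (Fin.last (D + 1)) *ᵥ f) = PS U (Fin.last (D + 1)) *ᵥ f := by
    intro x
    rw [MonoidHom.comp_apply, swap_eq_stage, mulVec_mulVec, mul_PS]
  have s3 := h1 (V (D + 1)) m (U.comp (F (D + 1))) (PS U (Fin.last (D + 1)) *ᵥ f)
    (3 / 40 + 1 / (10 * (2 : ℝ) ^ (D + 1))) hU' hfix n1 n2
  have hcard : (Fintype.card (V (D + 1)) : ℝ) = 2 ^ (D + 1) := by
    simp
  rw [hcard, XU_F] at s3
  refine le_trans s3 ?_
  refine le_trans (exp_proj (XU U) _ (XU_symm U hU) (PS_symm U hU _) (PS_idem U _)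
    (PS_comm U _) _ f) ?_
  refine exp_mono (XU U) (XU_symm U hU) (XU_psd U hU) _ _ ?_ f
  rw [show (2 : ℝ) ^ (D + 1 + 1) = 2 * 2 ^ (D + 1) by ring]
  exact n3

end REC

open REC LA XUL in
theorem recU (h1 : StOne) : StRec := by
  intro D
  induction D with
  | zero =>
    intro m _ _ U f hU
    rw [KU_split, KU_zero, KU_zero, one_mul, one_mul]
    have hX := XU_symm U hU
    refine le_trans ?_ (exp_proj (XU U) (PS U (Fin.last 0)) hX (PS_symm U hU _) (PS_idem U _)
      (PS_comm U _) _ f)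
    refine le_trans ?_ (exp_ge_lin (XU U) hX _ _)
    have h0 : XU U *ᵥ (PS U (Fin.last 0) *ᵥ f) = 0 := by
      rw [mulVec_mulVec, show (Fin.last 0) = (0 : Fin 1) from rfl, base, zero_mulVec]
    rw [h0, dotProduct_zero, mul_zero, sub_zero]
  | succ D ih =>
    intro m _ _ U f hU
    exact main_step h1 D ih U f hU

end Crest.Agent.R155
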