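import Crest.Agent.R155.Defs

set_option autoImplicit false

namespace Crest.Agent.R155

open scoped BigOperators
open Finset

/-- stages `k, …, D-1` applied -/
def tailP {D : ℕ} (c : Coins D) (k : ℕ) : Equiv.Perm (V D) :=
  ((List.ofFn fun r => stage r (c r)).drop k).prod

theorem tailP_zero {D : ℕ} (c : Coins D) : tailP c 0 = pass c := by
  simp [tailP, pass]

theorem tailP_top {D : ℕ} (c : Coins D) {k : ℕ} (hk : D ≤ k) : tailP c k = 1 := by
  unfold tailP
  rw [List.drop_eq_nil_of_le (by simpa using hk)]
  rfl

theorem tailP_succ {D : ℕ} (c : Coins D) (r : Fin D) :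
    tailP c (r : ℕ) = stage r (c r) * tailP c ((r : ℕ) + 1) := by
  unfold tailP
  rw [List.drop_eq_getElem_cons (by simp), List.prod_cons]
  simp

theorem stage_apply {D : ℕ} (r : Fin D) (f : V D → Bool) (x : V D) :
    stage r f x = Function.update x r (xor (x r) (f (Function.update x r false))) := rfl

theorem stage_apply_ne {D : ℕ} (r : Fin D) (f : V D → Bool) (x : V D) {j : Fin D} (h : j ≠ r) :
    stage r f x j = x j := by
  rw [stage_apply, Function.update_of_ne h]

theorem stage_apply_self {D : ℕ} (r : Fin D) (f : V D → Bool) (x : V D) :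
    stage r f x r = xor (x r) (f (Function.update x r false)) := by
  rw [stage_apply, Function.update_self]

/-- coordinates below `k` are unchanged -/
theorem tailP_low {D : ℕ} (c : Coins D) (y : V D) (n : ℕ) :
    ∀ k, D ≤ k + n → ∀ j : Fin D, (j : ℕ) < k → tailP c k y j = y j := by
  induction n with
  | zero =>
    intro k hk j hj
    rw [tailP_top c (by omega)]
    rfl
  | succ n ih =>
    intro k hk j hj
    by_cases hkD : D ≤ k
    · rw [tailP_top c hkD]; rfl
    · push Not at hkD
      have := tailP_succ c ⟨k, hkD⟩
      simp only at this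
      rw [this, Equiv.Perm.mul_apply, stage_apply_ne _ _ _ (by
        intro h
        rw [h] at hj
        simp at hj)]
      exact ih (k + 1) (by omega) j (by omega)

theorem tailP_high {D : ℕ} (c : Coins D) (y : V D) (k : ℕ) :
    ∀ j : Fin D, k ≤ (j : ℕ) → tailP c k y j = pass c y j := by
  induction k with
  | zero =>
    intro j _
    rw [tailP_zero]
  | succ k ih =>
    intro j hj
    have hkD : k < D := by omega
    rw [← ih j (by omega)]
    have := tailP_succ c ⟨k, hkD⟩
    simp only at this
    rw [this, Equiv.Perm.mul_apply, stage_apply_ne _ _ _ (by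
        intro h
        rw [h] at hj
        simp at hj)]

theorem pass_rel {D : ℕ} (c : Coins D) (y : V D) : Rel c y (pass c y) := by
  intro r
  have h1 : tailP c (r : ℕ) y r = pass c y r := tailP_high c y _ r le_rfl
  rw [tailP_succ, Equiv.Perm.mul_apply, stage_apply_self] at h1
  rw [← h1, tailP_low c y D _ (by omega) r (by omega)]
  congr 2
  funext j
  unfold key
  rcases lt_trichotomy j r with h | h | h
  · rw [if_pos h, Function.update_of_ne h.ne]
    exact tailP_low c y D _ (by omega) j (by
      have : (j : ℕ) < r := h
      omega)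
  · subst h
    simp
  · rw [if_neg (not_lt.mpr h.le), if_neg h.ne', Function.update_of_ne h.ne']
    exact tailP_high c y _ j h

theorem key_congr {D : ℕ} (r : Fin D) {y z y' z' : V D} (h1 : ∀ j, j < r → y j = y' j)
    (h2 : ∀ j, r < j → z j = z' j) : key r y z = key r y' z' := by
  funext j
  unfold key
  by_cases h : j < r
  · rw [if_pos h, if_pos h, h1 j h]
  · rw [if_neg h, if_neg h]
    by_cases h' : j = r
    · rw [if_pos h', if_pos h']
    · rw [if_neg h', if_neg h']
      exact h2 j (lt_of_le_of_ne (not_lt.mp h) (Ne.symm h'))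

theorem key_eq_low {D : ℕ} {r : Fin D} {y z y' z' : V D} (h : key r y z = key r y' z') {j : Fin D}
    (hj : j < r) : y j = y' j := by
  have := congrFun h j
  unfold key at this
  rwa [if_pos hj, if_pos hj] at this

theorem key_eq_high {D : ℕ} {r : Fin D} {y z y' z' : V D} (h : key r y z = key r y' z')
    {j : Fin D} (hj : r < j) : z j = z' j := by
  have := congrFun h j
  unfold key at this
  rwa [if_neg (not_lt.mpr hj.le), if_neg (not_lt.mpr hj.le), if_neg hj.ne', if_neg hj.ne'] at this

theorem key_eq_iff {D : ℕ} {r : Fin D} {y z y' z' : V D} :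
    key r y z = key r y' z' ↔ (∀ j, j < r → y j = y' j) ∧ (∀ j, r < j → z j = z' j) :=
  ⟨fun h => ⟨fun _ hj => key_eq_low h hj, fun _ hj => key_eq_high h hj⟩,
    fun h => key_congr r h.1 h.2⟩

theorem rel_unique {D : ℕ} (c : Coins D) (y z z' : V D) (h : Rel c y z) (h' : Rel c y z') :
    z = z' := by
  have key1 : ∀ n : ℕ, ∀ j : Fin D, D ≤ (j : ℕ) + n → z j = z' j := by
    intro n
    induction n with
    | zero => intro j hj; omega
    | succ n ih =>
      intro j hj
      rw [h j, h' j, key_congr j (y := y) (y' := y) (z := z) (z' := z') (fun _ _ => rfl)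
        (fun i hi => ih i (by
          have : (j : ℕ) < i := hi
          omega))]
  funext j
  exact key1 D j (by omega)

theorem rel : StRel := by
  intro D c y z
  constructor
  · rintro rfl
    exact pass_rel c y
  · intro h
    exact rel_unique c y _ _ (pass_rel c y) h

theorem rel_bwd {D : ℕ} (c : Coins D) (z : V D) : Rel c (bwd c z) z := by
  have := pass_rel c (bwd c z)
  unfold bwd at this ⊢
  rwa [Equiv.apply_symm_apply] at this

theorem rel_inv {D : ℕ} {c : Coins D} {y z : V D} (h : Rel c y z) (r : Fin D) :
    y r = xor (z r) (c r (key r y z)) := by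
  rw [h r]
  simp

theorem dep : StDep := by
  intro D c c' m z hc
  have key1 : ∀ n : ℕ, ∀ j : Fin D, (j : ℕ) = n → (j : ℕ) < m → bwd c z j = bwd c' z j := by
    intro n
    induction n using Nat.strong_induction_on with
    | _ n ih =>
      intro j hj hjm
      rw [rel_inv (rel_bwd c z) j, rel_inv (rel_bwd c' z) j, hc j hjm]
      congr 2
      apply key_congr
      · intro i hi
        have h2 : (i : ℕ) < j := hi
        exact ih i (by omega) i rfl (by omega)
      · intro _ _; rfl
  intro j hj
  exact key1 j j rfl hj

theorem sepTop : StSepTop := by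
  intro D ι x z r hx hcons a b hab hkey heq
  apply hab
  apply hx
  have key1 : ∀ n : ℕ, ∀ j : Fin D, (j : ℕ) ≤ (r : ℕ) + n → x a j = x b j := by
    intro n
    induction n with
    | zero =>
      intro j hj
      rcases lt_or_eq_of_le (show j ≤ r from hj) with h | h
      · exact key_eq_low hkey h
      · rw [h]; exact heq
    | succ n ih =>
      intro j hj
      by_cases hj' : (j : ℕ) ≤ (r : ℕ) + n
      · exact ih j hj'
      · have hrj : r < j := by
          show (r : ℕ) < j
          omega
        have h1 := hcons j hrj a b (key_congr j (fun i hi => ih i (by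
          have : (i : ℕ) < j := hi
          omega)) (fun i hi => key_eq_high hkey (lt_trans hrj hi)))
        rw [key_eq_high hkey hrj] at h1
        simpa using h1
  funext j
  exact key1 D j (by omega)

theorem cons_pass {D : ℕ} {ι : Type} (x : ι → V D) (c : Coins D) (r : Fin D) :
    Cons r x (fun a => pass c (x a)) := by
  intro a b h
  have h1 := pass_rel c (x a) r
  have h2 := pass_rel c (x b) r
  simp only at h
  rw [h] at h1
  simp only
  rw [h1, h2]
  simp

theorem sep : StSep := by
  intro D ι x c r hx a b hab hkey
  have h0 : x a r ≠ x b r :=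
    sepTop D ι x (fun a => pass c (x a)) r hx (fun j _ => cons_pass x c j) a b hab hkey
  refine ⟨h0, ?_⟩
  intro h
  have h1 := cons_pass x c r a b hkey
  simp only at h1
  rw [h] at h1
  apply h0
  simpa using h1

end Crest.Agent.R155
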