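import Crest.Agent.R155.Defs

/-! Spectral resolution of a real symmetric matrix (helper for LEVA, LEVB, DIM). -/

set_option autoImplicit false

namespace Crest.Agent.R155
namespace SPC
open scoped BigOperators Matrix
open Finset

section general
variable {n : Type} [Fintype n] [DecidableEq n]

theorem sa_of_symm {B : Matrix n n ℝ} (hB : Bᵀ = B) : IsSelfAdjoint B := by
  change star B = B
  rw [Matrix.star_eq_conjTranspose, Matrix.conjTranspose_eq_transpose_of_trivial, hB]

theorem symm_of_sa {B : Matrix n n ℝ} (hB : IsSelfAdjoint B) : Bᵀ = B := by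
  have h : star B = B := hB
  rw [Matrix.star_eq_conjTranspose, Matrix.conjTranspose_eq_transpose_of_trivial] at h
  exact h

/-- spectral projection -/
noncomputable def sp (B : Matrix n n ℝ) (μ : ℝ) : Matrix n n ℝ :=
  cfc (fun x : ℝ => if x = μ then (1 : ℝ) else 0) B

/-- the spectrum as a finset -/
noncomputable def sf (B : Matrix n n ℝ) : Finset ℝ := (Matrix.finite_real_spectrum (A := B)).toFinset

theorem cont (B : Matrix n n ℝ) (f : ℝ → ℝ) : ContinuousOn f (spectrum ℝ B) :=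
  (Matrix.finite_real_spectrum (A := B)).continuousOn _

theorem sp_symm (B : Matrix n n ℝ) (μ : ℝ) : (sp B μ)ᵀ = sp B μ :=
  symm_of_sa (cfc_predicate _ B)

theorem sp_idem (B : Matrix n n ℝ) (μ : ℝ) : sp B μ * sp B μ = sp B μ := by
  unfold sp
  rw [← cfc_mul _ _ B (cont B _) (cont B _)]
  congr 1
  funext x
  split_ifs <;> simp

theorem sp_comm (B C : Matrix n n ℝ) (μ : ℝ) (h : C * B = B * C) : C * sp B μ = sp B μ * C := by
  have h1 : Commute B C := h.symm
  exact (h1.cfc_real _).eq.symm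

theorem sp_sum {B : Matrix n n ℝ} (hB : Bᵀ = B) : ∑ μ ∈ sf B, sp B μ = 1 := by
  unfold sp
  rw [← cfc_sum _ B (sf B) (fun i _ => cont B _)]
  have hsa := sa_of_symm hB
  rw [← cfc_one ℝ B]
  apply cfc_congr
  intro x hx
  simp only [Finset.sum_apply, Pi.one_apply]
  rw [Finset.sum_ite_eq]
  rw [if_pos]
  simpa [sf] using hx

theorem sp_mul {B : Matrix n n ℝ} (hB : Bᵀ = B) (μ : ℝ) : B * sp B μ = μ • sp B μ := by
  have hsa := sa_of_symm hB
  have h1 : cfc (fun x : ℝ => x * (if x = μ then (1 : ℝ) else 0)) B = B * sp B μ := by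
    unfold sp
    rw [cfc_mul (fun x : ℝ => x) _ B (cont B _) (cont B _), cfc_id' ℝ B]
  have h2 : cfc (fun x : ℝ => μ * (if x = μ then (1 : ℝ) else 0)) B = μ • sp B μ := by
    unfold sp
    rw [cfc_const_mul μ _ B (cont B _)]
  rw [← h1, ← h2]
  congr 1
  funext x
  split_ifs with h
  · rw [h]
  · simp

theorem sp_res {B : Matrix n n ℝ} (hB : Bᵀ = B) : ∑ μ ∈ sf B, μ • sp B μ = B := by
  have h := sp_sum hB
  calc ∑ μ ∈ sf B, μ • sp B μ = ∑ μ ∈ sf B, B * sp B μ :=
        Finset.sum_congr rfl fun μ _ => (sp_mul hB μ).symm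
    _ = B * ∑ μ ∈ sf B, sp B μ := by rw [Finset.mul_sum]
    _ = B := by rw [h, Matrix.mul_one]

/-- `⟨f, P f⟩ = ‖P f‖²` for a symmetric idempotent -/
theorem proj_dot {P : Matrix n n ℝ} (h1 : Pᵀ = P) (h2 : P * P = P) (f : n → ℝ) :
    f ⬝ᵥ (P *ᵥ f) = (P *ᵥ f) ⬝ᵥ (P *ᵥ f) := by
  conv_lhs => rw [← h2, ← Matrix.mulVec_mulVec, Matrix.dotProduct_mulVec, ← Matrix.mulVec_transpose, h1]

theorem proj_dot_nonneg {P : Matrix n n ℝ} (h1 : Pᵀ = P) (h2 : P * P = P) (f : n → ℝ) :
    0 ≤ f ⬝ᵥ (P *ᵥ f) := by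
  rw [proj_dot h1 h2]
  exact Finset.sum_nonneg fun i _ => mul_self_nonneg _

/-- trace of a symmetric idempotent as a sum of squares of columns -/
theorem trace_eq_sum (X : Matrix n n ℝ) : Matrix.trace (Xᵀ * X) = ∑ j, (X *ᵥ Pi.single j 1) ⬝ᵥ (X *ᵥ Pi.single j 1) := by
  unfold Matrix.trace
  apply Finset.sum_congr rfl
  intro j _
  simp [Matrix.mul_apply, dotProduct, Matrix.col]

theorem trace_nonneg {P : Matrix n n ℝ} (h1 : Pᵀ = P) (h2 : P * P = P) : 0 ≤ Matrix.trace P := by
  have h : Matrix.trace P = Matrix.trace (Pᵀ * P) := by rw [h1, h2]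
  rw [h, trace_eq_sum]
  apply Finset.sum_nonneg
  intro j _
  exact Finset.sum_nonneg fun i _ => mul_self_nonneg _

/-- eigenvalues of a psd matrix are `≥ 0` unless the projection vanishes -/
theorem psd_eig {B : Matrix n n ℝ} (hB : B.PosSemidef) (μ : ℝ) : 0 ≤ μ ∨ sp B μ = 0 := by
  have hs : Bᵀ = B := by
    have := hB.isHermitian.eq
    rwa [Matrix.conjTranspose_eq_transpose_of_trivial] at this
  by_cases h : sp B μ = 0
  · exact Or.inr h
  · left
    by_contra hneg
    push Not at hneg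
    apply h
    ext i j
    have h1 := hB.dotProduct_mulVec_nonneg (sp B μ *ᵥ Pi.single j 1)
    rw [Matrix.mulVec_mulVec, sp_mul hs μ, Matrix.smul_mulVec, dotProduct_smul] at h1
    simp only [star_trivial, smul_eq_mul] at h1
    have h2 : 0 ≤ (sp B μ *ᵥ Pi.single j 1) ⬝ᵥ (sp B μ *ᵥ Pi.single j 1) :=
      Finset.sum_nonneg fun i _ => mul_self_nonneg _
    have h3 : (sp B μ *ᵥ Pi.single j 1) ⬝ᵥ (sp B μ *ᵥ Pi.single j 1) = 0 := by nlinarith
    have h4 : ∀ i, (sp B μ *ᵥ Pi.single j 1) i = 0 := by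
      intro i
      have h5 := (Finset.sum_eq_zero_iff_of_nonneg (fun i _ => mul_self_nonneg _)).1 h3 i (Finset.mem_univ i)
      exact mul_self_eq_zero.1 h5
    have h6 := h4 i
    simpa using h6

end general

section group
variable {W : Type} [Fintype W] [DecidableEq W]

/-- right translation -/
def Rm (g : Equiv.Perm W) : Matrix (Equiv.Perm W) (Equiv.Perm W) ℝ :=
  fun h h' => if h' = h * g then 1 else 0

theorem rinv_iff (A : Matrix (Equiv.Perm W) (Equiv.Perm W) ℝ) :
    RInv A ↔ ∀ g, Rm g * A = A * Rm g := by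
  have e1 : ∀ g h h', (Rm g * A) h h' = A (h * g) h' := by
    intro g h h'
    simp only [Matrix.mul_apply, Rm]
    rw [Finset.sum_eq_single (h * g)]
    · simp
    · intro b _ hb
      simp [hb]
    · simp
  have e2 : ∀ g h h', (A * Rm g) h h' = A h (h' * g⁻¹) := by
    intro g h h'
    simp only [Matrix.mul_apply, Rm]
    rw [Finset.sum_eq_single (h' * g⁻¹)]
    · simp
    · intro b _ hb
      rw [if_neg, mul_zero]
      intro h2
      apply hb
      rw [h2]
      group
    · simp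
  constructor
  · intro hA g
    ext h h'
    rw [e1, e2]
    have := hA g h (h' * g⁻¹)
    simpa using this
  · intro hA g h h'
    have := congrFun (congrFun (hA g) h) (h' * g)
    rw [e1, e2] at this
    simpa using this

theorem rinv_mul {A B : Matrix (Equiv.Perm W) (Equiv.Perm W) ℝ} (hA : RInv A) (hB : RInv B) :
    RInv (A * B) := by
  rw [rinv_iff] at *
  intro g
  rw [← Matrix.mul_assoc, hA g, Matrix.mul_assoc, hB g, Matrix.mul_assoc]

theorem rinv_transpose {A : Matrix (Equiv.Perm W) (Equiv.Perm W) ℝ} (hA : RInv A) : RInv Aᵀ :=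
  fun g h h' => hA g h' h

theorem rinv_sp {B : Matrix (Equiv.Perm W) (Equiv.Perm W) ℝ} (hB : RInv B) (μ : ℝ) :
    RInv (sp B μ) := by
  rw [rinv_iff] at *
  intro g
  exact sp_comm B (Rm g) μ (hB g)

end group

end SPC
end Crest.Agent.R155
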