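import Crest.Agent.R155.Defs

set_option autoImplicit false

namespace Crest.Agent.R155

open scoped BigOperators Matrix
open Finset

namespace SupAux

theorem av_mono {Ω : Type*} [Fintype Ω] (f g : Ω → ℝ) (h : ∀ ω, f ω ≤ g ω) : av f ≤ av g := by
  unfold av
  apply div_le_div_of_nonneg_right _ (Nat.cast_nonneg _)
  exact Finset.sum_le_sum fun i _ => h i

theorem av_const {Ω : Type*} [Fintype Ω] [Nonempty Ω] (C : ℝ) : av (fun _ : Ω => C) = C := by
  unfold av
  rw [Finset.sum_const, Finset.card_univ, nsmul_eq_mul]
  have : (Fintype.card Ω : ℝ) ≠ 0 := by exact_mod_cast Fintype.card_ne_zero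
  field_simp

/-- Fubini for one coordinate -/
theorem fub {D : ℕ} {X : Type*} [Fintype X] [Nonempty X] [DecidableEq X]
    (k : Fin D) (F : (Fin D → X) → ℝ) :
    av F = av (fun c => av (fun f => F (Function.update c k f))) := by
  have hinv : Function.Involutive (fun p : (Fin D → X) × X => (Function.update p.1 k p.2, p.1 k)) := by
    rintro ⟨c, f⟩
    simp
  have h1 : ∑ p : (Fin D → X) × X, F (Function.update p.1 k p.2)
      = ∑ p : (Fin D → X) × X, F p.1 :=
    Equiv.sum_comp hinv.toPerm (fun p : (Fin D → X) × X => F p.1)
  rw [Fintype.sum_prod_type, Fintype.sum_prod_type] at h1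
  simp only [Finset.sum_const, Finset.card_univ, nsmul_eq_mul] at h1
  unfold av
  rw [← Finset.sum_div, h1, ← Finset.mul_sum]
  have : (Fintype.card X : ℝ) ≠ 0 := by exact_mod_cast Fintype.card_ne_zero
  field_simp

theorem av_bool (F : Bool → ℝ) : av F = (F false + F true) / 2 := by
  unfold av
  rw [Fintype.sum_bool, Fintype.card_bool, add_comm]
  norm_num

/-- two-point inequality -/
theorem two_pt (T : Finset Bool) (u : Bool → ℝ) (hu : ∀ b, 0 ≤ u b) :
    ((∏ y ∈ T, u (xor y false)) + ∏ y ∈ T, u (xor y true)) / 2
      ≤ ∏ y ∈ T, (u false + u true) / 2 := by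
  have h : ∀ F : Bool → ℝ, ∏ y ∈ T, F y
      = (if true ∈ T then F true else 1) * (if false ∈ T then F false else 1) := by
    intro F
    rw [← Fintype.prod_bool (fun y => if y ∈ T then F y else 1), Finset.prod_ite_mem,
      Finset.univ_inter]
  rw [h, h, h]
  have h0 := hu false
  have h1 := hu true
  by_cases ht : true ∈ T <;> by_cases hf : false ∈ T <;>
    simp only [ht, hf, if_true, if_false, Bool.xor_true, Bool.xor_false, Bool.not_true,
      Bool.not_false, mul_one, one_mul]
  · nlinarith [sq_nonneg (u false - u true)]
  · linarith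
  · linarith
  · norm_num

/-- one stage -/
theorem one_stage {D : ℕ} {ι : Type} [Fintype ι] [DecidableEq ι] (p : ι → V D)
    (hp : Function.Injective p) (g : V D → ℝ) (hg : ∀ v, 0 ≤ g v) (k : Fin D) :
    av (fun f : V D → Bool => ∏ a, g (stageFun k f (p a)))
      ≤ ∏ a, (g (Function.update (p a) k false) + g (Function.update (p a) k true)) / 2 := by
  classical
  set A : V D → Finset ι := fun κ => univ.filter fun a => Function.update (p a) k false = κ with hA
  have hfib : ∀ F : ι → ℝ, ∏ a, F a = ∏ κ : V D, ∏ a ∈ A κ, F a := by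
    intro F
    rw [hA]
    exact (Finset.prod_fiberwise univ (fun a => Function.update (p a) k false) F).symm
  set G : V D → Bool → ℝ := fun κ b => ∏ a ∈ A κ, g (Function.update κ k (xor (p a k) b)) with hG
  have h1 : ∀ f : V D → Bool, ∏ a, g (stageFun k f (p a)) = ∏ κ : V D, G κ (f κ) := by
    intro f
    rw [hfib]
    apply Finset.prod_congr rfl
    intro κ _
    rw [hG]
    apply Finset.prod_congr rfl
    intro a ha
    rw [hA, Finset.mem_filter] at ha
    unfold stageFun
    rw [← ha.2]
    simp
  have h2 : av (fun f : V D → Bool => ∏ a, g (stageFun k f (p a)))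
      = ∏ κ : V D, (G κ false + G κ true) / 2 := by
    simp_rw [h1]
    unfold av
    have h3 : ∑ f : V D → Bool, ∏ κ : V D, G κ (f κ) = ∏ κ : V D, ∑ b : Bool, G κ b := by
      rw [Finset.prod_univ_sum, Fintype.piFinset_univ]
    rw [h3]
    have h4 : (Fintype.card (V D → Bool) : ℝ) = ∏ κ : V D, (2 : ℝ) := by
      rw [Fintype.card_fun, Fintype.card_bool, Finset.prod_const, Finset.card_univ]
      push_cast
      rfl
    rw [h4, ← Finset.prod_div_distrib]
    apply Finset.prod_congr rfl
    intro κ _
    rw [Fintype.sum_bool, add_comm]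
  rw [h2, hfib]
  apply Finset.prod_le_prod
  · intro κ _
    have : ∀ b, 0 ≤ G κ b := fun b => Finset.prod_nonneg fun a _ => hg _
    have h3 := this false
    have h4 := this true
    positivity
  · intro κ _
    have hinj : Set.InjOn (fun a => p a k) (A κ : Set ι) := by
      intro a ha b hb hab
      rw [Finset.mem_coe, hA, Finset.mem_filter] at ha hb
      apply hp
      funext j
      by_cases hj : j = k
      · rw [hj]; exact hab
      · have := congrFun (ha.2.trans hb.2.symm) j
        rwa [Function.update_of_ne hj, Function.update_of_ne hj] at this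
    have h3 : ∀ F : Bool → ℝ, ∏ a ∈ A κ, F (p a k) = ∏ y ∈ (A κ).image (fun a => p a k), F y := by
      intro F
      rw [Finset.prod_image hinj]
    have h4 : ∀ b, G κ b = ∏ y ∈ (A κ).image (fun a => p a k), g (Function.update κ k (xor y b)) := by
      intro b
      rw [hG]
      exact h3 (fun y => g (Function.update κ k (xor y b)))
    have h5 : ∏ a ∈ A κ, (g (Function.update (p a) k false) + g (Function.update (p a) k true)) / 2
        = ∏ y ∈ (A κ).image (fun a => p a k),
          (g (Function.update κ k false) + g (Function.update κ k true)) / 2 := by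
      rw [← h3 (fun _ => (g (Function.update κ k false) + g (Function.update κ k true)) / 2)]
      apply Finset.prod_congr rfl
      intro a ha
      rw [hA, Finset.mem_filter] at ha
      rw [← ha.2]
      simp
    rw [h4, h4, h5]
    exact two_pt _ (fun b => g (Function.update κ k b)) (fun b => hg _)

theorem stage_apply {D : ℕ} (r : Fin D) (f : V D → Bool) (v : V D) :
    stage r f v = stageFun r f v := rfl

/-- partial pass: the last `m` stages (`D-1, …, D-m`) -/
def Q {D : ℕ} (c : Coins D) : ℕ → Equiv.Perm (V D)
  | 0 => 1
  | m + 1 => (if h : D - 1 - m < D then stage ⟨D - 1 - m, h⟩ (c ⟨D - 1 - m, h⟩) else 1) * Q c m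

theorem Q_congr {D : ℕ} (c c' : Coins D) (m : ℕ) (hm : m ≤ D)
    (h : ∀ j : Fin D, D - m ≤ (j : ℕ) → c j = c' j) : Q c m = Q c' m := by
  induction m with
  | zero => rfl
  | succ m ih =>
    unfold Q
    have hlt : D - 1 - m < D := by omega
    rw [dif_pos hlt, dif_pos hlt, ih (by omega) (fun j hj => h j (by omega)),
      h ⟨D - 1 - m, hlt⟩ (by simp only; omega)]

theorem Q_apply (h1 : StRel) {D : ℕ} (c : Coins D) (m : ℕ) (hm : m ≤ D) (y : V D) (j : Fin D) :
    Q c m y j = if (j : ℕ) < D - m then y j else pass c y j := by
  have hrel : Rel c y (pass c y) := (h1 D c y (pass c y)).1 rfl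
  induction m generalizing j with
  | zero =>
    have : (j : ℕ) < D - 0 := by have := j.2; omega
    rw [if_pos this]
    rfl
  | succ m ih =>
    have hlt : D - 1 - m < D := by omega
    have ih' : Q c m y = fun j : Fin D => if (j : ℕ) < D - m then y j else pass c y j := by
      funext j
      exact ih (by omega) j
    unfold Q
    rw [dif_pos hlt, Equiv.Perm.mul_apply, ih']
    rw [stage_apply]
    unfold stageFun
    have hkey : Function.update (fun j : Fin D => if (j : ℕ) < D - m then y j else pass c y j)
        ⟨D - 1 - m, hlt⟩ false = key ⟨D - 1 - m, hlt⟩ y (pass c y) := by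
      funext i
      unfold key
      by_cases hi : i = ⟨D - 1 - m, hlt⟩
      · subst hi
        simp
      · rw [Function.update_of_ne hi]
        have hi' : (i : ℕ) ≠ D - 1 - m := fun h => hi (Fin.ext h)
        by_cases h2 : (i : ℕ) < D - 1 - m
        · rw [if_pos (show (i : ℕ) < D - m by omega), if_pos (show i < ⟨D - 1 - m, hlt⟩ from h2)]
        · rw [if_neg (show ¬ (i : ℕ) < D - m by omega),
            if_neg (show ¬ i < ⟨D - 1 - m, hlt⟩ from h2), if_neg hi]
    rw [hkey]
    by_cases hj : j = ⟨D - 1 - m, hlt⟩
    · subst hj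
      rw [Function.update_self]
      simp only
      rw [if_pos (show D - 1 - m < D - m by omega),
        if_neg (show ¬ D - 1 - m < D - (m + 1) by omega)]
      exact (hrel ⟨D - 1 - m, hlt⟩).symm
    · rw [Function.update_of_ne hj]
      have hj' : (j : ℕ) ≠ D - 1 - m := fun h => hj (Fin.ext h)
      by_cases h2 : (j : ℕ) < D - m
      · rw [if_pos h2, if_pos (by omega)]
      · rw [if_neg h2, if_neg (by omega)]

/-- `v` with the coordinates in `(r, k)` replaced by those of `w` -/
def mix {D : ℕ} (r : Fin D) (k : ℕ) (v w : V D) : V D :=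
  fun j => if j < r then v j else if j = r then false else if (j : ℕ) < k then w j else v j

noncomputable def G {D : ℕ} (r : Fin D) (h : V D → ℝ) (k : ℕ) (v : V D) : ℝ :=
  av fun w : V D => h (mix r k v w)

theorem G_nonneg {D : ℕ} (r : Fin D) (h : V D → ℝ) (hh : ∀ v, 0 ≤ h v) (k : ℕ) (v : V D) :
    0 ≤ G r h k v := by
  unfold G av
  apply div_nonneg _ (Nat.cast_nonneg _)
  exact Finset.sum_nonneg fun w _ => hh _

theorem G_succ {D : ℕ} (r : Fin D) (h : V D → ℝ) (k : Fin D) (hk : r < k) (v : V D) :
    G r h (k + 1) v = (G r h k (Function.update v k false) + G r h k (Function.update v k true)) / 2 := by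
  unfold G
  rw [fub k]
  have h1 : ∀ (w : V D) (b : Bool), mix r (k + 1) v (Function.update w k b)
      = mix r k (Function.update v k b) w := by
    intro w b
    funext j
    unfold mix
    by_cases hj : j = k
    · subst hj
      rw [if_neg (not_lt.2 hk.le), if_neg hk.ne', if_neg (not_lt.2 hk.le), if_neg hk.ne']
      simp
    · have hj' : (j : ℕ) ≠ k := fun h => hj (Fin.ext h)
      rw [Function.update_of_ne hj, Function.update_of_ne hj]
      by_cases h2 : (j : ℕ) < k
      · rw [if_pos (show (j : ℕ) < (k : ℕ) + 1 by omega), if_pos h2]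
      · rw [if_neg (show ¬ (j : ℕ) < (k : ℕ) + 1 by omega), if_neg h2]
  simp_rw [h1, av_bool]
  unfold av
  rw [← Finset.sum_div, Finset.sum_add_distrib]
  ring

theorem G_top {D : ℕ} (r : Fin D) (h : V D → ℝ) (v : V D) :
    G r h D v = av (fun w : V D => h (key r v w)) := by
  unfold G
  congr 1
  funext w
  congr 1
  funext j
  unfold mix key
  rw [if_pos j.2]

theorem G_bot {D : ℕ} (r : Fin D) (h : V D → ℝ) (v : V D) :
    G r h (r + 1) v = h (fun j => if j < r then v j else if j = r then false else v j) := by
  unfold G
  have : ∀ w : V D, mix r (r + 1) v w = fun j => if j < r then v j else if j = r then false else v j := by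
    intro w
    funext j
    unfold mix
    by_cases h1 : j < r
    · rw [if_pos h1, if_pos h1]
    · rw [if_neg h1, if_neg h1]
      by_cases h2 : j = r
      · rw [if_pos h2, if_pos h2]
      · rw [if_neg h2, if_neg h2, if_neg]
        intro h3
        have : (j : ℕ) ≠ r := fun h => h2 (Fin.ext h)
        exact h1 (show (j : ℕ) < r by omega)
  simp_rw [this]
  exact av_const _

end SupAux

open SupAux

theorem sup (h1 : StRel) : StSup := by
  intro D ι _ _ x r h hx hh
  have key1 : ∀ m : ℕ, m + (r : ℕ) + 1 ≤ D →
      av (fun c : Coins D => ∏ a, G r h (D - m) (Q c m (x a))) ≤ ∏ a, G r h D (x a) := by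
    intro m
    induction m with
    | zero =>
      intro _
      apply le_of_eq
      exact av_const (Ω := Coins D) (∏ a, G r h D (x a))
    | succ m ih =>
      intro hm
      refine le_trans ?_ (ih (by omega))
      have hlt : D - 1 - m < D := by omega
      set k : Fin D := ⟨D - 1 - m, hlt⟩ with hk
      have hkr : r < k := by
        change (r : ℕ) < D - 1 - m
        omega
      rw [fub k]
      apply av_mono
      intro c
      have h2 : ∀ f : V D → Bool, ∀ v, Q (Function.update c k f) (m + 1) v = stageFun k f (Q c m v) := by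
        intro f v
        conv_lhs => unfold Q
        rw [dif_pos hlt, Equiv.Perm.mul_apply]
        have h3 : Q (Function.update c k f) m = Q c m := by
          apply Q_congr _ _ _ (by omega)
          intro j hj
          rw [Function.update_of_ne]
          intro h4
          rw [h4, hk] at hj
          simp only at hj
          omega
        rw [h3]
        rw [stage_apply, ← hk, Function.update_self]
      simp_rw [h2]
      have h5 := one_stage (fun a => Q c m (x a)) (fun a b hab => hx ((Q c m).injective hab))
        (G r h (D - (m + 1))) (G_nonneg r h hh _) k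
      refine h5.trans (le_of_eq ?_)
      apply Finset.prod_congr rfl
      intro a _
      have h6 := G_succ r h k hkr (Q c m (x a))
      have h7 : (k : ℕ) = D - (m + 1) := by rw [hk]; simp only; omega
      have h8 : (k : ℕ) + 1 = D - m := by rw [hk]; simp only; omega
      rw [h8, h7] at h6
      exact h6.symm
  have h2 := key1 (D - 1 - r) (by have := r.2; omega)
  refine le_trans (le_of_eq ?_) (h2.trans (le_of_eq ?_))
  · congr 1
    funext c
    apply Finset.prod_congr rfl
    intro a _
    have h3 : D - (D - 1 - (r : ℕ)) = r + 1 := by have := r.2; omega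
    rw [h3, G_bot]
    congr 1
    funext j
    unfold key
    rw [Q_apply h1 c _ (by omega), h3]
    by_cases h4 : j < r
    · rw [if_pos h4, if_pos h4, if_pos]
      have : (j : ℕ) < r := h4
      omega
    · rw [if_neg h4, if_neg h4]
      by_cases h5 : j = r
      · rw [if_pos h5, if_pos h5]
      · rw [if_neg h5, if_neg h5, if_neg]
        intro h6
        have h7 : (j : ℕ) ≠ r := fun h => h5 (Fin.ext h)
        exact h4 (show (j : ℕ) < r by omega)
  · apply Finset.prod_congr rfl
    intro a _
    exact G_top r h (x a)

end Crest.Agent.R155
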