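import Crest.Agent.R155.Defs
import Crest.Agent.R155.LINK

/-! Row 155, task TR: the trace bounds (helper20). -/

set_option autoImplicit false

namespace Crest.Agent.R155

namespace TRaux

open Finset

variable {D : ℕ} {ι : Type} [Fintype ι] [DecidableEq ι]

theorem Kt_nonneg (x z : ι → V D) : 0 ≤ Kt x z := by
  unfold Kt av
  refine div_nonneg (sum_nonneg fun c _ => ?_) (Nat.cast_nonneg _)
  split_ifs <;> norm_num

theorem Tt_nonneg (x y : ι → V D) : 0 ≤ Tt x y :=
  sum_nonneg fun z _ => mul_nonneg (Kt_nonneg x z) (Kt_nonneg y z)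

theorem Tt_symm (x y : ι → V D) : Tt x y = Tt y x :=
  sum_congr rfl fun z _ => mul_comm _ _

theorem av_const (r : ℝ) : av (fun _ : Coins D => r) = r := by
  unfold av
  rw [sum_const, nsmul_eq_mul, card_univ]
  field_simp

theorem sum_Kt (x : ι → V D) : ∑ z : ι → V D, Kt x z = 1 := by
  unfold Kt av
  rw [← sum_div, sum_comm]
  have h : ∀ c : Coins D, ∑ z : ι → V D, (if ∀ a, pass c (x a) = z a then (1 : ℝ) else 0) = 1 := by
    intro c
    rw [sum_eq_single (fun a => pass c (x a))]
    · simp
    · intro z _ hz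
      rw [if_neg]
      intro h
      exact hz (funext fun a => (h a).symm)
    · intro h
      exact absurd (mem_univ _) h
  rw [sum_congr rfl fun c _ => h c, sum_const, nsmul_eq_mul, card_univ, mul_one]
  exact div_self (by positivity)

theorem Kt_zero {x z : ι → V D} (h : Function.Injective x ↔ ¬ Function.Injective z) : Kt x z = 0 := by
  unfold Kt av
  rw [sum_eq_zero, zero_div]
  intro c _
  rw [if_neg]
  intro hc
  have hz : z = (pass c) ∘ x := funext fun a => (hc a).symm
  have : Function.Injective z ↔ Function.Injective x := by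
    rw [hz]
    exact (pass c).injective.of_comp_iff x
  tauto

theorem sum_Kt' (z : ι → V D) (hz : Function.Injective z) :
    ∑ y : {y : ι → V D // Function.Injective y}, Kt y.1 z = 1 := by
  have h1 : ∑ y : {y : ι → V D // Function.Injective y}, Kt y.1 z = ∑ y : ι → V D, Kt y z := by
    have h2 : ∑ y ∈ univ.filter (fun y : ι → V D => Function.Injective y), Kt y z =
        ∑ y : ι → V D, Kt y z := by
      refine sum_subset (filter_subset _ _) fun y _ hy => Kt_zero ?_
      have : ¬ Function.Injective y := fun h => hy (mem_filter.2 ⟨mem_univ _, h⟩)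
      tauto
    rw [← h2]
    exact (sum_subtype (univ.filter (fun y : ι → V D => Function.Injective y)) (by simp)
      (fun y => Kt y z)).symm
  rw [h1]
  unfold Kt av
  rw [← sum_div, sum_comm]
  have h : ∀ c : Coins D, ∑ y : ι → V D, (if ∀ a, pass c (y a) = z a then (1 : ℝ) else 0) = 1 := by
    intro c
    rw [sum_eq_single (fun a => (pass c).symm (z a))]
    · simp
    · intro y _ hy
      rw [if_neg]
      intro h
      exact hy (funext fun a => by rw [← h a, Equiv.symm_apply_apply])
    · intro h
      exact absurd (mem_univ _) h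
  rw [sum_congr rfl fun c _ => h c, sum_const, nsmul_eq_mul, card_univ, mul_one]
  exact div_self (by positivity)

theorem row (x : ι → V D) (hx : Function.Injective x) :
    ∑ y : {y : ι → V D // Function.Injective y}, Tt x y.1 = 1 := by
  unfold Tt
  rw [sum_comm]
  rw [← sum_Kt x]
  refine sum_congr rfl fun z _ => ?_
  rw [← mul_sum]
  by_cases hz : Function.Injective z
  · rw [sum_Kt' z hz, mul_one]
  · rw [Kt_zero (x := x) (z := z) (by tauto), zero_mul]

end TRaux

open TRaux Finset in
theorem tr (h2 : StYoung) (h3 : StP5) (h4 : StP6) (_h5 : StRel) : StTr := by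
  classical
  intro D S
  set Y := {x : S → V D // Function.Injective x} with hY
  haveI : Nonempty Y := ⟨⟨Subtype.val, Subtype.val_injective⟩⟩
  set T : Matrix Y Y ℝ := TM D S with hT
  have hTe : ∀ x y : Y, T x y = Tt x.1 y.1 := fun x y => rfl
  have hTs : T.transpose = T := by
    ext x y
    exact Tt_symm _ _
  have hn : (Fintype.card Y : ℝ) ≤ ((2 : ℝ) ^ D) ^ (Fintype.card S) := by
    have e1 : Fintype.card Y ≤ Fintype.card (S → V D) := Fintype.card_subtype_le _
    have e2 : Fintype.card (S → V D) = (2 ^ D) ^ (Fintype.card S) := by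
      rw [Fintype.card_fun, Fintype.card_fun, Fintype.card_bool, Fintype.card_fin]
    rw [e2] at e1
    exact_mod_cast e1
  have main : ∀ M : ℝ, (∀ x : S → V D, Function.Injective x →
      av (fun c : Coins D => Real.exp (∑ r : Fin D, eps r * Bc r x (fun a => pass c (x a)))) ≤ M) →
      Matrix.trace (EM S * (KM D * (KM D).transpose) ^ 64) ≤ M ^ 63 := by
    intro M hM
    rw [linkM D S 64]
    have hrow : ∀ x : Y, ∑ y : Y, (T x y) ^ (64 / 63 : ℝ) * (Fintype.card Y : ℝ) ^ (1 / 63 : ℝ) ≤ M := by
      intro x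
      refine le_trans ?_ (hM x.1 x.2)
      refine le_trans ?_ (h3 D S x.1 x.2)
      have e3 : ∀ y : Y, (T x y) ^ (64 / 63 : ℝ) * (Fintype.card Y : ℝ) ^ (1 / 63 : ℝ) ≤
          Tt x.1 y.1 * ((((2 : ℝ) ^ D) ^ (Fintype.card S)) * Tt x.1 y.1) ^ (1 / 63 : ℝ) := by
        intro y
        have h0 : 0 ≤ Tt x.1 y.1 := Tt_nonneg _ _
        have e4 : (T x y) ^ (64 / 63 : ℝ) = Tt x.1 y.1 * (Tt x.1 y.1) ^ (1 / 63 : ℝ) := by
          show (Tt x.1 y.1) ^ (64 / 63 : ℝ) = _
          have : (64 / 63 : ℝ) = 1 + 1 / 63 := by norm_num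
          rw [this, Real.rpow_add' h0 (by norm_num), Real.rpow_one]
        rw [e4, Real.mul_rpow (by positivity) h0, mul_assoc]
        refine mul_le_mul_of_nonneg_left ?_ h0
        rw [mul_comm]
        refine mul_le_mul_of_nonneg_right ?_ (Real.rpow_nonneg h0 _)
        exact Real.rpow_le_rpow (Nat.cast_nonneg _) hn (by norm_num)
      refine (sum_le_sum fun y _ => e3 y).trans ?_
      have e5 : ∑ y : Y, Tt x.1 y.1 * ((((2 : ℝ) ^ D) ^ (Fintype.card S)) * Tt x.1 y.1) ^ (1 / 63 : ℝ) =
          ∑ y ∈ univ.filter (fun y : S → V D => Function.Injective y),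
            Tt x.1 y * ((((2 : ℝ) ^ D) ^ (Fintype.card S)) * Tt x.1 y) ^ (1 / 63 : ℝ) := by
        refine sum_bij (fun y _ => y.1) ?_ ?_ ?_ ?_
        · intro y _
          exact mem_filter.2 ⟨mem_univ _, y.2⟩
        · intro y _ y' _ h
          exact Subtype.ext h
        · intro y hy
          exact ⟨⟨y, (mem_filter.1 hy).2⟩, mem_univ _, rfl⟩
        · intro y _
          rfl
      rw [e5]
      refine sum_le_sum_of_subset_of_nonneg (subset_univ _) fun y _ _ => ?_
      have h0 : 0 ≤ Tt x.1 y := Tt_nonneg _ _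
      positivity
    have hY2 := h2 Y T M hTs (fun x y => Tt_nonneg _ _) (fun x => row x.1 x.2) hrow
    have hT32 : (T ^ 32).transpose = T ^ 32 := by rw [Matrix.transpose_pow, hTs]
    have e6 : Matrix.trace (T ^ 64) = ∑ x : Y, ∑ y : Y, ((T ^ 32) x y) ^ 2 := by
      have : T ^ 64 = T ^ 32 * T ^ 32 := by rw [← pow_add]
      rw [this]
      unfold Matrix.trace
      refine sum_congr rfl fun x _ => ?_
      rw [Matrix.diag_apply, Matrix.mul_apply]
      refine sum_congr rfl fun y _ => ?_
      have : (T ^ 32) y x = (T ^ 32) x y := by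
        conv_lhs => rw [← hT32]
        rfl
      rw [this, sq]
    rw [← hT, e6]
    have hc0 : (0 : ℝ) < Fintype.card Y := by
      have := Fintype.card_pos (α := Y)
      exact_mod_cast this
    calc ∑ x : Y, ∑ y : Y, ((T ^ 32) x y) ^ 2 ≤ ∑ _x : Y, M ^ 63 / Fintype.card Y := by
          refine sum_le_sum fun x _ => ?_
          rw [le_div_iff₀ hc0, mul_comm]
          exact hY2 x
      _ = M ^ 63 := by
          rw [sum_const, nsmul_eq_mul, card_univ]
          field_simp
  have hcS : Fintype.card S = S.card := Fintype.card_coe S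
  constructor
  · refine (main (Real.exp ((S.card : ℝ) / 2)) fun x hx => ?_).trans (le_of_eq ?_)
    · have := (h4 D S x hx).1
      rwa [hcS] at this
    · rw [← Real.exp_nat_mul]
      norm_num
  · refine (main (Real.exp (2 * (S.card : ℝ) * ((S.card : ℝ) / (2 : ℝ) ^ D) ^ (0.08 : ℝ)))
      fun x hx => ?_).trans (le_of_eq ?_)
    · have := (h4 D S x hx).2
      rwa [hcS] at this
    · rw [← Real.exp_nat_mul]
      congr 1
      push_cast
      ring

end Crest.Agent.R155
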