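import Crest.Agent.R155.Defs

set_option autoImplicit false

namespace Crest.Agent.R155

open scoped BigOperators Matrix
open Finset

namespace TwoAux

theorem cs_dot {m : Type*} [Fintype m] (u v : m → ℝ) :
    (u ⬝ᵥ v) ^ 2 ≤ (u ⬝ᵥ u) * (v ⬝ᵥ v) := by
  unfold dotProduct
  have := Finset.sum_mul_sq_le_sq_mul_sq univ u v
  simp only [sq] at this ⊢
  exact this

theorem dot_nonneg {m : Type*} [Fintype m] (u : m → ℝ) : 0 ≤ u ⬝ᵥ u := by
  unfold dotProduct
  exact Finset.sum_nonneg fun i _ => mul_self_nonneg _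

/-- number of `k`-subsets of `S` missing `j` elements of `R` -/
theorem card_filter_le {W : Type} [Fintype W] [DecidableEq W] (S R : Finset W) (k j : ℕ)
    (hR : R ⊆ S) (hk : R.card = k) :
    ((S.powersetCard k).filter fun R' => (R \ R').card = j).card
      ≤ k.choose j * (S.card - k).choose j := by
  have h1 : (S \ R).card = S.card - k := by
    rw [Finset.card_sdiff_of_subset hR, hk]
  calc _ ≤ ((R.powersetCard j) ×ˢ ((S \ R).powersetCard j)).card := by
        apply Finset.card_le_card_of_injOn (fun R' => (R \ R', R' \ R))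
        · intro R' hR'
          rw [Finset.mem_coe, Finset.mem_filter, Finset.mem_powersetCard] at hR'
          obtain ⟨⟨hs, hc⟩, hj⟩ := hR'
          simp only [Finset.coe_product, Set.mem_prod, Finset.mem_coe, Finset.mem_powersetCard]
          refine ⟨⟨Finset.sdiff_subset, hj⟩, Finset.sdiff_subset_sdiff hs (Finset.Subset.refl _), ?_⟩
          have h3 := Finset.card_sdiff_add_card_inter R R'
          have h4 := Finset.card_sdiff_add_card_inter R' R
          rw [Finset.inter_comm] at h4
          omega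
        · intro R1 h1 R2 h2 heq
          simp only [Prod.mk.injEq] at heq
          ext x
          have e1 := Finset.ext_iff.1 heq.1 x
          have e2 := Finset.ext_iff.1 heq.2 x
          simp only [Finset.mem_sdiff] at e1 e2
          by_cases hx : x ∈ R
          · simp only [hx, true_and] at e1
            exact not_iff_not.1 e1
          · simp only [hx, not_false_eq_true, and_true] at e2
            exact e2
    _ = _ := by
        rw [Finset.card_product, Finset.card_powersetCard, Finset.card_powersetCard, h1, hk]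

end TwoAux

open TwoAux

theorem two (h1 : StEM) (h2 : StPur) : StTwo := by
  intro W _ _ k S f hf hkS
  obtain ⟨hT, hmul, -, -, -, -⟩ := h1 W
  set n := Fintype.card W with hn
  have hSn : S.card ≤ n := Finset.card_le_univ S
  set P := S.powersetCard k with hP
  set g : ℕ → ℝ := fun j => (j.factorial : ℝ) / ((n - k).descFactorial j : ℝ) with hg
  have hg0 : ∀ j, 0 ≤ g j := fun j => by positivity
  set H : Finset W → Equiv.Perm W → ℝ := fun R => EM R *ᵥ f with hH
  have hsym : ∀ (R : Finset W) (u v : Equiv.Perm W → ℝ), u ⬝ᵥ (EM R *ᵥ v) = (EM R *ᵥ u) ⬝ᵥ v := by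
    intro R u v
    rw [Matrix.dotProduct_mulVec, ← Matrix.mulVec_transpose, hT R]
  have hfix : ∀ R : Finset W, EM R *ᵥ H R = H R := by
    intro R
    rw [hH]
    simp only
    rw [Matrix.mulVec_mulVec, (hmul R R (Finset.Subset.refl _)).1]
  have hpure : ∀ R : Finset W, R.card = k → ∀ a ∈ R, EM (R.erase a) *ᵥ H R = 0 := by
    intro R hR a ha
    rw [hH]
    simp only
    rw [Matrix.mulVec_mulVec, (hmul (R.erase a) R (Finset.erase_subset a R)).1]
    apply hf.2
    rw [Finset.card_erase_add_one ha, hR]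
  have hbnd : ∀ R ∈ P, ∀ R' ∈ P, H R ⬝ᵥ H R' ≤
      g (R \ R').card * ((H R ⬝ᵥ H R) + (H R' ⬝ᵥ H R')) / 2 := by
    intro R hR R' hR'
    rw [hP, Finset.mem_powersetCard] at hR hR'
    have e1 : H R ⬝ᵥ H R' = (EM R' *ᵥ H R) ⬝ᵥ H R' := by
      conv_lhs => rw [← hfix R', hsym]
    have e2 := h2 W k R' R (H R) hR'.2 hR.2 (hfix R) (hpure R hR.2)
    have e3 := cs_dot (EM R' *ᵥ H R) (H R')
    rw [← e1] at e3
    have ha := dot_nonneg (H R)
    have hb := dot_nonneg (H R')
    set a := H R ⬝ᵥ H R
    set b := H R' ⬝ᵥ H R'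
    have hgn := hg0 (R \ R').card
    have e4 : (H R ⬝ᵥ H R') ^ 2 ≤ (g (R \ R').card * (a + b) / 2) ^ 2 := by
      calc _ ≤ (g (R \ R').card) ^ 2 * a * b := by
            refine e3.trans ?_
            apply mul_le_mul_of_nonneg_right e2 hb
        _ ≤ (g (R \ R').card) ^ 2 * (((a + b) / 2) ^ 2) := by
            rw [mul_assoc]
            apply mul_le_mul_of_nonneg_left _ (by positivity)
            nlinarith [sq_nonneg (a - b)]
        _ = _ := by ring
    exact (abs_le.1 (abs_le_of_sq_le_sq e4 (by positivity))).2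
  -- row sums
  have hrow : ∀ R ∈ P, ∑ R' ∈ P, g (R \ R').card ≤ (2 : ℝ) ^ k := by
    intro R hR
    rw [hP, Finset.mem_powersetCard] at hR
    have hmaps : ∀ R' ∈ P, (R \ R').card ∈ Finset.range (k + 1) := by
      intro R' _
      rw [Finset.mem_range]
      have := Finset.card_le_card (Finset.sdiff_subset (s := R) (t := R'))
      omega
    rw [← Finset.sum_fiberwise_of_maps_to hmaps]
    calc _ ≤ ∑ j ∈ Finset.range (k + 1), ((k.choose j : ℕ) : ℝ) := by
          apply Finset.sum_le_sum
          intro j hj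
          have e1 : ∑ R' ∈ P.filter (fun R' => (R \ R').card = j), g (R \ R').card
              = ((P.filter fun R' => (R \ R').card = j).card : ℝ) * g j := by
            rw [Finset.sum_congr rfl (g := fun _ => g j), Finset.sum_const, nsmul_eq_mul]
            intro R' hR'
            rw [(Finset.mem_filter.1 hR').2]
          rw [e1]
          have e2 := card_filter_le S R k j hR.1 hR.2
          have e2' : ((P.filter fun R' => (R \ R').card = j).card : ℝ)
              ≤ (k.choose j : ℝ) * ((S.card - k).choose j : ℝ) := by exact_mod_cast e2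
          calc _ ≤ (k.choose j : ℝ) * ((S.card - k).choose j : ℝ) * g j :=
                mul_le_mul_of_nonneg_right e2' (hg0 j)
            _ ≤ (k.choose j : ℝ) * 1 := by
                rw [mul_assoc]
                apply mul_le_mul_of_nonneg_left _ (by positivity)
                rw [hg]
                simp only
                rw [← mul_div_assoc]
                apply div_le_one_of_le₀ _ (by positivity)
                have e3 : (S.card - k).choose j * j.factorial = (S.card - k).descFactorial j := by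
                  rw [Nat.descFactorial_eq_factorial_mul_choose, mul_comm]
                have e4 : (S.card - k).descFactorial j ≤ (n - k).descFactorial j :=
                  Nat.descFactorial_le j (by omega)
                have e5 : (S.card - k).choose j * j.factorial ≤ (n - k).descFactorial j := by
                  rw [e3]; exact e4
                exact_mod_cast e5
            _ = _ := mul_one _
      _ = _ := by
          have := Nat.sum_range_choose k
          exact_mod_cast this
  set B := ∑ R ∈ P, H R ⬝ᵥ H R with hB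
  have hB0 : 0 ≤ B := Finset.sum_nonneg fun R _ => dot_nonneg _
  set E := EM S *ᵥ f with hE
  set Z : Equiv.Perm W → ℝ := ∑ R ∈ P, H R with hZ
  have hBE : B = E ⬝ᵥ Z := by
    rw [hB, hZ, dotProduct_sum]
    apply Finset.sum_congr rfl
    intro R hR
    rw [hP, Finset.mem_powersetCard] at hR
    calc H R ⬝ᵥ H R = f ⬝ᵥ (EM R *ᵥ H R) := (hsym R f (H R)).symm
      _ = f ⬝ᵥ (EM S *ᵥ H R) := by
          rw [hfix R]
          rw [hH]
          simp only
          rw [Matrix.mulVec_mulVec, (hmul R S hR.1).2]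
      _ = _ := by rw [hsym]
  have hZZ : Z ⬝ᵥ Z ≤ (2 : ℝ) ^ k * B := by
    have e1 : Z ⬝ᵥ Z = ∑ R ∈ P, ∑ R' ∈ P, H R ⬝ᵥ H R' := by
      rw [hZ, sum_dotProduct]
      apply Finset.sum_congr rfl
      intro R _
      rw [dotProduct_sum]
    have e2 : ∑ R ∈ P, ∑ R' ∈ P, H R ⬝ᵥ H R' ≤
        ∑ R ∈ P, ∑ R' ∈ P, g (R \ R').card * ((H R ⬝ᵥ H R) + (H R' ⬝ᵥ H R')) / 2 :=
      Finset.sum_le_sum fun R hR => Finset.sum_le_sum fun R' hR' => hbnd R hR R' hR'
    have e3 : ∑ R ∈ P, ∑ R' ∈ P, g (R \ R').card * ((H R ⬝ᵥ H R) + (H R' ⬝ᵥ H R')) / 2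
        = (∑ R ∈ P, ∑ R' ∈ P, g (R \ R').card * (H R ⬝ᵥ H R)) / 2
          + (∑ R ∈ P, ∑ R' ∈ P, g (R \ R').card * (H R' ⬝ᵥ H R')) / 2 := by
      rw [Finset.sum_div, Finset.sum_div, ← Finset.sum_add_distrib]
      apply Finset.sum_congr rfl
      intro R _
      rw [Finset.sum_div, Finset.sum_div, ← Finset.sum_add_distrib]
      apply Finset.sum_congr rfl
      intro R' _
      ring
    have e4 : ∑ R ∈ P, ∑ R' ∈ P, g (R \ R').card * (H R' ⬝ᵥ H R')
        = ∑ R ∈ P, ∑ R' ∈ P, g (R \ R').card * (H R ⬝ᵥ H R) := by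
      rw [Finset.sum_comm]
      apply Finset.sum_congr rfl
      intro R hR
      apply Finset.sum_congr rfl
      intro R' hR'
      rw [hP, Finset.mem_powersetCard] at hR hR'
      have : (R' \ R).card = (R \ R').card := by
        have h3 := Finset.card_sdiff_add_card_inter R R'
        have h4 := Finset.card_sdiff_add_card_inter R' R
        rw [Finset.inter_comm] at h4
        omega
      rw [this]
    have e5 : ∑ R ∈ P, ∑ R' ∈ P, g (R \ R').card * (H R ⬝ᵥ H R) ≤ (2 : ℝ) ^ k * B := by
      rw [hB, Finset.mul_sum]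
      apply Finset.sum_le_sum
      intro R hR
      rw [← Finset.sum_mul]
      exact mul_le_mul_of_nonneg_right (hrow R hR) (dot_nonneg _)
    rw [e1]
    rw [e4] at e3
    linarith
  have hfin : B ^ 2 ≤ (E ⬝ᵥ E) * ((2 : ℝ) ^ k * B) := by
    calc B ^ 2 = (E ⬝ᵥ Z) ^ 2 := by rw [← hBE]
      _ ≤ (E ⬝ᵥ E) * (Z ⬝ᵥ Z) := cs_dot _ _
      _ ≤ _ := mul_le_mul_of_nonneg_left hZZ (dot_nonneg _)
  change B ≤ (2 : ℝ) ^ k * (E ⬝ᵥ E)
  rcases hB0.eq_or_lt with h0 | hpos
  · rw [← h0]
    exact mul_nonneg (by positivity) (dot_nonneg _)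
  · have h3 : B * B ≤ ((2 : ℝ) ^ k * (E ⬝ᵥ E)) * B := by
      calc B * B = B ^ 2 := by ring
        _ ≤ _ := hfin
        _ = _ := by ring
    exact le_of_mul_le_mul_right h3 hpos

end Crest.Agent.R155
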