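import Crest.Agent.R155.Defs

/-! Row 155, WEYL: `tr (A^k (A^k)ᵀ) ≤ tr ((A Aᵀ)^k)` by the chessboard argument on cyclic words. -/

set_option autoImplicit false

namespace Crest.Agent.R155
namespace Weyl
open scoped BigOperators Matrix
open Finset

/-- number of alternations of a linear word -/
def alt : List Bool → ℕ
  | [] => 0
  | [_] => 0
  | a :: b :: l => (if a = b then 0 else 1) + alt (b :: l)

theorem alt_append (u : List Bool) (a : Bool) (v : List Bool) :
    alt (u ++ a :: v) = alt (u ++ [a]) + alt (a :: v) := by
  induction u with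
  | nil => simp [alt]
  | cons b u ih =>
    cases u with
    | nil => simp [alt]
    | cons c u =>
      simp only [List.cons_append, alt] at ih ⊢
      rw [ih]; ring

theorem alt_reverse (l : List Bool) : alt l.reverse = alt l := by
  induction l with
  | nil => rfl
  | cons a l ih =>
    cases l with
    | nil => rfl
    | cons b l =>
      have h1 : (a :: b :: l).reverse = l.reverse ++ b :: [a] := by simp
      rw [h1, alt_append]
      have h2 : l.reverse ++ [b] = (b :: l).reverse := by simp
      rw [h2, ih]
      simp only [alt, eq_comm]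
      ring

theorem alt_map_not (l : List Bool) : alt (l.map not) = alt l := by
  induction l with
  | nil => rfl
  | cons a l ih =>
    cases l with
    | nil => rfl
    | cons b l =>
      simp only [List.map_cons, alt] at ih ⊢
      rw [ih]
      congr 1
      cases a <;> cases b <;> rfl

theorem nil_or_snoc (l : List Bool) : l = [] ∨ ∃ (l' : List Bool) (b : Bool), l = l' ++ [b] := by
  rcases List.eq_nil_or_concat l with h | ⟨l', b, h⟩
  · exact Or.inl h
  · exact Or.inr ⟨l', b, by rw [h, List.concat_eq_append]⟩

/-- number of alternations of a cyclic word -/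
def cyc : List Bool → ℕ
  | [] => 0
  | a :: l => alt (a :: l ++ [a])

theorem cyc_comm (u v : List Bool) : cyc (u ++ v) = cyc (v ++ u) := by
  cases u with
  | nil => simp
  | cons a u =>
    cases v with
    | nil => simp
    | cons b v =>
      have h1 : cyc ((a :: u) ++ (b :: v)) = alt ((a :: u) ++ b :: (v ++ [a])) := by
        simp [cyc]
      have h2 : cyc ((b :: v) ++ (a :: u)) = alt ((b :: v) ++ a :: (u ++ [b])) := by
        simp [cyc]
      have h3 : alt (b :: (v ++ [a])) = alt ((b :: v) ++ [a]) := by simp
      have h4 : alt (a :: (u ++ [b])) = alt ((a :: u) ++ [b]) := by simp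
      rw [h1, h2, alt_append (a :: u) b, alt_append (b :: v) a, h3, h4]
      ring

/-- flip and reverse -/
def fl (w : List Bool) : List Bool := (w.map not).reverse

theorem alt_fl (w : List Bool) : alt (fl w) = alt w := by
  unfold fl; rw [alt_reverse, alt_map_not]

theorem length_fl (w : List Bool) : (fl w).length = w.length := by simp [fl]

/-- in a word which is not alternating there are two equal adjacent letters -/
theorem exists_eq (l : List Bool) (h : alt l + 1 < l.length) : ∃ p c q, l = p ++ c :: c :: q := by
  induction l with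
  | nil => simp at h
  | cons a l ih =>
    cases l with
    | nil => simp [alt] at h
    | cons b l =>
      by_cases hab : a = b
      · exact ⟨[], a, l, by simp [hab]⟩
      · have h2 : alt (b :: l) + 1 < (b :: l).length := by
          simp only [alt, if_neg hab, List.length_cons] at h ⊢
          omega
        obtain ⟨p, c, q, hp⟩ := ih h2
        exact ⟨a :: p, c, q, by rw [hp]; simp⟩

variable {m : Type} [Fintype m] [DecidableEq m]

def lt (A : Matrix m m ℝ) (b : Bool) : Matrix m m ℝ := if b then A else Aᵀ

def ev (A : Matrix m m ℝ) (w : List Bool) : Matrix m m ℝ := (w.map (lt A)).prod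

theorem ev_append (A : Matrix m m ℝ) (u v : List Bool) : ev A (u ++ v) = ev A u * ev A v := by
  simp [ev]

theorem ev_fl (A : Matrix m m ℝ) (u : List Bool) : ev A (fl u) = (ev A u)ᵀ := by
  unfold ev fl
  rw [Matrix.transpose_list_prod, List.map_map, List.map_reverse, List.map_map]
  congr 2
  apply List.map_congr_left
  intro b _
  cases b <;> simp [lt]

theorem trace_cs (X Y : Matrix m m ℝ) :
    (Matrix.trace (X * Y)) ^ 2 ≤ Matrix.trace (X * Xᵀ) * Matrix.trace (Y * Yᵀ) := by
  have h1 : Matrix.trace (X * Y) = ∑ p : m × m, X p.1 p.2 * Y p.2 p.1 := by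
    rw [Fintype.sum_prod_type]; rfl
  have h2 : Matrix.trace (X * Xᵀ) = ∑ p : m × m, (X p.1 p.2) ^ 2 := by
    rw [Fintype.sum_prod_type]
    simp only [Matrix.trace, Matrix.diag_apply, Matrix.mul_apply, Matrix.transpose_apply, sq]
  have h3 : Matrix.trace (Y * Yᵀ) = ∑ p : m × m, (Y p.2 p.1) ^ 2 := by
    rw [Fintype.sum_prod_type, Finset.sum_comm]
    simp only [Matrix.trace, Matrix.diag_apply, Matrix.mul_apply, Matrix.transpose_apply, sq]
  rw [h1, h2, h3]
  exact Finset.sum_mul_sq_le_sq_mul_sq _ _ _

theorem step (A : Matrix m m ℝ) (k : ℕ) (hk : 1 ≤ k) (w : List Bool) (hw : w.length = 2 * k)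
    (M : ℝ) (hM : 0 < M) (hmax : ∀ v : List Bool, v.length = 2 * k → |Matrix.trace (ev A v)| ≤ M)
    (hw2 : |Matrix.trace (ev A w)| = M) (hc : cyc w < 2 * k) :
    ∃ w' : List Bool, w'.length = 2 * k ∧ |Matrix.trace (ev A w')| = M ∧ cyc w < cyc w' := by
  -- rotate
  obtain ⟨c, q, h1, h2, h3⟩ : ∃ (c : Bool) (q : List Bool), (c :: (q ++ [c])).length = 2 * k ∧
      |Matrix.trace (ev A (c :: (q ++ [c])))| = M ∧ cyc (c :: (q ++ [c])) = cyc w := by
    by_cases h : alt w + 1 < w.length
    · obtain ⟨p, c, q, hp⟩ := exists_eq w h
      refine ⟨c, q ++ p, ?_, ?_, ?_⟩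
      · rw [hp] at hw
        simp only [List.length_cons, List.length_append, List.length_nil] at hw ⊢
        omega
      · have e1 : c :: ((q ++ p) ++ [c]) = (c :: q) ++ (p ++ [c]) := by simp
        have e2 : w = (p ++ [c]) ++ (c :: q) := by rw [hp]; simp
        rw [e1, ev_append, Matrix.trace_mul_comm, ← ev_append, ← e2, hw2]
      · have e1 : c :: ((q ++ p) ++ [c]) = (c :: q) ++ (p ++ [c]) := by simp
        have e2 : w = (p ++ [c]) ++ (c :: q) := by rw [hp]; simp
        rw [e1, cyc_comm, ← e2]
    · -- the junction
      cases w with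
      | nil => simp at hw; omega
      | cons a l =>
        rcases nil_or_snoc l with hl | ⟨q, b, hl⟩
        · rw [hl] at hw; simp at hw; omega
        · rw [hl] at hw hw2 hc h ⊢
          have hab : b = a := by
            by_contra hne
            have e1 : cyc (a :: (q ++ [b])) = alt (a :: (q ++ [b])) + 1 := by
              have e2 : a :: (q ++ [b]) ++ [a] = (a :: q) ++ b :: [a] := by simp
              simp only [cyc]
              rw [e2, alt_append]
              simp [alt, hne]
            rw [e1] at hc
            simp only [List.length_cons, List.length_append, List.length_nil] at h hw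
            omega
          subst hab
          exact ⟨b, q, hw, hw2, rfl⟩
  rw [← h3]
  -- cut in the middle
  obtain ⟨k', rfl⟩ : ∃ k', k = k' + 1 := ⟨k - 1, by omega⟩
  obtain ⟨u, v, huv, hu, hv⟩ : ∃ u v : List Bool, c :: (q ++ [c]) = (c :: u) ++ (v ++ [c]) ∧
      (c :: u).length = k' + 1 ∧ (v ++ [c]).length = k' + 1 := by
    refine ⟨q.take k', q.drop k', ?_, ?_, ?_⟩
    · have h9 : q ++ [c] = List.take k' q ++ (List.drop k' q ++ [c]) := by
        rw [← List.append_assoc, List.take_append_drop]
      rw [h9]; simp
    · simp only [List.length_cons, List.length_append, List.length_nil, List.length_take] at h1 ⊢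
      omega
    · simp only [List.length_cons, List.length_append, List.length_nil, List.length_drop] at h1 ⊢
      omega
  have hcyc : cyc (c :: (q ++ [c])) ≤ alt (c :: u) + alt (v ++ [c]) + 1 := by
    have e0 : cyc (c :: (q ++ [c])) = alt (c :: (q ++ [c])) := by
      have e2 : c :: (q ++ [c]) ++ [c] = (c :: q) ++ c :: [c] := by simp
      simp only [cyc]
      rw [e2, alt_append]
      simp [alt]
    rw [e0, huv]
    cases hvc : v ++ [c] with
    | nil => simp at hvc
    | cons d v' =>
      rw [alt_append]
      rcases nil_or_snoc (c :: u) with hl | ⟨u', b, hl⟩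
      · simp at hl
      · rw [hl]
        have e3 : (u' ++ [b]) ++ [d] = u' ++ b :: [d] := by simp
        rw [e3, alt_append]
        have e4 : alt [b, d] ≤ 1 := by
          simp only [alt]
          split_ifs <;> simp
        omega
  have gen : ∀ x : List Bool, x ≠ [] → cyc (x ++ fl x) = 2 * alt x + 2 := by
    intro x hx
    rcases nil_or_snoc x with hl | ⟨x', b, hl⟩
    · exact absurd hl hx
    · cases x with
      | nil => exact absurd rfl hx
      | cons a y =>
        have e1 : fl (a :: y) = (not b) :: fl x' := by
          rw [hl]; simp [fl]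
        have e2 : fl (a :: y) = fl y ++ [not a] := by simp [fl]
        have e3 : cyc ((a :: y) ++ fl (a :: y)) = alt ((a :: y) ++ fl (a :: y) ++ [a]) := by
          simp [cyc]
        rw [e3]
        have e4 : (a :: y) ++ fl (a :: y) ++ [a] = (a :: y) ++ (not b) :: (fl x' ++ [a]) := by
          rw [e1]; simp
        rw [e4, alt_append]
        have e5 : alt ((a :: y) ++ [not b]) = alt (a :: y) + 1 := by
          rw [hl]
          have : (x' ++ [b]) ++ [not b] = x' ++ b :: [not b] := by simp
          rw [this, alt_append]
          cases b <;> simp [alt]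
        have e6 : alt ((not b) :: (fl x' ++ [a])) = alt (a :: y) + 1 := by
          have : (not b) :: (fl x' ++ [a]) = fl y ++ (not a) :: [a] := by
            rw [← List.cons_append, ← e1, e2]; simp
          rw [this, alt_append, ← e2, alt_fl]
          cases a <;> simp [alt]
        rw [e5, e6]; ring
  have g1 := gen (c :: u) (by simp)
  have g2 := gen (v ++ [c]) (by simp)
  have l1 : ((c :: u) ++ fl (c :: u)).length = 2 * (k' + 1) := by
    rw [List.length_append, length_fl, hu]; ring
  have l2 : ((v ++ [c]) ++ fl (v ++ [c])).length = 2 * (k' + 1) := by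
    rw [List.length_append, length_fl, hv]; ring
  have m1 := hmax _ l1
  have m2 := hmax _ l2
  have cs := trace_cs (ev A (c :: u)) (ev A (v ++ [c]))
  rw [← ev_fl, ← ev_fl, ← ev_append, ← ev_append, ← ev_append, ← huv, ← sq_abs, h2] at cs
  set t1 := Matrix.trace (ev A (c :: u ++ fl (c :: u))) with ht1
  set t2 := Matrix.trace (ev A (v ++ [c] ++ fl (v ++ [c]))) with ht2
  have hM2 : M ^ 2 ≤ |t1| * |t2| := by
    rw [← abs_mul]; exact cs.trans (le_abs_self _)
  have n1 : |t1| = M := by
    apply le_antisymm m1
    by_contra hlt
    push Not at hlt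
    nlinarith [abs_nonneg t1, abs_nonneg t2]
  have n2 : |t2| = M := by
    apply le_antisymm m2
    by_contra hlt
    push Not at hlt
    nlinarith [abs_nonneg t1, abs_nonneg t2]
  by_cases hcase : cyc (c :: (q ++ [c])) < cyc (c :: u ++ fl (c :: u))
  · exact ⟨_, l1, n1, hcase⟩
  · refine ⟨_, l2, n2, ?_⟩
    omega

/-- an alternating word -/
theorem ev_alt (A : Matrix m m ℝ) (k : ℕ) (a : Bool) (l : List Bool)
    (hl : (a :: l).length = 2 * k) (h : 2 * k ≤ alt (a :: l) + 1) :
    ev A (a :: l) = (lt A a * lt A (not a)) ^ k := by
  induction k generalizing a l with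
  | zero => simp at hl
  | succ k ih =>
    cases l with
    | nil => simp at hl; omega
    | cons b l =>
      cases l with
      | nil =>
        have hk : k = 0 := by simp at hl; omega
        subst hk
        have hab : b = not a := by
          simp only [alt] at h
          split_ifs at h with h1
          · omega
          · cases a <;> cases b <;> simp_all
        subst hab
        simp [ev]
      | cons c l =>
        have altle : ∀ (x : Bool) (y : List Bool), alt (x :: y) ≤ y.length := by
          intro x y
          induction y generalizing x with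
          | nil => simp [alt]
          | cons z y ih =>
            simp only [alt, List.length_cons]
            have := ih z
            split_ifs <;> omega
        have h0 := altle c l
        simp only [List.length_cons] at hl
        simp only [alt] at h
        have hab : a ≠ b := by
          intro hab
          rw [if_pos hab] at h
          split_ifs at h <;> omega
        have hbc : b ≠ c := by
          intro hbc
          rw [if_neg hab, if_pos hbc] at h
          omega
        rw [if_neg hab, if_neg hbc] at h
        have hb : b = not a := by revert hab; cases a <;> cases b <;> simp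
        have hc : c = a := by revert hbc hab; cases a <;> cases b <;> cases c <;> simp
        subst hc
        have := ih c l (by simp only [List.length_cons]; omega) (by omega)
        rw [pow_succ', ← this, hb]
        simp [ev, Matrix.mul_assoc]

end Weyl

open Weyl Matrix Finset in
theorem weyl : StWeyl := by
  intro m _ _ A k
  rcases Nat.eq_zero_or_pos k with rfl | hk
  · simp
  have hpos : 0 ≤ Matrix.trace ((A * Aᵀ) ^ k) := by
    have h1 : (A * Aᵀ).PosSemidef := by
      have := Matrix.posSemidef_self_mul_conjTranspose A
      rwa [Matrix.conjTranspose_eq_transpose_of_trivial] at this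
    exact (h1.pow k).trace_nonneg
  -- the target is a word
  have hword : Matrix.trace (A ^ k * (A ^ k)ᵀ) =
      Matrix.trace (ev A (List.replicate k true ++ List.replicate k false)) := by
    rw [ev_append]
    congr 2
    · simp [ev, lt]
    · rw [Matrix.transpose_pow]; simp [ev, lt]
  -- the maximum
  obtain ⟨w0, -, hw0⟩ := Finset.exists_max_image (Finset.univ : Finset (List.Vector Bool (2 * k)))
    (fun w => |Matrix.trace (ev A w.1)|) ⟨⟨List.replicate (2 * k) true, by simp⟩, Finset.mem_univ _⟩
  set M : ℝ := |Matrix.trace (ev A w0.1)| with hM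
  have hmax : ∀ v : List Bool, v.length = 2 * k → |Matrix.trace (ev A v)| ≤ M := by
    intro v hv
    exact hw0 ⟨v, hv⟩ (Finset.mem_univ _)
  have hle : Matrix.trace (A ^ k * (A ^ k)ᵀ) ≤ M := by
    rw [hword]
    exact (le_abs_self _).trans (hmax _ (by simp; ring))
  rcases (abs_nonneg (Matrix.trace (ev A w0.1))).eq_or_lt with h0 | h0
  · rw [← hM] at h0
    rw [← h0] at hle
    exact hle.trans hpos
  rw [← hM] at h0
  have hind : ∀ j ≤ 2 * k, ∃ w : List Bool, w.length = 2 * k ∧ |Matrix.trace (ev A w)| = M ∧
      j ≤ cyc w := by
    intro j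
    induction j with
    | zero => intro _; exact ⟨w0.1, w0.2, hM.symm, Nat.zero_le _⟩
    | succ j ih =>
      intro hj
      obtain ⟨w, a1, a2, a3⟩ := ih (by omega)
      by_cases hc : cyc w < 2 * k
      · obtain ⟨w', b1, b2, b3⟩ := step A k hk w a1 M h0 hmax a2 hc
        exact ⟨w', b1, b2, by omega⟩
      · exact ⟨w, a1, a2, by omega⟩
  obtain ⟨w, a1, a2, a3⟩ := hind (2 * k) le_rfl
  cases w with
  | nil => simp at a1; omega
  | cons a l =>
    have hcyc : cyc (a :: l) ≤ alt (a :: l) + 1 := by
      rcases nil_or_snoc (a :: l) with hl | ⟨q, b, hl⟩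
      · simp at hl
      · have e1 : cyc (a :: l) = alt (q ++ b :: [a]) := by
          simp only [cyc]
          rw [hl]; simp
        rw [e1, alt_append, hl]
        have e4 : alt [b, a] ≤ 1 := by
          simp only [alt]
          split_ifs <;> simp
        omega
    have he := ev_alt A k a l a1 (by omega)
    rw [he] at a2
    have hM2 : M = Matrix.trace ((A * Aᵀ) ^ k) := by
      rw [← a2]
      cases a
      · have e2 : Matrix.trace ((Aᵀ * A) ^ k) = Matrix.trace ((A * Aᵀ) ^ k) := by
          obtain ⟨k', rfl⟩ : ∃ k', k = k' + 1 := ⟨k - 1, by omega⟩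
          have e3 : ∀ j : ℕ, (Aᵀ * A) ^ j * Aᵀ = Aᵀ * (A * Aᵀ) ^ j := by
            intro j
            induction j with
            | zero => simp
            | succ j ih =>
              rw [pow_succ', Matrix.mul_assoc, ih, pow_succ']
              simp only [Matrix.mul_assoc]
          rw [pow_succ, ← Matrix.mul_assoc, e3, Matrix.trace_mul_comm, ← Matrix.mul_assoc,
            ← pow_succ']
        simp only [lt, Bool.not_false, if_true, Bool.false_eq_true, if_false]
        rw [e2, abs_of_nonneg hpos]
      · simp only [lt, Bool.not_true, if_true, Bool.false_eq_true, if_false]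
        rw [abs_of_nonneg hpos]
    rw [← hM2]
    exact hle

open Weyl Matrix Finset in
theorem weylP : StWeylP := by
  intro m _ _ A P k hk hs hi hc
  have hcT : Aᵀ * P = P * Aᵀ := by
    have := congrArg Matrix.transpose hc
    rw [Matrix.transpose_mul, Matrix.transpose_mul, hs] at this
    exact this.symm
  have h := weyl m (P * A) k
  have e1 : ∀ j, 1 ≤ j → (P * A) ^ j = P * A ^ j := by
    intro j hj
    induction j, hj using Nat.le_induction with
    | base => simp
    | succ j hj ih =>
      rw [pow_succ, ih, Matrix.mul_assoc, ← Matrix.mul_assoc (A ^ j)]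
      have e2 : A ^ j * P = P * A ^ j := by
        have hcm : Commute A P := hc
        exact (hcm.pow_left j).eq
      rw [e2, Matrix.mul_assoc P (A ^ j), ← Matrix.mul_assoc P P, hi, ← pow_succ]
  have e3 : Matrix.trace ((P * A) ^ k * ((P * A) ^ k)ᵀ) = Matrix.trace (P * (A ^ k * (A ^ k)ᵀ)) := by
    rw [e1 k hk, Matrix.transpose_mul, hs, Matrix.trace_mul_comm, ← Matrix.mul_assoc,
      Matrix.mul_assoc _ P P, hi, Matrix.mul_assoc, Matrix.trace_mul_comm, Matrix.mul_assoc]
  have e4 : (P * A) * (P * A)ᵀ = P * (A * Aᵀ) := by
    rw [Matrix.transpose_mul, hs]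
    calc (P * A) * (Aᵀ * P) = (P * A) * (P * Aᵀ) := by rw [hcT]
      _ = P * (A * P) * Aᵀ := by simp only [Matrix.mul_assoc]
      _ = (P * P) * (A * Aᵀ) := by rw [hc]; simp only [Matrix.mul_assoc]
      _ = _ := by rw [hi]
  have e5 : ∀ j, 1 ≤ j → (P * (A * Aᵀ)) ^ j = P * (A * Aᵀ) ^ j := by
    intro j hj
    induction j, hj using Nat.le_induction with
    | base => simp
    | succ j hj ih =>
      rw [pow_succ, ih, Matrix.mul_assoc, ← Matrix.mul_assoc ((A * Aᵀ) ^ j)]
      have e2 : (A * Aᵀ) ^ j * P = P * (A * Aᵀ) ^ j := by
        have hcm : Commute (A * Aᵀ) P := by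
          have c1 : Commute A P := hc
          have c2 : Commute Aᵀ P := hcT
          exact c1.mul_left c2
        exact (hcm.pow_left j).eq
      rw [e2, Matrix.mul_assoc P ((A * Aᵀ) ^ j), ← Matrix.mul_assoc P P, hi, ← pow_succ]
  rw [e3, e4, e5 k hk] at h
  exact h

end Crest.Agent.R155
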