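import Crest.Agent.R155.Defs

/-! Row 155, task WORDS: counting words with few odd letters (helper20). -/

set_option autoImplicit false

namespace Crest.Agent.R155

namespace Words

open Finset

variable {A : Type} [Fintype A] [DecidableEq A]

/-- the letters occurring an odd number of times -/
def odd {n : ℕ} (w : Fin n → A) : Finset A :=
  univ.filter fun a => Odd (univ.filter fun i => w i = a).card

def cnt (n : ℕ) (O : Finset A) : ℕ := (univ.filter fun w : Fin n → A => odd w = O).card

theorem odd_cons {n : ℕ} (a : A) (w : Fin n → A) :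
    odd (Fin.cons a w : Fin (n + 1) → A) = symmDiff (odd w) {a} := by
  ext b
  have h : (univ.filter fun i => (Fin.cons a w : Fin (n + 1) → A) i = b).card =
      (if a = b then 1 else 0) + (univ.filter fun i => w i = b).card := by
    rw [Fin.card_filter_univ_succ]
    simp only [Fin.cons_zero, Fin.cons_succ]
    split_ifs <;> omega
  simp only [odd, mem_filter, mem_univ, true_and, mem_symmDiff, mem_singleton, h]
  by_cases hab : a = b
  · subst hab
    simp only [if_true, not_true_eq_false, and_false, Nat.odd_iff, true_and, false_or]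
    omega
  · have : b ≠ a := fun h => hab h.symm
    simp [hab, this]

theorem cnt_succ (n : ℕ) (O : Finset A) :
    cnt (n + 1) O = ∑ a : A, cnt n (symmDiff O {a}) := by
  unfold cnt
  simp only [card_filter]
  rw [← Fintype.sum_equiv (Fin.consEquiv fun _ : Fin (n + 1) => A)
    (fun p : A × (Fin n → A) => if symmDiff (odd p.2) {p.1} = O then 1 else 0)
    (fun w => if odd w = O then 1 else 0)]
  · rw [Fintype.sum_prod_type]
    refine sum_congr rfl fun a _ => sum_congr rfl fun w _ => ?_
    have : symmDiff (odd w) {a} = O ↔ odd w = symmDiff O {a} := by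
      constructor
      · rintro rfl
        rw [symmDiff_assoc, symmDiff_self, symmDiff_bot]
      · rintro h
        rw [h, symmDiff_assoc, symmDiff_self, symmDiff_bot]
    simp only [this]
  · intro p
    have h := odd_cons p.1 p.2
    show (if symmDiff (odd p.2) {p.1} = O then 1 else 0) = (if odd (Fin.cons p.1 p.2) = O then 1 else 0)
    rw [h]

theorem cnt_zero_of_lt (n : ℕ) (O : Finset A) (h : n < O.card) : cnt n O = 0 := by
  induction n generalizing O with
  | zero =>
    unfold cnt
    rw [card_eq_zero, filter_eq_empty_iff]
    intro w _ hw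
    have : odd w = ∅ := by
      ext b
      simp [odd]
    rw [this] at hw
    rw [← hw] at h
    simp at h
  | succ n ih =>
    rw [cnt_succ]
    refine sum_eq_zero fun a _ => ih _ ?_
    by_cases ha : a ∈ O
    · have h1 : symmDiff O {a} = O.erase a := by
        ext b
        simp only [mem_symmDiff, mem_singleton, mem_erase]
        constructor
        · rintro (h | h)
          · exact ⟨h.2, h.1⟩
          · exact absurd (h.1 ▸ ha) h.2
        · rintro ⟨h1, h2⟩
          exact Or.inl ⟨h2, h1⟩
      rw [h1, card_erase_of_mem ha]
      omega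
    · have h1 : symmDiff O {a} = insert a O := by
        ext b
        simp only [mem_symmDiff, mem_singleton, mem_insert]
        constructor
        · rintro (h | h)
          · exact Or.inr h.1
          · exact Or.inl h.1
        · rintro (h1 | h2)
          · exact Or.inr ⟨h1, h1 ▸ ha⟩
          · exact Or.inl ⟨h2, fun h => ha (h ▸ h2)⟩
      rw [h1, card_insert_of_notMem ha]
      omega

theorem cnt_le (n j : ℕ) (O : Finset A) (h : n = O.card + 2 * j) :
    cnt n O * (2 ^ j * j.factorial) ≤ n.factorial * Fintype.card A ^ j := by
  induction n generalizing O j with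
  | zero =>
    have hj : j = 0 := by omega
    subst hj
    have h1 : cnt 0 O ≤ 1 := by
      unfold cnt
      refine (card_le_card (filter_subset _ _)).trans ?_
      simp
    simpa using h1
  | succ n ih =>
    rw [cnt_succ]
    have hsplit : ∑ a : A, cnt n (symmDiff O {a}) =
        ∑ a ∈ O, cnt n (O.erase a) + ∑ a ∈ Oᶜ, cnt n (insert a O) := by
      rw [← sum_add_sum_compl O]
      congr 1
      · refine sum_congr rfl fun a ha => ?_
        congr 1
        ext b
        simp only [mem_symmDiff, mem_singleton, mem_erase]
        constructor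
        · rintro (h | h)
          · exact ⟨h.2, h.1⟩
          · exact absurd (h.1 ▸ ha) h.2
        · rintro ⟨h1, h2⟩
          exact Or.inl ⟨h2, h1⟩
      · refine sum_congr rfl fun a ha => ?_
        have ha' : a ∉ O := by simpa using ha
        congr 1
        ext b
        simp only [mem_symmDiff, mem_singleton, mem_insert]
        constructor
        · rintro (h | h)
          · exact Or.inr h.1
          · exact Or.inl h.1
        · rintro (h1 | h2)
          · exact Or.inr ⟨h1, h1 ▸ ha'⟩
          · exact Or.inl ⟨h2, fun h => ha' (h ▸ h2)⟩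
    rw [hsplit, add_mul]
    have h1 : (∑ a ∈ O, cnt n (O.erase a)) * (2 ^ j * j.factorial) ≤
        O.card * (n.factorial * Fintype.card A ^ j) := by
      rw [sum_mul, ← smul_eq_mul O.card]
      refine sum_le_card_nsmul _ _ _ fun a ha => ih _ _ ?_
      rw [card_erase_of_mem ha]
      have : 0 < O.card := card_pos.2 ⟨a, ha⟩
      omega
    have h2 : (∑ a ∈ Oᶜ, cnt n (insert a O)) * (2 ^ j * j.factorial) ≤
        2 * j * (n.factorial * Fintype.card A ^ j) := by
      rcases j with _ | j
      · have : ∑ a ∈ Oᶜ, cnt n (insert a O) = 0 := by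
          refine sum_eq_zero fun a ha => cnt_zero_of_lt _ _ ?_
          have ha' : a ∉ O := by simpa using ha
          rw [card_insert_of_notMem ha']
          omega
        rw [this]
        simp
      · have h3 : (∑ a ∈ Oᶜ, cnt n (insert a O)) * (2 ^ j * j.factorial) ≤
            Fintype.card A * (n.factorial * Fintype.card A ^ j) := by
          rw [sum_mul]
          refine (sum_le_card_nsmul _ _ (n.factorial * Fintype.card A ^ j) fun a ha => ih _ _ ?_).trans ?_
          · have ha' : a ∉ O := by simpa using ha
            rw [card_insert_of_notMem ha']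
            omega
          · rw [smul_eq_mul]
            exact Nat.mul_le_mul_right _ (card_le_univ _)
        calc (∑ a ∈ Oᶜ, cnt n (insert a O)) * (2 ^ (j + 1) * (j + 1).factorial)
            = 2 * (j + 1) * ((∑ a ∈ Oᶜ, cnt n (insert a O)) * (2 ^ j * j.factorial)) := by
              rw [Nat.factorial_succ, pow_succ]
              ring
          _ ≤ 2 * (j + 1) * (Fintype.card A * (n.factorial * Fintype.card A ^ j)) :=
              Nat.mul_le_mul_left _ h3
          _ = 2 * (j + 1) * (n.factorial * Fintype.card A ^ (j + 1)) := by
              rw [pow_succ]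
              ring
    calc _ ≤ O.card * (n.factorial * Fintype.card A ^ j) +
          2 * j * (n.factorial * Fintype.card A ^ j) := add_le_add h1 h2
      _ = (O.card + 2 * j) * (n.factorial * Fintype.card A ^ j) := by ring
      _ = (n + 1).factorial * Fintype.card A ^ j := by
          rw [← h, Nat.factorial_succ]
          ring

/-- `(2k)! = 2^k k! (2k-1)!!` -/
theorem fac_df (k : ℕ) : (2 * k).factorial = 2 ^ k * k.factorial * (2 * k - 1).doubleFactorial := by
  rcases k with _ | k
  · simp
  · have h := Nat.factorial_eq_mul_doubleFactorial (2 * k + 1)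
    have h2 : (2 * (k + 1)).doubleFactorial = 2 ^ (k + 1) * (k + 1).factorial :=
      Nat.doubleFactorial_two_mul (k + 1)
    have h3 : 2 * (k + 1) = 2 * k + 1 + 1 := by ring
    have h4 : 2 * (k + 1) - 1 = 2 * k + 1 := by omega
    rw [h4, h3, h, ← h3, h2]

theorem b0 (k : ℕ) : (cnt (2 * k) (∅ : Finset A) : ℝ) ≤
    (Fintype.card A : ℝ) ^ k * ((2 * k - 1).doubleFactorial : ℝ) := by
  have h := cnt_le (2 * k) k (∅ : Finset A) (by simp)
  rw [fac_df] at h
  have h2 : (cnt (2 * k) (∅ : Finset A)) ≤
      Fintype.card A ^ k * (2 * k - 1).doubleFactorial := by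
    have hp : 0 < 2 ^ k * k.factorial := by positivity
    refine Nat.le_of_mul_le_mul_right ?_ hp
    calc _ ≤ _ := h
      _ = _ := by ring
  exact_mod_cast h2

theorem b2 (k : ℕ) (O : Finset A) (hO : O.card = 2) : (cnt (2 * k) O : ℝ) * (Fintype.card A : ℝ) ≤
    2 * k * ((Fintype.card A : ℝ) ^ k * ((2 * k - 1).doubleFactorial : ℝ)) := by
  rcases k with _ | k
  · rw [cnt_zero_of_lt _ _ (by omega)]
    simp
  · have h := cnt_le (2 * (k + 1)) k O (by omega)
    rw [fac_df] at h
    have h2 : (cnt (2 * (k + 1)) O) ≤
        2 * (k + 1) * (Fintype.card A ^ k * (2 * (k + 1) - 1).doubleFactorial) := by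
      have hp : 0 < 2 ^ k * k.factorial := by positivity
      refine Nat.le_of_mul_le_mul_right ?_ hp
      calc _ ≤ _ := h
        _ = _ := by
          rw [pow_succ, Nat.factorial_succ]
          ring
    have h3 : cnt (2 * (k + 1)) O * Fintype.card A ≤
        2 * (k + 1) * (Fintype.card A ^ (k + 1) * (2 * (k + 1) - 1).doubleFactorial) := by
      calc _ ≤ 2 * (k + 1) * (Fintype.card A ^ k * (2 * (k + 1) - 1).doubleFactorial) *
            Fintype.card A := Nat.mul_le_mul_right _ h2
        _ = _ := by rw [pow_succ]; ring
    exact_mod_cast h3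

theorem b4 (k : ℕ) (O : Finset A) (hO : O.card = 4) :
    (cnt (2 * k) O : ℝ) * (Fintype.card A : ℝ) ^ 2 ≤
    4 * k * (k - 1) * ((Fintype.card A : ℝ) ^ k * ((2 * k - 1).doubleFactorial : ℝ)) := by
  rcases k with _ | _ | k
  · rw [cnt_zero_of_lt _ _ (by omega)]
    simp
  · rw [cnt_zero_of_lt _ _ (by omega)]
    simp
  · have h := cnt_le (2 * (k + 2)) k O (by omega)
    rw [fac_df] at h
    have h2 : (cnt (2 * (k + 2)) O) ≤
        4 * (k + 2) * (k + 1) * (Fintype.card A ^ k * (2 * (k + 2) - 1).doubleFactorial) := by
      have hp : 0 < 2 ^ k * k.factorial := by positivity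
      refine Nat.le_of_mul_le_mul_right ?_ hp
      calc _ ≤ _ := h
        _ = _ := by
          rw [pow_add, Nat.factorial_succ (k + 1), Nat.factorial_succ]
          ring
    have h3 : cnt (2 * (k + 2)) O * Fintype.card A ^ 2 ≤
        4 * (k + 2) * (k + 1) * (Fintype.card A ^ (k + 2) * (2 * (k + 2) - 1).doubleFactorial) := by
      calc _ ≤ 4 * (k + 2) * (k + 1) * (Fintype.card A ^ k * (2 * (k + 2) - 1).doubleFactorial) *
            Fintype.card A ^ 2 := Nat.mul_le_mul_right _ h2
        _ = _ := by rw [pow_add]; ring
    have h4 : ((cnt (2 * (k + 2)) O * Fintype.card A ^ 2 : ℕ) : ℝ) ≤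
        ((4 * (k + 2) * (k + 1) * (Fintype.card A ^ (k + 2) *
          (2 * (k + 2) - 1).doubleFactorial) : ℕ) : ℝ) := by exact_mod_cast h3
    push_cast at h4 ⊢
    have e : ((k : ℝ) + 1 + 1 - 1) = k + 1 := by ring
    rw [e]
    have e2 : ((k : ℝ) + 1 + 1) = k + 2 := by ring
    rw [e2]
    exact h4

end Words

open Words Finset in
theorem words : StWords := by
  classical
  intro A _ _ k O hO
  set N : ℝ := (Fintype.card A : ℝ) with hN
  set D : ℝ := ((2 * k - 1).doubleFactorial : ℝ) with hD
  have hN2 : 2 ≤ N := by
    rw [hN]
    have : O.card ≤ Fintype.card A := card_le_univ _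
    rw [hO] at this
    exact_mod_cast this
  have hD0 : 0 ≤ D := Nat.cast_nonneg _
  -- rewrite the set
  have hset : (univ.filter fun w : Fin (2 * k) → A =>
        ((univ.filter fun a : A => Odd ((univ.filter fun i => w i = a).card + if a ∈ O then 1 else 0)
          ).card = 2)) = univ.filter fun w : Fin (2 * k) → A => (symmDiff (Words.odd w) O).card = 2 := by
    refine filter_congr fun w _ => ?_
    have : (univ.filter fun a : A => Odd ((univ.filter fun i => w i = a).card +
        if a ∈ O then 1 else 0)) = symmDiff (Words.odd w) O := by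
      ext a
      simp only [Words.odd, mem_filter, mem_univ, true_and, mem_symmDiff]
      by_cases ha : a ∈ O
      · simp only [ha, if_true, Nat.odd_add_one, true_and, not_true_eq_false, and_false, false_or]
      · simp [ha]
    rw [this]
  have hset' : ((univ.filter fun w : Fin (2 * k) → A =>
        ((univ.filter fun a : A => Odd ((univ.filter fun i => w i = a).card + if a ∈ O then 1 else 0)
          ).card = 2)).card : ℝ) =
      ((univ.filter fun w : Fin (2 * k) → A => (symmDiff (Words.odd w) O).card = 2).card : ℝ) := by
    rw [hset]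
  have hgoal : ((univ.filter fun w : Fin (2 * k) → A => (symmDiff (Words.odd w) O).card = 2).card : ℝ)
      ≤ N ^ k * D * (2 * (k : ℝ) ^ 2 + 2 * k + 1) := by
    have hfib : (univ.filter fun w : Fin (2 * k) → A => (symmDiff (Words.odd w) O).card = 2).card =
        ∑ T ∈ powersetCard 2 (univ : Finset A), cnt (2 * k) (symmDiff T O) := by
      rw [card_eq_sum_card_fiberwise (f := fun w => symmDiff (Words.odd w) O)
        (t := powersetCard 2 (univ : Finset A))]
      · refine sum_congr rfl fun T hT => ?_
        unfold cnt
        congr 1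
        ext w
        simp only [mem_filter, mem_univ, true_and]
        constructor
        · rintro ⟨_, h⟩
          rw [← h, symmDiff_assoc, symmDiff_self, symmDiff_bot]
        · intro h
          have h2 : symmDiff (Words.odd w) O = T := by
            rw [h, symmDiff_assoc, symmDiff_self, symmDiff_bot]
          exact ⟨by rw [h2]; exact (mem_powersetCard.1 hT).2, h2⟩
      · intro w hw
        have hw' : (symmDiff (Words.odd w) O).card = 2 := by simpa using hw
        exact mem_coe.2 (mem_powersetCard.2 ⟨subset_univ _, hw'⟩)
    rw [hfib]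
    push_cast
    -- split according to `|T ∩ O|`
    set P := powersetCard 2 (univ : Finset A) with hP
    have hb0 := b0 (A := A) k
    have key : ∀ T ∈ P, (cnt (2 * k) (symmDiff T O) : ℝ) ≤
        (if T = O then N ^ k * D else 0) +
        (if T ∈ (O ×ˢ (univ : Finset A)).image (fun p => ({p.1, p.2} : Finset A)) then
          2 * k * (N ^ k * D) / N else 0) +
        4 * k * (k - 1) * (N ^ k * D) / N ^ 2 := by
      intro T hT
      have hTc : T.card = 2 := (mem_powersetCard.1 hT).2
      have hN0 : 0 < N := by linarith
      have e0 : 0 ≤ N ^ k * D := by positivity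
      have e2 : 0 ≤ 2 * k * (N ^ k * D) / N := by positivity
      have e4 : 0 ≤ 4 * k * (k - 1) * (N ^ k * D) / N ^ 2 := by
        rcases k with _ | k
        · simp
        · have : ((k + 1 : ℕ) : ℝ) - 1 = k := by push_cast; ring
          rw [this]
          positivity
      have hcap : (T ∩ O).card ≤ 2 := (card_le_card inter_subset_left).trans hTc.le
      have hsd : (symmDiff T O).card + 2 * (T ∩ O).card = 4 := by
        have h1 := card_sdiff_add_card_inter T O
        have h2 := card_sdiff_add_card_inter O T
        rw [inter_comm O T] at h2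
        have h3 : (symmDiff T O).card = (T \ O).card + (O \ T).card := by
          rw [symmDiff_def, sup_eq_union, card_union_of_disjoint]
          exact disjoint_sdiff_sdiff
        omega
      interval_cases hc : (T ∩ O).card
      · -- disjoint
        have h4 : (symmDiff T O).card = 4 := by omega
        have := b4 k _ h4
        have h5 : (cnt (2 * k) (symmDiff T O) : ℝ) ≤ 4 * k * (k - 1) * (N ^ k * D) / N ^ 2 := by
          rw [le_div_iff₀ (by positivity)]
          exact this
        have h6 : 0 ≤ (if T = O then N ^ k * D else 0) := by split_ifs <;> simp [e0]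
        have h7 : 0 ≤ (if T ∈ (O ×ˢ (univ : Finset A)).image (fun p => ({p.1, p.2} : Finset A)) then
          2 * k * (N ^ k * D) / N else 0) := by split_ifs <;> simp [e2]
        linarith
      · have h4 : (symmDiff T O).card = 2 := by omega
        have := b2 k _ h4
        have h5 : (cnt (2 * k) (symmDiff T O) : ℝ) ≤ 2 * k * (N ^ k * D) / N := by
          rw [le_div_iff₀ hN0]
          exact this
        have h6 : 0 ≤ (if T = O then N ^ k * D else 0) := by split_ifs <;> simp [e0]
        have h7 : T ∈ (O ×ˢ (univ : Finset A)).image (fun p => ({p.1, p.2} : Finset A)) := by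
          obtain ⟨o, ho⟩ := card_pos.1 (by omega : 0 < (T ∩ O).card)
          rw [mem_inter] at ho
          obtain ⟨x, y, hxy, rfl⟩ := card_eq_two.1 hTc
          rw [mem_image]
          rcases mem_insert.1 ho.1 with h | h
          · exact ⟨(x, y), by simp [← h, ho.2], rfl⟩
          · rw [mem_singleton] at h
            exact ⟨(y, x), by simp [← h, ho.2], by simp [pair_comm]⟩
        rw [if_pos h7]
        linarith
      · have h4 : T = O := by
          have h8 : T ∩ O = T := eq_of_subset_of_card_le inter_subset_left (by omega)
          have h9 : T ∩ O = O := eq_of_subset_of_card_le inter_subset_right (by omega)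
          rw [← h8, h9]
        have h7 : 0 ≤ (if T ∈ (O ×ˢ (univ : Finset A)).image (fun p => ({p.1, p.2} : Finset A)) then
          2 * k * (N ^ k * D) / N else 0) := by split_ifs <;> simp [e2]
        rw [if_pos h4]
        have h5 : (cnt (2 * k) (symmDiff T O) : ℝ) ≤ N ^ k * D := by
          rw [h4, symmDiff_self]
          exact hb0
        linarith
    refine (sum_le_sum key).trans ?_
    rw [sum_add_distrib, sum_add_distrib]
    have hN0 : 0 < N := by linarith
    have e0 : 0 ≤ N ^ k * D := by positivity
    have s1 : ∑ T ∈ P, (if T = O then N ^ k * D else 0) ≤ N ^ k * D := by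
      rw [sum_ite_eq' P O]
      split_ifs <;> simp [e0]
    have s2 : ∑ T ∈ P, (if T ∈ (O ×ˢ (univ : Finset A)).image (fun p => ({p.1, p.2} : Finset A)) then
          2 * k * (N ^ k * D) / N else 0) ≤ 4 * k * (N ^ k * D) := by
      rw [← sum_filter, sum_const, nsmul_eq_mul]
      have hc : ((P.filter fun T => T ∈ (O ×ˢ (univ : Finset A)).image
          (fun p => ({p.1, p.2} : Finset A))).card : ℝ) ≤ 2 * N := by
        have h1 : (P.filter fun T => T ∈ (O ×ˢ (univ : Finset A)).image
            (fun p => ({p.1, p.2} : Finset A))).card ≤ 2 * Fintype.card A := by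
          calc _ ≤ ((O ×ˢ (univ : Finset A)).image (fun p => ({p.1, p.2} : Finset A))).card :=
                card_le_card fun T hT => (mem_filter.1 hT).2
            _ ≤ (O ×ˢ (univ : Finset A)).card := card_image_le
            _ = 2 * Fintype.card A := by rw [card_product, hO, card_univ]
        rw [hN]
        exact_mod_cast h1
      calc _ ≤ (2 * N) * (2 * k * (N ^ k * D) / N) := by
            refine mul_le_mul_of_nonneg_right hc (by positivity)
        _ = 4 * k * (N ^ k * D) := by
            field_simp
            ring
    have s3 : ∑ T ∈ P, 4 * (k : ℝ) * (k - 1) * (N ^ k * D) / N ^ 2 ≤ 2 * k * (k - 1) * (N ^ k * D) := by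
      rw [sum_const, nsmul_eq_mul, hP, card_powersetCard, card_univ]
      have e4 : 0 ≤ 4 * (k : ℝ) * (k - 1) * (N ^ k * D) / N ^ 2 := by
        rcases k with _ | k
        · simp
        · have : ((k + 1 : ℕ) : ℝ) - 1 = k := by push_cast; ring
          rw [this]
          positivity
      have hch : ((Fintype.card A).choose 2 : ℝ) ≤ N ^ 2 / 2 := by
        rw [Nat.cast_choose_two, ← hN]
        nlinarith
      calc _ ≤ (N ^ 2 / 2) * (4 * (k : ℝ) * (k - 1) * (N ^ k * D) / N ^ 2) :=
            mul_le_mul_of_nonneg_right hch e4
        _ = _ := by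
            field_simp
            ring
    calc _ ≤ N ^ k * D + 4 * k * (N ^ k * D) + 2 * k * (k - 1) * (N ^ k * D) :=
          add_le_add (add_le_add s1 s2) s3
      _ = N ^ k * D * (2 * (k : ℝ) ^ 2 + 2 * k + 1) := by ring
  rw [← hset'] at hgoal
  convert hgoal

end Crest.Agent.R155
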