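import Crest.Agent.R155.Defs
import Crest.Agent.R155.LA

/-! Row 155, task XA: random transpositions on a pure level (helper20). -/

set_option autoImplicit false

namespace Crest.Agent.R155

namespace XA

open Finset Matrix Equiv

variable {W : Type} [Fintype W] [DecidableEq W]

theorem Lm_mulVec (g : Perm W) (f : Perm W → ℝ) (σ : Perm W) :
    (Lm g *ᵥ f) σ = f (g⁻¹ * σ) := by
  unfold Lm
  simp only [mulVec, dotProduct, ite_mul, one_mul, zero_mul]
  rw [sum_eq_single (g⁻¹ * σ)]
  · rw [if_pos (by group)]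
  · intro τ _ hτ
    rw [if_neg]
    rintro rfl
    apply hτ
    group
  · intro h
    exact absurd (mem_univ _) h

theorem Lm_transpose (g : Perm W) : (Lm g)ᵀ = Lm g⁻¹ := by
  ext h h'
  simp only [Lm, transpose_apply]
  congr 1
  apply propext
  constructor
  · rintro rfl
    group
  · rintro rfl
    group

theorem Xm_symm : (Xm W)ᵀ = Xm W := by
  unfold Xm
  rw [transpose_smul, transpose_sum]
  congr 1
  refine sum_congr rfl fun p _ => ?_
  rw [transpose_sub, transpose_one, Lm_transpose, swap_inv]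

theorem Xm_rinv : RInv (Xm W) := by
  intro g h h'
  unfold Xm
  simp only [Matrix.smul_apply, Matrix.sum_apply, Matrix.sub_apply, smul_eq_mul]
  congr 1
  refine sum_congr rfl fun p _ => ?_
  have h1 : (1 : Matrix (Perm W) (Perm W) ℝ) (h * g) (h' * g) = (1 : Matrix (Perm W) (Perm W) ℝ) h h' := by
    simp only [Matrix.one_apply, mul_left_inj]
  have h2 : Lm (swap p.1 p.2) (h * g) (h' * g) = Lm (swap p.1 p.2) h h' := by
    unfold Lm
    rw [← mul_assoc]
    simp only [mul_left_inj]
  rw [h1, h2]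

/-- in terms of right multiplications -/
theorem Xm_apply (f : Perm W → ℝ) (σ : Perm W) :
    (Xm W *ᵥ f) σ = (1 / (Fintype.card W : ℝ)) * ∑ p : W × W, (f σ - f (σ * swap p.1 p.2)) := by
  unfold Xm
  rw [smul_mulVec, Pi.smul_apply, smul_eq_mul]
  congr 1
  rw [sum_mulVec, Finset.sum_apply]
  simp only [sub_mulVec, one_mulVec, Pi.sub_apply, Lm_mulVec, swap_inv]
  refine Fintype.sum_equiv (Equiv.prodCongr σ⁻¹ σ⁻¹) _ _ fun p => ?_
  have : swap p.1 p.2 * σ = σ * swap (σ⁻¹ p.1) (σ⁻¹ p.2) := Equiv.swap_mul_eq_mul_swap σ p.1 p.2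
  rw [this]
  rfl

/-- the Dirichlet form of one right transposition -/
noncomputable def Q (h : Perm W → ℝ) (a b : W) : ℝ := ∑ σ : Perm W, h σ * (h σ - h (σ * swap a b))

theorem Q_nonneg (h : Perm W → ℝ) (a b : W) : 0 ≤ Q h a b := by
  have h1 : ∑ σ : Perm W, h (σ * swap a b) ^ 2 = ∑ σ : Perm W, h σ ^ 2 :=
    Fintype.sum_equiv (Equiv.mulRight (swap a b)) _ _ fun σ => rfl
  have h2 : Q h a b = (1 / 2) * ∑ σ : Perm W, (h σ - h (σ * swap a b)) ^ 2 := by
    have h3 : ∑ σ : Perm W, (h σ - h (σ * swap a b)) ^ 2 =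
        ∑ σ : Perm W, h σ ^ 2 + ∑ σ : Perm W, h (σ * swap a b) ^ 2
          - 2 * ∑ σ : Perm W, h σ * h (σ * swap a b) := by
      rw [mul_sum, ← sum_add_distrib, ← sum_sub_distrib]
      exact sum_congr rfl fun σ _ => by ring
    rw [h3, h1]
    unfold Q
    have h4 : ∑ σ : Perm W, h σ * (h σ - h (σ * swap a b)) =
        ∑ σ : Perm W, h σ ^ 2 - ∑ σ : Perm W, h σ * h (σ * swap a b) := by
      rw [← sum_sub_distrib]
      exact sum_congr rfl fun σ _ => by ring
    rw [h4]
    ring
  rw [h2]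
  positivity

theorem Q_symm (h : Perm W → ℝ) (a b : W) : Q h a b = Q h b a := by
  unfold Q
  rw [Equiv.swap_comm]

theorem dot_Xm (h : Perm W → ℝ) :
    h ⬝ᵥ (Xm W *ᵥ h) = (1 / (Fintype.card W : ℝ)) * ∑ p : W × W, Q h p.1 p.2 := by
  unfold Q
  simp only [dotProduct, Xm_apply]
  rw [sum_comm, mul_sum]
  refine sum_congr rfl fun σ _ => ?_
  rw [← mul_sum]
  ring

theorem const_of_EM (R : Finset W) (h : Perm W → ℝ) (hh : EM R *ᵥ h = h) (σ τ : Perm W)
    (hst : ∀ a ∈ R, σ a = τ a) : h σ = h τ := by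
  rw [← hh]
  simp only [mulVec, dotProduct]
  refine sum_congr rfl fun ρ _ => ?_
  congr 1
  unfold EM
  have : (∀ a ∈ R, σ a = ρ a) ↔ (∀ a ∈ R, τ a = ρ a) :=
    ⟨fun h1 a ha => (hst a ha).symm.trans (h1 a ha), fun h1 a ha => (hst a ha).trans (h1 a ha)⟩
  simp only [this]

theorem coset_card (R : Finset W) (ρ : Perm W) :
    (univ.filter fun τ : Perm W => ∀ b ∈ R, ρ b = τ b).card =
      (univ.filter fun τ : Perm W => ∀ b ∈ R, b = τ b).card := by
  refine card_bij (fun τ _ => ρ⁻¹ * τ) ?_ ?_ ?_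
  · intro τ hτ
    simp only [mem_filter, mem_univ, true_and] at hτ ⊢
    intro b hb
    rw [Perm.mul_apply, ← hτ b hb]
    simp
  · intro τ _ τ' _ h
    exact mul_left_cancel h
  · intro τ hτ
    simp only [mem_filter, mem_univ, true_and] at hτ
    refine ⟨ρ * τ, ?_, by group⟩
    simp only [mem_filter, mem_univ, true_and]
    intro b hb
    rw [Perm.mul_apply, ← hτ b hb]

theorem sum_swap (R : Finset W) (a : W) (ha : a ∈ R) (h : Perm W → ℝ) (hh : EM R *ᵥ h = h)
    (h0 : EM (R.erase a) *ᵥ h = 0) (σ : Perm W) :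
    h σ + ∑ t ∈ Rᶜ, h (σ * swap a t) = 0 := by
  -- the sum over the big coset vanishes
  have h1 : ∑ τ ∈ univ.filter (fun τ : Perm W => ∀ b ∈ R.erase a, σ b = τ b), h τ = 0 := by
    have h2 := congrFun h0 σ
    simp only [mulVec, dotProduct, Pi.zero_apply] at h2
    have h3 : ∑ τ : Perm W, EM (R.erase a) σ τ * h τ =
        (1 / (((Fintype.card W - (R.erase a).card).factorial : ℕ) : ℝ)) *
          ∑ τ ∈ univ.filter (fun τ : Perm W => ∀ b ∈ R.erase a, σ b = τ b), h τ := by
      rw [mul_sum, sum_filter]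
      refine sum_congr rfl fun τ _ => ?_
      unfold EM
      split_ifs <;> simp
    rw [h3] at h2
    have h4 : (1 / (((Fintype.card W - (R.erase a).card).factorial : ℕ) : ℝ)) ≠ 0 := by
      positivity
    exact (mul_eq_zero.1 h2).resolve_left h4
  set m := (univ.filter fun τ : Perm W => ∀ b ∈ R, b = τ b).card with hm
  have hm0 : 0 < m := card_pos.2 ⟨1, by simp⟩
  have h5 : ∑ τ ∈ univ.filter (fun τ : Perm W => ∀ b ∈ R.erase a, σ b = τ b), h τ =
      ∑ s ∈ insert a Rᶜ, (m : ℝ) * h (σ * swap a s) := by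
    rw [← sum_fiberwise_of_maps_to (g := fun τ : Perm W => σ⁻¹ (τ a)) (t := insert a Rᶜ)]
    · refine sum_congr rfl fun s hs => ?_
      have hsR : s ∉ R.erase a := by
        rw [mem_insert, mem_compl] at hs
        rw [mem_erase]
        rintro ⟨h6, h7⟩
        rcases hs with h8 | h8
        · exact h6 h8
        · exact h8 h7
      have h6 : ((univ.filter fun τ : Perm W => ∀ b ∈ R.erase a, σ b = τ b).filter
          fun τ => σ⁻¹ (τ a) = s) =
          univ.filter fun τ : Perm W => ∀ b ∈ R, (σ * swap a s) b = τ b := by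
        ext τ
        simp only [mem_filter, mem_univ, true_and]
        constructor
        · rintro ⟨h7, h8⟩ b hb
          rw [Perm.mul_apply]
          by_cases hba : b = a
          · subst hba
            rw [swap_apply_left, ← h8]
            simp
          · have hb' : b ∈ R.erase a := mem_erase.2 ⟨hba, hb⟩
            rw [swap_apply_of_ne_of_ne hba (fun e : b = s => hsR (e ▸ hb'))]
            exact h7 b hb'
        · intro h7
          constructor
          · intro b hb
            have hb' := mem_erase.1 hb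
            rw [← h7 b hb'.2, Perm.mul_apply,
              swap_apply_of_ne_of_ne hb'.1 (fun e : b = s => hsR (e ▸ hb))]
          · rw [← h7 a ha, Perm.mul_apply, swap_apply_left]
            simp
      rw [h6]
      rw [sum_congr rfl (g := fun _ => h (σ * swap a s))]
      · rw [sum_const, nsmul_eq_mul, coset_card]
      · intro τ hτ
        simp only [mem_filter, mem_univ, true_and] at hτ
        exact (const_of_EM R h hh _ _ hτ).symm
    · intro τ hτ
      simp only [mem_filter, mem_univ, true_and] at hτ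
      rw [mem_insert, mem_compl]
      by_cases h6 : σ⁻¹ (τ a) = a
      · exact Or.inl h6
      · right
        intro h7
        have h8 := hτ _ (mem_erase.2 ⟨h6, h7⟩)
        have h9 : σ (σ⁻¹ (τ a)) = τ a := by simp
        rw [h9] at h8
        exact h6 (τ.injective h8.symm)
  rw [h5, ← mul_sum] at h1
  have h6 := (mul_eq_zero.1 h1).resolve_left (by positivity)
  rw [sum_insert (by simpa using ha), swap_self] at h6
  exact h6

theorem key (R : Finset W) (h : Perm W → ℝ) (hh : EM R *ᵥ h = h)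
    (h0 : ∀ a ∈ R, EM (R.erase a) *ᵥ h = 0) :
    (2 * (R.card : ℝ) * ((Fintype.card W : ℝ) - R.card + 1) / (Fintype.card W : ℝ)) * (h ⬝ᵥ h)
      ≤ h ⬝ᵥ (Xm W *ᵥ h) := by
  rw [dot_Xm]
  have hcard : ((Rᶜ).card : ℝ) = (Fintype.card W : ℝ) - R.card := by
    rw [card_compl, Nat.cast_sub (card_le_univ R)]
  have h1 : ∀ a ∈ R, ∑ t ∈ Rᶜ, Q h a t = ((Fintype.card W : ℝ) - R.card + 1) * (h ⬝ᵥ h) := by
    intro a ha
    unfold Q
    rw [sum_comm]
    simp only [dotProduct]
    rw [mul_sum]
    refine sum_congr rfl fun σ _ => ?_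
    have h2 := sum_swap R a ha h hh (h0 a ha) σ
    rw [← mul_sum, sum_sub_distrib, sum_const, nsmul_eq_mul, hcard]
    have h3 : ∑ t ∈ Rᶜ, h (σ * swap a t) = - h σ := by linarith
    rw [h3]
    ring
  have h2 : ∑ p ∈ R ×ˢ Rᶜ, Q h p.1 p.2 = R.card * (((Fintype.card W : ℝ) - R.card + 1) * (h ⬝ᵥ h)) := by
    rw [sum_product, sum_congr rfl h1, sum_const, nsmul_eq_mul]
  have h3 : ∑ p ∈ Rᶜ ×ˢ R, Q h p.1 p.2 = ∑ p ∈ R ×ˢ Rᶜ, Q h p.1 p.2 := by
    rw [sum_product_right, sum_product]
    refine sum_congr rfl fun a _ => sum_congr rfl fun b _ => ?_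
    exact Q_symm h b a
  have h4 : ∑ p ∈ R ×ˢ Rᶜ, Q h p.1 p.2 + ∑ p ∈ Rᶜ ×ˢ R, Q h p.1 p.2 ≤ ∑ p : W × W, Q h p.1 p.2 := by
    rw [← sum_union]
    · exact sum_le_sum_of_subset_of_nonneg (subset_univ _) fun p _ _ => Q_nonneg h _ _
    · rw [disjoint_left]
      rintro ⟨a, b⟩ h5 h6
      rw [mem_product] at h5 h6
      exact (mem_compl.1 h6.1) h5.1
  rw [h3, h2] at h4
  have h5 : (0 : ℝ) ≤ 1 / (Fintype.card W : ℝ) := by positivity
  calc _ = 1 / (Fintype.card W : ℝ) * (R.card * (((Fintype.card W : ℝ) - R.card + 1) * (h ⬝ᵥ h)) +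
        R.card * (((Fintype.card W : ℝ) - R.card + 1) * (h ⬝ᵥ h))) := by ring
    _ ≤ _ := mul_le_mul_of_nonneg_left h4 h5

/-- spectral projections commute with everything that commutes with `X` -/
theorem comm_spec {m : Type} [Fintype m] [DecidableEq m] (X O B : Matrix m m ℝ) (l : m → ℝ)
    (h1 : O * Oᵀ = 1) (h2 : Oᵀ * O = 1) (h3 : X = O * diagonal l * Oᵀ) (hB : X * B = B * X) (α : ℝ) :
    (O * diagonal (fun i => if l i = α then (1 : ℝ) else 0) * Oᵀ) * B =
      B * (O * diagonal (fun i => if l i = α then (1 : ℝ) else 0) * Oᵀ) := by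
  set C := Oᵀ * B * O with hC
  have hBC : B = O * C * Oᵀ := by
    rw [hC]
    calc B = (O * Oᵀ) * B * (O * Oᵀ) := by rw [h1, Matrix.one_mul, Matrix.mul_one]
      _ = _ := by simp only [Matrix.mul_assoc]
  have hcomm : diagonal l * C = C * diagonal l := by
    have e1 : diagonal l * C = Oᵀ * (X * B) * O := by
      rw [h3, hBC]
      calc diagonal l * C = (Oᵀ * O) * diagonal l * (Oᵀ * O) * C * (Oᵀ * O) := by
            rw [h2, Matrix.one_mul, Matrix.mul_one, Matrix.mul_one]
        _ = _ := by simp only [Matrix.mul_assoc]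
    have e2 : C * diagonal l = Oᵀ * (B * X) * O := by
      rw [h3, hBC]
      calc C * diagonal l = (Oᵀ * O) * C * (Oᵀ * O) * diagonal l * (Oᵀ * O) := by
            rw [h2, Matrix.one_mul, Matrix.mul_one, Matrix.mul_one]
        _ = _ := by simp only [Matrix.mul_assoc]
    rw [e1, e2, hB]
  have hcomm2 : diagonal (fun i => if l i = α then (1 : ℝ) else 0) * C =
      C * diagonal (fun i => if l i = α then (1 : ℝ) else 0) := by
    ext i j
    have := congrFun (congrFun hcomm i) j
    rw [diagonal_mul, mul_diagonal] at this ⊢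
    by_cases hij : l i = l j
    · rw [hij]
      ring
    · have : C i j = 0 := by
        have h4 : (l i - l j) * C i j = 0 := by linarith
        exact (mul_eq_zero.1 h4).resolve_left (sub_ne_zero.2 hij)
      rw [this]
      ring
  rw [hBC]
  calc _ = O * diagonal (fun i => if l i = α then (1 : ℝ) else 0) * (Oᵀ * O) * C * Oᵀ := by
        simp only [Matrix.mul_assoc]
    _ = O * (diagonal (fun i => if l i = α then (1 : ℝ) else 0) * C) * Oᵀ := by
        rw [h2, Matrix.mul_one]; simp only [Matrix.mul_assoc]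
    _ = O * (C * diagonal (fun i => if l i = α then (1 : ℝ) else 0)) * Oᵀ := by rw [hcomm2]
    _ = O * C * (Oᵀ * O) * diagonal (fun i => if l i = α then (1 : ℝ) else 0) * Oᵀ := by
        rw [h2, Matrix.mul_one]; simp only [Matrix.mul_assoc]
    _ = _ := by simp only [Matrix.mul_assoc]

end XA

open XA Finset Matrix in
theorem xa (h1 : StEM) : StXa := by
  intro W _ _ k f hf
  obtain ⟨hsym, hmul, hcom, -, -, -⟩ := h1 W
  obtain ⟨hspan, hlow⟩ := hf
  set X := Xm W with hX
  obtain ⟨O, l, o1, o2, o3, -⟩ := LA.spec X Xm_symm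
  set c := (2 * (k : ℝ) * ((Fintype.card W : ℝ) - k + 1) / (Fintype.card W : ℝ)) with hc
  -- enough: every occurring eigenvalue is at least `c`
  suffices H : ∀ i, (Oᵀ *ᵥ f) i ≠ 0 → c ≤ l i by
    have e1 : f ⬝ᵥ (X *ᵥ f) = ∑ i, l i * ((Oᵀ *ᵥ f) i) ^ 2 := by
      conv_lhs => rw [o3]
      exact LA.quad O l f
    rw [e1, LA.quad_one O o1 f, mul_sum]
    refine sum_le_sum fun i _ => ?_
    by_cases hi : (Oᵀ *ᵥ f) i = 0
    · rw [hi]
      simp
    · exact mul_le_mul_of_nonneg_right (H i hi) (sq_nonneg _)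
  intro i hi
  set α := l i with hα
  set E := O * diagonal (fun i => if l i = α then (1 : ℝ) else 0) * Oᵀ with hE
  have hEX : X * E = α • E := by
    conv_lhs => rw [o3]
    rw [hE]
    calc O * diagonal l * Oᵀ * (O * diagonal (fun i => if l i = α then (1 : ℝ) else 0) * Oᵀ)
        = O * diagonal l * (Oᵀ * O) * diagonal (fun i => if l i = α then (1 : ℝ) else 0) * Oᵀ := by
          simp only [Matrix.mul_assoc]
      _ = O * (diagonal l * diagonal (fun i => if l i = α then (1 : ℝ) else 0)) * Oᵀ := by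
          rw [o2, Matrix.mul_one]; simp only [Matrix.mul_assoc]
      _ = O * (α • diagonal (fun i => if l i = α then (1 : ℝ) else 0)) * Oᵀ := by
          congr 2
          rw [diagonal_mul_diagonal, ← diagonal_smul]
          congr 1
          funext j
          simp only [Pi.smul_apply, smul_eq_mul]
          split_ifs with h
          · rw [h]
          · ring
      _ = _ := by rw [Matrix.mul_smul, Matrix.smul_mul]
  set g := E *ᵥ f with hg
  have hgf : 0 < g ⬝ᵥ f := by
    rw [hg, dotProduct_comm, hE, LA.quad]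
    have h2 : 0 < (if l i = α then (1 : ℝ) else 0) * ((Oᵀ *ᵥ f) i) ^ 2 := by
      rw [if_pos rfl]
      positivity
    refine lt_of_lt_of_le h2 (single_le_sum (f := fun j => (if l j = α then (1 : ℝ) else 0) *
      ((Oᵀ *ᵥ f) j) ^ 2) (fun j _ => ?_) (mem_univ i))
    split_ifs <;> positivity
  have hEcomm : ∀ R : Finset W, E * EM R = EM R * E := fun R =>
    comm_spec X O (EM R) l o1 o2 o3 (hcom R X Xm_rinv) α
  have hex : ∃ R : Finset W, R.card = k ∧ EM R *ᵥ g ≠ 0 := by
    by_contra hne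
    push Not at hne
    have h3 : ∀ u ∈ Submodule.span ℝ {g : Equiv.Perm W → ℝ | ∃ R : Finset W, R.card = k ∧
        EM R *ᵥ g = g}, g ⬝ᵥ u = 0 := by
      intro u hu
      induction hu using Submodule.span_induction with
      | mem u hu =>
        obtain ⟨R, hR, hu⟩ := hu
        rw [← hu, LA.dot_symm _ (hsym R), hne R hR, zero_dotProduct]
      | zero => exact dotProduct_zero _
      | add u v _ _ hu hv => rw [dotProduct_add, hu, hv, add_zero]
      | smul r u _ hu => rw [dotProduct_smul, hu, smul_zero]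
    exact absurd (h3 f hspan) hgf.ne'
  obtain ⟨R, hR, hRg⟩ := hex
  set h := EM R *ᵥ g with hh
  have hhpos : 0 < h ⬝ᵥ h := by
    rcases (LA.dot_self_nonneg h).lt_or_eq with h4 | h4
    · exact h4
    · exact absurd (dotProduct_self_eq_zero.1 h4.symm) hRg
  have e1 : EM R *ᵥ h = h := by
    rw [hh, mulVec_mulVec, (hmul R R (subset_refl R)).1]
  have e2 : ∀ a ∈ R, EM (R.erase a) *ᵥ h = 0 := by
    intro a ha
    rw [hh, mulVec_mulVec, (hmul (R.erase a) R (erase_subset a R)).1, hg, mulVec_mulVec, ← hEcomm,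
      ← mulVec_mulVec, hlow, mulVec_zero]
    rw [card_erase_of_mem ha, ← hR]
    exact Nat.succ_pred_eq_of_pos (card_pos.2 ⟨a, ha⟩)
  have e3 : X *ᵥ h = α • h := by
    have e5 : X *ᵥ g = α • g := by rw [hg, mulVec_mulVec, hEX, smul_mulVec]
    rw [hh, mulVec_mulVec, hcom R X Xm_rinv, ← mulVec_mulVec, e5, mulVec_smul]
  have e4 := XA.key R h e1 e2
  rw [hR, ← hX, e3, dotProduct_smul, smul_eq_mul, ← hc] at e4
  exact le_of_mul_le_mul_right e4 hhpos

end Crest.Agent.R155
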