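import Crest.Agent.R155.Defs

set_option autoImplicit false
set_option linter.unusedVariables false
set_option linter.unusedSectionVars false

namespace Crest.Agent.R155

open scoped BigOperators Matrix
open Finset

namespace XBAux

/-- lower bound of a symmetric form on an invariant subspace from its eigenvectors -/
lemma L1 {ι : Type} [Fintype ι] (M : Submodule ℝ (ι → ℝ)) (T : (ι → ℝ) →ₗ[ℝ] (ι → ℝ))
    (hsym : ∀ f g, (T f) ⬝ᵥ g = f ⬝ᵥ (T g)) (hM : ∀ f ∈ M, T f ∈ M) (c : ℝ)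
    (hc : ∀ (μ : ℝ) v, v ∈ M → v ≠ 0 → T v = μ • v → c ≤ μ) :
    ∀ f ∈ M, c * (f ⬝ᵥ f) ≤ f ⬝ᵥ T f := by
  intro f hf
  by_cases hf0 : f = 0
  · rw [hf0]; simp
  let e : EuclideanSpace ℝ ι ≃ₗ[ℝ] (ι → ℝ) := WithLp.linearEquiv 2 ℝ (ι → ℝ)
  have hin : ∀ x y : EuclideanSpace ℝ ι, inner ℝ x y = (e x) ⬝ᵥ (e y) := by
    intro x y
    rw [PiLp.inner_apply, dotProduct]
    refine sum_congr rfl fun i _ => ?_
    simp [e, mul_comm]
  let M' : Submodule ℝ (EuclideanSpace ℝ ι) := M.comap e.toLinearMap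
  let T0 : EuclideanSpace ℝ ι →ₗ[ℝ] EuclideanSpace ℝ ι :=
    e.symm.toLinearMap ∘ₗ T ∘ₗ e.toLinearMap
  have hT0 : ∀ x, e (T0 x) = T (e x) := fun x => by simp [T0]
  have hinv : ∀ x ∈ M', T0 x ∈ M' := by
    intro x hx
    show e (T0 x) ∈ M
    rw [hT0]; exact hM _ hx
  let T' : M' →ₗ[ℝ] M' := T0.restrict hinv
  have hT' : ∀ x : M', ((T' x : M') : EuclideanSpace ℝ ι) = T0 (x : EuclideanSpace ℝ ι) :=
    fun x => rfl
  have hsymm : T'.IsSymmetric := by
    intro x y
    rw [Submodule.coe_inner, Submodule.coe_inner, hT', hT', hin, hin, hT0, hT0]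
    exact hsym _ _
  have hf' : e.symm f ∈ M' := by
    show e (e.symm f) ∈ M
    rw [e.apply_symm_apply]; exact hf
  have hne : (⟨e.symm f, hf'⟩ : M') ≠ 0 := by
    intro h
    apply hf0
    have h2 : e.symm f = 0 := congrArg Subtype.val h
    simpa using h2
  have : Nontrivial M' := ⟨⟨_, _, hne⟩⟩
  have hev := hsymm.hasEigenvalue_iInf_of_finiteDimensional
  set α : ℝ := ⨅ x : { x : M' // x ≠ 0 }, RCLike.re (inner ℝ (T' x) (x : M')) / ‖(x : M')‖ ^ 2
    with hα
  obtain ⟨v, hv⟩ := hev.exists_hasEigenvector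
  have hcα : c ≤ α := by
    refine hc α (e (v : EuclideanSpace ℝ ι)) v.2 ?_ ?_
    · intro h
      apply hv.2
      have : (v : EuclideanSpace ℝ ι) = 0 := by simpa using h
      exact Subtype.ext this
    · have h1 := hv.apply_eq_smul
      have h2 : T0 (v : EuclideanSpace ℝ ι) = α • (v : EuclideanSpace ℝ ι) := by
        rw [← hT']
        rw [h1]; rfl
      rw [← hT0, h2]; simp
  have hbdd : BddBelow (Set.range fun x : { x : M' // x ≠ 0 } =>
      RCLike.re (inner ℝ (T' x) (x : M')) / ‖(x : M')‖ ^ 2) := by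
    refine ⟨-‖LinearMap.toContinuousLinearMap T'‖, ?_⟩
    rintro _ ⟨x, rfl⟩
    have hx : 0 < ‖(x : M')‖ := norm_pos_iff.2 x.2
    rw [le_div_iff₀ (by positivity)]
    have h1 := abs_real_inner_le_norm (T' x) (x : M')
    have h2 : ‖T' (x : M')‖ ≤ ‖LinearMap.toContinuousLinearMap T'‖ * ‖(x : M')‖ :=
      (LinearMap.toContinuousLinearMap T').le_opNorm x
    have h3 := neg_le_of_abs_le h1
    simp only [RCLike.re_to_real]
    nlinarith [norm_nonneg (T' (x : M'))]
  have hle := ciInf_le hbdd ⟨⟨e.symm f, hf'⟩, hne⟩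
  rw [← hα] at hle
  simp only [RCLike.re_to_real] at hle
  have hnp : 0 < ‖(⟨e.symm f, hf'⟩ : M')‖ := norm_pos_iff.2 hne
  rw [le_div_iff₀ (by positivity), ← real_inner_self_eq_norm_sq, Submodule.coe_inner,
    Submodule.coe_inner, hT', hin, hin, hT0] at hle
  simp only [LinearEquiv.apply_symm_apply] at hle
  have hff : 0 ≤ f ⬝ᵥ f := by
    rw [dotProduct]; exact sum_nonneg fun i _ => mul_self_nonneg _
  calc c * (f ⬝ᵥ f) ≤ α * (f ⬝ᵥ f) := mul_le_mul_of_nonneg_right hcα hff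
    _ ≤ T f ⬝ᵥ f := hle
    _ = f ⬝ᵥ T f := hsym _ _

section
variable {W : Type} [Fintype W] [DecidableEq W]

abbrev Fn (W : Type) := Equiv.Perm W → ℝ

/-- right multiplication -/
def Rm (g : Equiv.Perm W) : Fn W →ₗ[ℝ] Fn W := LinearMap.funLeft ℝ ℝ fun h => h * g

omit [Fintype W] [DecidableEq W] in
@[simp] lemma Rm_apply (g : Equiv.Perm W) (f : Fn W) (h : Equiv.Perm W) : Rm g f h = f (h * g) := rfl

omit [Fintype W] [DecidableEq W] in
lemma Rm_mul (g g' : Equiv.Perm W) (f : Fn W) : Rm g (Rm g' f) = Rm (g * g') f := by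
  funext h; simp [mul_assoc]

omit [Fintype W] [DecidableEq W] in
lemma Rm_one (f : Fn W) : Rm 1 f = f := by funext h; simp

lemma Rm_adj (g : Equiv.Perm W) (f f' : Fn W) : (Rm g f) ⬝ᵥ f' = f ⬝ᵥ (Rm g⁻¹ f') := by
  rw [dotProduct, dotProduct]
  refine Fintype.sum_equiv (Equiv.mulRight g) _ _ fun h => ?_
  simp

/-- the generator (ordered pairs) of the random transpositions in `R` -/
def AR (R : Finset W) : Fn W →ₗ[ℝ] Fn W :=
  ∑ p ∈ R ×ˢ R, (LinearMap.id - Rm (Equiv.swap p.1 p.2))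

lemma AR_apply (R : Finset W) (f : Fn W) :
    AR R f = ∑ p ∈ R ×ˢ R, (f - Rm (Equiv.swap p.1 p.2) f) := by
  simp only [AR, LinearMap.sum_apply, LinearMap.sub_apply, LinearMap.id_apply]

/-- supported in `R` -/
def Sp (R : Finset W) (g : Equiv.Perm W) : Prop := ∀ a, a ∉ R → g a = a

omit [Fintype W] in
lemma Sp.mem {R : Finset W} {g : Equiv.Perm W} (h : Sp R g) {a : W} : g a ∈ R ↔ a ∈ R := by
  constructor
  · intro h1
    by_contra h2
    rw [h a h2] at h1
    exact h2 h1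
  · intro h1
    by_contra h2
    have := h _ h2
    have h3 := g.injective this
    rw [h3] at h2
    exact h2 h1

omit [Fintype W] in
lemma Sp.mono {R S : Finset W} {g : Equiv.Perm W} (h : Sp R g) (hRS : R ⊆ S) : Sp S g :=
  fun a ha => h a fun h' => ha (hRS h')

omit [Fintype W] in
lemma sp_swap {R : Finset W} {a b : W} (ha : a ∈ R) (hb : b ∈ R) : Sp R (Equiv.swap a b) := by
  intro x hx
  refine Equiv.swap_apply_of_ne_of_ne ?_ ?_
  · rintro rfl; exact hx ha
  · rintro rfl; exact hx hb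

lemma swap_inv (a b : W) : (Equiv.swap a b)⁻¹ = Equiv.swap a b := Equiv.swap_inv a b

lemma AR_sym (R : Finset W) (f g : Fn W) : (AR R f) ⬝ᵥ g = f ⬝ᵥ (AR R g) := by
  rw [AR_apply, AR_apply, sum_dotProduct, dotProduct_sum]
  refine sum_congr rfl fun p _ => ?_
  rw [sub_dotProduct, dotProduct_sub, Rm_adj, Equiv.swap_inv]

lemma sub_nonneg_form (a b : W) (f : Fn W) : 0 ≤ f ⬝ᵥ (f - Rm (Equiv.swap a b) f) := by
  have h1 : (f - Rm (Equiv.swap a b) f) ⬝ᵥ (f - Rm (Equiv.swap a b) f) =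
      2 * (f ⬝ᵥ (f - Rm (Equiv.swap a b) f)) := by
    have h2 : Rm (Equiv.swap a b) f ⬝ᵥ Rm (Equiv.swap a b) f = f ⬝ᵥ f := by
      rw [Rm_adj, Rm_mul, Equiv.swap_inv, Equiv.swap_mul_self, Rm_one]
    have h3 : Rm (Equiv.swap a b) f ⬝ᵥ f = f ⬝ᵥ Rm (Equiv.swap a b) f := dotProduct_comm _ _
    rw [sub_dotProduct, dotProduct_sub, dotProduct_sub, h2, h3]
    ring
  have h4 : 0 ≤ (f - Rm (Equiv.swap a b) f) ⬝ᵥ (f - Rm (Equiv.swap a b) f) := by
    rw [dotProduct]; exact sum_nonneg fun i _ => mul_self_nonneg _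
  linarith

lemma AR_nonneg (R : Finset W) (f : Fn W) : 0 ≤ f ⬝ᵥ AR R f := by
  rw [AR_apply, dotProduct_sum]
  exact sum_nonneg fun p _ => sub_nonneg_form _ _ _

lemma AR_comm {R : Finset W} {g : Equiv.Perm W} (hg : Sp R g) (f : Fn W) :
    Rm g (AR R f) = AR R (Rm g f) := by
  rw [AR_apply, AR_apply, map_sum]
  refine sum_nbij' (fun p => (g p.1, g p.2)) (fun p => (g⁻¹ p.1, g⁻¹ p.2)) ?_ ?_ ?_ ?_ ?_
  · intro p hp
    rw [mem_product] at hp ⊢
    exact ⟨hg.mem.2 hp.1, hg.mem.2 hp.2⟩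
  · intro p hp
    rw [mem_product] at hp ⊢
    have h1 : ∀ a, g⁻¹ a ∈ R ↔ a ∈ R := fun a => by
      rw [← hg.mem (a := g⁻¹ a)]; simp
    exact ⟨(h1 _).2 hp.1, (h1 _).2 hp.2⟩
  · intro p _; simp
  · intro p _; simp
  · intro p _
    rw [map_sub, Rm_mul, Rm_mul]
    congr 2
    rw [Equiv.swap_apply_apply]
    simp

/-- invariance under `Sym(T)` -/
def Inv (T : Finset W) (f : Fn W) : Prop := ∀ g, Sp T g → Rm g f = f

lemma u_inv {T : Finset W} {a : W} (ha : a ∉ T) {v : Fn W} (hv : Inv T v) :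
    Inv (insert a T) (∑ t ∈ insert a T, Rm (Equiv.swap a t) v) := by
  intro g hg
  rw [map_sum]
  refine sum_nbij' (fun t => g t) (fun t => g⁻¹ t) ?_ ?_ ?_ ?_ ?_
  · intro t ht; exact hg.mem.2 ht
  · intro t ht
    rw [← hg.mem (a := g⁻¹ t)]; simpa using ht
  · intro t _; simp
  · intro t _; simp
  · intro t ht
    rw [Rm_mul]
    have hk : Sp T (Equiv.swap a (g t) * (g * Equiv.swap a t)) := by
      intro x hx
      by_cases hxa : x = a
      · subst hxa; simp
      · have hxn : x ∉ insert a T := by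
          rw [mem_insert]; push Not; exact ⟨hxa, hx⟩
        have h1 : Equiv.swap a t x = x := by
          refine Equiv.swap_apply_of_ne_of_ne hxa ?_
          rintro rfl; exact hxn ht
        have h2 : g x = x := hg x hxn
        have h3 : Equiv.swap a (g t) x = x := by
          refine Equiv.swap_apply_of_ne_of_ne hxa ?_
          rintro rfl; exact hxn (hg.mem.2 ht)
        simp [h1, h2, h3]
    have h4 := hv _ hk
    rw [← Rm_mul] at h4
    have h5 := congrArg (Rm (Equiv.swap a (g t))) h4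
    rw [Rm_mul, Equiv.swap_mul_self, Rm_one] at h5
    exact h5

/-- `A_R v` for `v` invariant under `Sym(T)`, with vanishing averages -/
lemma AR_split {R T : Finset W} (hTR : T ⊆ R) {v : Fn W} (hv : Inv T v)
    (hz : ∀ a ∈ R \ T, ∑ t ∈ insert a T, Rm (Equiv.swap a t) v = 0) :
    AR R v = AR (R \ T) v + (2 * ((R \ T).card : ℝ) * ((T.card : ℝ) + 1)) • v := by
  have hside : ∀ a ∈ R \ T, ∑ t ∈ T, (v - Rm (Equiv.swap a t) v) = ((T.card : ℝ) + 1) • v := by
    intro a ha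
    have ha' : a ∉ T := (mem_sdiff.1 ha).2
    have h1 := hz a ha
    rw [sum_insert ha', Equiv.swap_self] at h1
    have h2 : Rm (Equiv.refl W) v = v := Rm_one v
    rw [h2] at h1
    rw [sum_sub_distrib, sum_const, ← Nat.cast_smul_eq_nsmul ℝ]
    have h3 : ∑ t ∈ T, Rm (Equiv.swap a t) v = -v := by
      rw [eq_neg_iff_add_eq_zero, add_comm]; exact h1
    rw [h3, add_smul, one_smul, sub_neg_eq_add]
  rw [AR_apply, AR_apply]
  have hR : R = (R \ T) ∪ T := (sdiff_union_of_subset hTR).symm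
  have hdis : Disjoint (R \ T) T := sdiff_disjoint
  rw [sum_product, sum_product]
  have e1 : ∀ F : W → Fn W, ∑ x ∈ R, F x = ∑ x ∈ R \ T, F x + ∑ x ∈ T, F x := by
    intro F
    rw [← sum_union hdis, ← hR]
  simp only [e1]
  rw [sum_add_distrib, sum_add_distrib]
  have hTT : ∑ x ∈ T, ∑ y ∈ T, (v - Rm (Equiv.swap x y) v) = 0 := by
    refine sum_eq_zero fun x hx => sum_eq_zero fun y hy => ?_
    rw [hv _ (sp_swap hx hy), sub_self]
  have h1 : ∑ x ∈ R \ T, ∑ y ∈ T, (v - Rm (Equiv.swap x y) v) =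
      (((R \ T).card : ℝ) * ((T.card : ℝ) + 1)) • v := by
    rw [sum_congr rfl hside, sum_const, ← Nat.cast_smul_eq_nsmul ℝ, smul_smul]
  have h2 : ∑ x ∈ T, ∑ y ∈ R \ T, (v - Rm (Equiv.swap x y) v) =
      (((R \ T).card : ℝ) * ((T.card : ℝ) + 1)) • v := by
    rw [sum_comm, ← h1]
    refine sum_congr rfl fun x _ => sum_congr rfl fun y _ => ?_
    rw [Equiv.swap_comm]
  rw [hTT, h1, h2, add_zero, add_assoc, ← add_smul]
  congr 2
  ring

lemma AR_mem {R : Finset W} {M : Submodule ℝ (Fn W)}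
    (hinv : ∀ g, Sp R g → ∀ f ∈ M, Rm g f ∈ M) : ∀ f ∈ M, AR R f ∈ M := by
  intro f hf
  rw [AR_apply]
  refine M.sum_mem fun p hp => M.sub_mem hf (hinv _ ?_ f hf)
  rw [mem_product] at hp
  exact sp_swap hp.1 hp.2

lemma claim : ∀ (N : ℕ) (R : Finset W), R.card = N → ∀ (q : ℕ), 1 ≤ q → ∀ (M : Submodule ℝ (Fn W)),
    (∀ g, Sp R g → ∀ f ∈ M, Rm g f ∈ M) →
    (∀ T : Finset W, T ⊆ R → T.card = q → ∀ f ∈ M, Inv T f → f = 0) →
    ∀ f ∈ M, ((N : ℝ) * ((N : ℝ) - q + 1)) * (f ⬝ᵥ f) ≤ f ⬝ᵥ AR R f := by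
  intro N
  induction N using Nat.strong_induction_on with
  | _ N ih =>
  intro R hRN q hq M hinv hno f hf
  have hff : 0 ≤ f ⬝ᵥ f := by rw [dotProduct]; exact sum_nonneg fun i _ => mul_self_nonneg _
  by_cases hqN : q ≤ N
  swap
  · have h1 : ((N : ℝ) * ((N : ℝ) - q + 1)) ≤ 0 := by
      have : (N : ℝ) + 1 ≤ q := by exact_mod_cast (by omega : N + 1 ≤ q)
      have hN0 : (0 : ℝ) ≤ N := Nat.cast_nonneg N
      nlinarith
    exact (mul_nonpos_of_nonpos_of_nonneg h1 hff).trans (AR_nonneg R f)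
  -- eigenvectors
  refine L1 M (AR R) (AR_sym R) (AR_mem hinv) _ ?_ f hf
  intro α v hvM hv0 hvα
  -- the eigenspace
  let E : Submodule ℝ (Fn W) := M ⊓ Module.End.eigenspace (AR R) α
  have hEM : ∀ f ∈ E, f ∈ M := fun f hf => hf.1
  have hEα : ∀ f ∈ E, AR R f = α • f := fun f hf => Module.End.mem_eigenspace_iff.1 hf.2
  have hvE : v ∈ E := ⟨hvM, Module.End.mem_eigenspace_iff.2 hvα⟩
  have hEinv : ∀ g, Sp R g → ∀ f ∈ E, Rm g f ∈ E := by
    intro g hg f hf
    refine ⟨hinv g hg f hf.1, Module.End.mem_eigenspace_iff.2 ?_⟩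
    rw [← AR_comm hg, hEα f hf, map_smul]
  have hRne : R.Nonempty := by
    rw [← card_pos]; omega
  have hq2 : 2 ≤ q := by
    by_contra hlt
    have hq1 : q = 1 := by omega
    obtain ⟨a, ha⟩ := hRne
    refine hv0 (hno {a} (by simpa using ha) (by simp [hq1]) v hvM ?_)
    intro g hg
    have : g = 1 := by
      ext x
      by_cases hx : x = a
      · subst hx
        have := (hg.mem (a := x)).2 (by simp)
        simpa using this
      · simpa using hg x (by simpa using hx)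
    rw [this, Rm_one]
  -- least q'
  let P : ℕ → Prop := fun r => 2 ≤ r ∧ ∀ T : Finset W, T ⊆ R → T.card = r → ∀ f ∈ E, Inv T f → f = 0
  have hPq : P q := ⟨hq2, fun T hT hc f hf hi => hno T hT hc f hf.1 hi⟩
  classical
  have hex : ∃ r, P r := ⟨q, hPq⟩
  set q' := Nat.find hex with hq'
  obtain ⟨hq'2, hq'no⟩ : P q' := Nat.find_spec hex
  have hq'q : q' ≤ q := Nat.find_min' hex hPq
  have hT0 : ∃ T : Finset W, T ⊆ R ∧ T.card = q' - 1 ∧ ∃ v0 ∈ E, v0 ≠ 0 ∧ Inv T v0 := by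
    by_cases h3 : q' = 2
    · obtain ⟨a, ha⟩ := hRne
      refine ⟨{a}, by simpa using ha, by simp [h3], v, hvE, hv0, ?_⟩
      intro g hg
      have : g = 1 := by
        ext x
        by_cases hx : x = a
        · subst hx
          have := (hg.mem (a := x)).2 (by simp)
          simpa using this
        · simpa using hg x (by simpa using hx)
      rw [this, Rm_one]
    · have hnP : ¬ P (q' - 1) := Nat.find_min hex (by omega)
      have h4 : ¬ ∀ T : Finset W, T ⊆ R → T.card = q' - 1 → ∀ f ∈ E, Inv T f → f = 0 := by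
        intro h5; exact hnP ⟨by omega, h5⟩
      push Not at h4
      obtain ⟨T, hT, hc, f, hf, hi, hf0⟩ := h4
      exact ⟨T, hT, hc, f, hf, hf0, hi⟩
  obtain ⟨T, hTR, hTc, v0, hv0E, hv00, hv0i⟩ := hT0
  have hz : ∀ a ∈ R \ T, ∑ t ∈ insert a T, Rm (Equiv.swap a t) v0 = 0 := by
    intro a ha
    rw [mem_sdiff] at ha
    have hins : insert a T ⊆ R := insert_subset ha.1 hTR
    refine hq'no (insert a T) hins ?_ _ ?_ (u_inv ha.2 hv0i)
    · rw [card_insert_of_notMem ha.2, hTc]; omega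
    · refine E.sum_mem fun t ht => hEinv _ (sp_swap ha.1 (hins ht)) v0 hv0E
  have hsplit := AR_split hTR hv0i hz
  have hcard : (R \ T).card = N - (q' - 1) := by
    rw [card_sdiff_of_subset hTR, hRN, hTc]
  have hlt : (R \ T).card < N := by rw [hcard]; omega
  have hih := ih (R \ T).card hlt (R \ T) rfl q' (by omega) E
    (fun g hg f hf => hEinv g (hg.mono sdiff_subset) f hf)
    (fun T' hT' hc f hf hi => hq'no T' (hT'.trans sdiff_subset) hc f hf hi) v0 hv0E
  have hvv : 0 < v0 ⬝ᵥ v0 := by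
    have h1 : 0 ≤ v0 ⬝ᵥ v0 := by rw [dotProduct]; exact sum_nonneg fun i _ => mul_self_nonneg _
    refine lt_of_le_of_ne h1 fun h2 => hv00 ?_
    exact dotProduct_self_eq_zero.1 h2.symm
  have h6 : v0 ⬝ᵥ AR R v0 = α * (v0 ⬝ᵥ v0) := by
    rw [hEα v0 hv0E, dotProduct_smul, smul_eq_mul]
  rw [hsplit, dotProduct_add, dotProduct_smul, smul_eq_mul] at h6
  set j : ℕ := (R \ T).card with hj
  have hTc' : (T.card : ℝ) + 1 = q' := by
    rw [hTc]
    have : ((q' - 1 : ℕ) : ℝ) = (q' : ℝ) - 1 := by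
      rw [Nat.cast_sub (by omega)]; norm_num
    rw [this]; ring
  rw [hTc'] at h6
  have h7 : ((j : ℝ) * ((j : ℝ) - q' + 1) + 2 * j * q') * (v0 ⬝ᵥ v0) ≤ α * (v0 ⬝ᵥ v0) := by
    rw [← h6, add_mul]
    linarith
  have h8 := le_of_mul_le_mul_right h7 hvv
  refine le_trans ?_ h8
  have hNj : (N : ℝ) = j + q' - 1 := by
    have : N + 1 = j + q' := by omega
    have h9 : ((N + 1 : ℕ) : ℝ) = ((j + q' : ℕ) : ℝ) := by rw [this]
    push_cast at h9
    linarith
  have hq'r : (q' : ℝ) ≤ q := by exact_mod_cast hq'q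
  have hN0 : (0 : ℝ) ≤ N := Nat.cast_nonneg N
  have hj0 : (0 : ℝ) ≤ j := Nat.cast_nonneg j
  have h10 : (N : ℝ) - q + 1 ≤ j := by rw [hNj]; linarith
  calc (N : ℝ) * ((N : ℝ) - q + 1) ≤ N * j := mul_le_mul_of_nonneg_left h10 hN0
    _ ≤ _ := by rw [hNj]; nlinarith

lemma EM_apply (R : Finset W) (f : Fn W) (σ : Equiv.Perm W) :
    (EM R *ᵥ f) σ = ∑ τ : Equiv.Perm W, (if ∀ a ∈ R, σ a = τ a then
      (1 / (((Fintype.card W - R.card).factorial : ℕ) : ℝ)) else 0) * f τ := rfl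

lemma EM_conj (R : Finset W) (s : Equiv.Perm W) (g : Fn W) :
    EM (R.map s.toEmbedding) *ᵥ (Rm s g) = Rm s (EM R *ᵥ g) := by
  funext σ
  rw [Rm_apply, EM_apply, EM_apply, card_map]
  refine Fintype.sum_equiv (Equiv.mulRight s) _ _ fun τ => ?_
  rw [Rm_apply]
  have : (∀ a ∈ R.map s.toEmbedding, σ a = τ a) ↔
      ∀ a ∈ R, (σ * s) a = (Equiv.mulRight s τ) a := by
    constructor
    · intro h a ha
      exact h (s a) (mem_map.2 ⟨a, ha, rfl⟩)
    · intro h a ha
      obtain ⟨b, hb, rfl⟩ := mem_map.1 ha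
      exact h b hb
  by_cases h : ∀ a ∈ R.map s.toEmbedding, σ a = τ a
  · rw [if_pos h, if_pos (this.1 h)]; rfl
  · rw [if_neg h, if_neg (fun h' => h (this.2 h'))]; simp

lemma EM_inv {R : Finset W} {f : Fn W} (hi : Inv Rᶜ f) (h0 : EM R *ᵥ f = 0) : f = 0 := by
  funext σ
  have h1 := congrFun h0 σ
  rw [EM_apply] at h1
  have h2 : ∀ τ : Equiv.Perm W, (if ∀ a ∈ R, σ a = τ a then
      (1 / (((Fintype.card W - R.card).factorial : ℕ) : ℝ)) else 0) * f τ =
      (if ∀ a ∈ R, σ a = τ a then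
      (1 / (((Fintype.card W - R.card).factorial : ℕ) : ℝ)) else 0) * f σ := by
    intro τ
    by_cases h : ∀ a ∈ R, σ a = τ a
    · rw [if_pos h]
      congr 1
      have hsp : Sp Rᶜ (σ⁻¹ * τ) := by
        intro a ha
        have ha' : a ∈ R := by simpa using ha
        rw [Equiv.Perm.mul_apply, ← h a ha']; simp
      have h3 := congrFun (hi _ hsp) σ
      rw [Rm_apply] at h3
      simpa using h3
    · rw [if_neg h]; simp
  rw [sum_congr rfl fun τ _ => h2 τ, ← sum_mul] at h1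
  have hpos : 0 < ∑ τ : Equiv.Perm W, (if ∀ a ∈ R, σ a = τ a then
      (1 / (((Fintype.card W - R.card).factorial : ℕ) : ℝ)) else 0) := by
    have hfac : (0:ℝ) < 1 / (((Fintype.card W - R.card).factorial : ℕ) : ℝ) := by
      have : (0:ℝ) < (((Fintype.card W - R.card).factorial : ℕ) : ℝ) := by
        exact_mod_cast Nat.factorial_pos _
      positivity
    refine sum_pos' (fun τ _ => ?_) ⟨σ, mem_univ _, ?_⟩
    · split_ifs
      · exact hfac.le
      · exact le_rfl
    · rw [if_pos (fun _ _ => rfl)]; exact hfac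
  rcases mul_eq_zero.1 h1 with h | h
  · exact absurd h hpos.ne'
  · exact h

/-- the level subspace -/
def LevM (W : Type) [Fintype W] [DecidableEq W] (k : ℕ) : Submodule ℝ (Fn W) where
  carrier := {f | Lev k f}
  zero_mem' := ⟨Submodule.zero_mem _, fun R _ => Matrix.mulVec_zero _⟩
  add_mem' := by
    intro f g hf hg
    refine ⟨Submodule.add_mem _ hf.1 hg.1, fun R hR => ?_⟩
    rw [Matrix.mulVec_add, hf.2 R hR, hg.2 R hR, add_zero]
  smul_mem' := by
    intro c f hf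
    refine ⟨Submodule.smul_mem _ c hf.1, fun R hR => ?_⟩
    rw [Matrix.mulVec_smul, hf.2 R hR, smul_zero]

lemma mem_LevM {k : ℕ} {f : Fn W} : f ∈ LevM W k ↔ Lev k f := Iff.rfl

lemma LevM_inv (k : ℕ) (s : Equiv.Perm W) : ∀ f ∈ LevM W k, Rm s f ∈ LevM W k := by
  intro f hf
  refine ⟨?_, ?_⟩
  · have h1 : ∀ g ∈ Submodule.span ℝ {g : Fn W | ∃ R : Finset W, R.card = k ∧ EM R *ᵥ g = g},
        Rm s g ∈ Submodule.span ℝ {g : Fn W | ∃ R : Finset W, R.card = k ∧ EM R *ᵥ g = g} := by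
      intro g hg
      induction hg using Submodule.span_induction with
      | mem g hg =>
        obtain ⟨R, hR, hg⟩ := hg
        refine Submodule.subset_span ⟨R.map s.toEmbedding, by rw [card_map, hR], ?_⟩
        rw [EM_conj, hg]
      | zero => rw [map_zero]; exact Submodule.zero_mem _
      | add g g' _ _ h h' => rw [map_add]; exact Submodule.add_mem _ h h'
      | smul c g _ h => rw [map_smul]; exact Submodule.smul_mem _ c h
    exact h1 f hf.1
  · intro R hR
    have h2 : (R.map (s⁻¹ : Equiv.Perm W).toEmbedding).map s.toEmbedding = R := by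
      rw [map_map]
      convert map_refl
      ext x
      simp
    have h3 := EM_conj (R.map (s⁻¹ : Equiv.Perm W).toEmbedding) s f
    rw [h2, hf.2 _ (by rw [card_map]; exact hR), map_zero] at h3
    exact h3

lemma Xm_eq (f : Fn W) : Xm W *ᵥ f = (1 / (Fintype.card W : ℝ)) • AR univ f := by
  rw [Xm, Matrix.smul_mulVec, AR_apply, Matrix.sum_mulVec]
  congr 1
  funext h
  rw [Finset.sum_apply, Finset.sum_apply]
  simp only [Matrix.sub_mulVec, Matrix.one_mulVec, Pi.sub_apply]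
  rw [sum_sub_distrib, sum_sub_distrib]
  congr 1
  have h1 : ∀ p : W × W, (Lm (Equiv.swap p.1 p.2) *ᵥ f) h = f (Equiv.swap p.1 p.2 * h) := by
    intro p
    rw [Matrix.mulVec, dotProduct]
    rw [sum_eq_single (Equiv.swap p.1 p.2 * h)]
    · simp only [Lm]
      rw [if_pos, one_mul]
      rw [← mul_assoc, Equiv.swap_mul_self, one_mul]
    · intro h' _ hne
      simp only [Lm]
      rw [if_neg, zero_mul]
      intro heq
      apply hne
      rw [heq, ← mul_assoc, Equiv.swap_mul_self, one_mul]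
    · intro hn; exact absurd (mem_univ _) hn
  simp only [h1, Rm_apply]
  rw [univ_product_univ]
  symm
  refine Fintype.sum_equiv (Equiv.prodCongr h h) _ _ fun p => ?_
  simp only [Equiv.prodCongr_apply, Prod.map_fst, Prod.map_snd]
  congr 1
  rw [Equiv.swap_apply_apply]
  simp

end

end XBAux

open XBAux in
theorem xb (h1 : StEM) : StXb := by
  intro W _ _ k f hf
  have hff : 0 ≤ f ⬝ᵥ f := by rw [dotProduct]; exact sum_nonneg fun i _ => mul_self_nonneg _
  rw [Xm_eq, dotProduct_smul, smul_eq_mul]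
  have hn0 : (0 : ℝ) ≤ Fintype.card W := Nat.cast_nonneg _
  rcases Nat.eq_zero_or_pos k with hk0 | hk
  · rw [hk0]
    have := AR_nonneg univ f
    simp only [Nat.cast_zero, zero_mul]
    positivity
  by_cases hkn : Fintype.card W < k
  · have hf0 : f = 0 := by
      have hE : {g : Equiv.Perm W → ℝ | ∃ R : Finset W, R.card = k ∧ EM R *ᵥ g = g} = ∅ := by
        ext g
        simp only [Set.mem_ofPred_eq, Set.mem_empty_iff_false, iff_false]
        rintro ⟨R, hR, -⟩
        have := card_le_univ R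
        omega
      have := hf.1
      rw [hE, Submodule.span_empty] at this
      simpa using this
    rw [hf0]; simp
  push Not at hkn
  have hmain := claim (Fintype.card W) (univ : Finset W) (card_univ) (Fintype.card W - k + 1)
    (by omega) (LevM W k) (fun g _ f hf => LevM_inv k g f hf) (by
      intro T _ hT f hf hi
      refine EM_inv (R := Tᶜ) (by rwa [compl_compl]) (hf.2 Tᶜ ?_)
      rw [card_compl, hT]; omega) f hf
  have hnpos : (0 : ℝ) < Fintype.card W := by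
    have : 0 < Fintype.card W := by omega
    exact_mod_cast this
  have e : ((Fintype.card W - k + 1 : ℕ) : ℝ) = (Fintype.card W : ℝ) - k + 1 := by
    rw [Nat.cast_add, Nat.cast_sub hkn]; norm_num
  rw [e] at hmain
  have e2 : (Fintype.card W : ℝ) * ((Fintype.card W : ℝ) - ((Fintype.card W : ℝ) - k + 1) + 1) =
      Fintype.card W * k := by ring
  rw [e2] at hmain
  rw [div_mul_eq_mul_div, one_mul, le_div_iff₀ hnpos]
  calc (k : ℝ) * (f ⬝ᵥ f) * (Fintype.card W : ℝ) = Fintype.card W * k * (f ⬝ᵥ f) := by ring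
    _ ≤ _ := hmain

end Crest.Agent.R155
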