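import Crest.Agent.R155.LA

/-!
Row 155: elementary facts about `XU` (helper13).
-/

set_option autoImplicit false

namespace Crest.Agent.R155.XUL

open scoped BigOperators Matrix
open Finset Matrix Crest.Agent.R155.LA

variable {m : Type} [Fintype m] [DecidableEq m]
variable {W : Type} [Fintype W] [DecidableEq W]

theorem U_swap_symm (U : Equiv.Perm W →* Matrix m m ℝ) (hU : ∀ g, (U g)ᵀ = U g⁻¹) (a b : W) :
    (U (Equiv.swap a b))ᵀ = U (Equiv.swap a b) := by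
  rw [hU, Equiv.swap_inv]

theorem U_swap_sq (U : Equiv.Perm W →* Matrix m m ℝ) (a b : W) :
    U (Equiv.swap a b) * U (Equiv.swap a b) = 1 := by
  rw [← map_mul, Equiv.swap_mul_self, map_one]

theorem XU_symm (U : Equiv.Perm W →* Matrix m m ℝ) (hU : ∀ g, (U g)ᵀ = U g⁻¹) :
    (XU U)ᵀ = XU U := by
  unfold XU
  rw [transpose_smul, transpose_sum]
  congr 1
  refine Finset.sum_congr rfl fun p _ => ?_
  rw [transpose_sub, transpose_one, U_swap_symm U hU]

/-- `1 - U(swap)` is positive semidefinite -/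
theorem one_sub_psd (U : Equiv.Perm W →* Matrix m m ℝ) (hU : ∀ g, (U g)ᵀ = U g⁻¹) (a b : W)
    (v : m → ℝ) : 0 ≤ v ⬝ᵥ ((1 - U (Equiv.swap a b)) *ᵥ v) := by
  set S := U (Equiv.swap a b) with hS
  have h1 : Sᵀ = S := U_swap_symm U hU a b
  have h2 : S * S = 1 := U_swap_sq U a b
  have h3 : (S *ᵥ v) ⬝ᵥ (S *ᵥ v) = v ⬝ᵥ v := by
    rw [← dot_symm S h1, mulVec_mulVec, h2, one_mulVec]
  have h4 : 0 ≤ (v - S *ᵥ v) ⬝ᵥ (v - S *ᵥ v) := dot_self_nonneg _
  rw [sub_dotProduct, dotProduct_sub, dotProduct_sub, h3, dotProduct_comm (S *ᵥ v) v] at h4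
  rw [sub_mulVec, one_mulVec, dotProduct_sub]
  linarith

theorem XU_psd (U : Equiv.Perm W →* Matrix m m ℝ) (hU : ∀ g, (U g)ᵀ = U g⁻¹) (v : m → ℝ) :
    0 ≤ v ⬝ᵥ (XU U *ᵥ v) := by
  unfold XU
  rw [smul_mulVec, dotProduct_smul, smul_eq_mul, sum_mulVec, dotProduct_sum]
  refine mul_nonneg (by positivity) (Finset.sum_nonneg fun p _ => one_sub_psd U hU _ _ v)

theorem XU_comm (U : Equiv.Perm W →* Matrix m m ℝ) (g : Equiv.Perm W) :
    Commute (XU U) (U g) := by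
  unfold XU
  refine Commute.smul_left ?_ _
  change (∑ p : W × W, (1 - U (Equiv.swap p.1 p.2))) * U g =
    U g * (∑ p : W × W, (1 - U (Equiv.swap p.1 p.2)))
  rw [Finset.sum_mul, Finset.mul_sum]
  symm
  refine Fintype.sum_equiv (Equiv.prodCongr g g) _ _ fun p => ?_
  rw [mul_sub, sub_mul, mul_one, one_mul, ← map_mul, ← map_mul, Equiv.mul_swap_eq_swap_mul]
  rfl

end Crest.Agent.R155.XUL
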