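import Crest.Agent.R155.Defs

set_option autoImplicit false

namespace Crest.Agent.R155

open scoped BigOperators Matrix
open Finset

namespace YoungAux

lemma holder3 {X : Type} (s : Finset X) (a b d : X → ℝ) (ha : ∀ x, 0 ≤ a x) (hb : ∀ x, 0 ≤ b x)
    (hd : ∀ x, 0 ≤ d x) {t1 t2 t3 : ℝ} (h1 : 0 < t1) (h2 : 0 < t2) (h3 : 0 < t3)
    (hs : t1 + t2 + t3 = 1) :
    ∑ x ∈ s, a x ^ t1 * b x ^ t2 * d x ^ t3
      ≤ (∑ x ∈ s, a x) ^ t1 * (∑ x ∈ s, b x) ^ t2 * (∑ x ∈ s, d x) ^ t3 := by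
  have hA : 0 ≤ ∑ x ∈ s, a x := sum_nonneg fun x _ => ha x
  have hB : 0 ≤ ∑ x ∈ s, b x := sum_nonneg fun x _ => hb x
  have hD : 0 ≤ ∑ x ∈ s, d x := sum_nonneg fun x _ => hd x
  have hR : 0 ≤ (∑ x ∈ s, a x) ^ t1 * (∑ x ∈ s, b x) ^ t2 * (∑ x ∈ s, d x) ^ t3 := by positivity
  rcases hA.eq_or_lt with hA0 | hA0
  · have : ∀ x ∈ s, a x ^ t1 * b x ^ t2 * d x ^ t3 = 0 := by
      intro x hx
      rw [(sum_eq_zero_iff_of_nonneg fun x _ => ha x).1 hA0.symm x hx, Real.zero_rpow h1.ne']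
      simp
    rw [sum_eq_zero this]; exact hR
  rcases hB.eq_or_lt with hB0 | hB0
  · have : ∀ x ∈ s, a x ^ t1 * b x ^ t2 * d x ^ t3 = 0 := by
      intro x hx
      rw [(sum_eq_zero_iff_of_nonneg fun x _ => hb x).1 hB0.symm x hx, Real.zero_rpow h2.ne']
      simp
    rw [sum_eq_zero this]; exact hR
  rcases hD.eq_or_lt with hD0 | hD0
  · have : ∀ x ∈ s, a x ^ t1 * b x ^ t2 * d x ^ t3 = 0 := by
      intro x hx
      rw [(sum_eq_zero_iff_of_nonneg fun x _ => hd x).1 hD0.symm x hx, Real.zero_rpow h3.ne']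
      simp
    rw [sum_eq_zero this]; exact hR
  set A := ∑ x ∈ s, a x with hAd
  set B := ∑ x ∈ s, b x with hBd
  set D := ∑ x ∈ s, d x with hDd
  have hP : 0 < A ^ t1 * B ^ t2 * D ^ t3 := by positivity
  have hpt : ∀ x ∈ s, a x ^ t1 * b x ^ t2 * d x ^ t3 ≤
      (A ^ t1 * B ^ t2 * D ^ t3) * (t1 * (a x / A) + t2 * (b x / B) + t3 * (d x / D)) := by
    intro x _
    have h := Real.geom_mean_le_arith_mean3_weighted h1.le h2.le h3.le
      (div_nonneg (ha x) hA0.le) (div_nonneg (hb x) hB0.le) (div_nonneg (hd x) hD0.le) hs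
    rw [Real.div_rpow (ha x) hA0.le, Real.div_rpow (hb x) hB0.le, Real.div_rpow (hd x) hD0.le] at h
    have h' := mul_le_mul_of_nonneg_left h hP.le
    refine le_trans (le_of_eq ?_) h'
    have e1 : A ^ t1 ≠ 0 := (Real.rpow_pos_of_pos hA0 _).ne'
    have e2 : B ^ t2 ≠ 0 := (Real.rpow_pos_of_pos hB0 _).ne'
    have e3 : D ^ t3 ≠ 0 := (Real.rpow_pos_of_pos hD0 _).ne'
    field_simp
  refine (sum_le_sum hpt).trans ?_
  rw [← mul_sum, sum_add_distrib, sum_add_distrib, ← mul_sum, ← mul_sum, ← mul_sum, ← sum_div,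
    ← sum_div, ← sum_div, ← hAd, ← hBd, ← hDd, div_self hA0.ne', div_self hB0.ne',
    div_self hD0.ne', mul_one, mul_one, mul_one, hs, mul_one]

lemma step {Y : Type} [Fintype Y] (f : Y → ℝ) (T : Y → Y → ℝ) (c p q : ℝ) (j : ℝ)
    (hf : ∀ x, 0 ≤ f x) (hT : ∀ x y, 0 ≤ T x y) (hc0 : 0 ≤ c)
    (hrow : ∀ x, ∑ y, T x y ^ (64 / 63 : ℝ) ≤ c) (hcol : ∀ y, ∑ x, T x y ^ (64 / 63 : ℝ) ≤ c)
    (hj1 : 1 ≤ j) (hj2 : j ≤ 31) (hp : p = 64 / (64 - j)) (hq : q = 64 / (63 - j)) :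
    ∑ y, (∑ x, f x * T x y) ^ q ≤ (∑ x, f x ^ p) ^ (q / p) * c ^ (63 * q / 64) := by
  have h64 : 0 < 64 - j := by linarith
  have h63 : 0 < 63 - j := by linarith
  have hp0 : 0 < p := by rw [hp]; positivity
  have hq0 : 0 < q := by rw [hq]; positivity
  have hF : 0 ≤ ∑ x, f x ^ p := sum_nonneg fun x _ => Real.rpow_nonneg (hf x) _
  have ht : (63 - j) / 64 + 1 / 64 + j / 64 = 1 := by ring
  have hbound : ∀ y, (∑ x, f x * T x y) ^ q ≤
      (∑ x, f x ^ p * T x y ^ (64 / 63 : ℝ)) * (∑ x, f x ^ p) ^ (q / 64) * c ^ (q * (j / 64)) := by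
    intro y
    have hU : 0 ≤ ∑ x, f x ^ p * T x y ^ (64 / 63 : ℝ) :=
      sum_nonneg fun x _ => mul_nonneg (Real.rpow_nonneg (hf x) _) (Real.rpow_nonneg (hT x y) _)
    have hG : 0 ≤ ∑ x, T x y ^ (64 / 63 : ℝ) := sum_nonneg fun x _ => Real.rpow_nonneg (hT x y) _
    have h := holder3 (univ : Finset Y) (fun x => f x ^ p * T x y ^ (64 / 63 : ℝ))
      (fun x => f x ^ p) (fun x => T x y ^ (64 / 63 : ℝ))
      (fun x => mul_nonneg (Real.rpow_nonneg (hf x) _) (Real.rpow_nonneg (hT x y) _))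
      (fun x => Real.rpow_nonneg (hf x) _) (fun x => Real.rpow_nonneg (hT x y) _)
      (t1 := (63 - j) / 64) (t2 := 1 / 64) (t3 := j / 64) (by positivity) (by norm_num)
      (by positivity) ht
    have e : ∀ x, (f x ^ p * T x y ^ (64 / 63 : ℝ)) ^ ((63 - j) / 64) * (f x ^ p) ^ (1 / 64 : ℝ) *
        (T x y ^ (64 / 63 : ℝ)) ^ (j / 64) = f x * T x y := by
      intro x
      rw [Real.mul_rpow (Real.rpow_nonneg (hf x) _) (Real.rpow_nonneg (hT x y) _),
        ← Real.rpow_mul (hf x), ← Real.rpow_mul (hf x), ← Real.rpow_mul (hT x y),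
        ← Real.rpow_mul (hT x y)]
      have e1 : f x ^ (p * ((63 - j) / 64)) * f x ^ (p * (1 / 64)) = f x := by
        rw [← Real.rpow_add_of_nonneg (hf x) (by positivity) (by positivity)]
        have : p * ((63 - j) / 64) + p * (1 / 64) = 1 := by
          rw [hp]; field_simp; ring
        rw [this, Real.rpow_one]
      have e2 : T x y ^ (64 / 63 * ((63 - j) / 64)) * T x y ^ (64 / 63 * (j / 64)) = T x y := by
        rw [← Real.rpow_add_of_nonneg (hT x y) (by positivity) (by positivity)]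
        have : 64 / 63 * ((63 - j) / 64) + 64 / 63 * (j / 64) = 1 := by ring
        rw [this, Real.rpow_one]
      calc _ = (f x ^ (p * ((63 - j) / 64)) * f x ^ (p * (1 / 64))) *
            (T x y ^ (64 / 63 * ((63 - j) / 64)) * T x y ^ (64 / 63 * (j / 64))) := by ring
        _ = _ := by rw [e1, e2]
    simp only [e] at h
    have hS : 0 ≤ ∑ x, f x * T x y := sum_nonneg fun x _ => mul_nonneg (hf x) (hT x y)
    have h2 := Real.rpow_le_rpow hS h hq0.le
    refine h2.trans ?_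
    rw [Real.mul_rpow (by positivity) (by positivity), Real.mul_rpow (by positivity)
      (by positivity), ← Real.rpow_mul hU, ← Real.rpow_mul hF, ← Real.rpow_mul hG]
    have e3 : (63 - j) / 64 * q = 1 := by rw [hq]; field_simp
    have e4 : 1 / 64 * q = q / 64 := by ring
    have e5 : j / 64 * q = q * (j / 64) := by ring
    rw [e3, e4, e5, Real.rpow_one]
    have hjq : 0 ≤ q * (j / 64) := by positivity
    exact mul_le_mul_of_nonneg_left (Real.rpow_le_rpow hG (hcol y) hjq) (by positivity)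
  refine (sum_le_sum fun y _ => hbound y).trans ?_
  rw [← sum_mul, ← sum_mul]
  have hdouble : ∑ y, ∑ x, f x ^ p * T x y ^ (64 / 63 : ℝ) ≤ (∑ x, f x ^ p) * c := by
    rw [sum_comm, sum_mul]
    refine sum_le_sum fun x _ => ?_
    rw [← mul_sum]
    exact mul_le_mul_of_nonneg_left (hrow x) (Real.rpow_nonneg (hf x) _)
  have h5 : (∑ y, ∑ x, f x ^ p * T x y ^ (64 / 63 : ℝ)) * (∑ x, f x ^ p) ^ (q / 64) *
      c ^ (q * (j / 64)) ≤ ((∑ x, f x ^ p) * c) * (∑ x, f x ^ p) ^ (q / 64) *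
      c ^ (q * (j / 64)) := by
    gcongr
  refine h5.trans (le_of_eq ?_)
  have e6 : (∑ x, f x ^ p) * (∑ x, f x ^ p) ^ (q / 64) = (∑ x, f x ^ p) ^ (q / p) := by
    have : q / p = 1 + q / 64 := by rw [hp, hq]; field_simp; ring
    rw [this, Real.rpow_add_of_nonneg hF (by norm_num) (by positivity), Real.rpow_one]
  have e7 : c * c ^ (q * (j / 64)) = c ^ (63 * q / 64) := by
    have : 63 * q / 64 = 1 + q * (j / 64) := by rw [hq]; field_simp; ring
    rw [this, Real.rpow_add_of_nonneg hc0 (by norm_num) (by positivity), Real.rpow_one]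
  rw [← e6, ← e7]
  ring

end YoungAux

open YoungAux in
theorem young : StYoung := by
  intro Y _ _ _ T M hsym hnn hrow hM x
  have hn : (0:ℝ) < Fintype.card Y := by exact_mod_cast Fintype.card_pos
  set n : ℝ := (Fintype.card Y : ℝ) with hnd
  have hn63 : 0 < n ^ (1 / 63 : ℝ) := Real.rpow_pos_of_pos hn _
  set c : ℝ := M / n ^ (1 / 63 : ℝ) with hcd
  have hr : ∀ x, ∑ y, T x y ^ (64 / 63 : ℝ) ≤ c := by
    intro x
    rw [hcd, le_div_iff₀ hn63, sum_mul]
    exact hM x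
  have hc0 : 0 ≤ c := le_trans (sum_nonneg fun y _ => Real.rpow_nonneg (hnn x y) _) (hr x)
  have hcol : ∀ y, ∑ x, T x y ^ (64 / 63 : ℝ) ≤ c := by
    intro y
    have : ∀ x, T x y = T y x := fun x => by
      have := congrFun (congrFun hsym x) y
      simpa [Matrix.transpose_apply] using this.symm
    simp only [this]
    exact hr y
  have hTj : ∀ (j : ℕ) x y, 0 ≤ (T ^ j) x y := by
    intro j
    induction j with
    | zero => intro x y; rw [pow_zero, Matrix.one_apply]; split_ifs <;> norm_num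
    | succ j ih =>
      intro x y
      rw [pow_succ, Matrix.mul_apply]
      exact sum_nonneg fun z _ => mul_nonneg (ih x z) (hnn z y)
  have main : ∀ j : ℕ, 1 ≤ j → j ≤ 32 → ∀ x,
      ∑ y, ((T ^ j) x y) ^ (64 / (64 - (j:ℝ))) ≤ c ^ (63 * (j:ℝ) / (64 - j)) := by
    intro j hj
    induction j, hj using Nat.le_induction with
    | base =>
      intro _ x
      have e1 : (64 / (64 - ((1:ℕ):ℝ))) = 64 / 63 := by norm_num
      have e2 : 63 * ((1:ℕ):ℝ) / (64 - ((1:ℕ):ℝ)) = 1 := by norm_num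
      rw [e1, e2, Real.rpow_one]
      simpa using hr x
    | succ j hj ih =>
      intro hj2 x
      have ih' := ih (by omega) x
      have hj1' : (1:ℝ) ≤ j := by exact_mod_cast hj
      have hj2' : (j:ℝ) ≤ 31 := by exact_mod_cast (by omega : j ≤ 31)
      have h64 : 0 < 64 - (j:ℝ) := by linarith
      have h63 : 0 < 63 - (j:ℝ) := by linarith
      have hs := step (fun z => (T ^ j) x z) T c (64 / (64 - j)) (64 / (63 - j)) j
        (fun z => hTj j x z) hnn hc0 hr hcol hj1' hj2' rfl rfl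
      have e1 : (64 / (64 - ((j + 1 : ℕ) : ℝ))) = 64 / (63 - j) := by
        push_cast; congr 1; ring
      have e2 : 63 * ((j + 1 : ℕ) : ℝ) / (64 - ((j + 1 : ℕ) : ℝ)) =
          63 * (j:ℝ) / (64 - j) * ((64 / (63 - (j:ℝ))) / (64 / (64 - (j:ℝ)))) +
            63 * (64 / (63 - (j:ℝ))) / 64 := by
        push_cast
        have : (64:ℝ) - (j + 1) = 63 - j := by ring
        rw [this]
        field_simp
      rw [e1]
      simp only [pow_succ, Matrix.mul_apply] at hs ⊢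
      refine hs.trans ?_
      have hsum0 : 0 ≤ ∑ z, ((T ^ j) x z) ^ (64 / (64 - (j:ℝ))) :=
        sum_nonneg fun z _ => Real.rpow_nonneg (hTj j x z) _
      have h1 := Real.rpow_le_rpow hsum0 ih'
        (z := (64 / (63 - (j:ℝ))) / (64 / (64 - (j:ℝ)))) (by positivity)
      rw [← Real.rpow_mul hc0] at h1
      rw [e2, Real.rpow_add_of_nonneg hc0 (by positivity) (by positivity)]
      exact mul_le_mul_of_nonneg_right h1 (Real.rpow_nonneg hc0 _)
  have h32 := main 32 (by norm_num) le_rfl x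
  have e1 : (64 / (64 - ((32:ℕ):ℝ))) = 2 := by norm_num
  have e2 : 63 * ((32:ℕ):ℝ) / (64 - ((32:ℕ):ℝ)) = ((63:ℕ):ℝ) := by norm_num
  rw [e1, e2, Real.rpow_natCast] at h32
  simp only [Real.rpow_two] at h32
  have hc63 : n * c ^ 63 = M ^ 63 := by
    have h2 : (n ^ (1 / 63 : ℝ)) ^ 63 = n := by
      rw [← Real.rpow_natCast, ← Real.rpow_mul hn.le]
      norm_num
    rw [hcd, div_pow, h2]
    field_simp
  calc n * ∑ y, ((T ^ 32) x y) ^ 2 ≤ n * c ^ 63 := mul_le_mul_of_nonneg_left h32 hn.le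
    _ = M ^ 63 := hc63

end Crest.Agent.R155
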